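import Vale.Agent.P240.Stm

namespace Vale.Agent.P240

open Matrix Finset Equiv

namespace CycAux

theorem ker {ι : Type} (S T : Finset ι) (h : T.card < S.card) (Λ : ι → (ι → ℚ) →ₗ[ℚ] ℚ) :
    ∃ c : ι → ℚ, (∃ σ ∈ S, c σ ≠ 0) ∧ (∀ A, A ∉ S → c A = 0) ∧ ∀ τ ∈ T, Λ τ c = 0 := by
  let x : (S → ℚ) →ₗ[ℚ] ι → ℚ := Function.ExtendByZero.linearMap ℚ Subtype.val
  obtain ⟨c, hc, c0⟩ := Submodule.exists_mem_ne_zero_of_ne_bot
    (LinearMap.ker_ne_bot_of_finrank_lt (f := LinearMap.pi fun τ : T => Λ τ ∘ₗ x) (by simpa))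
  obtain ⟨σ, hσ⟩ := Function.ne_iff.1 c0
  refine ⟨x c, ⟨σ, σ.2, ?_⟩, fun A hA => ?_, fun τ hτ => congrFun hc ⟨τ, hτ⟩⟩
  · exact (Subtype.val_injective.extend_apply c 0 σ).trans_ne hσ
  · exact Function.extend_apply' c (0 : ι → ℚ) A fun ⟨a, ha⟩ => hA (ha ▸ a.2)

variable {P : Type} [LinearOrder P]

noncomputable def sg {k : ℕ} (t : Fin k → P) : ℚ := by
  classical exact if Function.Injective t then ((Perm.sign (Tuple.sort t) : ℤ) : ℚ) else 0

theorem sg_ne {k : ℕ} {t : Fin k → P} : sg t ≠ 0 ↔ Function.Injective t := by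
  unfold sg
  split_ifs with h <;> simp [h]

theorem sg_perm {k : ℕ} (t : Fin k → P) (ρ : Perm (Fin k)) :
    sg t = ((Perm.sign ρ : ℤ) : ℚ) * sg (t ∘ ρ) := by
  unfold sg
  simp only [EquivLike.injective_comp]
  split_ifs with h
  · have e : Tuple.sort t = ρ * Tuple.sort (t ∘ ρ) := Equiv.ext fun i =>
      h (congrFun (Tuple.comp_perm_comp_sort_eq_comp_sort (f := t) (σ := ρ)) i).symm
    rw [e, Perm.sign_mul]
    push_cast
    rfl
  · simp

noncomputable def al (c : Finset P → ℚ) {k : ℕ} (t : Fin k → P) : ℚ := sg t * c (univ.image t)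

theorem al_perm (c : Finset P → ℚ) {k : ℕ} (t : Fin k → P) (ρ : Perm (Fin k)) :
    al c t = ((Perm.sign ρ : ℤ) : ℚ) * al c (t ∘ ρ) := by
  rw [al, al, sg_perm t ρ, mul_assoc, ← image_image, image_univ_equiv]

omit [LinearOrder P] in
theorem snoc_perm {k : ℕ} (t : Fin k → P) (ρ : Perm (Fin k)) (a : P) :
    (Fin.snoc t a : Fin (k + 1) → P) ∘ ρ.viaEmbedding Fin.castSuccEmb = Fin.snoc (t ∘ ρ) a := by
  funext i
  induction i using Fin.lastCases with
  | last =>
    rw [Function.comp, Perm.viaEmbedding_apply_of_notMem _ _ _ fun ⟨j, hj⟩ =>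
      (Fin.castSucc_lt_last j).ne hj]
    simp
  | cast j =>
    have := ρ.viaEmbedding_apply Fin.castSuccEmb j
    simp only [Fin.castSuccEmb_apply] at this
    simp [this]

theorem ch_swap {G Q : Type} [Group G] (s : Q → G) {m : ℕ} (t : Fin (m + 1) → Q) (k : Fin m) :
    ch s (t ∘ swap k.castSucc k.succ) ∘ k.castSucc.succAbove = ch s t ∘ k.castSucc.succAbove := by
  funext j
  have hj := Fin.succAbove_ne k.castSucc j
  simp only [Function.comp_apply, ch]
  generalize k.castSucc.succAbove j = l at hj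
  have e : swap k.castSucc k.succ '' Set.Iic l = Set.Iic l := by
    ext x
    rw [Equiv.image_eq_preimage_symm, symm_swap, Set.mem_preimage, swap_apply_def]
    simp only [Set.mem_Iic, Fin.le_def, ne_eq, Fin.ext_iff, Fin.val_castSucc] at hj ⊢
    split_ifs with h1 h2 <;> simp only [Fin.val_castSucc, Fin.val_succ] at * <;> omega
  conv_rhs => rw [← e, ← Set.image_comp t]
  rfl

theorem ch_snoc {G Q : Type} [Group G] (s : Q → G) {m : ℕ} (t : Fin m → Q) (a : Q) :
    ch s (Fin.snoc t a : Fin (m + 1) → Q) ∘ Fin.castSucc = ch s t := by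
  funext j
  simp only [Function.comp_apply, ch]
  rw [← Fin.image_castSucc_Iic, ← Set.image_comp (Fin.snoc t a), Fin.snoc_comp_castSucc]

end CycAux

open CycAux

theorem cyc_pf : CycStmt := by
  intro G P _ _ dP s m S T hS hT hlt h0
  let _ : LinearOrder P := LinearOrder.lift' (Fintype.equivFin P) (Fintype.equivFin P).injective
  obtain rfl : dP = LinearOrder.toDecidableEq := Subsingleton.elim _ _
  obtain ⟨c, ⟨σ, hσ, cσ⟩, cS, cT⟩ := ker S T hlt fun τ => if h : τ.card = m then
    ∑ a, sg (Fin.snoc (τ.orderEmbOfFin h) a : Fin (m + 1) → P) •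
      LinearMap.proj (univ.image (Fin.snoc (τ.orderEmbOfFin h) a : Fin (m + 1) → P)) else 0
  have aS : ∀ t : Fin (m + 1) → P, al c t ≠ 0 → univ.image t ∈ S := fun t ht =>
    by_contra fun h => ht (by rw [al, cS _ h, mul_zero])
  have hD : ∀ t : Fin m → P, ∑ a, al c (Fin.snoc t a : Fin (m + 1) → P) = 0 := fun t => by
    by_contra hne
    obtain ⟨a, -, ha⟩ := exists_ne_zero_of_sum_ne_zero hne
    have i1 := sg_ne.1 (left_ne_zero_of_mul ha)
    have i2 : Function.Injective t := by
      simpa only [Fin.snoc_comp_castSucc] using i1.comp (Fin.castSucc_injective m)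
    have e1 : (univ.image (Fin.snoc t a : Fin (m + 1) → P)).erase a = univ.image t := by
      ext x
      simp only [mem_erase, mem_image, mem_univ, true_and, Fin.exists_fin_succ',
        Fin.snoc_castSucc, Fin.snoc_last]
      refine ⟨fun h => h.2.resolve_right h.1.symm, fun ⟨j, hj⟩ => ⟨fun h => ?_, Or.inl ⟨j, hj⟩⟩⟩
      exact (Fin.castSucc_lt_last j).ne (i1 (by simp [hj, h]))
    have m1 : univ.image t ∈ T := e1 ▸ hT _ (aS _ ha) a (mem_image.2 ⟨Fin.last m, by simp⟩)
    have c1 : (univ.image t).card = m := by simp [card_image_of_injective _ i2]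
    have e2 : t ∘ Tuple.sort t = (univ.image t).orderEmbOfFin c1 :=
      orderEmbOfFin_unique c1 (fun x => by simp) ((Tuple.monotone_sort t).strictMono_of_injective
        (i2.comp (Tuple.sort t).injective))
    have e3 := cT _ m1
    simp only [dif_pos c1, LinearMap.sum_apply, LinearMap.smul_apply, LinearMap.proj_apply,
      smul_eq_mul, ← e2] at e3
    refine hne ?_
    simp only [fun a => al_perm c (Fin.snoc t a : Fin (m + 1) → P)
      ((Tuple.sort t).viaEmbedding Fin.castSuccEmb), snoc_perm, ← mul_sum]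
    exact mul_eq_zero_of_right _ e3
  refine ⟨∑ t, Finsupp.single (ch s t) (al c t), fun hz => ?_, ?_, fun x hx => ?_⟩
  · obtain ⟨t₀, e0, ht⟩ := h0 σ hσ
    have := DFunLike.congr_fun hz (ch s t₀)
    rw [Finsupp.finsetSum_apply, sum_eq_single t₀ (fun t _ hne => by_contra fun h => hne
      (ht t (aS t (Finsupp.single_apply_ne_zero.1 h).2) (Finsupp.single_apply_ne_zero.1 h).1.symm))
      (by simp), Finsupp.single_eq_same] at this
    refine mul_ne_zero (sg_ne.2 ?_) (e0 ▸ cσ) this
    exact Set.injOn_univ.1 (by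
      simpa using injOn_of_card_image_eq (s := univ) (f := t₀) (by simp [e0, hS σ hσ]))
  · rw [bd, ← Finsupp.sum_finsetSum_index (by simp) (by
      simp [mul_add, Finsupp.single_add, sum_add_distrib])]
    simp only [fun (t : Fin (m + 1) → P) => Finsupp.sum_single_index (a := ch s t) (b := al c t)
      (h := fun (c : Fin (m + 1) → Subgroup G) (a : ℚ) => ∑ i : Fin (m + 1),
        Finsupp.single (c ∘ i.succAbove) ((-1) ^ (i : ℕ) * a)) (by simp)]
    rw [sum_comm]
    refine sum_eq_zero fun i _ => ?_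
    induction i using Fin.lastCases with
    | last =>
      rw [← (Fin.snocEquiv fun _ => P).sum_comp, Fintype.sum_prod_type_right]
      refine sum_eq_zero fun t _ => ?_
      change ∑ a, Finsupp.single (ch s (Fin.snoc t a : Fin (m + 1) → P) ∘ (Fin.last m).succAbove)
        (_ * al c (Fin.snoc t a : Fin (m + 1) → P)) = 0
      simp only [Fin.succAbove_last, ch_snoc]
      rw [← Finsupp.single_finsetSum, ← mul_sum, hD, mul_zero, Finsupp.single_zero]
    | cast k =>
      have e : ∀ t : Fin (m + 1) → P, al c t = -al c (t ∘ swap k.castSucc k.succ) := fun t => by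
        rw [al_perm c t (swap k.castSucc k.succ), Perm.sign_swap (Fin.castSucc_lt_succ).ne]
        simp
      refine sum_ninvolution (fun t => t ∘ swap k.castSucc k.succ) (fun t => ?_)
        (fun t h ht => h ?_) (fun _ => mem_univ _) fun t => by
          simp [Function.comp_assoc, ← Perm.coe_mul]
      · rw [ch_swap, ← Finsupp.single_add, e t]
        simp
      · have := e t
        rw [ht] at this
        simp [show al c t = 0 by linarith]
  · rw [Finsupp.mem_support_iff, Finsupp.finsetSum_apply] at hx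
    obtain ⟨t, -, ht⟩ := exists_ne_zero_of_sum_ne_zero hx
    exact ⟨t, aS t (Finsupp.single_apply_ne_zero.1 ht).2, (Finsupp.single_apply_ne_zero.1 ht).1⟩

end Vale.Agent.P240
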