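import Vale.Agent.P240.Stm2
import Vale.Agent.P240.Cyc

namespace Vale.Agent.P240

open Matrix Finset Equiv CycAux

theorem alt_pf : AltStmt := by
  intro P _ dP m S T hS hT hlt
  let _ : LinearOrder P := LinearOrder.lift' (Fintype.equivFin P) (Fintype.equivFin P).injective
  obtain rfl : dP = LinearOrder.toDecidableEq := Subsingleton.elim _ _
  obtain ⟨c, ⟨σ, hσ, cσ⟩, cS, cT⟩ := ker S T hlt fun τ => if h : τ.card = m then
    ∑ a, sg (Fin.snoc (τ.orderEmbOfFin h) a : Fin (m + 1) → P) •
      LinearMap.proj (univ.image (Fin.snoc (τ.orderEmbOfFin h) a : Fin (m + 1) → P)) else 0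
  have aS : ∀ t : Fin (m + 1) → P, al c t ≠ 0 → univ.image t ∈ S := fun t ht =>
    by_contra fun h => ht (by rw [al, cS _ h, mul_zero])
  have hD : ∀ t : Fin m → P, ∑ a, al c (Fin.snoc t a : Fin (m + 1) → P) = 0 := fun t => by
    by_contra hne
    obtain ⟨a, -, ha⟩ := exists_ne_zero_of_sum_ne_zero hne
    have i1 := sg_ne.1 (left_ne_zero_of_mul ha)
    have i2 : Function.Injective t := by
      simpa only [Fin.snoc_comp_castSucc] using i1.comp (Fin.castSucc_injective m)
    have e1 : (univ.image (Fin.snoc t a : Fin (m + 1) → P)).erase a = univ.image t := by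
      ext x
      simp only [mem_erase, mem_image, mem_univ, true_and, Fin.exists_fin_succ',
        Fin.snoc_castSucc, Fin.snoc_last]
      refine ⟨fun h => h.2.resolve_right h.1.symm, fun ⟨j, hj⟩ => ⟨fun h => ?_, Or.inl ⟨j, hj⟩⟩⟩
      exact (Fin.castSucc_lt_last j).ne (i1 (by simp [hj, h]))
    have m1 : univ.image t ∈ T := e1 ▸ hT _ (aS _ ha) a (mem_image.2 ⟨Fin.last m, by simp⟩)
    have c1 : (univ.image t).card = m := by simp [card_image_of_injective _ i2]
    have e2 : t ∘ Tuple.sort t = (univ.image t).orderEmbOfFin c1 :=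
      orderEmbOfFin_unique c1 (fun x => by simp) ((Tuple.monotone_sort t).strictMono_of_injective
        (i2.comp (Tuple.sort t).injective))
    have e3 := cT _ m1
    simp only [dif_pos c1, LinearMap.sum_apply, LinearMap.smul_apply, LinearMap.proj_apply,
      smul_eq_mul, ← e2] at e3
    refine hne ?_
    simp only [fun a => al_perm c (Fin.snoc t a : Fin (m + 1) → P)
      ((Tuple.sort t).viaEmbedding Fin.castSuccEmb), snoc_perm, ← mul_sum]
    exact mul_eq_zero_of_right _ e3
  refine ⟨al c, ⟨fun t ρ => ?_, fun t j => ?_⟩, ⟨σ.orderEmbOfFin (hS σ hσ), ?_⟩, aS⟩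
  · rw [al_perm c (t ∘ ρ) ρ⁻¹, Perm.sign_inv, Function.comp_assoc, ← Perm.coe_mul, mul_inv_cancel,
      Perm.coe_one, Function.comp_id]
  · have e : ∀ a, Function.update t j a ∘ swap j (Fin.last m) =
        (Fin.snoc (Fin.init (t ∘ swap j (Fin.last m))) a : Fin (m + 1) → P) := fun a => by
      rw [Function.update_comp_equiv, symm_swap, swap_apply_left,
        ← Fin.update_snoc_last ((t ∘ swap j (Fin.last m)) (Fin.last m)), Fin.snoc_init_self]
    simp only [fun a => al_perm c (Function.update t j a) (swap j (Fin.last m)), e, ← mul_sum]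
    exact mul_eq_zero_of_right _ (hD _)
  · refine mul_ne_zero (sg_ne.2 (σ.orderEmbOfFin (hS σ hσ)).injective) ?_
    rw [image_orderEmbOfFin_univ]
    exact cσ

end Vale.Agent.P240
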