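import Vale.Agent.P240.Stm3

namespace Vale.Agent.P240

open Matrix

theorem c1_pf (hO : OInjStmt) (hR : RDetStmt) : C1Stmt := by
  intro E _ m K G _ _ _ φ ι γ s Fa X hC
  obtain ⟨hB, hγ, hγ2, hconj, hs, hFa, hX⟩ := hC
  have hB' := hB
  obtain ⟨h2, hodd, hφ, -, -⟩ := hB'
  intro x hx
  obtain ⟨g, A, hA, rfl⟩ := (hX x).1 hx
  obtain ⟨hfr, hsa⟩ := hFa A hA
  have hT : ∀ a ∈ A, (φ (s a))ᵀ = φ (s a) := by
    intro a ha
    rw [hsa a ha, transpose_sub, transpose_smul, transpose_one,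
      (hR E (m + 2) a hodd (hfr.2.1 a ha)).2.1]
  have hsq : ∀ a ∈ A, φ (s a) * φ (s a) = 1 := by
    intro a ha
    rw [hsa a ha]
    exact (hR E (m + 2) a hodd (hfr.2.1 a ha)).2.2
  have hcomm : ∀ a ∈ A, γ * ι (s a) = ι (s a) * γ := by
    intro a ha
    obtain ⟨l, hl1, hl2⟩ := hconj (s a)
    rw [hT a ha] at hl2
    have h3 : φ l = φ (s a) := by
      calc φ l = φ l * (φ (s a) * φ (s a)) := by rw [hsq a ha, mul_one]
        _ = φ (s a) := by rw [← mul_assoc, hl2, one_mul]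
    rw [hφ h3] at hl1
    exact mul_inv_eq_iff_eq_mul.1 hl1
  refine ⟨?_, ?_, ?_, ?_⟩
  · rintro ⟨k, hk⟩
    refine hγ ⟨g⁻¹ * k * g, ?_⟩
    simp only at hk
    rw [map_mul, map_mul, map_inv, hk]
    group
  · calc ι g * γ * (ι g)⁻¹ * (ι g * γ * (ι g)⁻¹) = ι g * (γ * γ) * (ι g)⁻¹ := by group
      _ = 1 := by rw [hγ2]; group
  · refine (Finset.card_image_of_injOn ?_).trans hfr.1
    intro a ha b hb hab
    simp only [map_mul, mul_left_inj, mul_right_inj] at hab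
    have h4 := hO E (m + 2) K G φ ι hB (s a) (s b) (by rw [hT a ha, hsq a ha])
      (by rw [hT b hb, hsq b hb]) hab
    have h5 : (2 : E) • a - 1 = (2 : E) • b - 1 := by rw [← hsa a ha, ← hsa b hb, h4]
    exact smul_right_injective _ h2 (sub_left_injective h5)
  · intro y hy
    obtain ⟨a, ha, rfl⟩ := Finset.mem_image.1 hy
    refine ⟨⟨_, rfl⟩, ?_⟩
    simp only [map_mul, map_inv]
    calc ι g * γ * (ι g)⁻¹ * (ι g * ι (s a) * (ι g)⁻¹) = ι g * (γ * ι (s a)) * (ι g)⁻¹ := by group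
      _ = ι g * (ι (s a) * γ) * (ι g)⁻¹ := by rw [hcomm a ha]
      _ = _ := by group

end Vale.Agent.P240
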