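import Vale.Agent.P240.Stm2

namespace Vale.Agent.P240

namespace InhAux

variable {B G : Type} [Group B] [Group G]

theorem elem {ψ : B →* G} (hψ : Function.Injective ψ) {p : ℕ} {E : Subgroup B}
    (h : IsElemAb p E) : IsElemAb p (E.map ψ) := by
  refine ⟨fun e => h.1 ((Subgroup.map_eq_bot_iff_of_injective E hψ).mp e), ?_, ?_⟩
  · rintro _ ⟨x, hx, rfl⟩ _ ⟨y, hy, rfl⟩
    rw [← map_mul, ← map_mul, h.2.1 x hx y hy]
  · rintro _ ⟨x, hx, rfl⟩
    rw [← map_pow, h.2.2 x hx, map_one]

theorem bd_map (ψ : B →* G) {m : ℕ} (z : (Fin (m + 1) → Subgroup B) →₀ ℚ) :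
    bd (Finsupp.mapDomain (fun c i => (c i).map ψ) z) =
      Finsupp.mapDomain (fun c i => (c i).map ψ) (bd z) := by
  unfold bd
  rw [Finsupp.sum_mapDomain_index (by simp)
    (fun _ _ _ => by simp only [mul_add, Finsupp.single_add, Finset.sum_add_distrib]),
    Finsupp.sum, Finsupp.sum, Finsupp.mapDomain_finsetSum]
  refine Finset.sum_congr rfl fun c _ => ?_
  rw [Finsupp.mapDomain_finsetSum]
  refine Finset.sum_congr rfl fun i _ => ?_
  rw [Finsupp.mapDomain_single]
  rfl

end InhAux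

theorem inh_pf : InhStmt := by
  classical
  intro B G _ _ ψ m z hψ hz hc hb
  have hf : Function.Injective
      fun (c : Fin (m + 1) → Subgroup B) (i : Fin (m + 1)) => (c i).map ψ :=
    fun c c' e => funext fun i => Subgroup.map_injective hψ (congrFun e i)
  refine ⟨Finsupp.mapDomain (fun c i => (c i).map ψ) z, fun e => hz ?_, fun c' hc' => ?_, ?_⟩
  · exact Finsupp.mapDomain_injective hf (e.trans Finsupp.mapDomain_zero.symm)
  · obtain ⟨c, h1, rfl⟩ := Finset.mem_image.mp (Finsupp.mapDomain_support hc')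
    exact ⟨fun i j hij => (Subgroup.map_lt_map_iff_of_injective hψ).mpr ((hc c h1).1 hij),
      fun i => InhAux.elem hψ ((hc c h1).2 i)⟩
  · rw [InhAux.bd_map, hb, Finsupp.mapDomain_zero]

end Vale.Agent.P240
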