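import Vale.Agent.P240.Stm3
import Vale.Agent.P240.Inh

namespace Vale.Agent.P240

open Matrix

namespace C2Aux

/-- The orthogonal part of a matrix group. -/
def orth {E : Type} [Field E] {n : ℕ} {K : Type} [Group K]
    (φ : K →* Matrix (Fin n) (Fin n) E) : Subgroup K where
  carrier := {k | φ k * (φ k)ᵀ = 1}
  one_mem' := by
    show φ 1 * (φ 1)ᵀ = 1
    rw [map_one, transpose_one, mul_one]
  mul_mem' := by
    intro a b ha hb
    have ha' : φ a * (φ a)ᵀ = 1 := ha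
    have hb' : φ b * (φ b)ᵀ = 1 := hb
    show φ (a * b) * (φ (a * b))ᵀ = 1
    rw [map_mul, transpose_mul, mul_assoc, ← mul_assoc (φ b), hb', one_mul, ha']
  inv_mem' := by
    intro a ha
    have ha' : φ a * (φ a)ᵀ = 1 := ha
    have h1 : (φ a)ᵀ * φ a = 1 := mul_eq_one_comm.mp ha'
    have h2 : φ a * φ a⁻¹ = 1 := by rw [← map_mul, mul_inv_cancel, map_one]
    have h3 : φ a⁻¹ = (φ a)ᵀ := by
      calc φ a⁻¹ = ((φ a)ᵀ * φ a) * φ a⁻¹ := by rw [h1, one_mul]
        _ = (φ a)ᵀ := by rw [mul_assoc, h2, mul_one]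
    show φ a⁻¹ * (φ a⁻¹)ᵀ = 1
    rw [h3, transpose_transpose, h1]

theorem mem_orth {E : Type} [Field E] {n : ℕ} {K : Type} [Group K]
    (φ : K →* Matrix (Fin n) (Fin n) E) (k : K) : k ∈ orth φ ↔ φ k * (φ k)ᵀ = 1 := Iff.rfl

theorem ch_map {B G P : Type} [Group B] [Group G] (ψ : B →* G) (s : P → B) {k : ℕ}
    (u : Fin k → P) (t : Fin k → G) (h : ∀ i, t i = ψ (s (u i))) :
    ch id t = fun i => (ch s u i).map ψ := by
  funext i
  unfold ch
  rw [MonoidHom.map_closure, Set.image_id, Set.image_image, Set.image_image]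
  exact congrArg Subgroup.closure (Set.image_congr fun j _ => h j)

end C2Aux

theorem c2_pf (hO : OInjStmt) (hR : RDetStmt) (hSi : SimpStmt) : C2Stmt := by
  classical
  intro E _ m K G _ _ _ φ ι γ s Fa X hC x hx t ht htx
  obtain ⟨hB, _, _, _, _, hF, hX⟩ := hC
  obtain ⟨g, A, hA, rfl⟩ := (hX x).mp hx
  obtain ⟨hfr, hs⟩ := hF A hA
  have hmem : ∀ a ∈ A, s a ∈ C2Aux.orth φ := by
    intro a ha
    obtain ⟨_, h2, h3⟩ := hR E (m + 2) a hB.2.1 (hfr.2.1 a ha)
    rw [C2Aux.mem_orth, hs a ha, transpose_sub, transpose_smul, transpose_one, h2, h3]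
  let s1 : Matrix (Fin (m + 2)) (Fin (m + 2)) E → C2Aux.orth φ :=
    fun a => if h : s a ∈ C2Aux.orth φ then ⟨s a, h⟩ else 1
  have hs1 : ∀ a ∈ A, (s1 a : K) = s a := by
    intro a ha
    simp only [s1, dif_pos (hmem a ha)]
  let ψ : C2Aux.orth φ →* G :=
    (MulAut.conj (ι g)).toMonoidHom.comp (ι.comp (C2Aux.orth φ).subtype)
  have hψv : ∀ k : C2Aux.orth φ, ψ k = ι g * ι k * (ι g)⁻¹ := fun k => rfl
  have hψ : Function.Injective ψ := by
    intro k l e
    rw [hψv, hψv] at e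
    exact Subtype.ext (hO E (m + 2) K G φ ι hB k l k.2 l.2
      (mul_left_cancel (mul_right_cancel e)))
  have hex : ∀ i, ∃ a ∈ A, ι (g * s a * g⁻¹) = t i := fun i => Finset.mem_image.mp (htx i)
  choose u huA hu using hex
  have hui : Function.Injective u := by
    intro i j e
    apply ht
    rw [← hu i, ← hu j, e]
  have hch : ch id t = fun i => (ch s1 u i).map ψ := by
    refine C2Aux.ch_map ψ s1 u t fun i => ?_
    rw [hψv, hs1 _ (huA i), ← hu i, map_mul, map_mul, map_inv]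
  have hS : IsSimplex 2 (ch s1 u) := by
    refine hSi E m (C2Aux.orth φ) (φ.comp (C2Aux.orth φ).subtype) s1 A u hB.1
      (hB.2.2.1.comp Subtype.val_injective) hfr (fun a ha => ?_) hui huA
    show φ (s1 a : K) = _
    rw [hs1 a ha, hs a ha]
  rw [hch]
  exact ⟨fun i j hij => (Subgroup.map_lt_map_iff_of_injective hψ).mpr (hS.1 hij),
    fun i => InhAux.elem hψ (hS.2 i)⟩

end Vale.Agent.P240
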