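import Vale.Agent.P240.Stm3

namespace Vale.Agent.P240

open Matrix

namespace C3aAux

theorem fix {G : Type} [Group G] {a b γ : G} (h : a * γ * a⁻¹ = b * γ * b⁻¹) :
    γ * (a⁻¹ * b) * γ⁻¹ = a⁻¹ * b := by
  calc γ * (a⁻¹ * b) * γ⁻¹ = a⁻¹ * (a * γ * a⁻¹) * b * γ⁻¹ := by group
    _ = a⁻¹ * (b * γ * b⁻¹) * b * γ⁻¹ := by rw [h]
    _ = a⁻¹ * b := by group

theorem conj {E : Type} [Field E] {n : ℕ} {K : Type} [Group K]
    (φ : K →* Matrix (Fin n) (Fin n) E) (h k : K) (b : Matrix (Fin n) (Fin n) E)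
    (hb : φ k = (2 : E) • b - 1) :
    φ (h * k * h⁻¹) = (2 : E) • (φ h * b * φ h⁻¹) - 1 := by
  have e : φ h * φ h⁻¹ = 1 := by rw [← map_mul, mul_inv_cancel, map_one]
  rw [map_mul, map_mul, hb, mul_sub, sub_mul, mul_one, e, mul_smul_comm, smul_mul_assoc]

end C3aAux

theorem c3a_pf (hF : FrConjStmt) : C3aStmt := by
  classical
  intro E _ m K G _ _ _ φ ι γ s Fa X hC x hx y hy hxy
  obtain ⟨⟨-, hodd, -, hdet, hker⟩, -, -, hγ, hs, hFa, hX⟩ := hC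
  obtain ⟨g, A, hA, rfl⟩ := (hX x).1 hx
  obtain ⟨g₁, B₀, hB, rfl⟩ := (hX y).1 hy
  have h1 : γ * ι (g⁻¹ * g₁) * γ⁻¹ = ι (g⁻¹ * g₁) := by
    rw [map_mul, map_inv]
    exact C3aAux.fix hxy
  have hg : g₁ = g * (g⁻¹ * g₁) := by group
  generalize g⁻¹ * g₁ = h at h1 hg
  obtain ⟨l, hl1, hl2⟩ := hγ h
  obtain ⟨c, hc⟩ := hker (l⁻¹ * h) (by rw [map_mul, map_inv, ← hl1, h1, inv_mul_cancel])
  have h2 : φ h = c • φ l := by
    calc φ h = φ l * φ (l⁻¹ * h) := by rw [← map_mul, mul_inv_cancel_left]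
      _ = c • φ l := by rw [hc, mul_smul_comm, mul_one]
  have h3 : φ h * (φ h)ᵀ = c • (1 : Matrix (Fin (m + 2)) (Fin (m + 2)) E) := by
    calc φ h * (φ h)ᵀ = (c • φ l) * (φ h)ᵀ := by rw [← h2]
      _ = _ := by rw [smul_mul_assoc, hl2]
  have h4 : φ h * φ h⁻¹ = 1 := by rw [← map_mul, mul_inv_cancel, map_one]
  have h5 : ∀ b ∈ B₀, φ (h * s b * h⁻¹) = (2 : E) • (φ h * b * φ h⁻¹) - 1 := fun b hb =>
    C3aAux.conj φ h (s b) b ((hFa B₀ hB).2 b hb)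
  refine ⟨g, A, B₀.image fun b => φ h * b * φ h⁻¹, (hFa A hA).1,
    hF E (m + 2) (φ h) (φ h⁻¹) c B₀ hodd (hdet h) h4 h3 (hFa B₀ hB).1, (hFa A hA).2,
    fun a ha => ?_, rfl, ?_⟩
  · obtain ⟨b, hb, rfl⟩ := Finset.mem_image.1 ha
    rw [hs _ _ (h5 b hb)]
    exact h5 b hb
  · rw [Finset.image_image]
    refine Finset.image_congr fun b hb => ?_
    show ι (g₁ * s b * g₁⁻¹) = ι (g * s (φ h * b * φ h⁻¹) * g⁻¹)
    rw [hs _ _ (h5 b hb), hg]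
    exact congrArg ι (by group)

end Vale.Agent.P240
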