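import Vale.Agent.P240.Stm3

namespace Vale.Agent.P240

open Matrix

namespace C3bAux

/-- the orthogonal elements -/
def orth {E K : Type} [Field E] [Group K] {n : ℕ} (φ : K →* Matrix (Fin n) (Fin n) E) :
    Subgroup K where
  carrier := {k | φ k * (φ k)ᵀ = 1}
  one_mem' := by simp
  mul_mem' := by
    intro a b (ha : _ = _) (hb : _ = _)
    show _ = _
    rw [map_mul, transpose_mul, mul_assoc, ← mul_assoc (φ b), hb, one_mul, ha]
  inv_mem' := by
    intro a (ha : _ = _)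
    show _ = _
    have h1 : φ a⁻¹ * φ a = 1 := by rw [← map_mul, inv_mul_cancel, map_one]
    have h2 : φ a⁻¹ = (φ a)ᵀ := by rw [← mul_one (φ a⁻¹), ← ha, ← mul_assoc, h1, one_mul]
    conv_lhs => rw [congrArg transpose h2, transpose_transpose]
    exact h1

theorem ch_map {O G P : Type} [Group O] [Group G] (ψ : O →* G) (s : P → O) {k : ℕ}
    (u : Fin k → P) (t : Fin k → G) (h : ∀ i, ψ (s (u i)) = t i) (i : Fin k) :
    ch id t i = (ch s u i).map ψ := by
  obtain rfl : (fun i => ψ (s (u i))) = t := funext h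
  simp only [ch, MonoidHom.map_closure, Set.image_image, id]

end C3bAux

open C3bAux in
theorem c3b_pf (hO : OInjStmt) (hR : RDetStmt) (hSe : SepStmt) : C3bStmt := by
  classical
  intro E _ m K G _ _ _ φ ι s g A B hb hA hB sA sB t₀ t i0 i1 m0 m1 hch
  have hm : ∀ a, IsPt a → φ (s a) = (2 : E) • a - 1 → s a ∈ orth φ := fun a ha e => by
    obtain ⟨-, h1, h2⟩ := hR E (m + 2) a hb.2.1 ha
    show _ = _
    rw [e, transpose_sub, transpose_smul, h1, transpose_one, h2]
  let s1 : Matrix (Fin (m + 2)) (Fin (m + 2)) E → orth φ := fun a =>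
    if h : s a ∈ orth φ then ⟨s a, h⟩ else 1
  have hs : ∀ a, s a ∈ orth φ → (s1 a).1 = s a := fun a h => by simp only [s1, dif_pos h]
  let ψ : orth φ →* G := (MulAut.conj (ι g)).toMonoidHom.comp (ι.comp (orth φ).subtype)
  have hψ : ∀ k : orth φ, ψ k = ι (g * k.1 * g⁻¹) := fun k => by simp [ψ]
  have inj : Function.Injective ψ := fun k l h =>
    Subtype.ext (hO E (m + 2) K G φ ι hb _ _ k.2 l.2 ((MulAut.conj (ι g)).injective h))
  have eA : ∀ a ∈ A, (s1 a).1 = s a := fun a ha => hs a (hm a (hA.2.1 a ha) (sA a ha))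
  have eB : ∀ a ∈ B, (s1 a).1 = s a := fun a ha => hs a (hm a (hB.2.1 a ha) (sB a ha))
  choose u₀ a0 b0 using fun i => Finset.mem_image.1 (m0 i)
  choose u a1 b1 using fun i => Finset.mem_image.1 (m1 i)
  have c0 : ∀ i, ψ (s1 (u₀ i)) = t₀ i := fun i => by rw [hψ, eA _ (a0 i), b0]
  have c1 : ∀ i, ψ (s1 (u i)) = t i := fun i => by rw [hψ, eB _ (a1 i), b1]
  obtain ⟨r1, r2⟩ := hSe E m (orth φ) (φ.comp (orth φ).subtype) s1 A B u₀ u hb.1 hA hB
    (fun a ha => (congrArg φ (eA a ha)).trans (sA a ha))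
    (fun a ha => (congrArg φ (eB a ha)).trans (sB a ha))
    (fun i j h => i0 (by rw [← c0, ← c0, h])) (fun i j h => i1 (by rw [← c1, ← c1, h])) a0 a1
    (funext fun i => Subgroup.map_injective inj (by
      rw [← ch_map ψ s1 u t c1, ← ch_map ψ s1 u₀ t₀ c0, hch]))
  exact ⟨r1, fun i => by rw [← c0, ← c1, r2]⟩

end Vale.Agent.P240
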