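import Vale.Agent.P240.Stm3

namespace Vale.Agent.P240

open Matrix

theorem c5_pf : C5Stmt := by
  intro E _ m K G _ _ _ φ ι γ s Fa X hC hd x hx
  obtain ⟨⟨-, -, hinj, -, hker⟩, -, -, hγ, -, hFa, hX⟩ := hC
  obtain ⟨g, A, hA, rfl⟩ := (hX x).1 hx
  obtain ⟨d, d1, d2⟩ := hd A hA
  refine ⟨_, (hX _).2 ⟨g * d, A, hA, rfl⟩, fun e => ?_, Finset.image_congr fun a ha => ?_⟩
  · obtain ⟨l, l1, l2⟩ := hγ d
    have e1 : ι (g * d) * γ * (ι (g * d))⁻¹ = ι g * γ * (ι g)⁻¹ := e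
    have e2 : γ * ι d * γ⁻¹ = ι d := by
      calc γ * ι d * γ⁻¹ = (ι g)⁻¹ * (ι g * γ * (ι g)⁻¹) * ι g * ι d * γ⁻¹ := by group
        _ = ι d := by rw [← e1, map_mul]; group
    obtain ⟨c, hc⟩ := hker (l⁻¹ * d) (by rw [map_mul, map_inv, ← l1, e2, inv_mul_cancel])
    have e3 : φ d = c • φ l := by
      calc φ d = φ l * φ (l⁻¹ * d) := by rw [← map_mul, mul_inv_cancel_left]
        _ = c • φ l := by rw [hc, Matrix.mul_smul, Matrix.mul_one]
    refine d2 c ?_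
    calc φ d * (φ d)ᵀ = (c • φ l) * (φ d)ᵀ := by rw [← e3]
      _ = _ := by rw [Matrix.smul_mul, l2]
  · have e : d * s a = s a * d := hinj (by
      rw [map_mul, map_mul, (hFa A hA).2 a ha, Matrix.mul_sub, Matrix.sub_mul, Matrix.mul_smul,
        Matrix.smul_mul, d1 a ha, Matrix.mul_one, Matrix.one_mul])
    refine congrArg ι ?_
    calc g * d * s a * (g * d)⁻¹ = g * (d * s a) * (g * d)⁻¹ := by rw [mul_assoc g d]
      _ = g * s a * g⁻¹ := by rw [e]; group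

end Vale.Agent.P240
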