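import Vale.Agent.P240.Stm

namespace Vale.Agent.P240

open Matrix

namespace CircAux

theorem bad_le (F : Type) [Field F] [Fintype F] [DecidableEq F] :
    (Finset.univ.filter fun t : F => ¬ (1 + t ^ 2 ≠ 0)).card ≤ 2 := by
  by_cases h : ∃ i : F, 1 + i ^ 2 = 0
  · obtain ⟨i, hi⟩ := h
    have hsub : (Finset.univ.filter fun t : F => ¬ (1 + t ^ 2 ≠ 0)) ⊆ {i, -i} := by
      intro t ht
      simp only [Finset.mem_filter, Finset.mem_univ, true_and, not_not] at ht
      have h0 : (t - i) * (t + i) = 0 := by linear_combination ht - hi
      rcases mul_eq_zero.mp h0 with h1 | h1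
      · have : t = i := by linear_combination h1
        simp [this]
      · have : t = -i := by linear_combination h1
        simp [this]
    exact (Finset.card_le_card hsub).trans Finset.card_le_two
  · have : (Finset.univ.filter fun t : F => ¬ (1 + t ^ 2 ≠ 0)) = ∅ := by
      apply Finset.filter_eq_empty_iff.mpr
      intro t _ ht
      exact h ⟨t, not_not.mp ht⟩
    rw [this]; simp

theorem good_le (F : Type) [Field F] [Fintype F] [DecidableEq F] (h2 : (2 : F) ≠ 0) :
    (Finset.univ.filter fun t : F => 1 + t ^ 2 ≠ 0).card ≤
      (Finset.univ.filter fun x : F × F => x.1 ^ 2 + x.2 ^ 2 = 1).card := by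
  apply Finset.card_le_card_of_injOn
    (fun t : F => (((1 - t ^ 2) / (1 + t ^ 2), 2 * t / (1 + t ^ 2)) : F × F))
  · intro t ht
    simp only [Finset.coe_filter, Finset.mem_univ, true_and, Set.mem_ofPred_eq] at ht ⊢
    field_simp
    ring
  · intro s hs t ht hst
    simp only [Finset.coe_filter, Finset.mem_univ, true_and, Set.mem_ofPred_eq] at hs ht
    simp only [Prod.mk.injEq] at hst
    obtain ⟨h1, h3⟩ := hst
    rw [div_eq_div_iff hs ht] at h1 h3
    have hsq : s ^ 2 = t ^ 2 := by
      have : (2 : F) * (s ^ 2 - t ^ 2) = 0 := by linear_combination -h1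
      rcases mul_eq_zero.mp this with h | h
      · exact absurd h h2
      · linear_combination h
    have : (2 : F) * (1 + t ^ 2) * (s - t) = 0 := by
      linear_combination h3 + 2 * t * hsq
    rcases mul_eq_zero.mp this with h | h
    · rcases mul_eq_zero.mp h with h | h
      · exact absurd h h2
      · exact absurd h ht
    · linear_combination h

end CircAux

theorem circ_pf : CircStmt := by
  intro F _ _ _ h2
  have h := Finset.card_filter_add_card_filter_not (s := (Finset.univ : Finset F))
    (fun t : F => 1 + t ^ 2 ≠ 0)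
  have hb := CircAux.bad_le F
  have hg := CircAux.good_le F h2
  rw [Finset.card_univ] at h
  omega

end Vale.Agent.P240
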