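import Vale.Agent.P240.Stm

namespace Vale.Agent.P240

open Matrix

namespace CommAux

variable {F : Type} [Field F] {n : ℕ}

theorem so_mem (hn : Odd n) (w y : Fin n → F) (h : y ⬝ᵥ w = 2)
    (hs : vecMulVec y w = vecMulVec w y) :
    vecMulVec w y - 1 ∈ Matrix.specialOrthogonalGroup (Fin n) F := by
  rw [mem_specialOrthogonalGroup_iff, mem_orthogonalGroup_iff]
  constructor
  · rw [transpose_sub, transpose_vecMulVec, hs, transpose_one, sub_mul, mul_sub, mul_sub,
      vecMulVec_mul_vecMulVec, h, vecMulVec_smul, two_smul, mul_one, one_mul, mul_one]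
    abel
  · have e : vecMulVec w y - 1 = -(1 + vecMulVec (-w) y) := by
      rw [neg_vecMulVec]
      abel
    rw [e, det_neg, vecMulVec_eq Unit, det_one_add_replicateCol_mul_replicateRow, dotProduct_neg,
      h, Fintype.card_fin, hn.neg_one_pow]
    norm_num

theorem pt_mem (hn : Odd n) {p : Matrix (Fin n) (Fin n) F} (hp : IsPt p) :
    (2 : F) • p - 1 ∈ Matrix.specialOrthogonalGroup (Fin n) F := by
  obtain ⟨v, hv, rfl⟩ := hp
  rw [← vecMulVec_smul]
  refine so_mem hn v _ ?_ ?_
  · rw [smul_dotProduct, hv, smul_eq_mul, mul_one]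
  · rw [smul_vecMulVec, vecMulVec_smul]

theorem conj (hn : Odd n) {a b : Matrix (Fin n) (Fin n) F} (ha : IsPt a) (hb : IsPt b)
    (hab : a * b = 0) : ∃ g ∈ Matrix.specialOrthogonalGroup (Fin n) F, g * a = b * g := by
  obtain ⟨u, hu, rfl⟩ := ha
  obtain ⟨v, hv, rfl⟩ := hb
  have huv : u ⬝ᵥ v = 0 := by
    rw [vecMulVec_mul_vecMulVec, vecMulVec_eq_zero] at hab
    rcases hab with h | h
    · rw [h, zero_dotProduct]
    · have k := congrArg (fun x => x ⬝ᵥ v) h
      simpa [hv] using k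
  have hvu : v ⬝ᵥ u = 0 := by rw [dotProduct_comm, huv]
  refine ⟨vecMulVec (u - v) (u - v) - 1, so_mem hn _ _ ?_ rfl, ?_⟩
  · rw [sub_dotProduct, dotProduct_sub, dotProduct_sub, hu, hv, huv, hvu]
    norm_num
  · rw [sub_mul, mul_sub, vecMulVec_mul_vecMulVec, vecMulVec_mul_vecMulVec, sub_dotProduct,
      dotProduct_sub, hu, hv, hvu, sub_zero, zero_sub, one_smul, neg_smul, one_smul,
      vecMulVec_neg, sub_vecMulVec, vecMulVec_sub, one_mul, mul_one]
    abel

theorem idem {a : Matrix (Fin n) (Fin n) F} (ha : IsPt a) : a * a = a := by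
  obtain ⟨u, hu, rfl⟩ := ha
  rw [vecMulVec_mul_vecMulVec, hu, one_smul]

end CommAux

open CommAux in
theorem comm_pf (hS : SumStmt) : CommStmt := by
  classical
  intro F _ n A hn hA p hp
  obtain ⟨x, hx⟩ : ∃ x, x = Abelianization.of
    (⟨_, pt_mem hn (hA.2.1 p hp)⟩ : Matrix.specialOrthogonalGroup (Fin n) F) := ⟨_, rfl⟩
  have h1 : ∀ a (ha : a ∈ A), Abelianization.of
      (⟨_, pt_mem hn (hA.2.1 a ha)⟩ : Matrix.specialOrthogonalGroup (Fin n) F) = x := by
    intro a ha
    by_cases e : a = p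
    · subst e
      exact hx.symm
    · obtain ⟨g, hg, k⟩ := conj hn (hA.2.1 a ha) (hA.2.1 p hp) (hA.2.2 a ha p hp e)
      have k2 : (⟨g, hg⟩ : Matrix.specialOrthogonalGroup (Fin n) F) *
          ⟨_, pt_mem hn (hA.2.1 a ha)⟩ = ⟨_, pt_mem hn (hA.2.1 p hp)⟩ * ⟨g, hg⟩ := by
        apply Subtype.ext
        change g * ((2 : F) • a - 1) = ((2 : F) • p - 1) * g
        rw [mul_sub, sub_mul, mul_smul_comm, smul_mul_assoc, k, mul_one, one_mul]
      have k3 := congrArg Abelianization.of k2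
      rw [map_mul, map_mul, ← hx, mul_comm x] at k3
      exact mul_left_cancel k3
  have h2 : x ^ 2 = 1 := by
    rw [hx, ← map_pow, ← map_one Abelianization.of]
    congr 1
    apply Subtype.ext
    rw [pow_two]
    change ((2 : F) • p - 1) * ((2 : F) • p - 1) = 1
    rw [sub_mul, mul_sub, mul_sub, smul_mul_assoc, mul_smul_comm, idem (hA.2.1 p hp), mul_one,
      one_mul, mul_one, two_smul F ((2 : F) • p)]
    abel
  have h3 : ∀ K : Finset (Matrix (Fin n) (Fin n) F), K ⊆ A →
      ∃ g : Matrix.specialOrthogonalGroup (Fin n) F,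
        g.1 = ((-1 : F) ^ K.card) • (1 - (2 : F) • ∑ a ∈ K, a) ∧
          Abelianization.of g = x ^ K.card := by
    intro K
    induction K using Finset.induction_on with
    | empty => exact fun _ => ⟨1, by simp, by simp⟩
    | insert a K haK ih =>
      intro hK
      obtain ⟨g, e1, e2⟩ := ih ((Finset.subset_insert a K).trans hK)
      have ha : a ∈ A := hK (Finset.mem_insert_self a K)
      refine ⟨⟨_, pt_mem hn (hA.2.1 a ha)⟩ * g, ?_, ?_⟩
      · change ((2 : F) • a - 1) * g.1 = _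
        have z : a * ∑ b ∈ K, b = 0 := by
          rw [Finset.mul_sum]
          exact Finset.sum_eq_zero fun b hb => hA.2.2 a ha b
            (hK (Finset.mem_insert_of_mem hb)) (fun e => haK (e ▸ hb))
        rw [e1, Finset.card_insert_of_notMem haK, Finset.sum_insert haK, mul_smul_comm, pow_succ,
          mul_smul, sub_mul, mul_sub, mul_smul_comm, smul_mul_assoc, smul_mul_assoc, z, mul_one,
          one_mul, smul_zero, smul_zero, neg_smul, one_smul, smul_add]
        congr 1
        abel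
      · rw [map_mul, h1 a ha, e2, Finset.card_insert_of_notMem haK, pow_succ']
  obtain ⟨g, e1, e2⟩ := h3 A (Finset.Subset.refl A)
  rw [hS F n A hA, hA.1, hn.neg_one_pow] at e1
  have e3 : g = 1 := by
    apply Subtype.ext
    rw [e1, two_smul]
    change _ = (1 : Matrix (Fin n) (Fin n) F)
    rw [neg_smul, one_smul]
    abel
  obtain ⟨k, hk⟩ := hn
  have hc : A.card = 2 * k + 1 := hA.1.trans hk
  rw [e3, map_one, hc, pow_succ, pow_mul, h2, one_pow, one_mul] at e2
  refine ⟨⟨_, pt_mem ⟨k, hk⟩ (hA.2.1 p hp)⟩, ?_, rfl⟩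
  rw [← Abelianization.ker_of, MonoidHom.mem_ker, ← hx, ← e2]

end Vale.Agent.P240
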