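import Vale.Agent.P240.Stm

namespace Vale.Agent.P240

open Matrix

namespace CountAux

theorem two_choose (m : ℕ) : 2 * Nat.choose (m + 2) m = (m + 2) * (m + 1) := by
  rw [Nat.choose_symm_add, Nat.choose_two_right]
  have h : 2 ∣ (m + 2) * (m + 2 - 1) := by
    have := Nat.even_mul_succ_self (m + 1)
    rw [mul_comm] at this
    exact this.two_dvd
  rw [Nat.mul_div_cancel' h]
  rfl

theorem std (F : Type) [Field F] [DecidableEq F] (n : ℕ) :
    ∃ A : Finset (Matrix (Fin n) (Fin n) F), IsFrame A := by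
  refine ⟨Finset.univ.image fun i : Fin n => vecMulVec (Pi.single i 1) (Pi.single i 1), ?_, ?_, ?_⟩
  · rw [Finset.card_image_of_injective, Finset.card_univ, Fintype.card_fin]
    intro i j h
    by_contra hij
    have h1 := congrFun (congrFun h i) i
    simp [vecMulVec_apply, Pi.single_apply, hij] at h1
  · intro p hp
    obtain ⟨i, _, rfl⟩ := Finset.mem_image.mp hp
    exact ⟨Pi.single i 1, by simp, rfl⟩
  · intro p hp p' hp' hne
    obtain ⟨i, _, rfl⟩ := Finset.mem_image.mp hp
    obtain ⟨j, _, rfl⟩ := Finset.mem_image.mp hp'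
    have hij : i ≠ j := fun h => hne (by rw [h])
    rw [vecMulVec_mul_vecMulVec]
    simp [Pi.single_apply, hij, hij.symm]

end CountAux

theorem count_pf (hE : ExtStmt) : CountStmt := by
  intro F _ _ _ m Fr T h2 hq hFr hT
  have h1 : ∑ τ ∈ T, (Fr.filter fun B => τ ⊆ B).card = ∑ B ∈ Fr, (T.filter fun τ => τ ⊆ B).card := by
    simp only [Finset.card_filter]
    exact Finset.sum_comm
  have h3 : ∑ B ∈ Fr, (T.filter fun τ => τ ⊆ B).card ≤ Fr.card * Nat.choose (m + 2) m := by
    rw [← smul_eq_mul]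
    refine Finset.sum_le_card_nsmul _ _ _ fun B hB => ?_
    have h4 : (B.powersetCard m).card = Nat.choose (m + 2) m := by
      rw [Finset.card_powersetCard, ((hFr B).mp hB).1]
    rw [← h4]
    refine Finset.card_le_card fun τ hτ => ?_
    obtain ⟨a, b⟩ := Finset.mem_filter.mp hτ
    exact Finset.mem_powersetCard.mpr ⟨b, (hT τ a).1⟩
  have h5 : T.card * (2 * m + 5) ≤ 4 * ∑ τ ∈ T, (Fr.filter fun B => τ ⊆ B).card := by
    rw [Finset.mul_sum, ← smul_eq_mul]
    refine Finset.card_nsmul_le_sum _ _ _ fun τ hτ => ?_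
    obtain ⟨a, A, hA, hs⟩ := hT τ hτ
    have := hE F m A τ Fr h2 hFr hA hs a
    omega
  obtain ⟨A, hA⟩ := CountAux.std F (m + 2)
  have h6 : 0 < Fr.card := Finset.card_pos.mpr ⟨A, (hFr A).mpr hA⟩
  have h7 := CountAux.two_choose m
  have h8 : T.card * (2 * m + 5) ≤ (2 * m + 4) * ((m + 1) * Fr.card) := by
    calc T.card * (2 * m + 5) ≤ 4 * (Fr.card * Nat.choose (m + 2) m) :=
          h5.trans (Nat.mul_le_mul_left _ (h1 ▸ h3))
      _ = 2 * Fr.card * (2 * Nat.choose (m + 2) m) := by ring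
      _ = _ := by rw [h7]; ring
  have h9 : 0 < (m + 1) * Fr.card := by positivity
  by_contra hc
  have h10 := Nat.mul_le_mul_right (2 * m + 5) (not_lt.mp hc)
  nlinarith

end Vale.Agent.P240
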