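import Vale.Agent.P240.Stm2
import Vale.Agent.P240.Cyc

namespace Vale.Agent.P240

open Matrix Finset Equiv

open CycAux in
theorem cyc2_pf : Cyc2Stmt := by
  classical
  intro G P _ _ s m α t₀ hα h0 hS ht
  have hD : ∀ t : Fin m → P, ∑ a, α (Fin.snoc t a : Fin (m + 1) → P) = 0 := fun t => by
    have := hα.2 (Fin.snoc t (t₀ 0)) (Fin.last m)
    simpa only [Fin.update_snoc_last] using this
  refine ⟨∑ t, Finsupp.single (ch s t) (α t), fun hz => ?_, fun x hx => ?_, ?_⟩
  · have := DFunLike.congr_fun hz (ch s t₀)
    rw [Finsupp.finsetSum_apply, sum_eq_single t₀ (fun t _ hne => by_contra fun h => hne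
      (ht t (Finsupp.single_apply_ne_zero.1 h).2 (Finsupp.single_apply_ne_zero.1 h).1.symm))
      (by simp), Finsupp.single_eq_same] at this
    exact h0 this
  · rw [Finsupp.mem_support_iff, Finsupp.finsetSum_apply] at hx
    obtain ⟨t, -, ht⟩ := exists_ne_zero_of_sum_ne_zero hx
    rw [(Finsupp.single_apply_ne_zero.1 ht).1]
    exact hS t (Finsupp.single_apply_ne_zero.1 ht).2
  · rw [bd, ← Finsupp.sum_finsetSum_index (by simp) (by
      simp [mul_add, Finsupp.single_add, sum_add_distrib])]
    simp only [fun (t : Fin (m + 1) → P) => Finsupp.sum_single_index (a := ch s t) (b := α t)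
      (h := fun (c : Fin (m + 1) → Subgroup G) (a : ℚ) => ∑ i : Fin (m + 1),
        Finsupp.single (c ∘ i.succAbove) ((-1) ^ (i : ℕ) * a)) (by simp)]
    rw [sum_comm]
    refine sum_eq_zero fun i _ => ?_
    induction i using Fin.lastCases with
    | last =>
      rw [← (Fin.snocEquiv fun _ => P).sum_comp, Fintype.sum_prod_type_right]
      refine sum_eq_zero fun t _ => ?_
      change ∑ a, Finsupp.single (ch s (Fin.snoc t a : Fin (m + 1) → P) ∘ (Fin.last m).succAbove)
        (_ * α (Fin.snoc t a : Fin (m + 1) → P)) = 0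
      simp only [Fin.succAbove_last, ch_snoc]
      rw [← Finsupp.single_finsetSum, ← mul_sum, hD, mul_zero, Finsupp.single_zero]
    | cast k =>
      have e : ∀ t : Fin (m + 1) → P, α t = -α (t ∘ swap k.castSucc k.succ) := fun t => by
        rw [hα.1 t (swap k.castSucc k.succ), Perm.sign_swap (Fin.castSucc_lt_succ).ne]
        simp
      refine sum_ninvolution (fun t => t ∘ swap k.castSucc k.succ) (fun t => ?_)
        (fun t h ht => h ?_) (fun _ => mem_univ _) fun t => by
          simp [Function.comp_assoc, ← Perm.coe_mul]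
      · rw [ch_swap, ← Finsupp.single_add, e t]
        simp
      · have := e t
        rw [ht] at this
        simp [show α t = 0 by linarith]

end Vale.Agent.P240
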