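import Vale.Agent.P240.Stm3

namespace Vale.Agent.P240

open Matrix

namespace DDAux

variable {E : Type} [Field E] {n : ℕ}

theorem pt_sq {a : Matrix (Fin n) (Fin n) E} (h : IsPt a) : a * a = a := by
  obtain ⟨v, hv, rfl⟩ := h
  rw [vecMulVec_mul_vecMulVec, hv, one_smul]

theorem pt_tr {a : Matrix (Fin n) (Fin n) E} (h : IsPt a) : aᵀ = a := by
  obtain ⟨v, -, rfl⟩ := h
  rw [transpose_vecMulVec]

theorem pt_ne {a : Matrix (Fin n) (Fin n) E} (h : IsPt a) : a ≠ 0 := by
  obtain ⟨v, hv, rfl⟩ := h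
  intro h0
  have := trace_vecMulVec v v
  rw [h0, trace_zero, hv] at this
  exact zero_ne_one this

theorem pt_det {a : Matrix (Fin n) (Fin n) E} (h : IsPt a) (t : E) :
    (1 + t • a).det = 1 + t := by
  obtain ⟨v, hv, rfl⟩ := h
  rw [← smul_vecMulVec, vecMulVec_eq Unit, det_one_add_replicateCol_mul_replicateRow,
    dotProduct_smul, hv, smul_eq_mul, mul_one]

theorem prod {a b : Matrix (Fin n) (Fin n) E} (ha : a * a = a) (hb : b * b = b)
    (hab : a * b = 0) (hba : b * a = 0) (s t s' t' : E) :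
    (1 + s • a + t • b) * (1 + s' • a + t' • b) =
      1 + (s + s' + s * s') • a + (t + t' + t * t') • b := by
  simp only [add_mul, mul_add, one_mul, mul_one, smul_mul_assoc, mul_smul_comm, ha, hb, hab, hba,
    smul_zero, add_zero]
  module

theorem inj {a : Matrix (Fin n) (Fin n) E} (h : a ≠ 0) {s t : E} (hst : s • a = t • a) :
    s = t := by
  have : (s - t) • a = 0 := by rw [sub_smul, hst, sub_self]
  rcases smul_eq_zero.mp this with h1 | h1
  · exact sub_eq_zero.mp h1
  · exact absurd h1 h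

end DDAux

open DDAux in
theorem dd_pf : DStmt := by
  intro E _ m A c hA hc0 hc2
  obtain ⟨hcard, hpt, horth⟩ := hA
  obtain ⟨a, b, p, ha, hb, hp, hab, hap, hbp⟩ :=
    (Finset.two_lt_card_iff (s := A)).mp (by rw [hcard]; omega)
  have ha2 := pt_sq (hpt a ha)
  have hb2 := pt_sq (hpt b hb)
  have h1 := horth a ha b hb hab
  have h2 := horth b hb a ha hab.symm
  have hcomm : ∀ x ∈ A, ∀ y ∈ A, x * y = y * x := by
    intro x hx y hy
    by_cases hxy : x = y
    · rw [hxy]
    · rw [horth x hx y hy hxy, horth y hy x hx (Ne.symm hxy)]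
  refine ⟨a, ha, b, hb, _, rfl, ?_, ?_, ?_, ?_⟩
  · have e : (1 + (c - 1) • a + (c⁻¹ - 1) • b : Matrix (Fin (m + 3)) (Fin (m + 3)) E) =
        (1 + (c - 1) • a) * (1 + (c⁻¹ - 1) • b) := by
      simp only [add_mul, mul_add, one_mul, mul_one, smul_mul_assoc, mul_smul_comm, h1,
        smul_zero, add_zero]
    rw [e, det_mul, pt_det (hpt a ha), pt_det (hpt b hb)]
    field_simp
    ring
  · intro q hq
    simp only [add_mul, mul_add, one_mul, mul_one, smul_mul_assoc, mul_smul_comm,
      hcomm a ha q hq, hcomm b hb q hq]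
  · intro e he
    have ht : (1 + (c - 1) • a + (c⁻¹ - 1) • b : Matrix (Fin (m + 3)) (Fin (m + 3)) E)ᵀ =
        1 + (c - 1) • a + (c⁻¹ - 1) • b := by
      rw [transpose_add, transpose_add, transpose_one, transpose_smul, transpose_smul,
        pt_tr (hpt a ha), pt_tr (hpt b hb)]
    rw [ht, prod ha2 hb2 h1 h2] at he
    have e1 := congrArg (· * p) he
    have e2 := congrArg (· * a) he
    simp only [add_mul, one_mul, smul_mul_assoc, horth a ha p hp hap, horth b hb p hp hbp,
      smul_zero, add_zero] at e1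
    simp only [add_mul, one_mul, smul_mul_assoc, ha2, h2, smul_zero, add_zero] at e2
    have f1 : (1 : E) = e := inj (pt_ne (hpt p hp)) (by rw [one_smul]; exact e1)
    have f2 : c ^ 2 = e := by
      apply inj (pt_ne (hpt a ha))
      rw [← e2]
      module
    exact hc2 (f2.trans f1.symm)
  · rw [prod ha2 hb2 h1 h2]
    have g1 : c⁻¹ - 1 + (c - 1) + (c⁻¹ - 1) * (c - 1) = 0 := by field_simp; ring
    have g2 : c - 1 + (c⁻¹ - 1) + (c - 1) * (c⁻¹ - 1) = 0 := by field_simp; ring
    rw [g1, g2, zero_smul, zero_smul, add_zero, add_zero]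

end Vale.Agent.P240
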