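import Vale.Agent.P240.Stm

namespace Vale.Agent.P240

open Matrix

namespace ExtAux

variable {F : Type} [Field F] {n : ℕ}

theorem app (u v : Fin n → F) : vecMulVec u u *ᵥ v = (u ⬝ᵥ v) • u := by
  ext i
  simp only [mulVec, dotProduct, vecMulVec_apply, Pi.smul_apply, smul_eq_mul, Finset.sum_mul]
  exact Finset.sum_congr rfl fun j _ => by ring

theorem mul_zero_of (y z : Fin n → F) (h : y ⬝ᵥ z = 0) : vecMulVec y y * vecMulVec z z = 0 := by
  rw [vecMulVec_mul_vecMulVec, h, zero_smul, vecMulVec_zero]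

theorem orth (y z : Fin n → F) (hy : y ⬝ᵥ y = 1) (hz : z ⬝ᵥ z = 1)
    (h : vecMulVec y y * vecMulVec z z = 0) : y ⬝ᵥ z = 0 := by
  have h1 : (vecMulVec y y * vecMulVec z z) *ᵥ z = 0 := by rw [h, zero_mulVec]
  rw [← mulVec_mulVec, app z z, hz, one_smul, app] at h1
  have h2 := congrArg (fun w => y ⬝ᵥ w) h1
  simpa [dotProduct_smul, hy] using h2

theorem ne_of (y z : Fin n → F) (hy : y ⬝ᵥ y = 1) (h : z ⬝ᵥ y = 0) :
    vecMulVec y y ≠ vecMulVec z z := fun he => by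
  have h1 := app y y
  rw [he, app, h, hy, zero_smul, one_smul] at h1
  rw [← h1, dotProduct_zero] at hy
  exact zero_ne_one hy

theorem eq_of (w y : Fin n → F) (hw : w ⬝ᵥ w = 1) (hy : y ⬝ᵥ y = 1)
    (he : vecMulVec w w = vecMulVec y y) : w = y ∨ w = -y := by
  have h1 := app w w
  rw [he, app, hw, one_smul] at h1
  generalize y ⬝ᵥ w = t at h1
  rw [← h1, smul_dotProduct, dotProduct_smul, hy, smul_eq_mul, smul_eq_mul, mul_one] at hw
  rcases mul_self_eq_one_iff.1 hw with h | h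
  · left; rw [← h1, h, one_smul]
  · right; rw [← h1, h, neg_one_smul]

/-- the vector with coordinates `c` -/
def W (u v : Fin n → F) (c : F × F) : Fin n → F := c.1 • u + c.2 • v

theorem W_dot {u v : Fin n → F} (hu : u ⬝ᵥ u = 1) (hv : v ⬝ᵥ v = 1) (h : u ⬝ᵥ v = 0)
    (c d : F × F) : W u v c ⬝ᵥ W u v d = c.1 * d.1 + c.2 * d.2 := by
  have h' : v ⬝ᵥ u = 0 := by rw [dotProduct_comm, h]
  simp only [W, add_dotProduct, dotProduct_add, smul_dotProduct, dotProduct_smul, hu, hv, h, h',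
    smul_eq_mul]
  ring

theorem W_eq {u v : Fin n → F} (hu : u ⬝ᵥ u = 1) (hv : v ⬝ᵥ v = 1) (h : u ⬝ᵥ v = 0)
    (c d : F × F) (hc : c.1 ^ 2 + c.2 ^ 2 = 1) (hd : d.1 ^ 2 + d.2 ^ 2 = 1)
    (he : vecMulVec (W u v c) (W u v c) = vecMulVec (W u v d) (W u v d)) : c = d ∨ c = -d := by
  have h1 := fun e => W_dot hu hv h c e
  have h2 := fun e => W_dot hu hv h d e
  rcases eq_of _ _ (by rw [h1, ← hc]; ring) (by rw [h2, ← hd]; ring) he with h3 | h3
  · left
    have a := h1 (1, 0)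
    have b := h1 (0, 1)
    rw [h3, h2] at a b
    exact Prod.ext (by simpa using a.symm) (by simpa using b.symm)
  · right
    have a := h1 (1, 0)
    have b := h1 (0, 1)
    rw [h3, neg_dotProduct, h2] at a b
    exact Prod.ext (by simpa using a.symm) (by simpa using b.symm)

end ExtAux

open ExtAux

theorem ext_pf (hC : CircStmt) : ExtStmt := by
  intro F _ _ _ m A τ Fr h2 hFr hA hτ hm
  obtain ⟨p, q, hpq, hd⟩ := Finset.card_eq_two.1
    (show (A \ τ).card = 2 by rw [Finset.card_sdiff_of_subset hτ, hA.1, hm]; omega)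
  have hp : p ∈ A \ τ := by rw [hd]; simp
  have hq : q ∈ A \ τ := by rw [hd]; simp
  rw [Finset.mem_sdiff] at hp hq
  obtain ⟨u, hu, rfl⟩ := hA.2.1 p hp.1
  obtain ⟨v, hv, rfl⟩ := hA.2.1 q hq.1
  have huv : u ⬝ᵥ v = 0 := orth u v hu hv (hA.2.2 _ hp.1 _ hq.1 hpq)
  have hz : ∀ x ∈ τ, ∃ z, x = vecMulVec z z ∧ ∀ c, z ⬝ᵥ W u v c = 0 := by
    intro x hx
    obtain ⟨z, hz, rfl⟩ := hA.2.1 x (hτ hx)
    have a := orth z u hz hu (hA.2.2 _ (hτ hx) _ hp.1 fun h => hp.2 (h ▸ hx))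
    have b := orth z v hz hv (hA.2.2 _ (hτ hx) _ hq.1 fun h => hq.2 (h ▸ hx))
    exact ⟨z, rfl, fun c => by simp [W, dotProduct_add, dotProduct_smul, a, b]⟩
  have hW := W_dot hu hv huv
  have h1 : ∀ c : F × F, c.1 ^ 2 + c.2 ^ 2 = 1 → W u v c ⬝ᵥ W u v c = 1 := fun c hc => by
    rw [hW, ← hc]; ring
  have hn : ∀ c : F × F, c.1 ^ 2 + c.2 ^ 2 = 1 → vecMulVec (W u v c) (W u v c) ∉ τ := by
    intro c hc hx
    obtain ⟨z, e, hz'⟩ := hz _ hx
    exact ne_of _ z (h1 c hc) (hz' c) e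
  have hr : ∀ c : F × F, c.1 ^ 2 + c.2 ^ 2 = 1 → (-c.2, c.1).1 ^ 2 + (-c.2, c.1).2 ^ 2 = 1 :=
    fun c hc => by rw [← hc]; ring
  refine (hC F h2).trans (Nat.add_le_add_right ?_ 2)
  refine Finset.card_le_mul_card_image_of_maps_to (f := fun c : F × F =>
    insert (vecMulVec (W u v c) (W u v c))
      (insert (vecMulVec (W u v (-c.2, c.1)) (W u v (-c.2, c.1))) τ)) (fun c hc => ?_) 4
    fun B _ => ?_
  · have hc := (Finset.mem_filter.1 hc).2
    have o1 : W u v c ⬝ᵥ W u v (-c.2, c.1) = 0 := by rw [hW]; ring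
    have o2 : W u v (-c.2, c.1) ⬝ᵥ W u v c = 0 := by rw [hW]; ring
    have o3 : ∀ e, ∀ x ∈ τ, x * vecMulVec (W u v e) (W u v e) = 0 ∧
        vecMulVec (W u v e) (W u v e) * x = 0 := fun e x hx => by
      obtain ⟨z, rfl, hz'⟩ := hz _ hx
      exact ⟨mul_zero_of _ _ (hz' e), mul_zero_of _ _ (by rw [dotProduct_comm, hz'])⟩
    refine Finset.mem_filter.2 ⟨(hFr _).2 ⟨?_, ?_, ?_⟩,
      (Finset.subset_insert _ _).trans (Finset.subset_insert _ _)⟩
    · rw [Finset.card_insert_of_notMem, Finset.card_insert_of_notMem (hn _ (hr c hc)), hm]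
      rw [Finset.mem_insert, not_or]
      exact ⟨ne_of _ _ (h1 c hc) o2, hn c hc⟩
    · simp only [Finset.forall_mem_insert]
      exact ⟨⟨_, h1 c hc, rfl⟩, ⟨_, h1 _ (hr c hc), rfl⟩, fun x hx => hA.2.1 x (hτ hx)⟩
    · simp only [Finset.forall_mem_insert]
      exact ⟨⟨fun h => absurd rfl h, fun _ => mul_zero_of _ _ o1, fun x hx _ => (o3 _ x hx).2⟩,
        ⟨fun _ => mul_zero_of _ _ o2, fun h => absurd rfl h, fun x hx _ => (o3 _ x hx).2⟩,
        fun x hx => ⟨fun _ => (o3 _ x hx).1, fun _ => (o3 _ x hx).1,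
          fun y hy => hA.2.2 x (hτ hx) y (hτ hy)⟩⟩
  · rcases Finset.eq_empty_or_nonempty (Finset.filter (fun c : F × F =>
      insert (vecMulVec (W u v c) (W u v c))
        (insert (vecMulVec (W u v (-c.2, c.1)) (W u v (-c.2, c.1))) τ) = B)
        (Finset.univ.filter fun x : F × F => x.1 ^ 2 + x.2 ^ 2 = 1)) with h | ⟨d, hd'⟩
    · rw [h]; simp
    · obtain ⟨hd1, hd2⟩ := Finset.mem_filter.1 hd'
      have hd1 := (Finset.mem_filter.1 hd1).2
      refine (Finset.card_le_card (t := {d, -d, (-d.2, d.1), -(-d.2, d.1)}) fun c hc => ?_).trans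
        Finset.card_le_four
      obtain ⟨hc1, hc2⟩ := Finset.mem_filter.1 hc
      have hc1 := (Finset.mem_filter.1 hc1).2
      have hm' := Finset.mem_insert_self (vecMulVec (W u v c) (W u v c))
        (insert (vecMulVec (W u v (-c.2, c.1)) (W u v (-c.2, c.1))) τ)
      rw [hc2, ← hd2, Finset.mem_insert, Finset.mem_insert] at hm'
      simp only [Finset.mem_insert, Finset.mem_singleton]
      rcases hm' with h | h | h
      · rcases W_eq hu hv huv c d hc1 hd1 h with e | e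
        · exact Or.inl e
        · exact Or.inr (Or.inl e)
      · rcases W_eq hu hv huv c _ hc1 (hr d hd1) h with e | e
        · exact Or.inr (Or.inr (Or.inl e))
        · exact Or.inr (Or.inr (Or.inr e))
      · exact absurd h (hn c hc1)

end Vale.Agent.P240
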