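import Vale.Agent.P240.Stm3

namespace Vale.Agent.P240

open Matrix

namespace FamAux

variable {F E : Type} [Field F] [Field E] {n : ℕ}

theorem inj (f : F →+* E) :
    Function.Injective fun b : Matrix (Fin n) (Fin n) F => b.map f :=
  Matrix.map_injective f.injective

theorem pt (f : F →+* E) {p : Matrix (Fin n) (Fin n) F} (h : IsPt p) : IsPt (p.map f) := by
  obtain ⟨v, h1, rfl⟩ := h
  refine ⟨f ∘ v, ?_, ?_⟩
  · rw [← RingHom.map_dotProduct, h1, map_one]
  · ext i j
    simp [vecMulVec_apply]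

theorem frame [DecidableEq E] (f : F →+* E) {B : Finset (Matrix (Fin n) (Fin n) F)}
    (h : IsFrame B) : IsFrame (B.image fun b => b.map f) := by
  refine ⟨by rw [Finset.card_image_of_injective _ (inj f), h.1], fun p hp => ?_,
    fun p hp p' hp' hne => ?_⟩
  · obtain ⟨b, hb, rfl⟩ := Finset.mem_image.mp hp
    exact pt f (h.2.1 b hb)
  · obtain ⟨b, hb, rfl⟩ := Finset.mem_image.mp hp
    obtain ⟨b', hb', rfl⟩ := Finset.mem_image.mp hp'
    rw [← Matrix.map_mul, h.2.2 b hb b' hb' fun e => hne (by rw [e])]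
    exact Matrix.map_zero _ (map_zero f)

end FamAux

open FamAux

theorem fam_pf (hE : ExtStmt) (hC : CountStmt) : FamStmt := by
  intro F E _ _ _ _ f m h2 hF
  classical
  obtain ⟨Fr, hFr⟩ : ∃ Fr : Finset (Finset (Matrix (Fin (m + 2)) (Fin (m + 2)) F)),
      ∀ B, B ∈ Fr ↔ IsFrame B := ⟨Finset.univ.filter IsFrame, fun B => by simp⟩
  refine ⟨Fr.image fun B => B.image fun b => b.map f, Finset.Nonempty.image ?_ _,
    fun A hA => ?_, fun A hA τ hτ hc => ?_⟩
  · have h := hC F m Fr ∅ h2 (by omega) hFr (by simp)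
    rw [Finset.card_empty] at h
    exact Finset.card_pos.mp (Nat.pos_of_mul_pos_left h)
  · obtain ⟨B, hB, rfl⟩ := Finset.mem_image.mp hA
    refine ⟨frame f ((hFr B).1 hB), fun a ha => ?_⟩
    obtain ⟨b, -, rfl⟩ := Finset.mem_image.mp ha
    exact ⟨b, rfl⟩
  · obtain ⟨B, hB, rfl⟩ := Finset.mem_image.mp hA
    obtain ⟨τ1, t1, rfl⟩ := Finset.subset_image_iff.mp hτ
    rw [Finset.card_image_of_injective _ (inj f)] at hc
    have h := hE F m B τ1 Fr h2 hFr ((hFr B).1 hB) t1 hc
    refine le_trans (by omega : m + 6 ≤ (Fr.filter fun B => τ1 ⊆ B).card) ?_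
    refine Finset.card_le_card_of_injOn (fun B => B.image fun b => b.map f) (fun B' hB' => ?_)
      (Finset.image_injective (inj f)).injOn
    obtain ⟨a1, a2⟩ := Finset.mem_filter.mp hB'
    exact Finset.mem_filter.mpr ⟨Finset.mem_image_of_mem _ a1, Finset.image_subset_image a2⟩

end Vale.Agent.P240
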