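import Vale.Agent.P240.Stm3

namespace Vale.Agent.P240

open Matrix

theorem frconj_pf : FrConjStmt := by
  intro E _ _ n h h' c A hn hd hh hc hA
  obtain ⟨h1, h2, h3⟩ := hA
  obtain ⟨k, hk⟩ := hn
  have hh' : h' * h = 1 := mul_eq_one_comm.1 hh
  have cn : c ^ n = 1 := by
    have e := congrArg Matrix.det hc
    rw [det_mul, det_transpose, hd, det_smul, det_one, Fintype.card_fin, mul_one, mul_one] at e
    exact e.symm
  have ce : c ^ k * c ^ k * c = 1 := by
    rw [← cn, hk]
    ring
  generalize c ^ k = e at ce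
  have ht : hᵀ = c • h' := by
    rw [← Matrix.one_mul hᵀ, ← hh', Matrix.mul_assoc, hc, Matrix.mul_smul, Matrix.mul_one]
  have hi : h' = (e * e) • hᵀ := by rw [ht, smul_smul, ce, one_smul]
  have tt : hᵀ * h = c • (1 : Matrix (Fin n) (Fin n) E) := by rw [ht, Matrix.smul_mul, hh']
  have inj : Function.Injective fun a : Matrix (Fin n) (Fin n) E => h * a * h' := by
    intro a b q
    have q' : h * a * h' = h * b * h' := q
    have r : ∀ x : Matrix (Fin n) (Fin n) E, h' * (h * x * h') * h = x := fun x => by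
      rw [Matrix.mul_assoc h, ← Matrix.mul_assoc h', hh', Matrix.one_mul, Matrix.mul_assoc, hh',
        Matrix.mul_one]
    rw [← r a, q', r b]
  refine ⟨by rw [Finset.card_image_of_injective _ inj, h1], fun p hp => ?_, fun p hp q hq ne => ?_⟩
  · obtain ⟨a, ha, rfl⟩ := Finset.mem_image.1 hp
    obtain ⟨v, hv, rfl⟩ := h2 a ha
    refine ⟨e • h *ᵥ v, ?_, ?_⟩
    · have s : (h *ᵥ v) ⬝ᵥ (h *ᵥ v) = c := by
        rw [dotProduct_mulVec, vecMul_mulVec, tt, vecMul_smul, vecMul_one, smul_dotProduct, hv,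
          smul_eq_mul, mul_one]
      rw [smul_dotProduct, dotProduct_smul, s, smul_eq_mul, smul_eq_mul, ← mul_assoc, ce]
    · rw [hi, Matrix.mul_smul, mul_vecMulVec, vecMulVec_mul, vecMul_transpose, smul_vecMulVec,
        vecMulVec_smul, smul_smul]
  · obtain ⟨a, ha, rfl⟩ := Finset.mem_image.1 hp
    obtain ⟨b, hb, rfl⟩ := Finset.mem_image.1 hq
    have z := h3 a ha b hb fun y => ne (by rw [y])
    calc h * a * h' * (h * b * h') = h * (a * (h' * h) * b) * h' := by
          simp only [Matrix.mul_assoc]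
      _ = 0 := by rw [hh', Matrix.mul_one, z, Matrix.mul_zero, Matrix.zero_mul]

end Vale.Agent.P240
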