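import Vale.Agent.P240.Stm3

namespace Vale.Agent.P240

theorem gcard_pf : GCardStmt := by
  intro G _ _ K m X c h1 h3 hc
  have nm : ∀ x ∈ X, ∀ a, x.1 ∉ x.2.erase a := fun x hx a h =>
    (h1 x hx).1 ((h1 x hx).2.2.2 _ (Finset.mem_of_mem_erase h)).1
  rw [topS, Finset.card_biUnion, Finset.sum_const_nat (m := m + 1), mul_comm]
  · intro x hx
    rw [Finset.card_image_of_injOn, Finset.card_erase_of_mem (hc x hx), (h1 x hx).2.2.1]
    · rfl
    intro a ha b _ hab
    have e := congrArg (fun s => Finset.erase s x.1) hab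
    simp only [Finset.erase_insert (nm x hx _)] at e
    exact (Finset.erase_inj x.2 (Finset.mem_of_mem_erase ha)).1 e
  · intro x hx y hy hxy
    refine Finset.disjoint_left.2 fun σ k1 k2 => hxy ?_
    obtain ⟨a, ha, rfl⟩ := Finset.mem_image.1 k1
    obtain ⟨b, hb, e⟩ := Finset.mem_image.1 k2
    have e1 : x.1 = y.1 := by
      have : x.1 ∈ insert y.1 (y.2.erase b) := e ▸ Finset.mem_insert_self _ _
      refine (Finset.mem_insert.1 this).resolve_right fun h => ?_
      exact (h1 x hx).1 ((h1 y hy).2.2.2 _ (Finset.mem_of_mem_erase h)).1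
    have e2 : y.2.erase b = x.2.erase a := by
      rw [← Finset.erase_insert (nm y hy b), e, ← e1, Finset.erase_insert (nm x hx a)]
    have hcard : (x.2.erase a).card = m + 1 := by
      rw [Finset.card_erase_of_mem (Finset.mem_of_mem_erase ha), (h1 x hx).2.2.1]
      rfl
    let t := (Finset.equivFinOfCardEq hcard).symm
    have ti : Function.Injective fun i => (t i).1 := Subtype.val_injective.comp t.injective
    have := (h3 x hx y hy e1 _ _ ti ti (fun i => Finset.mem_of_mem_erase (t i).2)
      (fun i => Finset.mem_of_mem_erase (e2.ge (t i).2)) rfl).1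
    exact Prod.ext e1 this.symm

end Vale.Agent.P240
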