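import Vale.Agent.P240.Stm3

namespace Vale.Agent.P240

namespace GSimpAux

theorem last_not {G P : Type} [Group G] (s : P → G) (m : ℕ) (t : Fin (m + 1) → P)
    (h : IsSimplex 2 (ch s t)) :
    s (t (Fin.last m)) ∉ Subgroup.closure (s '' (t '' {l | l ≠ Fin.last m})) := by
  intro hm
  have hle : ch s t (Fin.last m) ≤ Subgroup.closure (s '' (t '' {l | l ≠ Fin.last m})) := by
    unfold ch
    rw [Subgroup.closure_le]
    rintro _ ⟨_, ⟨l, -, rfl⟩, rfl⟩
    by_cases hl : l = Fin.last m
    · rw [hl]; exact hm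
    · exact Subgroup.subset_closure ⟨_, ⟨l, hl, rfl⟩, rfl⟩
  cases m with
  | zero =>
    apply (h.2 (Fin.last 0)).1
    rw [eq_bot_iff]
    refine hle.trans ?_
    rw [Subgroup.closure_le]
    rintro _ ⟨_, ⟨l, hl, rfl⟩, rfl⟩
    exact absurd (Fin.ext (by have := l.2; simp only [Fin.val_last]; omega)) hl
  | succ m =>
    have hlt : ch s t (Fin.castSucc (Fin.last m)) < ch s t (Fin.last (m + 1)) :=
      h.1 (Fin.castSucc_lt_last _)
    refine absurd (hle.trans ?_) hlt.not_ge
    unfold ch
    apply Subgroup.closure_mono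
    rintro _ ⟨_, ⟨l, hl, rfl⟩, rfl⟩
    refine ⟨_, ⟨l, ?_, rfl⟩, rfl⟩
    have h1 : l.val ≠ m + 1 := fun h2 => hl (Fin.ext h2)
    have h2 := l.2
    show l.val ≤ m
    omega

theorem elem_closure {G : Type} [Group G] (S : Set G) (hc : ∀ x ∈ S, ∀ y ∈ S, x * y = y * x)
    (h2 : ∀ x ∈ S, x ^ 2 = 1) :
    (∀ x ∈ Subgroup.closure S, ∀ y ∈ Subgroup.closure S, x * y = y * x) ∧
      ∀ x ∈ Subgroup.closure S, x ^ 2 = 1 := by
  have hA : ∀ x ∈ Subgroup.closure S, ∀ y ∈ Subgroup.closure S, Commute x y := by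
    intro x hx y hy
    induction hx, hy using Subgroup.closure_induction₂ with
    | mem x y hx hy => exact hc x hx y hy
    | one_left x _ => exact Commute.one_left x
    | one_right x _ => exact Commute.one_right x
    | mul_left x y z _ _ _ h1 h2 => exact h1.mul_left h2
    | mul_right x y z _ _ _ h1 h2 => exact h1.mul_right h2
    | inv_left x y _ _ h => exact h.inv_left
    | inv_right x y _ _ h => exact h.inv_right
  refine ⟨fun x hx y hy => hA x hx y hy, ?_⟩
  intro x hx
  induction hx using Subgroup.closure_induction with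
  | mem x hx => exact h2 x hx
  | one => exact one_pow 2
  | mul x y hx hy h1 h3 => rw [(hA x hx y hy).mul_pow, h1, h3, one_mul]
  | inv x _ h => rw [inv_pow, h, inv_one]

theorem enum {G : Type} (m : ℕ) (Y : Finset G) (hY : Y.card = m + 1) (b : G) (hb : b ∈ Y) :
    ∃ u : Fin (m + 1) → G, Function.Injective u ∧ (∀ l, u l ∈ Y) ∧ (∀ y ∈ Y, ∃ l, u l = y) ∧
      u (Fin.last m) = b := by
  let e : Fin (m + 1) ≃ Y :=
    (Equiv.swap (Y.equivFinOfCardEq hY ⟨b, hb⟩) (Fin.last m)).trans (Y.equivFinOfCardEq hY).symm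
  refine ⟨fun l => (e l).1, Subtype.val_injective.comp e.injective, fun l => (e l).2,
    fun y hy => ⟨e.symm ⟨y, hy⟩, ?_⟩, ?_⟩
  · show (e (e.symm ⟨y, hy⟩)).1 = y
    rw [Equiv.apply_symm_apply]
  · show (e (Fin.last m)).1 = b
    simp only [e, Equiv.trans_apply, Equiv.swap_apply_right, Equiv.symm_apply_apply]

theorem split {G : Type} [Group G] (S : Set G) (d : G) (hd : d * d = 1)
    (hc : ∀ y ∈ S, d * y = y * d) (g : G) (hg : g ∈ Subgroup.closure (insert d S)) :
    g ∈ Subgroup.closure S ∨ g * d ∈ Subgroup.closure S := by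
  have hcm : ∀ g ∈ Subgroup.closure (insert d S), Commute d g := by
    intro g hg
    induction hg using Subgroup.closure_induction with
    | mem x hx =>
      rcases hx with hx | hx
      · rw [hx]
      · exact hc x hx
    | one => exact Commute.one_right d
    | mul x y _ _ h1 h2 => exact h1.mul_right h2
    | inv x _ h => exact h.inv_right
  induction hg using Subgroup.closure_induction with
  | mem x hx =>
    rcases hx with hx | hx
    · right
      rw [hx, hd]
      exact one_mem _
    · exact Or.inl (Subgroup.subset_closure hx)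
  | one => exact Or.inl (one_mem _)
  | mul x y _ hy h1 h2 =>
    have e := (hcm y hy).eq
    rcases h1 with h1 | h1 <;> rcases h2 with h2 | h2
    · exact Or.inl (mul_mem h1 h2)
    · right
      rw [mul_assoc]
      exact mul_mem h1 h2
    · right
      rw [mul_assoc, ← e, ← mul_assoc]
      exact mul_mem h1 h2
    · left
      have e2 : x * d * (y * d) = x * y := by
        rw [← e, mul_assoc x, ← mul_assoc d, hd, one_mul]
      rw [← e2]
      exact mul_mem h1 h2
  | inv x hx h =>
    rcases h with h | h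
    · exact Or.inl (inv_mem h)
    · right
      have e2 : (x * d)⁻¹ = x⁻¹ * d := by
        rw [mul_inv_rev, inv_eq_of_mul_eq_one_right hd]
        exact (hcm x hx).inv_right.eq
      rw [← e2]
      exact inv_mem h

end GSimpAux

open GSimpAux in
theorem gsimp_pf : GSimpStmt := by
  intro G _ _ K m X h1 h2 x hx a ha t ht
  obtain ⟨hdK, hdd, hcard, hA⟩ := h1 x hx
  have hYc : (x.2.erase a).card = m + 1 := by
    rw [Finset.card_erase_of_mem ha, hcard]
    rfl
  have hYK : ∀ y ∈ x.2.erase a, y ∈ K := fun y hy => (hA y (Finset.mem_of_mem_erase hy)).1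
  have hYd : ∀ y ∈ x.2.erase a, x.1 * y = y * x.1 :=
    fun y hy => (hA y (Finset.mem_of_mem_erase hy)).2
  have hF : ∀ b ∈ x.2.erase a, (∀ c ∈ x.2.erase a, b * c = c * b) ∧ b ^ 2 = 1 ∧
      b ∉ Subgroup.closure {y | y ∈ x.2.erase a ∧ y ≠ b} := by
    intro b hb
    obtain ⟨u, hu1, hu2, hu3, hu4⟩ := enum m _ hYc b hb
    have hs := h2 x hx u hu1 fun i => Finset.mem_of_mem_erase (hu2 i)
    have hm : ∀ c ∈ x.2.erase a, c ∈ ch id u (Fin.last m) := by
      intro c hc
      obtain ⟨l, hl⟩ := hu3 c hc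
      exact Subgroup.subset_closure ⟨_, ⟨l, Fin.le_last l, hl⟩, rfl⟩
    refine ⟨fun c hc => (hs.2 _).2.1 _ (hm b hb) _ (hm c hc), (hs.2 _).2.2 _ (hm b hb),
      fun hn => last_not id m u hs ?_⟩
    rw [hu4]
    refine Subgroup.closure_mono ?_ hn
    rintro y ⟨hy1, hy2⟩
    obtain ⟨l, hl⟩ := hu3 y hy1
    refine ⟨y, ⟨l, fun h => hy2 ?_, hl⟩, rfl⟩
    rw [← hl, h, hu4]
  have hinj : Function.Injective t := by
    have hc : (Finset.univ.image t).card = (Finset.univ : Finset (Fin (m + 2))).card := by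
      rw [ht, Finset.card_insert_of_notMem fun h => hdK (hYK _ h), hYc, Finset.card_univ,
        Fintype.card_fin]
    intro i j hij
    exact Finset.card_image_iff.1 hc (by simp) (by simp) hij
  have hmem : ∀ j, t j = x.1 ∨ t j ∈ x.2.erase a := fun j =>
    Finset.mem_insert.1 (ht ▸ Finset.mem_image_of_mem t (Finset.mem_univ j))
  have key : ∀ j, t j ∉ Subgroup.closure (id '' (t '' Set.Iio j)) := by
    intro j hm
    rcases hmem j with hj | hj
    · have hle : Subgroup.closure (id '' (t '' Set.Iio j)) ≤ K := by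
        rw [Subgroup.closure_le]
        rintro _ ⟨_, ⟨l, hl, rfl⟩, rfl⟩
        rcases hmem l with h | h
        · exact absurd (hinj (h.trans hj.symm)) (ne_of_lt hl)
        · exact hYK _ h
      exact hdK (hj ▸ hle hm)
    · have hsub : id '' (t '' Set.Iio j) ⊆ insert x.1 {y | y ∈ x.2.erase a ∧ y ≠ t j} := by
        rintro _ ⟨_, ⟨l, hl, rfl⟩, rfl⟩
        rcases hmem l with h | h
        · exact Or.inl h
        · exact Or.inr ⟨h, fun e => absurd (hinj e) (ne_of_lt hl)⟩
      rcases split _ x.1 hdd (fun y hy => hYd y hy.1) _ (Subgroup.closure_mono hsub hm) with h | h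
      · exact (hF _ hj).2.2 h
      · have hle : Subgroup.closure {y | y ∈ x.2.erase a ∧ y ≠ t j} ≤ K := by
          rw [Subgroup.closure_le]
          exact fun y hy => hYK y hy.1
        exact hdK ((K.mul_mem_cancel_left (hYK _ hj)).1 (hle h))
  have hgen : ∀ j, t j ∈ ch id t j := fun j =>
    Subgroup.subset_closure ⟨_, ⟨j, Set.mem_Iic.2 le_rfl, rfl⟩, rfl⟩
  refine ⟨?_, ?_⟩
  · intro i j hij
    refine lt_of_le_of_ne ?_ ?_
    · exact Subgroup.closure_mono
        (Set.image_mono (Set.image_mono (Set.Iic_subset_Iic.2 hij.le)))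
    · intro heq
      apply key j
      have h3 := hgen j
      rw [← heq] at h3
      refine Subgroup.closure_mono ?_ h3
      exact Set.image_mono (Set.image_mono (Set.Iic_subset_Iio.2 hij))
  · intro j
    refine ⟨?_, ?_⟩
    · intro hb
      have h3 := hgen j
      rw [hb, Subgroup.mem_bot] at h3
      apply key j
      rw [h3]
      exact one_mem _
    · apply elem_closure
      · rintro _ ⟨_, ⟨i, -, rfl⟩, rfl⟩ _ ⟨_, ⟨l, -, rfl⟩, rfl⟩
        show t i * t l = t l * t i
        rcases hmem i with hi | hi <;> rcases hmem l with hl | hl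
        · rw [hi, hl]
        · rw [hi]
          exact hYd _ hl
        · rw [hl]
          exact (hYd _ hi).symm
        · exact (hF _ hi).1 _ hl
      · rintro _ ⟨_, ⟨i, -, rfl⟩, rfl⟩
        show t i ^ 2 = 1
        rcases hmem i with hi | hi
        · rw [hi, pow_two, hdd]
        · exact (hF _ hi).2.1

end Vale.Agent.P240
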