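import Vale.Agent.P240.Stm3

namespace Vale.Agent.P240

theorem gt1_pf : GT1Stmt := by
  intro G _ m X hc h5
  have h1 : (X.biUnion fun x => x.2.image x.2.erase) ⊆
      (X.image Prod.snd).biUnion fun A => A.image A.erase := by
    intro s hs
    obtain ⟨x, hx, hs⟩ := Finset.mem_biUnion.1 hs
    exact Finset.mem_biUnion.2 ⟨x.2, Finset.mem_image_of_mem _ hx, hs⟩
  have h2 : ((X.image Prod.snd).biUnion fun A => A.image A.erase).card ≤
      (X.image Prod.snd).card * (m + 2) := by
    refine Finset.card_biUnion_le_card_mul _ _ _ fun A hA => ?_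
    obtain ⟨x, hx, rfl⟩ := Finset.mem_image.1 hA
    exact Finset.card_image_le.trans (hc x hx).le
  have h3 : 2 * (X.image Prod.snd).card ≤ X.card := by
    refine Finset.mul_card_image_le_card X 2 fun A hA => ?_
    obtain ⟨x, hx, rfl⟩ := Finset.mem_image.1 hA
    obtain ⟨y, hy, hne, he⟩ := h5 x hx
    exact Finset.one_lt_card.2 ⟨y, Finset.mem_filter.2 ⟨hy, he⟩, x,
      Finset.mem_filter.2 ⟨hx, rfl⟩, fun h => hne (by rw [h])⟩
  have h4 := (Finset.card_le_card h1).trans h2
  calc 2 * (X.biUnion fun x => x.2.image x.2.erase).card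
      ≤ 2 * ((X.image Prod.snd).card * (m + 2)) := Nat.mul_le_mul_left 2 h4
    _ = (m + 2) * (2 * (X.image Prod.snd).card) := by ring
    _ ≤ (m + 2) * X.card := Nat.mul_le_mul_left _ h3

end Vale.Agent.P240
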