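import Vale.Agent.P240.Stm3

namespace Vale.Agent.P240

namespace GT2Aux

theorem two_choose (m : ℕ) : 2 * Nat.choose (m + 2) m = (m + 2) * (m + 1) := by
  rw [Nat.choose_symm_add, Nat.choose_two_right]
  have h : 2 ∣ (m + 2) * (m + 2 - 1) := by
    have := Nat.even_mul_succ_self (m + 1)
    rw [mul_comm] at this
    exact this.two_dvd
  rw [Nat.mul_div_cancel' h]
  rfl

/-- pairs of an outer element and a face of one of its frames -/
def W {G : Type} [DecidableEq G] (m : ℕ) (X : Finset (G × Finset G)) : Finset (G × Finset G) :=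
  X.biUnion fun x => (x.2.powersetCard m).image fun τ => (x.1, τ)

theorem mem_W {G : Type} [DecidableEq G] (m : ℕ) (X : Finset (G × Finset G))
    (w : G × Finset G) (hw : w ∈ W m X) : ∃ x ∈ X, w.1 = x.1 ∧ w.2 ⊆ x.2 ∧ w.2.card = m := by
  obtain ⟨x, hx, hw'⟩ := Finset.mem_biUnion.1 hw
  obtain ⟨τ, hτ, rfl⟩ := Finset.mem_image.1 hw'
  exact ⟨x, hx, rfl, (Finset.mem_powersetCard.1 hτ).1, (Finset.mem_powersetCard.1 hτ).2⟩

theorem card_le {G : Type} [DecidableEq G] (m : ℕ) (X : Finset (G × Finset G)) :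
    (X.biUnion fun x => (x.2.powersetCard m).image (insert x.1)).card ≤ (W m X).card := by
  refine le_trans (Finset.card_le_card ?_)
    (Finset.card_image_le (s := W m X) (f := fun w => insert w.1 w.2))
  intro σ hσ
  obtain ⟨x, hx, hσ'⟩ := Finset.mem_biUnion.1 hσ
  obtain ⟨τ, hτ, rfl⟩ := Finset.mem_image.1 hσ'
  exact Finset.mem_image.2 ⟨(x.1, τ),
    Finset.mem_biUnion.2 ⟨x, hx, Finset.mem_image.2 ⟨τ, hτ, rfl⟩⟩, rfl⟩

theorem dbl {G : Type} [DecidableEq G] (m : ℕ) (X : Finset (G × Finset G))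
    (h1 : ∀ x ∈ X, x.2.card = m + 2) (h4 : Sys4 m X) :
    (W m X).card * (m + 6) ≤ X.card * Nat.choose (m + 2) m := by
  refine Finset.card_mul_le_card_mul
    (fun (w y : G × Finset G) => y.1 = w.1 ∧ w.2 ⊆ y.2) ?_ ?_
  · intro w hw
    obtain ⟨x, hx, e1, e2, e3⟩ := mem_W m X w hw
    refine le_trans (h4 x hx w.2 e2 e3) (Finset.card_le_card ?_)
    intro y hy
    obtain ⟨a, b, c⟩ := Finset.mem_filter.1 hy
    exact Finset.mem_filter.2 ⟨a, b.trans e1.symm, c⟩
  · intro y hy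
    have h5 : (y.2.powersetCard m).card = Nat.choose (m + 2) m := by
      rw [Finset.card_powersetCard, h1 y hy]
    rw [← h5]
    refine le_trans (Finset.card_le_card ?_)
      (Finset.card_image_le (s := y.2.powersetCard m) (f := fun τ => (y.1, τ)))
    intro w hw
    obtain ⟨a, b, c⟩ := Finset.mem_filter.1 hw
    obtain ⟨x, _, _, _, e3⟩ := mem_W m X w a
    exact Finset.mem_image.2 ⟨w.2, Finset.mem_powersetCard.2 ⟨c, e3⟩, Prod.ext b rfl⟩

end GT2Aux

theorem gt2_pf : GT2Stmt := by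
  intro G _ m X h1 h4
  have a1 := GT2Aux.card_le m X
  have a2 := GT2Aux.dbl m X h1 h4
  have a3 := GT2Aux.two_choose m
  calc 2 * (m + 6) * (X.biUnion fun x => (x.2.powersetCard m).image (insert x.1)).card
      ≤ 2 * (m + 6) * (GT2Aux.W m X).card := Nat.mul_le_mul_left _ a1
    _ = 2 * ((GT2Aux.W m X).card * (m + 6)) := by ring
    _ ≤ 2 * (X.card * Nat.choose (m + 2) m) := Nat.mul_le_mul_left _ a2
    _ = 2 * Nat.choose (m + 2) m * X.card := by ring
    _ = (m + 2) * (m + 1) * X.card := by rw [a3]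

end Vale.Agent.P240
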