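import Vale.Agent.P240.Stm2

namespace Vale.Agent.P240

namespace WRankAux

theorem count {G β : Type} [Group G] [Finite G] (E K : Subgroup G) (φ : G → β) (O : Finset β)
    (hO : ∀ g ∈ E, φ g ∈ O) (hK : ∀ g ∈ E, ∀ h ∈ E, φ g = φ h → g⁻¹ * h ∈ K) :
    Nat.card E ≤ Nat.card K * O.card := by
  classical
  have := Fintype.ofFinite G
  have h1 : Nat.card E = (Finset.univ.filter (fun g : G => g ∈ E)).card :=
    Nat.subtype_card _ (by intro x; simp)
  have h2 : Nat.card K = (Finset.univ.filter (fun g : G => g ∈ K)).card :=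
    Nat.subtype_card _ (by intro x; simp)
  rw [h1, h2]
  refine Finset.card_le_mul_card_image_of_maps_to (f := φ) ?_ _ ?_
  · intro a ha
    exact hO a (Finset.mem_filter.1 ha).2
  · intro b _
    rcases (Finset.filter (fun a => φ a = b)
      (Finset.univ.filter (fun g : G => g ∈ E))).eq_empty_or_nonempty with h | ⟨g₀, hg₀⟩
    · rw [h]; exact Nat.zero_le _
    · have hg := Finset.mem_filter.1 hg₀
      refine Finset.card_le_card_of_injOn (fun a => g₀⁻¹ * a) ?_ ?_
      · intro a ha
        have ha' := Finset.mem_filter.1 (Finset.mem_coe.1 ha)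
        refine Finset.mem_coe.2 (Finset.mem_filter.2 ⟨Finset.mem_univ _, ?_⟩)
        exact hK g₀ (Finset.mem_filter.1 hg.1).2 a (Finset.mem_filter.1 ha'.1).2
          (hg.2.trans ha'.2.symm)
      · intro a _ a' _ h
        exact mul_left_cancel h

theorem mul_le_pow (M n : ℕ) (hM : 2 ≤ M) (hn : 0 < n) : M * n ≤ M ^ n := by
  obtain ⟨m, rfl⟩ : ∃ m, n = m + 1 := ⟨n - 1, by omega⟩
  have h1 : m < 2 ^ m := Nat.lt_two_pow_self
  have h2 : 2 ^ m ≤ M ^ m := Nat.pow_le_pow_left hM m
  rw [pow_succ, mul_comm (M ^ m) M]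
  exact Nat.mul_le_mul_left M (by omega)

theorem mul_left_app {H : Type} [Group H] {k : ℕ}
    (a b : (Fin k → H) ⋊[mulAutArrow] Equiv.Perm (Fin k)) (x : Fin k) :
    (a * b).left x = a.left x * b.left (a.right⁻¹ x) := by
  rw [SemidirectProduct.mul_left]
  rfl

theorem mul_left_fix {H : Type} [Group H] {k : ℕ}
    (a b : (Fin k → H) ⋊[mulAutArrow] Equiv.Perm (Fin k)) (x : Fin k) (h : a.right x = x) :
    (a * b).left x = a.left x * b.left x := by
  rw [mul_left_app]
  have : a.right⁻¹ x = x := by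
    rw [Equiv.Perm.inv_eq_iff_eq]
    exact h.symm
  rw [this]

theorem mul_right_app {H : Type} [Group H] {k : ℕ}
    (a b : (Fin k → H) ⋊[mulAutArrow] Equiv.Perm (Fin k)) (x : Fin k) :
    (a * b).right x = a.right (b.right x) := by
  rw [SemidirectProduct.mul_right]
  rfl

theorem main (H : Type) [Group H] [Finite H] (k M : ℕ) (hM : 2 ≤ M)
    (hH : ∀ E : Subgroup H, IsElemAb 2 E → Nat.card E ≤ M) (n : ℕ) :
    ∀ (X : Finset (Fin k)), X.card = n →
      ∀ E : Subgroup ((Fin k → H) ⋊[mulAutArrow] Equiv.Perm (Fin k)),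
      (∀ a ∈ E, ∀ b ∈ E, a * b = b * a) → (∀ a ∈ E, a * a = 1) →
      (∀ g ∈ E, ∀ x, x ∉ X → g.right x = x ∧ g.left x = 1) → Nat.card E ≤ M ^ X.card := by
  classical
  have : Finite ((Fin k → H) ⋊[mulAutArrow] Equiv.Perm (Fin k)) :=
    Finite.of_equiv _ SemidirectProduct.equivProd.symm
  induction n using Nat.strong_induction_on with
  | _ n ih =>
  intro X hX E hc hs hx
  have hinv : ∀ a ∈ E, a⁻¹ = a := fun a ha => inv_eq_of_mul_eq_one_right (hs a ha)
  rcases X.eq_empty_or_nonempty with h0 | ⟨x, hxX⟩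
  · have hE : E = ⊥ := by
      rw [eq_bot_iff]
      intro g hg
      rw [Subgroup.mem_bot]
      apply SemidirectProduct.ext
      · funext y
        exact (hx g hg y (by rw [h0]; simp)).2
      · apply Equiv.ext
        intro y
        exact (hx g hg y (by rw [h0]; simp)).1
    rw [hE, Subgroup.card_bot]
    exact Nat.one_le_pow _ _ (by omega)
  · let O : Finset (Fin k) := Finset.univ.filter (fun y => ∃ g ∈ E, g.right x = y)
    have hOm : ∀ y, y ∈ O ↔ ∃ g ∈ E, g.right x = y := by
      intro y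
      simp only [O, Finset.mem_filter, Finset.mem_univ, true_and]
    have hOX : O ⊆ X := by
      intro y hy
      obtain ⟨f, hf, hfy⟩ := (hOm y).1 hy
      by_contra hn
      have h1 := (hx f hf y hn).1
      have h2 : y = x := f.right.injective (h1.trans hfy.symm)
      exact hn (h2 ▸ hxX)
    have hxO : x ∈ O := (hOm x).2 ⟨1, E.one_mem, rfl⟩
    let E1 : Subgroup ((Fin k → H) ⋊[mulAutArrow] Equiv.Perm (Fin k)) :=
      { carrier := {g | g ∈ E ∧ g.right x = x}
        one_mem' := ⟨E.one_mem, rfl⟩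
        mul_mem' := by
          intro a b ha hb
          refine ⟨E.mul_mem ha.1 hb.1, ?_⟩
          rw [mul_right_app, hb.2, ha.2]
        inv_mem' := by
          intro a ha
          rw [hinv a ha.1]
          exact ha }
    have hE1 : ∀ g, g ∈ E1 ↔ g ∈ E ∧ g.right x = x := fun g => Iff.rfl
    let E2 : Subgroup ((Fin k → H) ⋊[mulAutArrow] Equiv.Perm (Fin k)) :=
      { carrier := {g | (g ∈ E ∧ g.right x = x) ∧ g.left x = 1}
        one_mem' := ⟨⟨E.one_mem, rfl⟩, rfl⟩
        mul_mem' := by
          intro a b ha hb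
          refine ⟨E1.mul_mem ((hE1 a).2 ha.1) ((hE1 b).2 hb.1), ?_⟩
          rw [mul_left_fix a b x ha.1.2, ha.2, hb.2, mul_one]
        inv_mem' := by
          intro a ha
          rw [hinv a ha.1.1]
          exact ha }
    have hE2 : ∀ g, g ∈ E2 ↔ (g ∈ E ∧ g.right x = x) ∧ g.left x = 1 := fun g => Iff.rfl
    have hsq : ∀ g ∈ E1, g.left x * g.left x = 1 := by
      intro g hg
      have hg' := (hE1 g).1 hg
      rw [← mul_left_fix g g x hg'.2, hs g hg'.1]
      rfl
    let R : Subgroup H :=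
      { carrier := {h | ∃ g ∈ E1, g.left x = h}
        one_mem' := ⟨1, E1.one_mem, rfl⟩
        mul_mem' := by
          rintro _ _ ⟨a, ha, rfl⟩ ⟨b, hb, rfl⟩
          exact ⟨a * b, E1.mul_mem ha hb, mul_left_fix a b x ((hE1 a).1 ha).2⟩
        inv_mem' := by
          rintro _ ⟨a, ha, rfl⟩
          exact ⟨a, ha, (inv_eq_of_mul_eq_one_right (hsq a ha)).symm⟩ }
    have hR : ∀ h, h ∈ R ↔ ∃ g ∈ E1, g.left x = h := fun h => Iff.rfl
    have hRM : Nat.card R ≤ M := by
      by_cases hb : R = ⊥
      · rw [hb, Subgroup.card_bot]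
        omega
      · refine hH R ⟨hb, ?_, ?_⟩
        · intro u hu v hv
          obtain ⟨a, ha, rfl⟩ := (hR u).1 hu
          obtain ⟨b, hb', rfl⟩ := (hR v).1 hv
          rw [← mul_left_fix a b x ((hE1 a).1 ha).2, ← mul_left_fix b a x ((hE1 b).1 hb').2,
            hc a ((hE1 a).1 ha).1 b ((hE1 b).1 hb').1]
        · intro u hu
          obtain ⟨a, ha, rfl⟩ := (hR u).1 hu
          rw [pow_two]
          exact hsq a ha
    have c1 : Nat.card E ≤ Nat.card E1 * O.card := by
      refine count E E1 (fun g => g.right x) O (fun g hg => (hOm _).2 ⟨g, hg, rfl⟩) ?_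
      intro g hg h hh hgh
      refine (hE1 _).2 ⟨E.mul_mem (E.inv_mem hg) hh, ?_⟩
      have hgh' : g.right x = h.right x := hgh
      rw [hinv g hg, mul_right_app, ← hgh', ← mul_right_app, hs g hg]
      rfl
    have := Fintype.ofFinite H
    have hRc : Nat.card R = (Finset.univ.filter (fun h : H => h ∈ R)).card :=
      Nat.subtype_card _ (by intro x; simp)
    have c2 : Nat.card E1 ≤ Nat.card E2 * (Finset.univ.filter (fun h : H => h ∈ R)).card := by
      refine count E1 E2 (fun g => g.left x) _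
        (fun g hg => Finset.mem_filter.2 ⟨Finset.mem_univ _, (hR _).2 ⟨g, hg, rfl⟩⟩) ?_
      intro g hg h hh hgh
      refine (hE2 _).2 ⟨(hE1 _).1 (E1.mul_mem (E1.inv_mem hg) hh), ?_⟩
      have hgh' : g.left x = h.left x := hgh
      rw [hinv g ((hE1 g).1 hg).1, mul_left_fix g h x ((hE1 g).1 hg).2, ← hgh']
      exact hsq g hg
    have hcard : (X \ O).card + O.card = X.card := Finset.card_sdiff_add_card_eq_card hOX
    have hOpos : 0 < O.card := Finset.card_pos.2 ⟨x, hxO⟩
    have c3 : Nat.card E2 ≤ M ^ (X \ O).card := by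
      refine ih (X \ O).card (by omega) (X \ O) rfl E2 ?_ ?_ ?_
      · intro a ha b hb
        exact hc a ((hE2 a).1 ha).1.1 b ((hE2 b).1 hb).1.1
      · intro a ha
        exact hs a ((hE2 a).1 ha).1.1
      · intro g hg y hy
        obtain ⟨⟨hgE, hgx⟩, hgl⟩ := (hE2 g).1 hg
        by_cases hyX : y ∈ X
        · have hyO : y ∈ O := by
            by_contra hn
            exact hy (Finset.mem_sdiff.2 ⟨hyX, hn⟩)
          obtain ⟨f, hf, hfy⟩ := (hOm y).1 hyO
          have hcm := hc g hgE f hf
          have hr : g.right y = y := by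
            rw [← hfy, ← mul_right_app, hcm, mul_right_app, hgx]
          refine ⟨hr, ?_⟩
          have e1 : (g * f).left y = g.left y * f.left y := mul_left_fix g f y hr
          have e2 : (f * g).left y = f.left y * g.left x := by
            rw [mul_left_app]
            have : f.right⁻¹ y = x := by
              rw [Equiv.Perm.inv_eq_iff_eq]
              exact hfy.symm
            rw [this]
          rw [hcm, e2, hgl, mul_one] at e1
          exact mul_eq_right.1 e1.symm
        · exact hx g hgE y hyX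
    have c4 : M * O.card ≤ M ^ O.card := mul_le_pow M _ hM hOpos
    rw [← hRc] at c2
    calc Nat.card E ≤ Nat.card E1 * O.card := c1
      _ ≤ (M ^ (X \ O).card * M) * O.card :=
        Nat.mul_le_mul_right _ (c2.trans (Nat.mul_le_mul c3 hRM))
      _ = M ^ (X \ O).card * (M * O.card) := by ring
      _ ≤ M ^ (X \ O).card * M ^ O.card := Nat.mul_le_mul_left _ c4
      _ = M ^ X.card := by rw [← pow_add, hcard]

end WRankAux

theorem wrank_pf : WRankStmt := by
  intro H _ _ k M hM hH E hE
  have h := WRankAux.main H k M hM hH _ Finset.univ rfl E hE.2.1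
    (fun a ha => by rw [← pow_two]; exact hE.2.2 a ha)
    (fun g _ x hx => absurd (Finset.mem_univ x) hx)
  rwa [Finset.card_univ, Fintype.card_fin] at h

end Vale.Agent.P240
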