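import Vale.Agent.P240.Stm3
import Vale.Agent.P240.WRank

namespace Vale.Agent.P240

theorem idx2_pf : Idx2Stmt := by
  classical
  intro G _ _ N γ M hM hN hA A hE
  have h1 := WRankAux.count A (A ⊓ N) (fun g => decide (g ∈ N)) Finset.univ
    (fun _ _ => Finset.mem_univ _) (fun g hg h hh e => by
      have e' : g ∈ N ↔ h ∈ N := decide_eq_decide.mp e
      refine Subgroup.mem_inf.mpr ⟨A.mul_mem (A.inv_mem hg) hh, ?_⟩
      by_cases hgN : g ∈ N
      · exact N.mul_mem (N.inv_mem hgN) (e'.mp hgN)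
      · have a1 := (hN g⁻¹).resolve_left (fun h' => hgN (N.inv_mem_iff.mp h'))
        have a2 := (hN h⁻¹).resolve_left (fun h' => hgN (e'.mpr (N.inv_mem_iff.mp h')))
        have a3 := N.mul_mem a1 (N.inv_mem a2)
        rwa [mul_inv_rev, inv_inv, mul_assoc, mul_inv_cancel_left] at a3)
  rw [Finset.card_univ, Fintype.card_bool] at h1
  refine h1.trans (Nat.mul_le_mul_right 2 ?_)
  by_cases hb : A ⊓ N = ⊥
  · rw [hb, Subgroup.card_bot]
    exact hM
  · exact hA _ ⟨hb, fun x hx y hy => hE.2.1 x hx.1 y hy.1, fun x hx => hE.2.2 x hx.1⟩ inf_le_right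

end Vale.Agent.P240
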