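import Vale.Agent.P240.Stm3

namespace Vale.Agent.P240

namespace LiftAux

variable {E : Type} [Field E] {n : ℕ} {K G : Type} [Group K] [Group G]
  {φ : K →* Matrix (Fin n) (Fin n) E} {ι : K →* G}

theorem cen (h : Base E n K G φ ι) {z : K} (hz : ι z = 1) (l : K) : z * l = l * z := by
  obtain ⟨c, hc⟩ := h.2.2.2.2 z hz
  refine h.2.2.1 ?_
  rw [map_mul, map_mul, hc, smul_mul_assoc, mul_smul_comm, one_mul, mul_one]

theorem pw (h : Base E n K G φ ι) {z : K} (hz : ι z = 1) : z ^ n = 1 := by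
  obtain ⟨c, hc⟩ := h.2.2.2.2 z hz
  have k := h.2.2.2.1 z
  rw [hc, Matrix.det_smul, Matrix.det_one, mul_one, Fintype.card_fin] at k
  refine h.2.2.1 ?_
  rw [map_pow, hc, smul_pow, k, one_pow, one_smul, map_one]

theorem odd {H : Type} [Group H] (hn : Odd n) {x : H} (hx : x * x = 1) : x ^ n = x := by
  obtain ⟨m, rfl⟩ := hn
  rw [pow_succ, pow_mul, pow_two, hx, one_pow, one_mul]

theorem comm (h : Base E n K G φ ι) {k l : K} (hl : l * l = 1)
    (hc : ι k * ι l = ι l * ι k) : k * l = l * k := by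
  have hz : ι (k * l * k⁻¹ * l⁻¹) = 1 := by
    rw [map_mul, map_mul, map_mul, map_inv, map_inv, hc]
    group
  set z := k * l * k⁻¹ * l⁻¹ with e
  have e1 : z * l = k * l * k⁻¹ := by rw [e]; group
  have e2 : z * z = 1 := by
    calc z * z = z * z * (l * l) := by rw [hl, mul_one]
      _ = z * (z * l) * l := by group
      _ = (z * l) * (z * l) := by rw [cen h hz l, ← mul_assoc, ← cen h hz l]; group
      _ = k * (l * l) * k⁻¹ := by rw [e1]; group
      _ = 1 := by rw [hl]; group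
  have e3 : z = 1 := (odd h.2.1 e2).symm.trans (pw h hz)
  rw [e3, one_mul] at e1
  calc k * l = k * l * k⁻¹ * k := by group
    _ = l * k := by rw [← e1]

end LiftAux

open LiftAux in
theorem lift_pf (hR : RankStmt) : LiftStmt := by
  intro E _ n K G _ _ _ φ ι h A hA hle
  have h2 : ∀ x ∈ A, x * x = 1 := fun x hx => by rw [← pow_two]; exact hA.2.2 x hx
  let L : Subgroup K :=
    { carrier := {k | k * k = 1 ∧ ι k ∈ A}
      mul_mem' := fun {k l} hk hl => ⟨by
        have c := comm h hl.1 (hA.2.1 _ hk.2 _ hl.2)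
        calc k * l * (k * l) = k * (l * k) * l := by group
          _ = (k * k) * (l * l) := by rw [← c]; group
          _ = 1 := by rw [hk.1, hl.1, one_mul], by
        rw [map_mul]; exact A.mul_mem hk.2 hl.2⟩
      one_mem' := ⟨one_mul 1, by rw [map_one]; exact A.one_mem⟩
      inv_mem' := fun {k} hk => ⟨by rw [← mul_inv_rev, hk.1, inv_one], by
        rw [map_inv]; exact A.inv_mem hk.2⟩ }
  have hs : ∀ x ∈ A, ∃ k ∈ L, ι k = x := fun x hx => by
    obtain ⟨k, rfl⟩ := hle hx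
    have e : ι (k ^ n) = ι k := by rw [map_pow, odd h.2.1 (h2 _ hx)]
    refine ⟨k ^ n, ⟨?_, by rw [e]; exact hx⟩, e⟩
    rw [← (Commute.refl k).mul_pow]
    exact pw h (by rw [map_mul]; exact h2 _ hx)
  have hL : IsElemAb 2 L := by
    refine ⟨fun hb => hA.1 ((Subgroup.eq_bot_iff_forall _).2 fun x hx => ?_),
      fun k hk l hl => comm h hl.1 (hA.2.1 _ hk.2 _ hl.2), fun k hk => ?_⟩
    · obtain ⟨k, hk, rfl⟩ := hs x hx
      rw [hb, Subgroup.mem_bot] at hk
      rw [hk, map_one]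
    · rw [pow_two]; exact hk.1
  refine le_trans ?_ (hR E n K φ h.1 h.2.1 h.2.2.1 h.2.2.2.1 L hL)
  refine Nat.card_le_card_of_surjective (fun k : L => (⟨ι k, k.2.2⟩ : A)) fun x => ?_
  obtain ⟨k, hk, e⟩ := hs x x.2
  exact ⟨⟨k, hk⟩, Subtype.ext e⟩

end Vale.Agent.P240
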