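import Vale.Agent.P240.Stm

namespace Vale.Agent.P240

open Matrix

namespace MemAux

variable {F : Type} [Field F] {n : ℕ}

theorem idem {p : Matrix (Fin n) (Fin n) F} (hp : IsPt p) : p * p = p := by
  obtain ⟨v, hv, rfl⟩ := hp
  rw [vecMulVec_mul_vecMulVec, hv, one_smul]

theorem ne_zero {p : Matrix (Fin n) (Fin n) F} (hp : IsPt p) : p ≠ 0 := by
  obtain ⟨v, hv, rfl⟩ := hp
  intro h
  have := congrArg Matrix.trace h
  rw [trace_vecMulVec, hv, trace_zero] at this
  exact one_ne_zero this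

theorem eq_of {p j : Matrix (Fin n) (Fin n) F} (hp : IsPt p) (hj : IsPt j) (h : p * j = j) :
    p = j := by
  obtain ⟨v, hv, rfl⟩ := hp
  obtain ⟨u, hu, rfl⟩ := hj
  have h1 := congrArg (fun M => M *ᵥ u) h
  simp only [← mulVec_mulVec, vecMulVec_mulVec, op_smul_eq_smul, hu, one_smul] at h1
  generalize v ⬝ᵥ u = c at h1
  subst h1
  rw [smul_dotProduct, dotProduct_smul, hv, smul_eq_mul, smul_eq_mul, mul_one] at hu
  rw [smul_vecMulVec, vecMulVec_smul, smul_smul, hu, one_smul]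

theorem key {p j : Matrix (Fin n) (Fin n) F} (h2 : (2 : F) ≠ 0) (hp : IsPt p) (hj : IsPt j) {e : F}
    (he : e * e = 1) (h : ((2 : F) • p - 1) * j = e • j) :
    (e = 1 ∧ p = j) ∨ (e = -1 ∧ p * j = 0) := by
  rw [Matrix.sub_mul, Matrix.smul_mul, Matrix.one_mul, sub_eq_iff_eq_add] at h
  rcases mul_self_eq_one_iff.1 he with rfl | rfl
  · rw [one_smul, ← two_smul F j] at h
    exact Or.inl ⟨rfl, eq_of hp hj (smul_right_injective _ h2 h)⟩
  · rw [neg_one_smul, neg_add_cancel] at h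
    exact Or.inr ⟨rfl, (smul_eq_zero.1 h).resolve_left h2⟩

theorem mul_e {G : Type} [Group G] (φ : G →* Matrix (Fin n) (Fin n) F) {g h : G} {e f : F}
    {j : Matrix (Fin n) (Fin n) F} (h1 : φ g * j = e • j) (h2 : φ h * j = f • j) :
    φ (g * h) * j = (f * e) • j := by
  rw [map_mul, Matrix.mul_assoc, h2, Matrix.mul_smul, h1, smul_smul]

theorem inv_e {G : Type} [Group G] (φ : G →* Matrix (Fin n) (Fin n) F) {g : G} {e : F}
    {j : Matrix (Fin n) (Fin n) F} (he : e * e = 1) (h1 : φ g * j = e • j) :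
    φ g⁻¹ * j = e • j := by
  rw [← h1]
  have h2 : φ g * (φ g * j) = j := by rw [h1, Matrix.mul_smul, h1, smul_smul, he, one_smul]
  conv_lhs => rw [← h2]
  rw [← Matrix.mul_assoc, ← map_mul, inv_mul_cancel, map_one, Matrix.one_mul]

theorem sq_mul {e f : F} (he : e * e = 1) (hf : f * f = 1) : f * e * (f * e) = 1 := by
  linear_combination f * f * he + hf

end MemAux

open MemAux

theorem mem_pf (hS : SumStmt) : MemStmt := by
  intro F _ _ n G _ φ s A K p g h2 hA hK hs hp hg hφ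
  have Q : (∀ j ∈ A, ∃ e : F, e * e = 1 ∧ φ g * j = e • j) ∧
      ∃ e : F, e * e = 1 ∧ ∀ j ∈ A, j ∉ K → φ g * j = e • j := by
    clear hφ
    induction hg using Subgroup.closure_induction with
    | mem x hx =>
      obtain ⟨a, ha, rfl⟩ := hx
      have ha' : a ∈ A := hK ha
      have hn : ∀ j ∈ A, a ≠ j → φ (s a) * j = (-1 : F) • j := fun j hj hne => by
        rw [hs a ha', Matrix.sub_mul, Matrix.smul_mul, hA.2.2 a ha' j hj hne, smul_zero,
          Matrix.one_mul, zero_sub, neg_one_smul]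
      refine ⟨fun j hj => ?_, -1, by ring, fun j hj hjK => hn j hj fun h => hjK (h ▸ ha)⟩
      by_cases h : a = j
      · refine ⟨1, one_mul _, ?_⟩
        rw [hs a ha', ← h, Matrix.sub_mul, Matrix.smul_mul, idem (hA.2.1 a ha'), Matrix.one_mul,
          two_smul, add_sub_cancel_right, one_smul]
      · exact ⟨-1, by ring, hn j hj h⟩
    | one =>
      have h1 : ∀ j : Matrix (Fin n) (Fin n) F, φ 1 * j = (1 : F) • j := fun j => by
        rw [map_one, Matrix.one_mul, one_smul]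
      exact ⟨fun j _ => ⟨1, one_mul _, h1 j⟩, 1, one_mul _, fun j _ _ => h1 j⟩
    | mul x y _ _ hx hy =>
      obtain ⟨x1, e, he, x2⟩ := hx
      obtain ⟨y1, f, hf, y2⟩ := hy
      refine ⟨fun j hj => ?_, f * e, sq_mul he hf, fun j hj hjK =>
        mul_e φ (x2 j hj hjK) (y2 j hj hjK)⟩
      obtain ⟨e', he', h1⟩ := x1 j hj
      obtain ⟨f', hf', h2⟩ := y1 j hj
      exact ⟨f' * e', sq_mul he' hf', mul_e φ h1 h2⟩
    | inv x _ hx =>
      obtain ⟨x1, e, he, x2⟩ := hx
      refine ⟨fun j hj => ?_, e, he, fun j hj hjK => inv_e φ he (x2 j hj hjK)⟩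
      obtain ⟨e', he', h1⟩ := x1 j hj
      exact ⟨e', he', inv_e φ he' h1⟩
  rw [hφ] at Q
  obtain ⟨q1, e, he, q2⟩ := Q
  have hpA : p ∈ A := by
    by_contra hc
    refine ne_zero hp ?_
    rw [← Matrix.mul_one p, ← hS F n A hA, Finset.mul_sum]
    refine Finset.sum_eq_zero fun j hj => ?_
    obtain ⟨e', he', h1⟩ := q1 j hj
    rcases key h2 hp (hA.2.1 j hj) he' h1 with h | h
    · exact absurd (h.2 ▸ hj) hc
    · exact h.2
  refine ⟨hpA, or_iff_not_imp_left.2 fun hpK => ?_⟩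
  have e1 : e ≠ -1 := by
    rcases key h2 hp hp he (q2 p hpA hpK) with h | h
    · rw [h.1]
      intro h'
      exact h2 (by linear_combination h')
    · exact absurd ((idem hp).symm.trans h.2) (ne_zero hp)
  refine Finset.eq_singleton_iff_unique_mem.2 ⟨Finset.mem_sdiff.2 ⟨hpA, hpK⟩, fun j hj => ?_⟩
  obtain ⟨j1, j2⟩ := Finset.mem_sdiff.1 hj
  rcases key h2 hp (hA.2.1 j j1) he (q2 j j1 j2) with h | h
  · exact h.2.symm
  · exact absurd h.1 e1

end Vale.Agent.P240
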