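import Vale.Agent.P240.Stm3

namespace Vale.Agent.P240

open Matrix

theorem oinj_pf : OInjStmt := by
  intro E _ n K G _ _ φ ι ⟨_, hn, hφ, hd, hs⟩ k l hk hl e
  obtain ⟨c, hc⟩ := hs (k * l⁻¹) (by rw [map_mul, map_inv, e, mul_inv_cancel])
  have h1 : φ k = c • φ l := by
    have h : φ k = φ (k * l⁻¹) * φ l := by rw [← map_mul, inv_mul_cancel_right]
    rw [h, hc, Matrix.smul_mul, Matrix.one_mul]
  have h2 : c * c = 1 := by
    rw [h1, transpose_smul, Matrix.smul_mul, Matrix.mul_smul, hl, smul_smul] at hk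
    have i : Fin n := ⟨0, hn.pos⟩
    have h := congrFun (congrFun hk i) i
    simpa using h
  have h3 : c ^ n = 1 := by
    have h := hd k
    rw [h1, det_smul, hd l, Fintype.card_fin, mul_one] at h
    exact h
  obtain ⟨j, rfl⟩ := hn
  rw [pow_succ, pow_mul, pow_two, h2, one_pow, one_mul] at h3
  rw [h3, one_smul] at h1
  exact hφ h1

theorem rdet_pf : RDetStmt := by
  intro E _ n a hn ⟨v, hv, ha⟩
  have hi : a * a = a := by rw [ha, vecMulVec_mul_vecMulVec, hv, one_smul]
  refine ⟨?_, by rw [ha, transpose_vecMulVec], ?_⟩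
  · have e : (2 : E) • a - 1 = -(1 + vecMulVec (-v) ((2 : E) • v)) := by
      rw [neg_vecMulVec, vecMulVec_smul, ha]
      abel
    rw [e, det_neg, vecMulVec_eq Unit, det_one_add_replicateCol_mul_replicateRow, dotProduct_neg,
      smul_dotProduct, hv, Fintype.card_fin, hn.neg_one_pow, smul_eq_mul]
    norm_num
  · rw [sub_mul, mul_sub, mul_sub, smul_mul_assoc, mul_smul_comm, hi, mul_one,
      one_mul, mul_one, two_smul E ((2 : E) • a)]
    abel

end Vale.Agent.P240
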