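import Vale.Agent.P240.Stm2

namespace Vale.Agent.P240

namespace ProdAAux

variable {P : Type} {k m N : ℕ}

noncomputable def fac (α : (Fin (m + 1) → P) → ℚ) (e : Fin k × Fin (m + 1) ≃ Fin N)
    (T : Fin N → Fin k × P) (i : Fin k) : ℚ :=
  if ∀ l, (T (e (i, l))).1 = i then α (fun l => (T (e (i, l))).2) else 0

noncomputable def be (α : (Fin (m + 1) → P) → ℚ) (e : Fin k × Fin (m + 1) ≃ Fin N)
    (T : Fin N → Fin k × P) : ℚ := ∏ i, fac α e T i

noncomputable def AA (α : (Fin (m + 1) → P) → ℚ) (e : Fin k × Fin (m + 1) ≃ Fin N)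
    (T : Fin N → Fin k × P) : ℚ :=
  ∑ π : Equiv.Perm (Fin N), ((Equiv.Perm.sign π : ℤ) : ℚ) * be α e (T ∘ π)

theorem sg_sq {n : ℕ} (σ : Equiv.Perm (Fin n)) :
    ((Equiv.Perm.sign σ : ℤ) : ℚ) * ((Equiv.Perm.sign σ : ℤ) : ℚ) = 1 := by
  rcases Int.units_eq_one_or (Equiv.Perm.sign σ) with h | h <;> simp [h]

theorem AA_sign (α : (Fin (m + 1) → P) → ℚ) (e : Fin k × Fin (m + 1) ≃ Fin N)
    (T : Fin N → Fin k × P) (σ : Equiv.Perm (Fin N)) :
    AA α e (T ∘ σ) = ((Equiv.Perm.sign σ : ℤ) : ℚ) * AA α e T := by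
  unfold AA
  rw [← Equiv.sum_comp (Equiv.mulLeft σ)
    (fun π : Equiv.Perm (Fin N) => ((Equiv.Perm.sign π : ℤ) : ℚ) * be α e (T ∘ π)),
    Finset.mul_sum]
  refine Finset.sum_congr rfl fun π _ => ?_
  have h : (T ∘ σ) ∘ π = T ∘ (σ * π : Equiv.Perm (Fin N)) := rfl
  simp only [Equiv.coe_mulLeft, Equiv.Perm.sign_mul, Units.val_mul, Int.cast_mul]
  rw [h, ← mul_assoc, ← mul_assoc, sg_sq, one_mul]

theorem fac_ne (α : (Fin (m + 1) → P) → ℚ) (e : Fin k × Fin (m + 1) ≃ Fin N)
    (T : Fin N → Fin k × P) {i i' : Fin k} (l : Fin (m + 1)) (h : i' ≠ i) (a : Fin k × P) :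
    fac α e (Function.update T (e (i, l)) a) i' = fac α e T i' := by
  have q : ∀ l', Function.update T (e (i, l)) a (e (i', l')) = T (e (i', l')) := fun l' =>
    Function.update_of_ne (fun z => h (congrArg Prod.fst (e.injective z))) _ _
  simp only [fac, q]

theorem fac_eq (α : (Fin (m + 1) → P) → ℚ) (e : Fin k × Fin (m + 1) ≃ Fin N)
    (T : Fin N → Fin k × P) (i i1 : Fin k) (l : Fin (m + 1)) (b : P) :
    fac α e (Function.update T (e (i, l)) (i1, b)) i =
      if i1 = i ∧ ∀ l', l' ≠ l → (T (e (i, l'))).1 = i then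
        α (Function.update (fun l' => (T (e (i, l'))).2) l b) else 0 := by
  have q : ∀ l', l' ≠ l → Function.update T (e (i, l)) (i1, b) (e (i, l')) = T (e (i, l')) :=
    fun l' h => Function.update_of_ne (fun z => h (congrArg Prod.snd (e.injective z))) _ _
  have q1 : (fun l' => (Function.update T (e (i, l)) (i1, b) (e (i, l'))).2) =
      Function.update (fun l' => (T (e (i, l'))).2) l b := by
    funext l'
    by_cases h : l' = l
    · subst h
      simp
    · rw [q l' h, Function.update_of_ne h]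
  have q2 : (∀ l', (Function.update T (e (i, l)) (i1, b) (e (i, l'))).1 = i) ↔
      (i1 = i ∧ ∀ l', l' ≠ l → (T (e (i, l'))).1 = i) := by
    constructor
    · intro h
      refine ⟨by simpa using h l, fun l' hl => ?_⟩
      rw [← q l' hl]
      exact h l'
    · rintro ⟨h1, h2⟩ l'
      by_cases h : l' = l
      · subst h
        simpa using h1
      · rw [q l' h]
        exact h2 l' h
  unfold fac
  rw [q1]
  exact if_congr q2 rfl rfl

theorem be_marg [Fintype P] {α : (Fin (m + 1) → P) → ℚ} (hα : IsAlt α)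
    (e : Fin k × Fin (m + 1) ≃ Fin N) (T : Fin N → Fin k × P) (j : Fin N) :
    ∑ a : Fin k × P, be α e (Function.update T j a) = 0 := by
  obtain ⟨⟨i, l⟩, rfl⟩ := e.surjective j
  have h1 : ∀ a : Fin k × P, be α e (Function.update T (e (i, l)) a) =
      fac α e (Function.update T (e (i, l)) a) i * ∏ i' ∈ Finset.univ.erase i, fac α e T i' := by
    intro a
    unfold be
    rw [← Finset.mul_prod_erase Finset.univ _ (Finset.mem_univ i)]
    congr 1
    exact Finset.prod_congr rfl fun i' hi => fac_ne α e T l (Finset.ne_of_mem_erase hi) a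
  simp only [h1]
  rw [← Finset.sum_mul, Fintype.sum_prod_type]
  have h2 : ∀ i1 : Fin k, ∑ b : P, fac α e (Function.update T (e (i, l)) (i1, b)) i = 0 := by
    intro i1
    simp only [fac_eq]
    by_cases h : i1 = i ∧ ∀ l', l' ≠ l → (T (e (i, l'))).1 = i
    · simp only [if_pos h]
      exact hα.2 _ l
    · simp only [if_neg h, Finset.sum_const_zero]
  simp only [h2, Finset.sum_const_zero, zero_mul]

theorem AA_marg [Fintype P] {α : (Fin (m + 1) → P) → ℚ} (hα : IsAlt α)
    (e : Fin k × Fin (m + 1) ≃ Fin N) (T : Fin N → Fin k × P) (j : Fin N) :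
    ∑ a : Fin k × P, AA α e (Function.update T j a) = 0 := by
  unfold AA
  rw [Finset.sum_comm]
  refine Finset.sum_eq_zero fun π _ => ?_
  rw [← Finset.mul_sum]
  simp only [Function.update_comp_equiv]
  rw [be_marg hα, mul_zero]

theorem term [Fintype P] {α : (Fin (m + 1) → P) → ℚ} (hα : IsAlt α) (u : Fin (m + 1) → P)
    (e : Fin k × Fin (m + 1) ≃ Fin N) (π : Equiv.Perm (Fin N))
    (h : ∀ i l, (e.symm (π (e (i, l)))).1 = i) :
    ((Equiv.Perm.sign π : ℤ) : ℚ) *
      be α e ((fun j => ((e.symm j).1, u (e.symm j).2)) ∘ π) = α u ^ k := by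
  have hinj : ∀ i, Function.Injective fun l => (e.symm (π (e (i, l)))).2 := by
    intro i l l' q
    have q1 : e.symm (π (e (i, l))) = e.symm (π (e (i, l'))) :=
      Prod.ext ((h i l).trans (h i l').symm) q
    exact congrArg Prod.snd (e.injective (π.injective (e.symm.injective q1)))
  obtain ⟨ρ, hρ⟩ : ∃ ρ : Fin k → Equiv.Perm (Fin (m + 1)),
      ∀ i l, ρ i l = (e.symm (π (e (i, l)))).2 :=
    ⟨fun i => Equiv.ofBijective _ (Finite.injective_iff_bijective.1 (hinj i)), fun _ _ => rfl⟩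
  have hπ : π = e.permCongr (Equiv.prodCongrRight ρ) := by
    ext1 j
    obtain ⟨⟨i, l⟩, rfl⟩ := e.surjective j
    rw [Equiv.permCongr_apply, Equiv.symm_apply_apply, Equiv.prodCongrRight_apply, hρ]
    have q : (i, (e.symm (π (e (i, l)))).2) = e.symm (π (e (i, l))) := Prod.ext (h i l).symm rfl
    rw [q, Equiv.apply_symm_apply]
  have hs : Equiv.Perm.sign π = ∏ i, Equiv.Perm.sign (ρ i) := by
    rw [hπ, Equiv.Perm.sign_permCongr, Equiv.Perm.sign_prodCongrRight]
  have hf : ∀ i, fac α e ((fun j => ((e.symm j).1, u (e.symm j).2)) ∘ π) i =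
      ((Equiv.Perm.sign (ρ i) : ℤ) : ℚ) * α u := by
    intro i
    refine (if_pos (h i)).trans ?_
    rw [← hα.1 u (ρ i)]
    refine congrArg α (funext fun l => ?_)
    simp only [Function.comp_apply, hρ]
  unfold be
  simp only [hf]
  rw [hs, Units.coe_prod, Int.cast_prod, ← Finset.prod_mul_distrib]
  simp only [← mul_assoc, sg_sq, one_mul, Finset.prod_const, Finset.card_univ, Fintype.card_fin]

end ProdAAux

open ProdAAux in
theorem prodA_pf : ProdAStmt := by
  intro P _ k m N α u e hα hu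
  refine ⟨AA α e, ⟨AA_sign α e, AA_marg hα e⟩, ?_, fun T hT => ?_⟩
  · have hk : 0 < α u ^ k * α u ^ k := mul_self_pos.2 (pow_ne_zero _ hu)
    have h : 0 < AA α e (fun j => ((e.symm j).1, u (e.symm j).2)) * α u ^ k := by
      unfold AA
      rw [Finset.sum_mul]
      refine Finset.sum_pos' (fun π _ => ?_) ⟨1, Finset.mem_univ _, ?_⟩
      · by_cases h : ∀ i l, (e.symm (π (e (i, l)))).1 = i
        · rw [term hα u e π h]
          exact hk.le
        · obtain ⟨i, hi⟩ := not_forall.1 h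
          have z : be α e ((fun j => ((e.symm j).1, u (e.symm j).2)) ∘ π) = 0 :=
            Finset.prod_eq_zero (Finset.mem_univ i) (if_neg hi)
          rw [z, mul_zero, zero_mul]
      · rw [term hα u e 1 (by simp)]
        exact hk
    intro z
    rw [z, zero_mul] at h
    exact lt_irrefl _ h
  · obtain ⟨π, -, hπ⟩ := Finset.exists_ne_zero_of_sum_ne_zero hT
    have hb := Finset.prod_ne_zero_iff.1 (right_ne_zero_of_mul hπ)
    have hc : ∀ i, ∀ l, (T (π (e (i, l)))).1 = i := by
      intro i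
      by_contra hn
      exact hb i (Finset.mem_univ i) (if_neg hn)
    refine ⟨π, fun i l => (T (π (e (i, l)))).2, fun i => ?_, fun i l => Prod.ext (hc i l) rfl⟩
    exact fun z => hb i (Finset.mem_univ i) ((if_pos (hc i)).trans z)

end Vale.Agent.P240
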