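import Vale.Agent.P240.Stm2

namespace Vale.Agent.P240

namespace ProdPAux

theorem mem_ch {G P : Type} [Group G] (s : P → G) {k : ℕ} (t : Fin k → P) {i j : Fin k}
    (h : i ≤ j) : s (t i) ∈ ch s t j :=
  Subgroup.subset_closure ⟨t i, ⟨i, h, rfl⟩, rfl⟩

theorem first {G P : Type} [Group G] (s : P → G) {k N : ℕ} (T T0 : Fin N → Fin k × P)
    (h : ch (fun x : Fin k × P => (Pi.mulSingle x.1 (s x.2) : Fin k → G)) T =
      ch (fun x : Fin k × P => (Pi.mulSingle x.1 (s x.2) : Fin k → G)) T0) (j : Fin N)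
    (hj : (Pi.mulSingle (T j).1 (s (T j).2) : Fin k → G) ∉ Subgroup.closure
      ((fun x : Fin k × P => (Pi.mulSingle x.1 (s x.2) : Fin k → G)) '' (T '' Set.Iio j))) :
    (T j).1 = (T0 j).1 := by
  by_contra hne
  apply hj
  let f : (Fin k → G) →* (Fin k → G) :=
    (MonoidHom.mulSingle (fun _ : Fin k => G) (T j).1).comp
      (Pi.evalMonoidHom (fun _ : Fin k => G) (T j).1)
  have hf : ∀ g : Fin k → G, f g = Pi.mulSingle (T j).1 (g (T j).1) := fun _ => rfl
  have h1 : ch (fun x : Fin k × P => (Pi.mulSingle x.1 (s x.2) : Fin k → G)) T0 j ≤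
      (Subgroup.closure ((fun x : Fin k × P => (Pi.mulSingle x.1 (s x.2) : Fin k → G)) ''
        (T '' Set.Iio j))).comap f := by
    refine (Subgroup.closure_le _).2 ?_
    rintro _ ⟨_, ⟨j1, hj1, rfl⟩, rfl⟩
    refine Subgroup.mem_comap.2 ?_
    rw [hf]
    by_cases hi : (T j).1 = (T0 j1).1
    · have hlt : j1 < j := lt_of_le_of_ne hj1 fun e => hne (e ▸ hi)
      have h2 := mem_ch (fun x : Fin k × P => (Pi.mulSingle x.1 (s x.2) : Fin k → G)) T0
        (le_refl j1)
      rw [← h] at h2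
      rw [hi]
      simp only [Pi.mulSingle_eq_same]
      refine Subgroup.closure_mono ?_ h2
      exact Set.image_mono (Set.image_mono fun a ha => lt_of_le_of_lt ha hlt)
    · simp only [Pi.mulSingle_eq_of_ne hi, Pi.mulSingle_one]
      exact Subgroup.one_mem _
  have h2 := mem_ch (fun x : Fin k × P => (Pi.mulSingle x.1 (s x.2) : Fin k → G)) T (le_refl j)
  rw [h] at h2
  have h3 := Subgroup.mem_comap.1 (h1 h2)
  rw [hf] at h3
  simpa only [Pi.mulSingle_eq_same] using h3

theorem proj {G P : Type} [Group G] (s : P → G) {k m N : ℕ}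
    (e : Fin k × Fin (m + 1) ≃ Fin N) (he : ∀ i, StrictMono fun l => e (i, l))
    (T : Fin N → Fin k × P) (hT : ∀ i l, (T (e (i, l))).1 = i) (i : Fin k) (l : Fin (m + 1)) :
    (ch (fun x : Fin k × P => (Pi.mulSingle x.1 (s x.2) : Fin k → G)) T (e (i, l))).map
      (Pi.evalMonoidHom (fun _ : Fin k => G) i) = ch s (fun l => (T (e (i, l))).2) l := by
  apply le_antisymm
  · rw [Subgroup.map_le_iff_le_comap]
    refine (Subgroup.closure_le _).2 ?_
    rintro _ ⟨_, ⟨j1, hj1, rfl⟩, rfl⟩
    obtain ⟨⟨i', l'⟩, rfl⟩ := e.surjective j1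
    refine Subgroup.mem_comap.2 ?_
    rw [Pi.evalMonoidHom_apply]
    simp only [hT]
    by_cases hi : i = i'
    · subst hi
      rw [Pi.mulSingle_eq_same]
      exact mem_ch s (fun l => (T (e (i, l))).2) ((he i).le_iff_le.1 hj1)
    · rw [Pi.mulSingle_eq_of_ne hi]
      exact Subgroup.one_mem _
  · refine (Subgroup.closure_le _).2 ?_
    rintro _ ⟨_, ⟨l', hl', rfl⟩, rfl⟩
    refine Subgroup.mem_map.2 ⟨_, mem_ch _ T ((he i).monotone hl'), ?_⟩
    rw [Pi.evalMonoidHom_apply]
    simp only [hT, Pi.mulSingle_eq_same]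

end ProdPAux

theorem prodP_pf (hS : ProdSStmt) : ProdPStmt := by
  intro G P _ _ s k m N α u e T hα he hsim huniq hsh hch
  have h1 := (hS G P s k m N α e T hα hsim hsh).2
  have hT : ∀ i l, (T (e (i, l))).1 = i := by
    intro i l
    rw [ProdPAux.first s T _ hch _ (h1 _), Equiv.symm_apply_apply]
  obtain ⟨π, w, hw, hπ⟩ := hsh
  have hv : ∀ i, α (fun l => (T (e (i, l))).2) ≠ 0 := by
    intro i
    have a1 : ∀ l, T (e (i, l)) = ((e.symm (π.symm (e (i, l)))).1,
        w (e.symm (π.symm (e (i, l)))).1 (e.symm (π.symm (e (i, l)))).2) := by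
      intro l
      rw [← hπ, Prod.mk.eta, Equiv.apply_symm_apply, Equiv.apply_symm_apply]
    have a2 : ∀ l, (e.symm (π.symm (e (i, l)))).1 = i := by
      intro l
      have a3 := hT i l
      rw [a1 l] at a3
      exact a3
    have a3 : Function.Injective fun l => (e.symm (π.symm (e (i, l)))).2 := by
      intro l l' hl
      have a4 : e.symm (π.symm (e (i, l))) = e.symm (π.symm (e (i, l'))) :=
        Prod.ext ((a2 l).trans (a2 l').symm) hl
      exact (Prod.ext_iff.1 (e.injective (π.symm.injective (e.symm.injective a4)))).2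
    have a4 : (fun l => (T (e (i, l))).2) =
        w i ∘ Equiv.ofBijective _ (Finite.injective_iff_bijective.1 a3) := by
      funext l
      rw [a1 l, a2 l]
      rfl
    rw [a4, hα.1]
    refine mul_ne_zero ?_ (hw i)
    exact_mod_cast Units.ne_zero _
  have hu : ∀ i, (fun l => (T (e (i, l))).2) = u := by
    intro i
    apply huniq _ (hv i)
    funext l
    rw [← ProdPAux.proj s e he T hT i l, hch, ProdPAux.proj s e he _ (by simp) i l]
    simp only [Equiv.symm_apply_apply]
  funext j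
  obtain ⟨⟨i, l⟩, rfl⟩ := e.surjective j
  rw [Equiv.symm_apply_apply]
  exact Prod.ext (hT i l) (congrFun (hu i) l)

end Vale.Agent.P240
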