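import Vale.Agent.P240.Stm2

namespace Vale.Agent.P240

namespace ProdSAux

theorem last_not {G P : Type} [Group G] (s : P → G) (m : ℕ) (t : Fin (m + 1) → P)
    (h : IsSimplex 2 (ch s t)) :
    s (t (Fin.last m)) ∉ Subgroup.closure (s '' (t '' {l | l ≠ Fin.last m})) := by
  intro hm
  have hle : ch s t (Fin.last m) ≤ Subgroup.closure (s '' (t '' {l | l ≠ Fin.last m})) := by
    unfold ch
    rw [Subgroup.closure_le]
    rintro _ ⟨_, ⟨l, -, rfl⟩, rfl⟩
    by_cases hl : l = Fin.last m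
    · rw [hl]; exact hm
    · exact Subgroup.subset_closure ⟨_, ⟨l, hl, rfl⟩, rfl⟩
  cases m with
  | zero =>
    apply (h.2 (Fin.last 0)).1
    rw [eq_bot_iff]
    refine hle.trans ?_
    rw [Subgroup.closure_le]
    rintro _ ⟨_, ⟨l, hl, rfl⟩, rfl⟩
    exact absurd (Fin.ext (by have := l.2; simp only [Fin.val_last]; omega)) hl
  | succ m =>
    have hlt : ch s t (Fin.castSucc (Fin.last m)) < ch s t (Fin.last (m + 1)) :=
      h.1 (Fin.castSucc_lt_last _)
    refine absurd (hle.trans ?_) hlt.not_ge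
    unfold ch
    apply Subgroup.closure_mono
    rintro _ ⟨_, ⟨l, hl, rfl⟩, rfl⟩
    refine ⟨_, ⟨l, ?_, rfl⟩, rfl⟩
    have h1 : l.val ≠ m + 1 := fun h2 => hl (Fin.ext h2)
    have h2 := l.2
    show l.val ≤ m
    omega

theorem nm {G P : Type} [Group G] [Fintype P] (s : P → G) (m : ℕ) (α : (Fin (m + 1) → P) → ℚ)
    (hα : IsAlt α) (hs : ∀ t, α t ≠ 0 → IsSimplex 2 (ch s t)) (t : Fin (m + 1) → P)
    (ht : α t ≠ 0) (l0 : Fin (m + 1)) :
    s (t l0) ∉ Subgroup.closure (s '' (t '' {l | l ≠ l0})) := by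
  intro hm
  have h1 : α (t ∘ Equiv.swap l0 (Fin.last m)) ≠ 0 := by
    rw [hα.1]
    refine mul_ne_zero ?_ ht
    exact_mod_cast (Equiv.Perm.sign (Equiv.swap l0 (Fin.last m))).ne_zero
  apply last_not s m _ (hs _ h1)
  have h2 : (t ∘ Equiv.swap l0 (Fin.last m)) (Fin.last m) = t l0 := by
    simp [Equiv.swap_apply_right]
  rw [h2]
  refine Subgroup.closure_mono ?_ hm
  rintro _ ⟨_, ⟨l, hl, rfl⟩, rfl⟩
  refine ⟨_, ⟨Equiv.swap l0 (Fin.last m) l, ?_, rfl⟩, ?_⟩
  · intro h3
    apply hl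
    have h4 := congrArg (Equiv.swap l0 (Fin.last m)) h3
    rw [Equiv.swap_apply_self, Equiv.swap_apply_right] at h4
    exact h4
  · simp [Equiv.swap_apply_self]

theorem elem_closure {G : Type} [Group G] (S : Set G) (hc : ∀ x ∈ S, ∀ y ∈ S, x * y = y * x)
    (h2 : ∀ x ∈ S, x ^ 2 = 1) :
    (∀ x ∈ Subgroup.closure S, ∀ y ∈ Subgroup.closure S, x * y = y * x) ∧
      ∀ x ∈ Subgroup.closure S, x ^ 2 = 1 := by
  have hA : ∀ x ∈ Subgroup.closure S, ∀ y ∈ Subgroup.closure S, Commute x y := by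
    intro x hx y hy
    induction hx, hy using Subgroup.closure_induction₂ with
    | mem x y hx hy => exact hc x hx y hy
    | one_left x _ => exact Commute.one_left x
    | one_right x _ => exact Commute.one_right x
    | mul_left x y z _ _ _ h1 h2 => exact h1.mul_left h2
    | mul_right x y z _ _ _ h1 h2 => exact h1.mul_right h2
    | inv_left x y _ _ h => exact h.inv_left
    | inv_right x y _ _ h => exact h.inv_right
  refine ⟨fun x hx y hy => hA x hx y hy, ?_⟩
  intro x hx
  induction hx using Subgroup.closure_induction with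
  | mem x hx => exact h2 x hx
  | one => exact one_pow 2
  | mul x y hx hy h1 h3 => rw [(hA x hx y hy).mul_pow, h1, h3, one_mul]
  | inv x _ h => rw [inv_pow, h, inv_one]

end ProdSAux

open ProdSAux in
theorem prodS_pf : ProdSStmt := by
  intro G P _ _ s k m N α e T hα hs hT
  obtain ⟨π, w, hw, hTw⟩ := hT
  have hj : ∀ j : Fin N, ∃ i l, j = π (e (i, l)) := fun j =>
    ⟨(e.symm (π.symm j)).1, (e.symm (π.symm j)).2, by simp⟩
  have key : ∀ j, (Pi.mulSingle (T j).1 (s (T j).2) : Fin k → G) ∉ Subgroup.closure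
      ((fun x : Fin k × P => (Pi.mulSingle x.1 (s x.2) : Fin k → G)) '' (T '' Set.Iio j)) := by
    intro j hm
    obtain ⟨i, l0, rfl⟩ := hj j
    apply nm s m α hα hs (w i) (hw i) l0
    have h1 : ∀ x ∈ Subgroup.closure
        ((fun x : Fin k × P => (Pi.mulSingle x.1 (s x.2) : Fin k → G)) ''
          (T '' Set.Iio (π (e (i, l0))))),
        x i ∈ Subgroup.closure (s '' (w i '' {l | l ≠ l0})) := by
      intro x hx
      induction hx using Subgroup.closure_induction with
      | mem x hx =>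
        obtain ⟨_, ⟨j', hj', rfl⟩, rfl⟩ := hx
        obtain ⟨i', l', rfl⟩ := hj j'
        rw [hTw]
        by_cases hi : i' = i
        · subst hi
          have hl : l' ≠ l0 := by
            rintro rfl
            exact lt_irrefl _ (Set.mem_Iio.1 hj')
          simp only [Pi.mulSingle_eq_same]
          exact Subgroup.subset_closure ⟨_, ⟨l', hl, rfl⟩, rfl⟩
        · simp only [Pi.mulSingle_eq_of_ne (Ne.symm hi)]
          exact one_mem _
      | one => exact one_mem _
      | mul x y _ _ h1 h2 => exact mul_mem h1 h2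
      | inv x _ h => exact inv_mem h
    have h2 := h1 _ hm
    rw [hTw] at h2
    simpa only [Pi.mulSingle_eq_same] using h2
  have hmem : ∀ i l, s (w i l) ∈ ch s (w i) (Fin.last m) := fun i l =>
    Subgroup.subset_closure ⟨_, ⟨l, Fin.le_last l, rfl⟩, rfl⟩
  have hgen : ∀ j, (Pi.mulSingle (T j).1 (s (T j).2) : Fin k → G) ∈
      ch (fun x : Fin k × P => (Pi.mulSingle x.1 (s x.2) : Fin k → G)) T j := fun j =>
    Subgroup.subset_closure ⟨_, ⟨j, Set.mem_Iic.2 le_rfl, rfl⟩, rfl⟩
  refine ⟨⟨?_, ?_⟩, key⟩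
  · intro a b hab
    refine lt_of_le_of_ne ?_ ?_
    · exact Subgroup.closure_mono
        (Set.image_mono (Set.image_mono (Set.Iic_subset_Iic.2 hab.le)))
    · intro heq
      apply key b
      have h1 := hgen b
      rw [← heq] at h1
      refine Subgroup.closure_mono ?_ h1
      exact Set.image_mono (Set.image_mono (Set.Iic_subset_Iio.2 hab))
  · intro j
    refine ⟨?_, ?_⟩
    · intro hb
      have h1 := hgen j
      rw [hb, Subgroup.mem_bot] at h1
      apply key j
      rw [h1]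
      exact one_mem _
    · apply elem_closure
      · rintro _ ⟨_, ⟨a, -, rfl⟩, rfl⟩ _ ⟨_, ⟨b, -, rfl⟩, rfl⟩
        obtain ⟨i, l, rfl⟩ := hj a
        obtain ⟨i', l', rfl⟩ := hj b
        rw [hTw, hTw]
        by_cases hi : i = i'
        · subst hi
          have h1 := ((hs _ (hw i)).2 (Fin.last m)).2.1 _ (hmem i l) _ (hmem i l')
          show (Pi.mulSingle i (s (w i l)) : Fin k → G) * Pi.mulSingle i (s (w i l')) =
            Pi.mulSingle i (s (w i l')) * Pi.mulSingle i (s (w i l))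
          rw [← Pi.mulSingle_mul, ← Pi.mulSingle_mul, h1]
        · exact Pi.mulSingle_commute (f := fun _ => G) hi _ _
      · rintro _ ⟨_, ⟨a, -, rfl⟩, rfl⟩
        obtain ⟨i, l, rfl⟩ := hj a
        rw [hTw]
        have h1 := ((hs _ (hw i)).2 (Fin.last m)).2.2 _ (hmem i l)
        show (Pi.mulSingle i (s (w i l)) : Fin k → G) ^ 2 = 1
        rw [← Pi.mulSingle_pow, h1, Pi.mulSingle_one]

end Vale.Agent.P240
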