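import Vale.Agent.P240.Stm

namespace Vale.Agent.P240

open Matrix

namespace RankAux

open Classical in
/-- Restriction to a subspace, when it is invariant. -/
noncomputable def res {F V : Type} [Field F] [AddCommGroup V] [Module F V] (W : Submodule F V)
    (h : Module.End F V) : Module.End F W :=
  if hh : ∀ x ∈ W, h x ∈ W then h.restrict hh else 0

theorem res_apply {F V : Type} [Field F] [AddCommGroup V] [Module F V] (W : Submodule F V)
    (h : Module.End F V) (hh : ∀ x ∈ W, h x ∈ W) (x : W) : ((res W h x : W) : V) = h x := by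
  unfold res
  rw [dif_pos hh]
  rfl

theorem res_mul {F V : Type} [Field F] [AddCommGroup V] [Module F V] (W : Submodule F V)
    (g h : Module.End F V) (hg : ∀ x ∈ W, g x ∈ W) (hh : ∀ x ∈ W, h x ∈ W) (x : W) :
    (((res W g * res W h) x : W) : V) = (g * h) x := by
  rw [Module.End.mul_apply, res_apply W g hg, res_apply W h hh, Module.End.mul_apply]

theorem key (F : Type) [Field F] (h2 : (2 : F) ≠ 0) (d : ℕ) :
    ∀ (V : Type) [AddCommGroup V] [Module F V] [FiniteDimensional F V],
      Module.finrank F V = d → ∀ S : Finset (Module.End F V), (∀ g ∈ S, g * g = 1) →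
      (∀ g ∈ S, ∀ h ∈ S, g * h = h * g) → S.card ≤ 2 ^ d := by
  classical
  induction d using Nat.strong_induction_on with
  | _ d ih =>
  intro V _ _ _ hd S hinv hcomm
  by_cases hall : ∀ g ∈ S, g = 1 ∨ g = -1
  · rcases Nat.eq_zero_or_pos d with h0 | hpos
    · subst h0
      haveI : Subsingleton V := Module.finrank_zero_iff.mp hd
      rw [pow_zero]
      exact Finset.card_le_one.mpr fun a _ b _ => Subsingleton.elim a b
    · have hsub : S ⊆ {1, -1} := by
        intro g hg
        rcases hall g hg with h | h <;> simp [h]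
      calc S.card ≤ ({1, -1} : Finset (Module.End F V)).card := Finset.card_le_card hsub
        _ ≤ 2 := Finset.card_le_two
        _ = 2 ^ 1 := rfl
        _ ≤ 2 ^ d := Nat.pow_le_pow_right (by norm_num) hpos
  · push Not at hall
    obtain ⟨g, hgS, hg1, hg2⟩ := hall
    have hgg : ∀ v, g (g v) = v := fun v => by
      have := LinearMap.congr_fun (hinv g hgS) v
      simpa using this
    set W1 : Submodule F V := LinearMap.ker (g - 1) with hW1
    set W2 : Submodule F V := LinearMap.ker (g + 1) with hW2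
    have m1 : ∀ v, v ∈ W1 ↔ g v = v := fun v => by
      simp [hW1, LinearMap.mem_ker, sub_eq_zero]
    have m2 : ∀ v, v ∈ W2 ↔ g v = -v := fun v => by
      simp [hW2, LinearMap.mem_ker, add_eq_zero_iff_eq_neg]
    have hsplit : ∀ v : V, v = (2 : F)⁻¹ • (v + g v) + (2 : F)⁻¹ • (v - g v) := fun v => by
      rw [← smul_add, show v + g v + (v - g v) = (2 : F) • v by rw [two_smul]; abel,
        smul_smul, inv_mul_cancel₀ h2, one_smul]
    have ha : ∀ v : V, (2 : F)⁻¹ • (v + g v) ∈ W1 := fun v =>
      W1.smul_mem _ ((m1 _).2 (by rw [map_add, hgg, add_comm]))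
    have hb : ∀ v : V, (2 : F)⁻¹ • (v - g v) ∈ W2 := fun v =>
      W2.smul_mem _ ((m2 _).2 (by rw [map_sub, hgg, neg_sub]))
    have hcompl : IsCompl W1 W2 := by
      refine ⟨Submodule.disjoint_def.2 fun v h1 h2' => ?_, codisjoint_iff.2 (eq_top_iff.2 fun v _ => ?_)⟩
      · have e1 := (m1 v).1 h1
        have e2 := (m2 v).1 h2'
        have e3 : (2 : F) • v = 0 := by
          rw [two_smul]
          nth_rewrite 1 [← e1]
          rw [e2, neg_add_cancel]
        exact (smul_eq_zero.1 e3).resolve_left h2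
      · rw [hsplit v]
        exact Submodule.add_mem_sup (ha v) (hb v)
    have hsum : Module.finrank F W1 + Module.finrank F W2 = d := by
      rw [← hd]; exact Submodule.finrank_add_eq_of_isCompl hcompl
    have n1 : W1 ≠ ⊤ := fun h => hg1 (LinearMap.ext fun v => (m1 v).1 (h ▸ Submodule.mem_top))
    have n2 : W2 ≠ ⊤ := fun h => hg2 (LinearMap.ext fun v => (m2 v).1 (h ▸ Submodule.mem_top))
    have l1 : Module.finrank F W1 < d := hd ▸ Submodule.finrank_lt n1
    have l2 : Module.finrank F W2 < d := hd ▸ Submodule.finrank_lt n2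
    have hc : ∀ h ∈ S, ∀ v, g (h v) = h (g v) := fun h hh v =>
      LinearMap.congr_fun (hcomm g hgS h hh) v
    have i1 : ∀ h ∈ S, ∀ x ∈ W1, h x ∈ W1 := fun h hh x hx =>
      (m1 _).2 (by rw [hc h hh, (m1 x).1 hx])
    have i2 : ∀ h ∈ S, ∀ x ∈ W2, h x ∈ W2 := fun h hh x hx =>
      (m2 _).2 (by rw [hc h hh, (m2 x).1 hx, map_neg])
    have bound : ∀ W : Submodule F V, Module.finrank F W < d → (∀ h ∈ S, ∀ x ∈ W, h x ∈ W) →
        (S.image (res W)).card ≤ 2 ^ Module.finrank F W := by
      intro W hW hi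
      refine ih _ hW W rfl _ ?_ ?_
      · intro a ha'
        obtain ⟨h, hh, rfl⟩ := Finset.mem_image.1 ha'
        refine LinearMap.ext fun x => Subtype.ext ?_
        rw [res_mul W h h (hi h hh) (hi h hh), hinv h hh]
        rfl
      · intro a ha' b hb'
        obtain ⟨h, hh, rfl⟩ := Finset.mem_image.1 ha'
        obtain ⟨k, hk, rfl⟩ := Finset.mem_image.1 hb'
        refine LinearMap.ext fun x => Subtype.ext ?_
        rw [res_mul W h k (hi h hh) (hi k hk), res_mul W k h (hi k hk) (hi h hh),
          hcomm h hh k hk]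
    have hle : S.card ≤ ((S.image (res W1)) ×ˢ (S.image (res W2))).card := by
      refine Finset.card_le_card_of_injOn (fun h => (res W1 h, res W2 h)) ?_ ?_
      · intro h hh
        exact Finset.mem_coe.2 (Finset.mem_product.2
          ⟨Finset.mem_image_of_mem _ hh, Finset.mem_image_of_mem _ hh⟩)
      · intro h hh k hk e
        have e1 : res W1 h = res W1 k := congrArg Prod.fst e
        have e2 : res W2 h = res W2 k := congrArg Prod.snd e
        refine LinearMap.ext fun v => ?_
        have f1 : h ((2 : F)⁻¹ • (v + g v)) = k ((2 : F)⁻¹ • (v + g v)) := by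
          rw [← res_apply W1 h (i1 h hh) ⟨_, ha v⟩, ← res_apply W1 k (i1 k hk) ⟨_, ha v⟩, e1]
        have f2 : h ((2 : F)⁻¹ • (v - g v)) = k ((2 : F)⁻¹ • (v - g v)) := by
          rw [← res_apply W2 h (i2 h hh) ⟨_, hb v⟩, ← res_apply W2 k (i2 k hk) ⟨_, hb v⟩, e2]
        calc h v = h ((2 : F)⁻¹ • (v + g v) + (2 : F)⁻¹ • (v - g v)) := congrArg h (hsplit v)
          _ = k ((2 : F)⁻¹ • (v + g v) + (2 : F)⁻¹ • (v - g v)) := by
            rw [map_add, map_add k, f1, f2]
          _ = k v := (congrArg k (hsplit v)).symm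
    rw [Finset.card_product] at hle
    calc S.card ≤ _ := hle
      _ ≤ 2 ^ Module.finrank F W1 * 2 ^ Module.finrank F W2 :=
        Nat.mul_le_mul (bound W1 l1 i1) (bound W2 l2 i2)
      _ = 2 ^ d := by rw [← pow_add, hsum]

end RankAux

theorem rank_pf : RankStmt := by
  classical
  intro F _ n G _ _ φ h2 hn hφ hdet E hE
  obtain ⟨-, hcomm, hsq⟩ := hE
  haveI : Fintype E := Fintype.ofFinite E
  let A : Finset (Matrix (Fin n) (Fin n) F) := Finset.univ.image fun g : E => φ g
  let B : Finset (Matrix (Fin n) (Fin n) F) := Finset.univ.image fun g : E => -φ g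
  have hA : A.card = Nat.card E := by
    rw [Nat.card_eq_fintype_card]
    exact Finset.card_image_of_injective _ (hφ.comp Subtype.val_injective)
  have hB : B.card = Nat.card E := by
    rw [Nat.card_eq_fintype_card]
    exact Finset.card_image_of_injective _
      (neg_injective.comp (hφ.comp Subtype.val_injective))
  have hdisj : Disjoint A B := by
    refine Finset.disjoint_left.2 fun M hM hM' => ?_
    obtain ⟨a, -, rfl⟩ := Finset.mem_image.1 hM
    obtain ⟨b, -, hb⟩ := Finset.mem_image.1 hM'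
    have e := congrArg Matrix.det hb
    rw [Matrix.det_neg, hdet, hdet, Fintype.card_fin, hn.neg_one_pow, mul_one] at e
    apply h2
    linear_combination -e
  have hmem : ∀ M ∈ A ∪ B, ∃ a : E, M = φ a ∨ M = -φ a := by
    intro M hM
    rcases Finset.mem_union.1 hM with h | h
    · obtain ⟨a, -, rfl⟩ := Finset.mem_image.1 h
      exact ⟨a, Or.inl rfl⟩
    · obtain ⟨a, -, rfl⟩ := Finset.mem_image.1 h
      exact ⟨a, Or.inr rfl⟩
  have hsq' : ∀ a : E, φ a * φ a = 1 := fun a => by
    rw [← map_mul, ← pow_two, hsq a a.2, map_one]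
  have hcm : ∀ a b : E, φ a * φ b = φ b * φ a := fun a b => by
    rw [← map_mul, ← map_mul, hcomm a a.2 b b.2]
  have hk := RankAux.key F h2 n (Fin n → F) (by simp)
    ((A ∪ B).image (Matrix.toLinAlgEquiv' : Matrix (Fin n) (Fin n) F ≃ₐ[F] _)) ?_ ?_
  · rw [Finset.card_image_of_injective _ (AlgEquiv.injective _),
      Finset.card_union_of_disjoint hdisj, hA, hB] at hk
    obtain ⟨k, rfl⟩ := hn
    rw [pow_succ] at hk
    rw [Nat.add_sub_cancel]
    omega
  · intro g hg
    obtain ⟨M, hM, rfl⟩ := Finset.mem_image.1 hg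
    obtain ⟨a, rfl | rfl⟩ := hmem M hM
    · rw [← map_mul, hsq', map_one]
    · rw [← map_mul, neg_mul_neg, hsq', map_one]
  · intro g hg h hh
    obtain ⟨M, hM, rfl⟩ := Finset.mem_image.1 hg
    obtain ⟨N, hN, rfl⟩ := Finset.mem_image.1 hh
    rw [← map_mul, ← map_mul]
    obtain ⟨a, rfl | rfl⟩ := hmem M hM <;> obtain ⟨b, rfl | rfl⟩ := hmem N hN <;>
      simp only [neg_mul, mul_neg, neg_neg, hcm a b]

end Vale.Agent.P240
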