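import Vale.Agent.P240.Stm

namespace Vale.Agent.P240

open Matrix

theorem sep_pf (hS : SumStmt) (hM : MemStmt) : SepStmt := by
  intro F _ _ m G _ φ s A B t₀ t h2 hA hB sA sB i0 i1 mA mB hc
  have sub : ∀ i, (Finset.Iic i).image t₀ ⊆ A := fun i x hx => by
    obtain ⟨j, -, rfl⟩ := Finset.mem_image.1 hx
    exact mA j
  have key : ∀ i, t i ∈ A ∧
      (t i ∈ (Finset.Iic i).image t₀ ∨ A \ (Finset.Iic i).image t₀ = {t i}) := fun i => by
    refine hM F (m + 2) G φ s A _ (t i) (s (t i)) h2 hA (sub i) sA (hB.2.1 _ (mB i)) ?_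
      (sB _ (mB i))
    have k : s (t i) ∈ ch s t i := Subgroup.subset_closure ⟨t i, ⟨i, le_refl i, rfl⟩, rfl⟩
    rw [hc] at k
    rw [Finset.coe_image, Finset.coe_Iic]
    exact k
  have cI : (Finset.univ.image t).card = m + 1 := by
    rw [Finset.card_image_of_injective _ i1, Finset.card_univ, Fintype.card_fin]
  have one : ∀ C : Finset (Matrix (Fin (m + 2)) (Fin (m + 2)) F), IsFrame C → (∀ i, t i ∈ C) →
      C = {1 - ∑ p ∈ Finset.univ.image t, p} ∪ Finset.univ.image t := fun C hC h => by
    have k : Finset.univ.image t ⊆ C := fun x hx => by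
      obtain ⟨j, -, rfl⟩ := Finset.mem_image.1 hx
      exact h j
    obtain ⟨a, ha⟩ := Finset.card_eq_one.1
      (show (C \ Finset.univ.image t).card = 1 by rw [Finset.card_sdiff_of_subset k, hC.1, cI]; omega)
    have e := Finset.sum_sdiff (f := fun p => p) k
    rw [ha, Finset.sum_singleton, hS F _ C hC] at e
    rw [← eq_sub_of_add_eq e, ← ha, Finset.sdiff_union_of_subset k]
  refine ⟨(one B hB mB).trans (one A hA fun i => (key i).1).symm, ?_⟩
  have ind : ∀ (k : ℕ) (i : Fin (m + 1)), (i : ℕ) = k → k < m → t i = t₀ i := by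
    intro k
    induction k using Nat.strong_induction_on with
    | _ k ih =>
      intro i hi hk
      rcases (key i).2 with h | h
      · obtain ⟨j, hj, e⟩ := Finset.mem_image.1 h
        rcases (Finset.mem_Iic.1 hj).eq_or_lt with rfl | hlt
        · exact e.symm
        · have l : (j : ℕ) < k := hi ▸ hlt
          exact absurd (i1 ((ih j l j rfl (l.trans hk)).trans e)) hlt.ne
      · have c := congrArg Finset.card h
        rw [Finset.card_sdiff_of_subset (sub i), hA.1, Finset.card_image_of_injective _ i0,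
          Fin.card_Iic, Finset.card_singleton] at c
        omega
  exact fun i => ind i i.castSucc rfl i.2

end Vale.Agent.P240
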