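import Vale.Agent.P240.Stm

namespace Vale.Agent.P240

open Matrix

namespace SimpAux

theorem idem {F : Type} [Field F] {n : ℕ} {p : Matrix (Fin n) (Fin n) F} (h : IsPt p) :
    p * p = p := by
  obtain ⟨v, hv, rfl⟩ := h
  ext i j
  have e : ∑ k, v k * v k = 1 := hv
  simp only [mul_apply, vecMulVec_apply]
  calc ∑ k, v i * v k * (v k * v j) = v i * v j * ∑ k, v k * v k := by
        rw [Finset.mul_sum]
        exact Finset.sum_congr rfl fun k _ => by ring
    _ = v i * v j := by rw [e, mul_one]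

theorem ne_zero {F : Type} [Field F] {n : ℕ} {p : Matrix (Fin n) (Fin n) F} (h : IsPt p) :
    p ≠ 0 := by
  obtain ⟨v, hv, rfl⟩ := h
  intro h0
  have e : ∑ k, v k * v k = 1 := hv
  have e2 : ∀ k, v k * v k = 0 := fun k => congrFun (congrFun h0 k) k
  simp [e2] at e

theorem comm {F : Type} [Field F] {n : ℕ} {A : Finset (Matrix (Fin n) (Fin n) F)} (hA : IsFrame A)
    {a b : Matrix (Fin n) (Fin n) F} (ha : a ∈ A) (hb : b ∈ A) : a * b = b * a := by
  by_cases h : a = b
  · rw [h]
  · rw [hA.2.2 a ha b hb h, hA.2.2 b hb a ha (Ne.symm h)]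

end SimpAux

open SimpAux in
theorem simp_pf (hM : MemStmt) : SimpStmt := by
  intro F _ _ m G _ φ s A t h2 hφ hA hs ht htA
  have mem : ∀ i j, j ≤ i → s (t j) ∈ ch s t i := fun i j h =>
    Subgroup.subset_closure ⟨t j, ⟨j, h, rfl⟩, rfl⟩
  have gc : ∀ a ∈ A, ∀ b ∈ A, s a * s b = s b * s a := fun a ha b hb => hφ (by
    rw [map_mul, map_mul, hs a ha, hs b hb]
    simp only [sub_mul, mul_sub, one_mul, mul_one, two_smul, add_mul, mul_add, comm hA ha hb]
    abel)
  have gs : ∀ a ∈ A, s a ^ 2 = 1 := fun a ha => hφ (by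
    rw [sq, map_mul, hs a ha, map_one]
    simp only [sub_mul, mul_sub, one_mul, mul_one,
      idem (hA.2.1 a ha), two_smul, add_mul, mul_add]
    abel)
  refine ⟨fun i j hij => lt_of_le_of_ne (Subgroup.closure_mono (Set.image_mono (Set.image_mono
    (Set.Iic_subset_Iic.2 hij.le)))) fun he => ?_, fun i => ?_⟩
  · have h1 : s (t j) ∈ ch s t i := he ▸ mem j j le_rfl
    have hK : (Finset.Iic i).image t ⊆ A := fun a ha => by
      obtain ⟨k, -, rfl⟩ := Finset.mem_image.1 ha
      exact htA k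
    have h3 := (hM F _ G φ s A ((Finset.Iic i).image t) (t j) (s (t j)) h2 hA hK hs
      (hA.2.1 _ (htA j)) (by simpa [ch] using h1) (hs _ (htA j))).2
    rcases h3 with h3 | h3
    · obtain ⟨k, hk, e⟩ := Finset.mem_image.1 h3
      rw [ht e] at hk
      exact absurd (Finset.mem_Iic.1 hk) (not_le.2 hij)
    · have c1 := Finset.card_sdiff_of_subset hK
      rw [h3, Finset.card_singleton, hA.1, Finset.card_image_of_injective _ ht, Fin.card_Iic] at c1
      have c2 : (i : ℕ) < j := hij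
      have c3 := j.2
      omega
  · have hc : ∀ x ∈ ch s t i, ∀ y ∈ ch s t i, x * y = y * x := fun x hx y hy => by
      refine Subgroup.closure_induction₂ (p := fun x y _ _ => Commute x y) ?_
        (fun x _ => Commute.one_left x) (fun x _ => Commute.one_right x)
        (fun _ _ _ _ _ _ h1 h2 => h1.mul_left h2) (fun _ _ _ _ _ _ h1 h2 => h1.mul_right h2)
        (fun _ _ _ _ h => h.inv_left) (fun _ _ _ _ h => h.inv_right) hx hy
      rintro _ _ ⟨_, ⟨k, -, rfl⟩, rfl⟩ ⟨_, ⟨l, -, rfl⟩, rfl⟩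
      exact gc _ (htA k) _ (htA l)
    refine ⟨fun hb => ?_, hc, fun x hx => ?_⟩
    · have h1 : s (t i) = 1 := Subgroup.mem_bot.1 (hb ▸ mem i i le_rfl)
      have h3 := hs _ (htA i)
      rw [h1, map_one] at h3
      have h4 : (2 : F) • t i = (2 : F) • (1 : Matrix (Fin (m + 2)) (Fin (m + 2)) F) := by
        rw [two_smul F (1 : Matrix (Fin (m + 2)) (Fin (m + 2)) F)]
        exact (eq_sub_iff_add_eq.1 h3).symm
      have h5 : t i = 1 := smul_right_injective _ h2 h4
      obtain ⟨b, hb, hne⟩ := Finset.exists_mem_ne (s := A) (by rw [hA.1]; omega) (t i)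
      have h6 := hA.2.2 _ (htA i) b hb hne.symm
      rw [h5, one_mul] at h6
      exact ne_zero (hA.2.1 b hb) h6
    · refine Subgroup.closure_induction (p := fun x _ => x ^ 2 = 1) ?_ (one_pow 2)
        (fun x y hx hy h1 h2 => ?_) (fun x _ h => by rw [inv_pow, h, inv_one]) hx
      · rintro _ ⟨_, ⟨k, -, rfl⟩, rfl⟩
        exact gs _ (htA k)
      · rw [Commute.mul_pow (hc x hx y hy), h1, h2, one_mul]

end Vale.Agent.P240
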