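import Vale.Agent.P240.Stm

/-! The projections of an orthonormal frame add up to the identity. -/

namespace Vale.Agent.P240

open Matrix

namespace SumAux

theorem orth {F : Type} [Field F] {n : ℕ} {v w : Fin n → F} (hv : v ⬝ᵥ v = 1) (hw : w ⬝ᵥ w = 1)
    (h : vecMulVec v v * vecMulVec w w = 0) : v ⬝ᵥ w = 0 := by
  have h1 := congrArg (fun M => v ⬝ᵥ (M *ᵥ w)) h
  simp only [← Matrix.mulVec_mulVec, vecMulVec_mulVec, hw, zero_mulVec, dotProduct_zero,
    MulOpposite.op_one, one_smul, op_smul_eq_smul, dotProduct_smul, hv, smul_eq_mul,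
    mul_one] at h1
  exact h1

end SumAux

theorem sum_pf : SumStmt := by
  intro F _ n A ⟨hc, hp, ho⟩
  let e : Fin n ≃ A := (Finset.equivFinOfCardEq hc).symm
  choose v hv using fun i : Fin n => hp (e i) (e i).2
  have h1 : Matrix.of v * (Matrix.of v)ᵀ = 1 := by
    ext i j
    have e1 : (Matrix.of v * (Matrix.of v)ᵀ) i j = v i ⬝ᵥ v j := rfl
    rw [e1, Matrix.one_apply]
    split_ifs with h
    · rw [← h]
      exact (hv i).1
    · refine SumAux.orth (hv i).1 (hv j).1 ?_
      rw [← (hv i).2, ← (hv j).2]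
      exact ho _ (e i).2 _ (e j).2 fun h' => h (e.injective (Subtype.ext h'))
  have h2 : (Matrix.of v)ᵀ * Matrix.of v = 1 := mul_eq_one_comm.1 h1
  rw [← Finset.sum_coe_sort A, ← e.sum_comp, ← h2]
  ext a b
  rw [Matrix.sum_apply, Matrix.mul_apply]
  refine Finset.sum_congr rfl fun i _ => ?_
  rw [(hv i).2]
  rfl

end Vale.Agent.P240
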