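import Vale.Agent.P240.Top3
import Vale.Agent.P240.Rank
import Vale.Agent.P240.Alt
import Vale.Agent.P240.Sum
import Vale.Agent.P240.Circ
import Vale.Agent.P240.Ext
import Vale.Agent.P240.Count
import Vale.Agent.P240.Mem
import Vale.Agent.P240.Simp
import Vale.Agent.P240.Sep
import Vale.Agent.P240.Comm
import Vale.Agent.P240.Cyc2
import Vale.Agent.P240.ProdA
import Vale.Agent.P240.ProdS
import Vale.Agent.P240.ProdP
import Vale.Agent.P240.Inh
import Vale.Agent.P240.WRank
import Vale.Agent.P240.GSep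
import Vale.Agent.P240.GSimp
import Vale.Agent.P240.C3a
import Vale.Agent.P240.C3b
import Vale.Agent.P240.C2
import Vale.Agent.P240.Fam
import Vale.Agent.P240.DD
import Vale.Agent.P240.Lift
import Vale.Agent.P240.GT2
import Vale.Agent.P240.C4
import Vale.Agent.P240.FrConj
import Vale.Agent.P240.GCard
import Vale.Agent.P240.C1
import Vale.Agent.P240.C5
import Vale.Agent.P240.GT1
import Vale.Agent.P240.OInj
import Vale.Agent.P240.Idx2

namespace Vale.Agent.P240

theorem all_pf : AllStmt :=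
  ⟨alt_pf, sum_pf, count_pf (ext_pf circ_pf), simp_pf (mem_pf sum_pf),
    sep_pf sum_pf (mem_pf sum_pf), comm_pf sum_pf, cyc2_pf, prodA_pf, prodS_pf,
    prodP_pf prodS_pf, inh_pf, wrank_pf, gsimp_pf, gsep_pf, gcard_pf, gt1_pf, gt2_pf, oinj_pf,
    lift_pf rank_pf, c1_pf oinj_pf rdet_pf, c2_pf oinj_pf rdet_pf (simp_pf (mem_pf sum_pf)),
    c3a_pf frconj_pf, c3b_pf oinj_pf rdet_pf (sep_pf sum_pf (mem_pf sum_pf)),
    c4_pf oinj_pf rdet_pf, c5_pf, idx2_pf, fam_pf (ext_pf circ_pf) (count_pf (ext_pf circ_pf)),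
    dd_pf, rdet_pf⟩

theorem orth_pf (F : Type) [Field F] [Fintype F] (n : ℕ) (hn : Odd n) (h3 : 3 ≤ n)
    (hq : Odd (Fintype.card F)) (hqn : 2 * n + 3 ≤ Fintype.card F)
    (H : Type) [Group H] [Finite H] (ι : Matrix.specialOrthogonalGroup (Fin n) F →* H)
    (hι : Function.Injective ι) (hN : ι.range.Normal) (ho : Odd ι.range.index) :
    WQD H ((commutator (Matrix.specialOrthogonalGroup (Fin n) F)).map ι) (n - 1) :=
  fun t ht G hG => top_of rank_pf alt_pf sum_pf (count_pf (ext_pf circ_pf))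
    (simp_pf (mem_pf sum_pf)) (sep_pf sum_pf (mem_pf sum_pf)) (comm_pf sum_pf) cyc2_pf prodA_pf
    prodS_pf (prodP_pf prodS_pf) inh_pf wrank_pf F n hn h3 hq hqn H ι hι hN ho t ht G hG

end Vale.Agent.P240
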