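import Vale.Agent.P240.Stm5
import Vale.Agent.P240.WRank

namespace Vale.Agent.P240

namespace BaseWAux

/-- The values at `y` of the elements of a subgroup of the base group. -/
def vals {H : Type} [Group H] {t : ℕ}
    (E₂ : Subgroup ((Fin t → H) ⋊[mulAutArrow] Equiv.Perm (Fin t)))
    (h1 : ∀ g ∈ E₂, g.right = 1) (hs : ∀ g ∈ E₂, g * g = 1) (y : Fin t) : Subgroup H where
  carrier := {h | ∃ g ∈ E₂, g.left y = h}
  one_mem' := ⟨1, E₂.one_mem, rfl⟩
  mul_mem' := by
    rintro _ _ ⟨a, ha, rfl⟩ ⟨b, hb, rfl⟩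
    exact ⟨a * b, E₂.mul_mem ha hb, WRankAux.mul_left_fix a b y (by rw [h1 a ha]; rfl)⟩
  inv_mem' := by
    rintro _ ⟨a, ha, rfl⟩
    refine ⟨a, ha, (inv_eq_of_mul_eq_one_right ?_).symm⟩
    rw [← WRankAux.mul_left_fix a a y (by rw [h1 a ha]; rfl), hs a ha]
    rfl

end BaseWAux

theorem base_pf : BaseStmt := by
  intro H _ _ R t M E E₂ Y hM hA hE hle hY hb
  have h1 : ∀ g ∈ E₂, g.right = 1 := fun g hg => (hb g hg).1
  have hs : ∀ g ∈ E₂, g * g = 1 := fun g hg => by
    rw [← pow_two]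
    exact hE.2.2 g (hle hg)
  have fx : ∀ g ∈ E₂, ∀ y, g.right y = y := fun g hg y => by
    rw [h1 g hg]
    rfl
  have mem : ∀ y h, h ∈ BaseWAux.vals E₂ h1 hs y ↔ ∃ g ∈ E₂, g.left y = h := fun _ _ => Iff.rfl
  have hV : ∀ y, Nat.card (BaseWAux.vals E₂ h1 hs y) ≤ M := by
    intro y
    by_cases h0 : BaseWAux.vals E₂ h1 hs y = ⊥
    · rw [h0, Subgroup.card_bot]
      exact hM
    · refine hA _ ⟨h0, ?_, ?_⟩ ?_
      · intro u hu v hv
        obtain ⟨a, ha, rfl⟩ := (mem y u).1 hu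
        obtain ⟨b, hb', rfl⟩ := (mem y v).1 hv
        rw [← WRankAux.mul_left_fix a b y (fx a ha y), ← WRankAux.mul_left_fix b a y (fx b hb' y),
          hE.2.1 a (hle ha) b (hle hb')]
      · intro u hu
        obtain ⟨a, ha, rfl⟩ := (mem y u).1 hu
        rw [pow_two, ← WRankAux.mul_left_fix a a y (fx a ha y), hs a ha]
        rfl
      · intro u hu
        obtain ⟨a, ha, rfl⟩ := (mem y u).1 hu
        exact (hb a ha).2 y
  have key : ∀ k ∈ E₂, (∀ y ∈ Y, k.left y = 1) → k = 1 := by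
    intro k hk h0
    refine SemidirectProduct.ext ?_ (h1 k hk)
    funext x
    obtain ⟨f, hf, y, hy, hfy⟩ := hY x
    have e1 : (k * f).left x = k.left x * f.left x := WRankAux.mul_left_fix k f x (fx k hk x)
    have e2 : (f * k).left x = f.left x * k.left y := by
      rw [WRankAux.mul_left_app]
      have : f.right⁻¹ x = y := by
        rw [Equiv.Perm.inv_eq_iff_eq]
        exact hfy.symm
      rw [this]
    rw [hE.2.1 k (hle hk) f hf, e2, h0 y hy, mul_one] at e1
    exact mul_eq_right.1 e1.symm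
  let φ : E₂ → ∀ y : Y, BaseWAux.vals E₂ h1 hs y.1 :=
    fun g y => ⟨g.1.left y.1, (mem _ _).2 ⟨g.1, g.2, rfl⟩⟩
  have inj : Function.Injective φ := by
    intro g h hgh
    have e : g.1 * h.1 = 1 := by
      refine key _ (E₂.mul_mem g.2 h.2) fun y hy => ?_
      have e0 : g.1.left y = h.1.left y := congrArg Subtype.val (congrFun hgh ⟨y, hy⟩)
      rw [WRankAux.mul_left_fix _ _ y (fx _ g.2 y), ← e0,
        ← WRankAux.mul_left_fix _ _ y (fx _ g.2 y), hs _ g.2]
      rfl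
    exact Subtype.ext (mul_left_cancel ((hs _ g.2).trans e.symm))
  refine (Nat.card_le_card_of_injective φ inj).trans ?_
  rw [Nat.card_pi]
  refine (Finset.prod_le_pow_card _ _ M fun y _ => hV y.1).trans ?_
  rw [Finset.card_univ, Fintype.card_coe]

end Vale.Agent.P240
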