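import Vale.Agent.P240.Stm6

namespace Vale.Agent.P240

namespace CjBaseAux

theorem conj_inl {N G : Type} [Group N] [Group G] {φ : G →* MulAut N} (w : N ⋊[φ] G) (f : N) :
    w⁻¹ * SemidirectProduct.inl f * w =
      SemidirectProduct.inl (φ w.right⁻¹ (w.left⁻¹ * f * w.left)) := by
  refine SemidirectProduct.ext ?_ ?_
  · simp [SemidirectProduct.mul_left, SemidirectProduct.inv_left]
  · simp

end CjBaseAux

theorem cjbase_pf : CjBaseStmt := by
  intro H _ R t w f hR hf
  refine ⟨_, fun i => ?_, CjBaseAux.conj_inl w f⟩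
  exact hR.conj_mem' _ (hf _) _

end Vale.Agent.P240
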