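import Vale.Agent.P240.Stm6

namespace Vale.Agent.P240

namespace CjBaseAuxb

theorem mul_left_app {H : Type} [Group H] {k : ℕ}
    (a b : (Fin k → H) ⋊[mulAutArrow] Equiv.Perm (Fin k)) (x : Fin k) :
    (a * b).left x = a.left x * b.left (a.right⁻¹ x) := by
  rw [SemidirectProduct.mul_left]
  rfl

end CjBaseAuxb

open CjBaseAuxb in
theorem cjbase_pfb : CjBaseStmt := by
  intro H _ R t w f hR hf
  refine ⟨(w⁻¹ * SemidirectProduct.inl f * w).left, fun i => ?_,
    SemidirectProduct.ext rfl (by simp)⟩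
  have e1 := mul_left_app w⁻¹ w i
  rw [inv_mul_cancel] at e1
  have e2 : w⁻¹.left i * w.left (w⁻¹.right⁻¹ i) = 1 := e1.symm
  have e3 : (w⁻¹ * SemidirectProduct.inl f).right = w⁻¹.right := by
    rw [SemidirectProduct.mul_right, SemidirectProduct.right_inl, mul_one]
  rw [mul_left_app, mul_left_app, e3, SemidirectProduct.left_inl, eq_inv_of_mul_eq_one_right e2]
  exact hR.conj_mem _ (hf _) _

end Vale.Agent.P240
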