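import Vale.Agent.P240.Stm5
import Vale.Agent.P240.Inh

namespace Vale.Agent.P240

namespace DPiAux

theorem ch_map {O G P : Type} [Group O] [Group G] (ψ : O →* G) (s : P → O) {k : ℕ}
    (u : Fin k → P) (i : Fin k) : ch (fun p => ψ (s p)) u i = (ch s u i).map ψ := by
  simp only [ch, MonoidHom.map_closure, Set.image_image]

/-- adding a first coordinate -/
def cons {t : ℕ} (W : Fin (t + 1) → Type) [∀ i, Group (W i)] :
    W 0 × (∀ i : Fin t, W i.succ) →* ∀ i, W i :=
  MonoidHom.mk' (fun x => Fin.cons x.1 x.2) fun x y => funext fun i => by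
    induction i using Fin.cases <;> simp

theorem cons_inj {t : ℕ} (W : Fin (t + 1) → Type) [∀ i, Group (W i)] :
    Function.Injective (cons W) := fun _ _ h =>
  Prod.ext (congrFun h 0) (funext fun i => congrFun h i.succ)

end DPiAux

theorem dmap_pf : DMapStmt := by
  rintro G₁ G₂ _ _ ψ a hψ ⟨P, _, s, α, u, h1, h2, h3, h4⟩
  refine ⟨P, inferInstance, fun p => ψ (s p), α, u, h1, h2, fun t ht => ⟨fun i j hij => ?_,
    fun i => ?_⟩, fun t ht e => h4 t ht (funext fun i => Subgroup.map_injective hψ ?_)⟩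
  · rw [DPiAux.ch_map, DPiAux.ch_map]
    exact (Subgroup.map_lt_map_iff_of_injective hψ).mpr ((h3 t ht).1 hij)
  · rw [DPiAux.ch_map]
    exact InhAux.elem hψ ((h3 t ht).2 i)
  · rw [← DPiAux.ch_map, ← DPiAux.ch_map, e]

theorem dpi_pf (hJ : JoinStmt) : DPiStmt := by
  intro t
  induction t with
  | zero =>
    intro W _ r h
    rw [show ∑ i, r i + 0 = r 0 by simp]
    exact dmap_pf _ _ ((DPiAux.cons W).comp (MonoidHom.inl _ _)) _
      ((DPiAux.cons_inj W).comp fun _ _ e => congrArg Prod.fst e) (h 0)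
  | succ t ih =>
    intro W _ r h
    rw [show ∑ i, r i + (t + 1) = r 0 + 1 + (∑ i : Fin (t + 1), r i.succ + t) by
      rw [Fin.sum_univ_succ]; omega]
    exact dmap_pf _ _ (DPiAux.cons W) _ (DPiAux.cons_inj W)
      (hJ _ _ _ _ (h 0) (ih (fun i => W i.succ) (fun i => r i.succ) fun i => h i.succ))

end Vale.Agent.P240
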