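import Mathlib

/-! The poset of elementary abelian subgroups and the rational homology of its order complex. -/

namespace Vale.Agent.P240

/-- `E` is a nonidentity elementary abelian `p`-subgroup. -/
def IsElemAb {G : Type} [Group G] (p : ℕ) (E : Subgroup G) : Prop :=
  E ≠ ⊥ ∧ (∀ x ∈ E, ∀ y ∈ E, x * y = y * x) ∧ ∀ x ∈ E, x ^ p = 1

/-- `c` is a simplex with `k` vertices of the order complex of the poset. -/
def IsSimplex {G : Type} [Group G] (p : ℕ) {k : ℕ} (c : Fin k → Subgroup G) : Prop :=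
  StrictMono c ∧ ∀ i, IsElemAb p (c i)

/-- `z` is a rational chain of the order complex made of simplices with `k` vertices. -/
def IsCh {G : Type} [Group G] (p : ℕ) {k : ℕ} (z : (Fin k → Subgroup G) →₀ ℚ) : Prop :=
  ∀ c ∈ z.support, IsSimplex p c

/-- The augmented simplicial boundary map. -/
noncomputable def bd {G : Type} [Group G] {k : ℕ} (z : (Fin (k + 1) → Subgroup G) →₀ ℚ) :
    (Fin k → Subgroup G) →₀ ℚ :=
  z.sum fun c a => ∑ i : Fin (k + 1), Finsupp.single (c ∘ i.succAbove) ((-1) ^ (i : ℕ) * a)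

/-- The reduced rational homology of the order complex in degree `k` is nonzero. -/
def HomologyNe (G : Type) [Group G] (p k : ℕ) : Prop :=
  ∃ z : (Fin (k + 1) → Subgroup G) →₀ ℚ, IsCh p z ∧ bd z = 0 ∧
    ¬ ∃ w : (Fin (k + 2) → Subgroup G) →₀ ℚ, IsCh p w ∧ bd w = z

/-- The largest elementary abelian `p`-subgroup of `G` has order `p ^ r`. -/
def HasRank (G : Type) [Group G] (p r : ℕ) : Prop :=
  (∃ E : Subgroup G, IsElemAb p E ∧ Nat.card E = p ^ r) ∧
    ∀ E : Subgroup G, IsElemAb p E → Nat.card E ≤ p ^ r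

end Vale.Agent.P240
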