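import Vale.Agent.P240.Defs

namespace Vale.Agent.P240

open Matrix

/-- Every subgroup of a wreath product of `H` that contains all base tuples with entries in `B`
has `2`-rank `t * r` and nonzero homology in the top degree. -/
def WQD (H : Type) [Group H] (B : Subgroup H) (r : ℕ) : Prop :=
  ∀ (t : ℕ), 1 ≤ t → ∀ G : Subgroup ((Fin t → H) ⋊[mulAutArrow] Equiv.Perm (Fin t)),
    (∀ f : Fin t → H, (∀ i, f i ∈ B) → SemidirectProduct.inl f ∈ G) →
    HasRank G 2 (t * r) ∧ HomologyNe G 2 (t * r - 1)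

/-- The property for odd-index overgroups of a quotient of `K` by scalars, without and with an
inverse-transpose involution. -/
def ExtQD {E : Type} [Field E] {n : ℕ} (K : Subgroup (SpecialLinearGroup (Fin n) E)) : Prop :=
  ∀ (H : Type) [Group H] [Finite H] (ι : K →* H),
    (∀ k, ι k = 1 → k.1 ∈ Subgroup.center (SpecialLinearGroup (Fin n) E)) →
    (ι.range.Normal → Odd ι.range.index → WQD H ι.range (n - 1)) ∧
    ∀ (γ : H) (B : Subgroup H), γ ∉ ι.range → γ * γ = 1 →
      (∀ k, ∃ l, γ * ι k * γ⁻¹ = ι l ∧ l.1.1 * k.1.1ᵀ = 1) →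
      (∀ h, h ∈ B ↔ h ∈ ι.range ∨ h * γ ∈ ι.range) → B.Normal → Odd B.index → WQD H B n

end Vale.Agent.P240
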