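import Vale.Agent.P240.Defs2

namespace Vale.Agent.P240

open Matrix

/-- Every element of order at most two lies in `B`. -/
def InvIn {H : Type} [Group H] (B : Subgroup H) : Prop :=
  ∀ h : H, h * h = 1 → h ∈ B

/-- `K` contains the commutator subgroup of the special orthogonal group. -/
def HasOmega {E : Type} [Field E] {n : ℕ} (K : Subgroup (SpecialLinearGroup (Fin n) E)) : Prop :=
  ∀ g : SpecialLinearGroup (Fin n) E,
    (∃ h ∈ commutator (Matrix.specialOrthogonalGroup (Fin n) E), h.1 = g.1) → g ∈ K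

/-- Overgroups of a central quotient of `K` without further involutions. -/
def Ext0 {E : Type} [Field E] {n : ℕ} (K : Subgroup (SpecialLinearGroup (Fin n) E)) : Prop :=
  ∀ (H : Type) [Group H] [Finite H] (ι : K →* H),
    (∀ k, ι k = 1 → k.1 ∈ Subgroup.center (SpecialLinearGroup (Fin n) E)) →
    InvIn ι.range → WQD H ι.range (n - 1)

/-- Extensions by one outer involution that acts through the relation `T`. -/
def Ext1 {E : Type} [Field E] {n : ℕ} (K : Subgroup (SpecialLinearGroup (Fin n) E))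
    (T : Matrix (Fin n) (Fin n) E → Matrix (Fin n) (Fin n) E → Prop) : Prop :=
  ∀ (H : Type) [Group H] [Finite H] (ι : K →* H) (γ : H) (B : Subgroup H),
    (∀ k, ι k = 1 → k.1 ∈ Subgroup.center (SpecialLinearGroup (Fin n) E)) →
    γ ∉ ι.range → γ * γ = 1 → (∀ k, ∃ l, γ * ι k * γ⁻¹ = ι l ∧ T k.1.1 l.1.1) →
    (∀ h, h ∈ B ↔ h ∈ ι.range ∨ h * γ ∈ ι.range) → InvIn B → WQD H B n

/-- Extensions of a central quotient of the special linear group by a graph and a field
involution. -/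
def Ext2 (E : Type) [Field E] [StarRing E] (n : ℕ) : Prop :=
  ∀ (H : Type) [Group H] [Finite H] (ι : SpecialLinearGroup (Fin n) E →* H) (γ δ : H)
    (B : Subgroup H), (∀ k, ι k = 1 → k ∈ Subgroup.center (SpecialLinearGroup (Fin n) E)) →
    γ ∉ ι.range → δ ∉ ι.range → γ * δ ∉ ι.range → γ * γ = 1 → δ * δ = 1 → γ * δ = δ * γ →
    (∀ k, ∃ l, γ * ι k * γ⁻¹ = ι l ∧ l.1 * k.1ᵀ = 1) →
    (∀ k, ∃ l, δ * ι k * δ⁻¹ = ι l ∧ l.1 = k.1.map star) →
    (∀ h, h ∈ B ↔ h ∈ ι.range ∨ h * γ ∈ ι.range ∨ h * δ ∈ ι.range ∨ h * (γ * δ) ∈ ι.range) →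
    InvIn B → WQD H B (n + 1)

end Vale.Agent.P240
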