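import Vale.Agent.P240.Defs3

namespace Vale.Agent.P240

open Matrix

/-- Every subgroup of a wreath product of `H` that contains all base tuples with entries in `R`
has nonzero homology in the top degree. -/
def FullQD (H : Type) [Group H] (R : Subgroup H) : Prop :=
  ∀ (t : ℕ), 1 ≤ t → ∀ G : Subgroup ((Fin t → H) ⋊[mulAutArrow] Equiv.Perm (Fin t)),
    (∀ f : Fin t → H, (∀ i, f i ∈ R) → SemidirectProduct.inl f ∈ G) →
    ∃ r, HasRank G 2 (r + 1) ∧ HomologyNe G 2 r

/-- The same for extensions by one outer involution that acts through the relation `T`. -/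
def Full1 {E : Type} [Field E] {n : ℕ} (K : Subgroup (SpecialLinearGroup (Fin n) E))
    (T : Matrix (Fin n) (Fin n) E → Matrix (Fin n) (Fin n) E → Prop) : Prop :=
  ∀ (H : Type) [Group H] [Finite H] (ι : K →* H) (γ : H),
    (∀ k, ι k = 1 → k.1 ∈ Subgroup.center (SpecialLinearGroup (Fin n) E)) →
    γ ∉ ι.range → γ * γ = 1 → (∀ k, ∃ l, γ * ι k * γ⁻¹ = ι l ∧ T k.1.1 l.1.1) →
    (∀ h : H, h * h = 1 → h ∈ ι.range ∨ h * γ ∈ ι.range) → FullQD H ι.range

end Vale.Agent.P240
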