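import Vale.Agent.P240.Defs4

namespace Vale.Agent.P240

open Matrix

/-- The same for odd-index overgroups of groups with one class of outer involutions. -/
def Full2 {E : Type} [Field E] {n : ℕ} (K : Subgroup (SpecialLinearGroup (Fin n) E))
    (T : Matrix (Fin n) (Fin n) E → Matrix (Fin n) (Fin n) E → Prop) : Prop :=
  ∀ (H : Type) [Group H] [Finite H] (ι : K →* H) (γ : H) (U : Subgroup H),
    (∀ k, ι k = 1 → k.1 ∈ Subgroup.center (SpecialLinearGroup (Fin n) E)) →
    γ ∉ ι.range → γ * γ = 1 → (∀ k, ∃ l, γ * ι k * γ⁻¹ = ι l ∧ T k.1.1 l.1.1) →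
    ι.range.Normal → Odd U.index → ι.range ≤ U → γ ∈ U →
    (∀ h ∈ U, h * h = 1 → h ∈ ι.range ∨ h * γ ∈ ι.range) → FullQD H ι.range

end Vale.Agent.P240
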