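import Vale.Agent.P240.Stm5

namespace Vale.Agent.P240

namespace EchAux

theorem ex_I (t : ℕ) (Λ : Subgroup (Fin t → ℤˣ)) : ∃ I : Finset (Fin t),
    (∀ u : Fin t → ℤˣ, ∃ l ∈ Λ, ∀ i ∈ I, l i = u i) ∧
      ∀ l ∈ Λ, ∀ l' ∈ Λ, (∀ i ∈ I, l i = l' i) → l = l' := by
  classical
  obtain ⟨I, hI, hmax⟩ := Finset.exists_max_image
    ((Finset.univ : Finset (Finset (Fin t))).filter
      fun I => ∀ u : Fin t → ℤˣ, ∃ l ∈ Λ, ∀ i ∈ I, l i = u i) Finset.card
    ⟨∅, Finset.mem_filter.2 ⟨Finset.mem_univ _, fun _ => ⟨1, Λ.one_mem, by simp⟩⟩⟩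
  have hI' := (Finset.mem_filter.1 hI).2
  have key : ∀ l ∈ Λ, (∀ i ∈ I, l i = 1) → l = 1 := by
    intro l hl h1
    funext j
    by_contra hj
    have hj' : l j = -1 := (Int.units_eq_one_or (l j)).resolve_left hj
    have hjI : j ∉ I := fun h => hj (h1 j h)
    have hw : ∀ u : Fin t → ℤˣ, ∃ m ∈ Λ, ∀ i ∈ insert j I, m i = u i := by
      intro u
      obtain ⟨m, hm, hmu⟩ := hI' u
      by_cases h : m j = u j
      · refine ⟨m, hm, fun i hi => ?_⟩
        rcases Finset.mem_insert.1 hi with e | e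
        · rw [e, h]
        · exact hmu i e
      · refine ⟨m * l, Λ.mul_mem hm hl, fun i hi => ?_⟩
        rw [Pi.mul_apply]
        rcases Finset.mem_insert.1 hi with e | e
        · rw [e, hj']
          rcases Int.units_eq_one_or (m j) with a | a <;>
            rcases Int.units_eq_one_or (u j) with b | b
          · exact absurd (a.trans b.symm) h
          · rw [a, b, one_mul]
          · rw [a, b, neg_mul_neg, one_mul]
          · exact absurd (a.trans b.symm) h
        · rw [h1 i e, mul_one, hmu i e]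
    have := hmax (insert j I) (Finset.mem_filter.2 ⟨Finset.mem_univ _, hw⟩)
    rw [Finset.card_insert_of_notMem hjI] at this
    omega
  refine ⟨I, hI', fun l hl l' hl' h => ?_⟩
  refine mul_inv_eq_one.1 (key _ (Λ.mul_mem hl (Λ.inv_mem hl')) fun i hi => ?_)
  rw [Pi.mul_apply, Pi.inv_apply, h i hi, mul_inv_cancel]

end EchAux

theorem ech_pf : EchStmt := by
  intro t Λ
  obtain ⟨I, hI, huniq⟩ := EchAux.ex_I t Λ
  choose f hf1 hf2 using hI
  refine ⟨I, MonoidHom.mk' f fun a b => ?_, fun u => ⟨hf1 u, hf2 u⟩, fun u u' h => ?_, ?_⟩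
  · refine huniq _ (hf1 _) _ (Λ.mul_mem (hf1 a) (hf1 b)) fun i hi => ?_
    rw [Pi.mul_apply, hf2 _ i hi, hf2 _ i hi, hf2 _ i hi, Pi.mul_apply]
  · refine huniq (f u) (hf1 _) (f u') (hf1 _) fun i hi => ?_
    rw [hf2 _ i hi, hf2 _ i hi, h i hi]
  · have hinj : Function.Injective fun (l : Λ) (i : I) => l.1 i.1 := by
      intro l l' h
      exact Subtype.ext (huniq _ l.2 _ l'.2 fun i hi => congrFun h ⟨i, hi⟩)
    refine (Nat.card_le_card_of_injective _ hinj).trans (le_of_eq ?_)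
    rw [Nat.card_eq_fintype_card, Fintype.card_fun, Fintype.card_units_int, Fintype.card_coe]

end Vale.Agent.P240
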