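import Vale.Agent.P240.Stm5

/-! Embedding of a product of subgroups in a subgroup of a wreath product. -/

namespace Vale.Agent.P240

namespace EmbAux

theorem exists_th {B : Type} [Group B] (g : B) (ε : B →* ℤˣ) (h1 : ε g ≠ 1) (h2 : g * g = 1) :
    ∃ th : ℤˣ → B, (∀ a b, th (a * b) = th a * th b) ∧ (∀ a, ε (th a) = a) ∧
      ∀ a x, x * g = g * x → x * th a = th a * x := by
  have hg : ε g = -1 := (Int.units_eq_one_or (ε g)).resolve_left h1
  have n1 : (-1 : ℤˣ) ≠ 1 := by decide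
  refine ⟨fun e => if e = 1 then 1 else g, fun a b => ?_, fun a => ?_, fun a x hx => ?_⟩
  · rcases Int.units_eq_one_or a with rfl | rfl <;>
      rcases Int.units_eq_one_or b with rfl | rfl <;> simp [n1, h2]
  · rcases Int.units_eq_one_or a with rfl | rfl <;> simp [n1, hg]
  · by_cases h : a = 1 <;> simp [h, hx]

end EmbAux

theorem emb_pf : EmbStmt := by
  intro H _ R B γ ε t G I σ W h1 h2 _ h4 h5 h6 h7 h8 h9 h10
  obtain ⟨th, t1, t2, t3⟩ := EmbAux.exists_th (⟨γ, h4⟩ : B) ε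
    (fun h => h1 ((h5 _).1 h)) (Subtype.ext h2)
  obtain ⟨wb, hwb⟩ : ∃ wb : (∀ i, W i) → Fin t → B, ∀ w j, (wb w j).1 = (w j).1 :=
    ⟨fun w j => ⟨w j, h9 j (w j).2⟩, fun _ _ => rfl⟩
  have wm : ∀ w w' j, wb (w * w') j = wb w j * wb w' j := fun w w' j =>
    Subtype.ext (by rw [Subgroup.coe_mul, hwb, hwb, hwb]; rfl)
  obtain ⟨u, hu⟩ : ∃ u : (∀ i, W i) → Fin t → ℤˣ, ∀ w j, u w j = ε (wb w j) :=
    ⟨fun w j => ε (wb w j), fun _ _ => rfl⟩
  have um : ∀ w w', u (w * w') = u w * u w' := fun w w' => by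
    funext j
    rw [Pi.mul_apply, hu, hu, hu, wm, map_mul]
  obtain ⟨ps, hp⟩ : ∃ ps : (∀ i, W i) → Fin t → B, ∀ w j,
      ps w j = if j ∈ I then wb w j else wb w j * th (σ (u w) j) := ⟨_, fun _ _ => rfl⟩
  have pm : ∀ w w' j, ps (w * w') j = ps w j * ps w' j := fun w w' j => by
    rw [hp, hp, hp]
    by_cases hj : j ∈ I
    · rw [if_pos hj, if_pos hj, if_pos hj, wm]
    · have c : wb w' j * ⟨γ, h4⟩ = ⟨γ, h4⟩ * wb w' j := Subtype.ext (by
        rw [Subgroup.coe_mul, Subgroup.coe_mul, hwb]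
        exact (h10 j hj _ (w' j).2).2)
      rw [if_neg hj, if_neg hj, if_neg hj, wm, um, map_mul, Pi.mul_apply, t1, mul_assoc,
        mul_assoc, ← mul_assoc (wb w' j), t3 _ _ c, mul_assoc]
  have pe : ∀ w j, ε (ps w j) = σ (u w) j := fun w j => by
    rw [hp]
    by_cases hj : j ∈ I
    · rw [if_pos hj, (h7 (u w)).2 j hj, hu]
    · have e : ε (wb w j) = 1 := (h5 _).2 (by rw [hwb]; exact (h10 j hj _ (w j).2).1)
      rw [if_neg hj, map_mul, e, t2, one_mul]
  have mem : ∀ w, SemidirectProduct.inl (fun j => (ps w j).1) ∈ G := fun w => by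
    obtain ⟨f, f1, f2⟩ := (h7 (u w)).1
    have k := h6 (fun j => (ps w j * (f j)⁻¹).1) fun j => (h5 _).1 (by
      rw [map_mul, map_inv, pe, f2, mul_inv_cancel])
    have k2 := G.mul_mem k f1
    rw [← map_mul] at k2
    have e : ((fun j => (ps w j * (f j)⁻¹).1) * fun j => (f j).1) = fun j => (ps w j).1 := by
      funext j
      rw [Pi.mul_apply, ← Subgroup.coe_mul, inv_mul_cancel_right]
    rwa [e] at k2
  refine ⟨MonoidHom.mk' (fun w => ⟨SemidirectProduct.inl (fun j => (ps w j).1), mem w⟩)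
    fun a b => Subtype.ext ?_, fun a b hab => ?_⟩
  · have e : (fun j => (ps (a * b) j).1) = (fun j => (ps a j).1) * fun j => (ps b j).1 := by
      funext j
      rw [Pi.mul_apply, pm, Subgroup.coe_mul]
    exact (congrArg SemidirectProduct.inl e).trans (map_mul _ _ _)
  · have e : (fun j => (ps a j).1) = fun j => (ps b j).1 :=
      SemidirectProduct.inl_injective (congrArg Subtype.val hab)
    have e1 : ∀ j, ps a j = ps b j := fun j => Subtype.ext (congrFun e j)
    have e2 : ∀ j ∈ I, wb a j = wb b j := fun j hj => by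
      have := e1 j
      rwa [hp, hp, if_pos hj, if_pos hj] at this
    have e3 : σ (u a) = σ (u b) := h8 _ _ fun j hj => by rw [hu, hu, e2 j hj]
    funext j
    refine Subtype.ext ?_
    rw [← hwb a j, ← hwb b j]
    by_cases hj : j ∈ I
    · rw [e2 j hj]
    · have := e1 j
      rw [hp, hp, if_neg hj, if_neg hj, e3] at this
      rw [mul_right_cancel this]

end Vale.Agent.P240
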