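import Vale.Agent.P240.Stm5

namespace Vale.Agent.P240

theorem eps_pf : EpsStmt := by
  classical
  intro H _ R B γ _ hγ hc hB
  have key : ∀ a b : B, (if (a * b).1 ∈ R then (1 : ℤˣ) else -1) =
      (if a.1 ∈ R then (1 : ℤˣ) else -1) * (if b.1 ∈ R then (1 : ℤˣ) else -1) := by
    intro a b
    have e : (a * b).1 = a.1 * b.1 := rfl
    rw [e]
    by_cases ha : a.1 ∈ R <;> by_cases hb : b.1 ∈ R
    · rw [if_pos ha, if_pos hb, if_pos (R.mul_mem ha hb), one_mul]
    · rw [if_pos ha, if_neg hb, if_neg fun h => hb ((R.mul_mem_cancel_left ha).mp h), one_mul]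
    · rw [if_neg ha, if_pos hb, if_neg fun h => ha ((R.mul_mem_cancel_right hb).mp h), mul_one]
    · have h1 : a.1 * γ ∈ R := ((hB _).mp a.2).resolve_left ha
      have h2 : b.1 * γ ∈ R := ((hB _).mp b.2).resolve_left hb
      have h3 : a.1 * b.1 = a.1 * γ * (γ * (b.1 * γ) * γ⁻¹) := by
        rw [mul_assoc γ, mul_inv_cancel_right, mul_assoc, ← mul_assoc γ, hγ, one_mul]
      have h4 : a.1 * b.1 ∈ R := h3 ▸ R.mul_mem h1 (hc _ h2)
      rw [if_neg ha, if_neg hb, if_pos h4, neg_mul_neg, one_mul]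
  refine ⟨MonoidHom.mk' (fun b : B => if b.1 ∈ R then (1 : ℤˣ) else -1) key, fun b => ?_⟩
  show (if b.1 ∈ R then (1 : ℤˣ) else -1) = 1 ↔ b.1 ∈ R
  by_cases hb : b.1 ∈ R
  · rw [if_pos hb]
    exact iff_of_true rfl hb
  · rw [if_neg hb]
    exact iff_of_false (by decide) hb

end Vale.Agent.P240
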