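import Vale.Agent.P240.Stm4

namespace Vale.Agent.P240

open Matrix

namespace F1Aux

theorem mapst {E : Type} [Field E] [StarRing E] {n : ℕ} (a : Matrix (Fin n) (Fin n) E) :
    ((2 : E) • a - 1).map star = (2 : E) • a.map star - 1 := by
  ext i j
  by_cases h : i = j
  · subst h
    simp [Matrix.map_apply]
  · simp [Matrix.map_apply, Matrix.one_apply_ne h]

theorem key {E : Type} [Field E] [StarRing E] {n : ℕ} (k a : Matrix (Fin n) (Fin n) E)
    (hk : k * kᵀ = 1) (ha : k * a.map star * kᵀ = a) :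
    k * ((2 : E) • a - 1).map star = ((2 : E) • a - 1) * k := by
  have hk' : kᵀ * k = 1 := mul_eq_one_comm.1 hk
  have h1 : k * a.map star = a * k := by
    calc k * a.map star = k * a.map star * (kᵀ * k) := by rw [hk', mul_one]
      _ = k * a.map star * kᵀ * k := by rw [← mul_assoc]
      _ = a * k := by rw [ha]
  rw [mapst, mul_sub, sub_mul, mul_one, one_mul, Matrix.mul_smul, Matrix.smul_mul, h1]

end F1Aux

theorem f1_pf (hO : OInjStmt) (hR : RDetStmt) : F1Stmt := by
  intro E _ _ m K G _ _ _ φ ι δ s X hC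
  obtain ⟨hB, hδ, -, hconj, hs, hX⟩ := hC
  have hB' := hB
  obtain ⟨h2, hodd, hφ, -, -⟩ := hB'
  intro x hx
  obtain ⟨k, A, hk, hk2, hfr, hfix, rfl⟩ := (hX x).1 hx
  have hsa := hs A hfr
  have hT : ∀ a ∈ A, (φ (s a))ᵀ = φ (s a) := by
    intro a ha
    rw [hsa a ha, transpose_sub, transpose_smul, transpose_one,
      (hR E (m + 2) a hodd (hfr.2.1 a ha)).2.1]
  have hsq : ∀ a ∈ A, φ (s a) * φ (s a) = 1 := by
    intro a ha
    rw [hsa a ha]
    exact (hR E (m + 2) a hodd (hfr.2.1 a ha)).2.2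
  have hcomm : ∀ a ∈ A, ι k * δ * ι (s a) = ι (s a) * (ι k * δ) := by
    intro a ha
    obtain ⟨l, hl1, hl2⟩ := hconj (s a) (by rw [hT a ha, hsq a ha])
    have h3 : k * l = s a * k := by
      apply hφ
      rw [map_mul, map_mul, hl2, hsa a ha]
      exact F1Aux.key (φ k) a hk (hfix a ha)
    calc ι k * δ * ι (s a) = ι k * (δ * ι (s a) * δ⁻¹) * δ := by group
      _ = ι (k * l) * δ := by rw [hl1, map_mul]
      _ = ι (s a) * (ι k * δ) := by rw [h3, map_mul, mul_assoc]
  refine ⟨?_, hk2, ?_, ?_⟩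
  · rintro ⟨g, hg⟩
    refine hδ ⟨k⁻¹ * g, ?_⟩
    simp only at hg
    rw [map_mul, map_inv, hg]
    group
  · refine (Finset.card_image_of_injOn ?_).trans hfr.1
    intro a ha b hb hab
    have h4 := hO E (m + 2) K G φ ι hB (s a) (s b) (by rw [hT a ha, hsq a ha])
      (by rw [hT b hb, hsq b hb]) hab
    have h5 : (2 : E) • a - 1 = (2 : E) • b - 1 := by rw [← hsa a ha, ← hsa b hb, h4]
    exact smul_right_injective _ h2 (sub_left_injective h5)
  · intro y hy
    obtain ⟨a, ha, rfl⟩ := Finset.mem_image.1 hy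
    exact ⟨⟨_, rfl⟩, hcomm a ha⟩

end Vale.Agent.P240
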