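import Vale.Agent.P240.Stm4
import Vale.Agent.P240.C2

namespace Vale.Agent.P240

open Matrix

theorem f2_pf (hO : OInjStmt) (hR : RDetStmt) (hSi : SimpStmt) : F2Stmt := by
  classical
  intro E _ _ m K G _ _ _ φ ι δ s X hC x hx t ht htx
  obtain ⟨hB, _, _, _, hF, hX⟩ := hC
  obtain ⟨k₀, A, -, -, hfr, -, rfl⟩ := (hX x).mp hx
  have hs := hF A hfr
  have hmem : ∀ a ∈ A, s a ∈ C2Aux.orth φ := by
    intro a ha
    obtain ⟨_, h2, h3⟩ := hR E (m + 2) a hB.2.1 (hfr.2.1 a ha)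
    rw [C2Aux.mem_orth, hs a ha, transpose_sub, transpose_smul, transpose_one, h2, h3]
  let s1 : Matrix (Fin (m + 2)) (Fin (m + 2)) E → C2Aux.orth φ :=
    fun a => if h : s a ∈ C2Aux.orth φ then ⟨s a, h⟩ else 1
  have hs1 : ∀ a ∈ A, (s1 a : K) = s a := by
    intro a ha
    simp only [s1, dif_pos (hmem a ha)]
  let ψ : C2Aux.orth φ →* G := ι.comp (C2Aux.orth φ).subtype
  have hψv : ∀ k : C2Aux.orth φ, ψ k = ι k := fun k => rfl
  have hψ : Function.Injective ψ := fun k l e =>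
    Subtype.ext (hO E (m + 2) K G φ ι hB k l k.2 l.2 e)
  have hex : ∀ i, ∃ a ∈ A, ι (s a) = t i := fun i => Finset.mem_image.mp (htx i)
  choose u huA hu using hex
  have hui : Function.Injective u := by
    intro i j e
    apply ht
    rw [← hu i, ← hu j, e]
  have hch : ch id t = fun i => (ch s1 u i).map ψ := by
    refine C2Aux.ch_map ψ s1 u t fun i => ?_
    rw [hψv, hs1 _ (huA i), ← hu i]
  have hS : IsSimplex 2 (ch s1 u) := by
    refine hSi E m (C2Aux.orth φ) (φ.comp (C2Aux.orth φ).subtype) s1 A u hB.1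
      (hB.2.2.1.comp Subtype.val_injective) hfr (fun a ha => ?_) hui huA
    show φ (s1 a : K) = _
    rw [hs1 a ha, hs a ha]
  rw [hch]
  exact ⟨fun i j hij => (Subgroup.map_lt_map_iff_of_injective hψ).mpr (hS.1 hij),
    fun i => InhAux.elem hψ (hS.2 i)⟩

end Vale.Agent.P240
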