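import Vale.Agent.P240.Stm4

namespace Vale.Agent.P240

open Matrix

theorem f4_pf (hO : OInjStmt) (hR : RDetStmt) (hSq : SqStmt) (hE : FExtStmt) : F4Stmt := by
  classical
  intro F E _ _ _ _ _ f0 m K G _ _ _ φ ι δ s X hC hf0 hst hcard x hx τ hτ hm
  obtain ⟨hB, -, -, -, hA, hX⟩ := hC
  obtain ⟨k, A, hk1, hk2, hAF, hAx, rfl⟩ := (hX x).1 hx
  have := Fintype.ofFinite E
  obtain ⟨Fr, hFr⟩ : ∃ Fr : Finset (Finset (Matrix (Fin (m + 2)) (Fin (m + 2)) E)),
      ∀ B, B ∈ Fr ↔ IsFrame B ∧ Fix (φ k) B :=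
    ⟨Finset.univ.filter fun B => IsFrame B ∧ Fix (φ k) B, fun B => by simp⟩
  obtain ⟨f, hf⟩ : ∃ f : Matrix (Fin (m + 2)) (Fin (m + 2)) E → G,
      f = fun a => ι (s a) := ⟨_, rfl⟩
  have horth : ∀ B, IsFrame B → ∀ a ∈ B, φ (s a) * (φ (s a))ᵀ = 1 := by
    intro B hBF a ha
    obtain ⟨-, h2, h3⟩ := hR E (m + 2) a hB.2.1 (hBF.2.1 a ha)
    rw [hA B hBF a ha, transpose_sub, transpose_smul, h2, transpose_one]
    exact h3
  have hinj : ∀ B, IsFrame B → ∀ a ∈ B, ∀ B', IsFrame B' → ∀ b ∈ B', f a = f b → a = b := by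
    intro B hBF a ha B' hBF' b hb e
    rw [hf] at e
    have e2 := hO E (m + 2) K G φ ι hB _ _ (horth B hBF a ha) (horth B' hBF' b hb) e
    have e3 := hA B hBF a ha
    rw [e2, hA B' hBF' b hb, sub_left_inj] at e3
    exact (smul_right_injective _ hB.1 e3).symm
  rw [← hf] at hτ
  change τ ⊆ A.image f at hτ
  have h1 : (A.filter fun a => f a ∈ τ).image f = τ := by
    ext y
    constructor
    · intro hy
      obtain ⟨a, ha, rfl⟩ := Finset.mem_image.1 hy
      exact (Finset.mem_filter.1 ha).2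
    · intro hy
      obtain ⟨a, ha, rfl⟩ := Finset.mem_image.1 (hτ hy)
      exact Finset.mem_image_of_mem f (Finset.mem_filter.2 ⟨ha, hy⟩)
  have h2 : (A.filter fun a => f a ∈ τ).card = m := by
    have k := Finset.card_image_of_injOn (s := A.filter fun a => f a ∈ τ) (f := f)
      fun a ha b hb e =>
        hinj A hAF a (Finset.mem_filter.1 ha).1 A hAF b (Finset.mem_filter.1 hb).1 e
    rw [h1] at k
    exact k.symm.trans hm
  have h3 := hE F E f0 m (φ k) A (A.filter fun a => f a ∈ τ) Fr hB.1 hf0 hst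
    (hSq E hB.1 hst) hk1 hFr ((hFr A).2 ⟨hAF, hAx⟩) (Finset.filter_subset _ _) h2
  have h4 : m + 6 ≤ (Fr.filter fun B => (A.filter fun a => f a ∈ τ) ⊆ B).card := by omega
  refine h4.trans ?_
  refine Finset.card_le_card_of_injOn (fun B => (ι k * δ, B.image f)) ?_ ?_
  · intro B hB'
    obtain ⟨hBF, hs⟩ := Finset.mem_filter.1 (Finset.mem_coe.1 hB')
    obtain ⟨b1, b2⟩ := (hFr B).1 hBF
    refine Finset.mem_coe.2 (Finset.mem_filter.2
      ⟨(hX _).2 ⟨k, B, hk1, hk2, b1, b2, by rw [hf]⟩, rfl, ?_⟩)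
    rw [← h1]
    exact Finset.image_subset_image hs
  · intro B hB1 B' hB2 e
    have hBF := ((hFr B).1 (Finset.mem_filter.1 (Finset.mem_coe.1 hB1)).1).1
    have hBF' := ((hFr B').1 (Finset.mem_filter.1 (Finset.mem_coe.1 hB2)).1).1
    have e2 : B.image f = B'.image f := congrArg Prod.snd e
    ext a
    constructor
    · intro ha
      obtain ⟨b, hb, e3⟩ := Finset.mem_image.1 (e2 ▸ Finset.mem_image_of_mem f ha)
      exact hinj B' hBF' b hb B hBF a ha e3 ▸ hb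
    · intro ha
      obtain ⟨b, hb, e3⟩ := Finset.mem_image.1 (e2.symm ▸ Finset.mem_image_of_mem f ha)
      exact hinj B hBF b hb B' hBF' a ha e3 ▸ hb

end Vale.Agent.P240
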