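import Vale.Agent.P240.Stm4

namespace Vale.Agent.P240

open Matrix

namespace F6Aux

variable {E : Type} [Field E] {n : ℕ}

theorem cm {A : Finset (Matrix (Fin n) (Fin n) E)} (hA : IsFrame A) {a c : Matrix (Fin n) (Fin n) E}
    (ha : a ∈ A) (hc : c ∈ A) : a * c = c * a := by
  rcases eq_or_ne a c with rfl | h
  · rfl
  · rw [hA.2.2 a ha c hc h, hA.2.2 c hc a ha h.symm]

theorem inj (h2 : (2 : E) ≠ 0) {a b : Matrix (Fin n) (Fin n) E}
    (h : (2 : E) • a - 1 = (2 : E) • b - 1) : a = b :=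
  smul_right_injective _ h2 (sub_left_injective h)

theorem ne1 (h2 : (2 : E) ≠ 0) {A : Finset (Matrix (Fin n) (Fin n) E)} (hA : IsFrame A)
    {a b : Matrix (Fin n) (Fin n) E} (ha : a ∈ A) (hb : b ∈ A) (h : a ≠ b) :
    (2 : E) • a - 1 ≠ 1 := fun e => by
  have e1 : a = 1 := inj h2 (e.trans (by rw [two_smul, add_sub_cancel_right]))
  have e2 := hA.2.2 a ha b hb h
  obtain ⟨v, hv, rfl⟩ := hA.2.1 b hb
  rw [e1, one_mul] at e2
  have := trace_vecMulVec v v
  rw [e2, trace_zero, hv] at this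
  exact zero_ne_one this

end F6Aux

open F6Aux

theorem f6_pf (hO : OInjStmt) (hR : RDetStmt) (h1 : F1Stmt) : F6Stmt := by
  intro E _ _ m K G _ _ _ φ ι δ s X hC _ x hx
  classical
  have S := h1 E m K G φ ι δ s X hC x hx
  obtain ⟨hB, -, -, -, hs, hX⟩ := hC
  obtain ⟨k, A, k1, k2, hA, hF, rfl⟩ := (hX x).1 hx
  obtain ⟨a, ha, b, hb, ab⟩ := Finset.one_lt_card.1 (show 1 < A.card by rw [hA.1]; omega)
  let P : K → Prop := fun d => φ d * (φ d)ᵀ = 1 ∧ (∀ c ∈ A, φ d * c = c * φ d) ∧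
    ι k * δ * ι d = ι d * (ι k * δ) ∧ d * d = 1
  have P1 : P 1 := ⟨by simp, by simp, by simp, by simp⟩
  have Ps : ∀ c ∈ A, P (s c) := fun c hc => by
    obtain ⟨-, r2, r3⟩ := hR E _ c hB.2.1 (hA.2.1 c hc)
    refine ⟨?_, fun e he => ?_, (S.2.2.2 _ (Finset.mem_image_of_mem _ hc)).2, hB.2.2.1 ?_⟩
    · rw [hs A hA c hc, transpose_sub, transpose_smul, r2, transpose_one, r3]
    · rw [hs A hA c hc, sub_mul, mul_sub, smul_mul_assoc, mul_smul_comm, cm hA hc he, one_mul,
        mul_one]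
    · rw [map_mul, hs A hA c hc, r3, map_one]
  have cab : s a * s b = s b * s a := hB.2.2.1 (by
    rw [map_mul, map_mul, hs A hA b hb, mul_sub, sub_mul, mul_smul_comm, smul_mul_assoc,
      (Ps a ha).2.1 b hb, one_mul, mul_one])
  have or : ∀ d e : K, φ d * (φ d)ᵀ = 1 → φ e * (φ e)ᵀ = 1 → φ (d * e) * (φ (d * e))ᵀ = 1 :=
    fun d e hd he => by
    rw [map_mul, transpose_mul, mul_assoc, ← mul_assoc (φ e), he, one_mul, hd]
  have Pab : P (s a * s b) := by
    obtain ⟨a1, a2, a3, a4⟩ := Ps a ha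
    obtain ⟨b1, b2, b3, b4⟩ := Ps b hb
    refine ⟨or _ _ a1 b1, fun c hc => ?_, ?_, ?_⟩
    · rw [map_mul, mul_assoc, b2 c hc, ← mul_assoc, a2 c hc, mul_assoc]
    · rw [map_mul, ← mul_assoc, a3, mul_assoc, b3, ← mul_assoc]
    · rw [mul_assoc, ← mul_assoc (s b), ← cab, mul_assoc, b4, mul_one, a4]
  have na : s a ≠ 1 := fun e => ne1 hB.1 hA ha hb ab (by rw [← hs A hA a ha, e, map_one])
  have nb : s b ≠ 1 := fun e => ne1 hB.1 hA hb ha ab.symm (by rw [← hs A hA b hb, e, map_one])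
  have nab : s a ≠ s b := fun e => ab (inj hB.1 (by rw [← hs A hA a ha, e, hs A hA b hb]))
  have n1 : s a * s b ≠ 1 := fun e => nab (mul_right_cancel (e.trans (Ps b hb).2.2.2.symm))
  have all : ∀ d ∈ ({1, s a, s b, s a * s b} : Finset K), P d := fun d hd => by
    simp only [Finset.mem_insert, Finset.mem_singleton] at hd
    rcases hd with rfl | rfl | rfl | rfl
    exacts [P1, Ps a ha, Ps b hb, Pab]
  have c4 : ({1, s a, s b, s a * s b} : Finset K).card = 4 := by
    rw [Finset.card_insert_of_notMem (by simp [na.symm, nb.symm, n1.symm]),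
      Finset.card_insert_of_notMem (by simp [nab, nb]),
      Finset.card_insert_of_notMem (by simp [na]), Finset.card_singleton]
  rw [← c4]
  refine Finset.card_le_card_of_injOn (fun d => (ι (d * k) * δ, A.image fun a => ι (s a)))
    (fun d hd => ?_) fun d hd e he h => ?_
  · obtain ⟨d1, d2, d3, d4⟩ := all d hd
    refine Finset.mem_coe.2 (Finset.mem_filter.2 ⟨(hX _).2 ⟨d * k, A, or _ _ d1 k1, ?_, hA,
      fun c hc => ?_, rfl⟩, rfl⟩)
    · rw [map_mul, mul_assoc (ι d), mul_assoc (ι d), ← mul_assoc (ι k * δ), d3, mul_assoc (ι d),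
        k2, mul_one, ← map_mul, d4, map_one]
    · have := hF c hc
      rw [map_mul, transpose_mul, mul_assoc (φ d), mul_assoc (φ d), ← mul_assoc _ (φ k)ᵀ, this,
        ← mul_assoc, d2 c hc, mul_assoc, d1, mul_one]
  · have h' := mul_right_cancel (congrArg Prod.fst h)
    rw [map_mul, map_mul] at h'
    exact hO E _ K G φ ι hB d e (all d hd).1 (all e he).1 (mul_right_cancel h')

end Vale.Agent.P240
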