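import Vale.Agent.P240.Stm4
import Vale.Agent.P240.Ext

namespace Vale.Agent.P240

open Matrix

namespace FExtAux

open ExtAux

variable {E : Type} [Field E] [StarRing E] {n : ℕ}

theorem conj (k : Matrix (Fin n) (Fin n) E) (y : Fin n → E) :
    k * (vecMulVec y y).map star * kᵀ = vecMulVec (k *ᵥ star y) (k *ᵥ star y) := by
  have h : (vecMulVec y y).map star = vecMulVec (star y) (star y) := by
    ext i j
    simp [vecMulVec_apply, star_mul']
  rw [h, mul_vecMulVec, vecMulVec_mul, vecMul_transpose]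

theorem fix_of (k : Matrix (Fin n) (Fin n) E) (y : Fin n → E) (e : E) (he : e * e = 1)
    (h : k *ᵥ star y = e • y) : k * (vecMulVec y y).map star * kᵀ = vecMulVec y y := by
  rw [conj, h]
  ext i j
  simp only [vecMulVec_apply, Pi.smul_apply, smul_eq_mul]
  linear_combination (y i * y j) * he

theorem sgn (k : Matrix (Fin n) (Fin n) E) (v : Fin n → E) (hv : v ⬝ᵥ v = 1)
    (h : k * (vecMulVec v v).map star * kᵀ = vecMulVec v v) :
    ∃ μ : E, μ * μ = 1 ∧ k *ᵥ star v = μ • v := by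
  rw [conj] at h
  generalize k *ᵥ star v = y at h
  have h1 := app y v
  rw [h, app, hv, one_smul] at h1
  have h2 : (y ⬝ᵥ v) * (y ⬝ᵥ v) = 1 := by
    have h3 := congrArg (fun w => w ⬝ᵥ v) h1
    simp only [smul_dotProduct, smul_eq_mul] at h3
    rw [← h3, hv]
  refine ⟨y ⬝ᵥ v, h2, ?_⟩
  generalize y ⬝ᵥ v = t at h1 h2
  rw [h1, smul_smul, h2, one_smul]

theorem th_W (k : Matrix (Fin n) (Fin n) E) (u v : Fin n → E) (μ ν e : E) (c : E × E)
    (hu : k *ᵥ star u = μ • u) (hv : k *ᵥ star v = ν • v) (h1 : star c.1 * μ = e * c.1)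
    (h2 : star c.2 * ν = e * c.2) : k *ᵥ star (W u v c) = e • W u v c := by
  simp only [W, star_add, star_smul, mulVec_add, mulVec_smul, hu, hv, smul_smul, h1, h2, smul_add]

theorem lam (σ : E) (hσ : σ * σ = 1) (h : ∃ x : E, star x ≠ x) :
    ∃ l : E, l ≠ 0 ∧ star l = σ * l := by
  rcases mul_self_eq_one_iff.1 hσ with rfl | rfl
  · exact ⟨1, one_ne_zero, by simp⟩
  · obtain ⟨y, hy⟩ := h
    exact ⟨y - star y, sub_ne_zero.2 hy.symm, by simp⟩

theorem pt (σ z : E) (hσ : σ * σ = 1) (hz : star z = σ * z)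
    (hs : ∀ x : E, star x = x → IsSquare x) : ∃ c : E × E, 1 + z ^ 2 ≠ 0 →
      c.1 ^ 2 + c.2 ^ 2 = 1 ∧ c.1 ≠ 0 ∧ c.2 = z * c.1 ∧ ∃ e : E, e * e = 1 ∧ star c.1 = e * c.1 := by
  have hN : star (1 + z ^ 2) = 1 + z ^ 2 := by
    rw [star_add, star_one, star_pow, hz]
    linear_combination z ^ 2 * hσ
  obtain ⟨r, hr⟩ := hs _ hN
  refine ⟨(r⁻¹, z * r⁻¹), fun h0 => ?_⟩
  have r0 : r ≠ 0 := fun h => h0 (by rw [hr, h, mul_zero])
  refine ⟨?_, inv_ne_zero r0, rfl, ?_⟩
  · field_simp
    linear_combination hr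
  · rw [hr, star_mul'] at hN
    rcases mul_self_eq_mul_self_iff.1 hN with h | h
    · exact ⟨1, one_mul 1, by simp [h]⟩
    · exact ⟨-1, by ring, by simp [h]⟩

end FExtAux

open ExtAux FExtAux

theorem fext_pf : FExtStmt := by
  classical
  intro F E _ _ _ _ _ f m k A τ Fr _ hf hx0 hs _ hFr hA0 hτ hm
  obtain ⟨hA, hfix⟩ := (hFr A).1 hA0
  obtain ⟨p, q, hpq, hd⟩ := Finset.card_eq_two.1
    (show (A \ τ).card = 2 by rw [Finset.card_sdiff_of_subset hτ, hA.1, hm]; omega)
  have hp : p ∈ A \ τ := by rw [hd]; simp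
  have hq : q ∈ A \ τ := by rw [hd]; simp
  rw [Finset.mem_sdiff] at hp hq
  obtain ⟨u, hu, rfl⟩ := hA.2.1 p hp.1
  obtain ⟨v, hv, rfl⟩ := hA.2.1 q hq.1
  have huv : u ⬝ᵥ v = 0 := orth u v hu hv (hA.2.2 _ hp.1 _ hq.1 hpq)
  obtain ⟨μ, hμ, tu⟩ := sgn k u hu (hfix _ hp.1)
  obtain ⟨ν, hν, tv⟩ := sgn k v hv (hfix _ hq.1)
  have hσ : μ * ν * (μ * ν) = 1 := by linear_combination ν * ν * hμ + hν
  obtain ⟨l, l0, hl⟩ := lam (μ * ν) hσ hx0
  have hzs : ∀ x : F, star (f x * l) = μ * ν * (f x * l) := fun x => by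
    rw [star_mul', hf, hl]; ring
  choose c hc using fun x : F => pt (μ * ν) (f x * l) hσ (hzs x) hs
  have inj : ∀ x y : F, f x * l = f y * l → x = y := fun x y h =>
    f.injective (mul_right_cancel₀ l0 h)
  have hz : ∀ x ∈ τ, ∃ z, x = vecMulVec z z ∧ ∀ c, z ⬝ᵥ W u v c = 0 := by
    intro x hx
    obtain ⟨z, hz, rfl⟩ := hA.2.1 x (hτ hx)
    have a := orth z u hz hu (hA.2.2 _ (hτ hx) _ hp.1 fun h => hp.2 (h ▸ hx))
    have b := orth z v hz hv (hA.2.2 _ (hτ hx) _ hq.1 fun h => hq.2 (h ▸ hx))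
    exact ⟨z, rfl, fun c => by simp [W, dotProduct_add, dotProduct_smul, a, b]⟩
  have hW := W_dot hu hv huv
  have h1 : ∀ c : E × E, c.1 ^ 2 + c.2 ^ 2 = 1 → W u v c ⬝ᵥ W u v c = 1 := fun c hc => by
    rw [hW, ← hc]; ring
  have hn : ∀ c : E × E, c.1 ^ 2 + c.2 ^ 2 = 1 → vecMulVec (W u v c) (W u v c) ∉ τ := by
    intro c hc hx
    obtain ⟨z, e, hz'⟩ := hz _ hx
    exact ne_of _ z (h1 c hc) (hz' c) e
  have hr : ∀ c : E × E, c.1 ^ 2 + c.2 ^ 2 = 1 → (-c.2, c.1).1 ^ 2 + (-c.2, c.1).2 ^ 2 = 1 :=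
    fun c hc => by rw [← hc]; ring
  have bad : (Finset.univ.filter fun x : F => ¬(1 + (f x * l) ^ 2 ≠ 0)).card ≤ 2 := by
    rcases Finset.eq_empty_or_nonempty
      (Finset.univ.filter fun x : F => ¬(1 + (f x * l) ^ 2 ≠ 0)) with h | ⟨d, hd'⟩
    · rw [h]; simp
    · refine (Finset.card_le_card (t := {d, -d}) fun x hx => ?_).trans Finset.card_le_two
      have a := not_not.1 (Finset.mem_filter.1 hd').2
      have b := not_not.1 (Finset.mem_filter.1 hx).2
      have e : (f x * l) ^ 2 = (f d * l) ^ 2 := by linear_combination b - a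
      simp only [Finset.mem_insert, Finset.mem_singleton]
      rcases sq_eq_sq_iff_eq_or_eq_neg.1 e with h | h
      · exact Or.inl (inj _ _ h)
      · exact Or.inr (inj _ _ (by rw [h, map_neg, neg_mul]))
  rw [← Finset.card_univ, ← Finset.card_filter_add_card_filter_not
    (p := fun x : F => 1 + (f x * l) ^ 2 ≠ 0)]
  refine add_le_add ?_ bad
  refine Finset.card_le_mul_card_image_of_maps_to (f := fun x : F =>
    insert (vecMulVec (W u v (c x)) (W u v (c x)))
      (insert (vecMulVec (W u v (-(c x).2, (c x).1)) (W u v (-(c x).2, (c x).1))) τ))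
    (fun x hx => ?_) 2 fun B _ => ?_
  · obtain ⟨hc, -, c2, e, he, c1⟩ := hc x (Finset.mem_filter.1 hx).2
    have c3 : star (c x).2 = μ * ν * e * (c x).2 := by
      rw [c2, star_mul', hzs, c1]; ring
    generalize c x = c at hc c1 c3
    have f1 := fix_of k _ (e * μ) (by linear_combination μ * μ * he + hμ)
      (th_W k u v μ ν (e * μ) c tu tv (by rw [c1]; ring)
        (by rw [c3]; linear_combination μ * e * c.2 * hν))
    have f2 := fix_of k _ (e * ν) (by linear_combination ν * ν * he + hν)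
      (th_W k u v μ ν (e * ν) (-c.2, c.1) tu tv
        (by simp only [star_neg, c3]; linear_combination -(ν * e * c.2) * hμ)
        (by simp only [c1]; ring))
    have o1 : W u v c ⬝ᵥ W u v (-c.2, c.1) = 0 := by rw [hW]; ring
    have o2 : W u v (-c.2, c.1) ⬝ᵥ W u v c = 0 := by rw [hW]; ring
    have o3 : ∀ e, ∀ x ∈ τ, x * vecMulVec (W u v e) (W u v e) = 0 ∧
        vecMulVec (W u v e) (W u v e) * x = 0 := fun e x hx => by
      obtain ⟨z, rfl, hz'⟩ := hz _ hx
      exact ⟨mul_zero_of _ _ (hz' e), mul_zero_of _ _ (by rw [dotProduct_comm, hz'])⟩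
    refine Finset.mem_filter.2 ⟨(hFr _).2 ⟨⟨?_, ?_, ?_⟩, ?_⟩,
      (Finset.subset_insert _ _).trans (Finset.subset_insert _ _)⟩
    · rw [Finset.card_insert_of_notMem, Finset.card_insert_of_notMem (hn _ (hr c hc)), hm]
      rw [Finset.mem_insert, not_or]
      exact ⟨ne_of _ _ (h1 c hc) o2, hn c hc⟩
    · simp only [Finset.forall_mem_insert]
      exact ⟨⟨_, h1 c hc, rfl⟩, ⟨_, h1 _ (hr c hc), rfl⟩, fun x hx => hA.2.1 x (hτ hx)⟩
    · simp only [Finset.forall_mem_insert]
      exact ⟨⟨fun h => absurd rfl h, fun _ => mul_zero_of _ _ o1, fun x hx _ => (o3 _ x hx).2⟩,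
        ⟨fun _ => mul_zero_of _ _ o2, fun h => absurd rfl h, fun x hx _ => (o3 _ x hx).2⟩,
        fun x hx => ⟨fun _ => (o3 _ x hx).1, fun _ => (o3 _ x hx).1,
          fun y hy => hA.2.2 x (hτ hx) y (hτ hy)⟩⟩
    · unfold Fix
      simp only [Finset.forall_mem_insert]
      exact ⟨f1, f2, fun x hx => hfix x (hτ hx)⟩
  · rcases Finset.eq_empty_or_nonempty (Finset.filter (fun x : F =>
      insert (vecMulVec (W u v (c x)) (W u v (c x)))
        (insert (vecMulVec (W u v (-(c x).2, (c x).1)) (W u v (-(c x).2, (c x).1))) τ) = B)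
        (Finset.univ.filter fun x : F => 1 + (f x * l) ^ 2 ≠ 0)) with h | ⟨d, hd'⟩
    · rw [h]; simp
    · obtain ⟨hd1, hd2⟩ := Finset.mem_filter.1 hd'
      obtain ⟨d1, d0, d2, -⟩ := hc d (Finset.mem_filter.1 hd1).2
      have one : (Finset.univ.filter fun x : F => f x * l * (f d * l) = -1).card ≤ 1 := by
        refine Finset.card_le_one.2 fun x hx y hy => ?_
        have a := (Finset.mem_filter.1 hx).2
        have b := (Finset.mem_filter.1 hy).2
        have e : f d * l ≠ 0 := fun h => by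
          rw [h, mul_zero] at a
          exact one_ne_zero (neg_eq_zero.1 a.symm)
        exact inj _ _ (mul_right_cancel₀ e (a.trans b.symm))
      refine (Finset.card_le_card (t := insert d
        (Finset.univ.filter fun x : F => f x * l * (f d * l) = -1)) fun x hx => ?_).trans
        ((Finset.card_insert_le _ _).trans (Nat.add_le_add_right one 1))
      obtain ⟨hc1, hc2⟩ := Finset.mem_filter.1 hx
      obtain ⟨x1, -, x2, -⟩ := hc x (Finset.mem_filter.1 hc1).2
      have hm' := Finset.mem_insert_self (vecMulVec (W u v (c x)) (W u v (c x)))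
        (insert (vecMulVec (W u v (-(c x).2, (c x).1)) (W u v (-(c x).2, (c x).1))) τ)
      rw [hc2, ← hd2, Finset.mem_insert, Finset.mem_insert] at hm'
      simp only [Finset.mem_insert, Finset.mem_filter, Finset.mem_univ, true_and]
      rcases hm' with h | h | h
      · left
        refine inj _ _ (mul_right_cancel₀ d0 ?_)
        rcases W_eq hu hv huv _ _ x1 d1 h with e | e
        · rw [e] at x2
          rw [← x2, ← d2]
        · rw [e, Prod.snd_neg, Prod.fst_neg] at x2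
          linear_combination x2 + d2
      · right
        refine mul_right_cancel₀ d0 ?_
        rcases W_eq hu hv huv _ _ x1 (hr _ d1) h with e | e
        · rw [e] at x2
          simp only at x2
          linear_combination x2 - (f x * l) * d2
        · rw [e, Prod.snd_neg, Prod.fst_neg] at x2
          simp only at x2
          linear_combination -x2 - (f x * l) * d2
      · exact absurd h (hn _ x1)

end Vale.Agent.P240
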