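import Vale.Agent.P240.Stm4

namespace Vale.Agent.P240

namespace GConjAux

variable {G : Type} [Group G]

theorem elem {ψ : G →* G} (hψ : Function.Injective ψ) {p : ℕ} {E : Subgroup G}
    (h : IsElemAb p E) : IsElemAb p (E.map ψ) := by
  refine ⟨fun e => h.1 ((Subgroup.map_eq_bot_iff_of_injective E hψ).mp e), ?_, ?_⟩
  · rintro _ ⟨x, hx, rfl⟩ _ ⟨y, hy, rfl⟩
    rw [← map_mul, ← map_mul, h.2.1 x hx y hy]
  · rintro _ ⟨x, hx, rfl⟩
    rw [← map_pow, h.2.2 x hx, map_one]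

theorem ch_map (ψ : G →* G) {r : ℕ} (t : Fin r → G) (i : Fin r) :
    ch id (ψ ∘ t) i = (ch id t i).map ψ := by
  unfold ch
  rw [MonoidHom.map_closure, Set.image_id, Set.image_id, Set.image_comp]

theorem main [DecidableEq G] (ψ : G →* G) (hψ : Function.Bijective ψ) (S : Finset (Finset G))
    (r : ℕ) (h1 : GoodS G S r) (h2 : GoodP G S r) :
    GoodS G (S.image fun σ => σ.image ψ) r ∧ GoodP G (S.image fun σ => σ.image ψ) r ∧
      (S.image fun σ => σ.image ψ).card = S.card := by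
  have key : ∀ t : Fin r → G, Finset.univ.image t ∈ S.image (fun σ => σ.image ψ) →
      ∃ u : Fin r → G, t = ψ ∘ u ∧ Finset.univ.image u ∈ S := by
    intro t ht
    obtain ⟨u, rfl⟩ := hψ.2.comp_left t
    obtain ⟨σ, hσ, e⟩ := Finset.mem_image.mp ht
    refine ⟨u, rfl, ?_⟩
    rw [← Finset.image_injective hψ.1 (e.trans Finset.image_image.symm)]
    exact hσ
  refine ⟨⟨fun σ hσ => ?_, fun t ht => ?_⟩, fun σ hσ => ?_,
    Finset.card_image_of_injective _ (Finset.image_injective hψ.1)⟩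
  · obtain ⟨τ, hτ, rfl⟩ := Finset.mem_image.mp hσ
    rw [Finset.card_image_of_injective _ hψ.1, h1.1 τ hτ]
  · obtain ⟨u, rfl, hu⟩ := key t ht
    have h3 := h1.2 u hu
    refine ⟨fun i j hij => ?_, fun i => ?_⟩
    · rw [ch_map, ch_map]
      exact (Subgroup.map_lt_map_iff_of_injective hψ.1).mpr (h3.1 hij)
    · rw [ch_map]
      exact elem hψ.1 (h3.2 i)
  · obtain ⟨τ, hτ, rfl⟩ := Finset.mem_image.mp hσ
    obtain ⟨t₀, rfl, h3⟩ := h2 τ hτ
    refine ⟨ψ ∘ t₀, Finset.image_image.symm, fun t ht e => ?_⟩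
    obtain ⟨u, rfl, hu⟩ := key t ht
    rw [h3 u hu (funext fun i => Subgroup.map_injective hψ.1
      ((ch_map ψ u i).symm.trans ((congrFun e i).trans (ch_map ψ t₀ i))))]

end GConjAux

theorem gconj_pf : GConjStmt := fun _ _ _ g S r h1 h2 =>
  GConjAux.main (MulAut.conj g).toMonoidHom (MulAut.conj g).bijective S r h1 h2

end Vale.Agent.P240
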