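import Vale.Agent.P240.Stm3

namespace Vale.Agent.P240

namespace GSepAux

variable {G : Type} [Group G]

theorem two {K : Subgroup G} {d : G} (hdd : d * d = 1) {Y : Set G}
    (hY : ∀ y ∈ Y, y ∈ K ∧ d * y = y * d) :
    (∀ y ∈ Subgroup.closure Y, y ∈ K ∧ d * y = y * d) ∧
    ∀ g ∈ Subgroup.closure (insert d Y), g ∈ Subgroup.closure Y ∨ d * g ∈ Subgroup.closure Y := by
  have h1 : ∀ y ∈ Subgroup.closure Y, y ∈ K ∧ d * y = y * d := by
    intro y hy
    induction hy using Subgroup.closure_induction with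
    | mem x hx => exact hY x hx
    | one => exact ⟨K.one_mem, by simp⟩
    | mul x y _ _ hx hy =>
      exact ⟨K.mul_mem hx.1 hy.1, by rw [← mul_assoc, hx.2, mul_assoc, hy.2, mul_assoc]⟩
    | inv x _ hx => exact ⟨K.inv_mem hx.1, (Commute.inv_right hx.2).eq⟩
  refine ⟨h1, fun g hg => ?_⟩
  have hdi : d⁻¹ = d := inv_eq_of_mul_eq_one_right hdd
  induction hg using Subgroup.closure_induction with
  | mem x hx =>
    rcases hx with rfl | hx
    · right; rw [hdd]; exact Subgroup.one_mem _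
    · left; exact Subgroup.subset_closure hx
  | one => left; exact Subgroup.one_mem _
  | mul x y _ _ hx hy =>
    rcases hx with hx | hx <;> rcases hy with hy | hy
    · left; exact Subgroup.mul_mem _ hx hy
    · right
      rw [← mul_assoc, (h1 x hx).2, mul_assoc]
      exact Subgroup.mul_mem _ hx hy
    · right
      rw [← mul_assoc]
      exact Subgroup.mul_mem _ hx hy
    · left
      have e : d * x * (d * y) = x * y := by
        rw [← mul_assoc, ← (h1 _ hx).2, ← mul_assoc d d, hdd, one_mul]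
      rw [← e]
      exact Subgroup.mul_mem _ hx hy
  | inv x _ hx =>
    rcases hx with hx | hx
    · left; exact Subgroup.inv_mem _ hx
    · right
      have e : d * x = x * d := by
        have := (h1 _ hx).2
        rw [mul_assoc] at this
        exact mul_left_cancel this
      have e' : d * x⁻¹ = (d * x)⁻¹ := by rw [e, mul_inv_rev, hdi]
      rw [e']
      exact Subgroup.inv_mem _ hx

theorem key {K : Subgroup G} {d : G} (hd : d ∉ K) (hdd : d * d = 1) {Y : Set G}
    (hY : ∀ y ∈ Y, y ∈ K ∧ d * y = y * d) :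
    Subgroup.closure (insert d Y) ⊓ K = Subgroup.closure Y := by
  obtain ⟨h1, h2⟩ := two hdd hY
  refine le_antisymm (fun g hg => ?_) (le_inf (Subgroup.closure_mono (Set.subset_insert _ _))
    fun g hg => (h1 g hg).1)
  rcases h2 g hg.1 with h | h
  · exact h
  · exact absurd ((K.mul_mem_cancel_right hg.2).1 (h1 _ h).1) hd

theorem img {α : Type} {k : ℕ} (t : Fin (k + 1) → α) (i : Fin k) :
    id '' (t '' Set.Iic i.succ) = insert (t 0) (id '' (Fin.tail t '' Set.Iic i)) := by
  ext g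
  simp only [Set.image_id, Set.mem_image, Set.mem_Iic, Set.mem_insert_iff, Fin.tail]
  constructor
  · rintro ⟨j, hj, rfl⟩
    revert hj
    refine Fin.cases (fun _ => Or.inl rfl) (fun j hj => Or.inr ⟨j, ?_, rfl⟩) j
    exact Fin.succ_le_succ_iff.1 hj
  · rintro (rfl | ⟨j, hj, rfl⟩)
    · exact ⟨0, Fin.zero_le _, rfl⟩
    · exact ⟨j.succ, Fin.succ_le_succ_iff.2 hj, rfl⟩

theorem img0 {α : Type} {k : ℕ} (t : Fin (k + 1) → α) :
    id '' (t '' Set.Iic 0) = insert (t 0) ∅ := by
  ext g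
  simp [eq_comm]

theorem shape [DecidableEq G] {K : Subgroup G} {m : ℕ} {d a : G} {A : Finset G} (hd : d ∉ K)
    (hdd : d * d = 1) (hc : A.card = m + 2) (hA : ∀ a ∈ A, a ∈ K ∧ d * a = a * d) (ha : a ∈ A)
    (t : Fin (m + 2) → G) (h0 : t 0 = d) (ht : Finset.univ.image t = insert d (A.erase a)) :
    Function.Injective (Fin.tail t) ∧ (∀ i, Fin.tail t i ∈ A.erase a) ∧
    (∀ b ∈ A.erase a, ∃ i, Fin.tail t i = b) ∧
    ∀ i, ch id (Fin.tail t) i = ch id t i.succ ⊓ K := by
  have hn : d ∉ A.erase a := fun h => hd (hA d (Finset.mem_of_mem_erase h)).1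
  have hi : Function.Injective t := by
    have h1 : (Finset.univ.image t).card = (Finset.univ : Finset (Fin (m + 2))).card := by
      rw [ht, Finset.card_insert_of_notMem hn, Finset.card_erase_of_mem ha, hc]
      simp
    exact fun i j h => Finset.card_image_iff.1 h1 (Finset.mem_univ i) (Finset.mem_univ j) h
  have h2 : ∀ i, Fin.tail t i ∈ A.erase a := fun i => by
    have h3 : t i.succ ∈ insert d (A.erase a) :=
      ht ▸ Finset.mem_image_of_mem t (Finset.mem_univ _)
    rcases Finset.mem_insert.1 h3 with h | h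
    · exact absurd (hi (h.trans h0.symm)) (Fin.succ_ne_zero i)
    · exact h
  refine ⟨fun i j h => Fin.succ_injective _ (hi h), h2, fun b hb => ?_, fun i => ?_⟩
  · have h3 : b ∈ Finset.univ.image t := ht ▸ Finset.mem_insert_of_mem hb
    obtain ⟨j, -, hj⟩ := Finset.mem_image.1 h3
    revert hj
    refine Fin.cases (fun hj => ?_) (fun j hj => ⟨j, hj⟩) j
    exact absurd (h0.symm.trans hj ▸ hb) hn
  · unfold ch
    rw [img, h0, key hd hdd]
    rintro _ ⟨_, ⟨j, -, rfl⟩, rfl⟩
    exact hA _ (Finset.mem_of_mem_erase (h2 j))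

end GSepAux

open GSepAux in
theorem gsep_pf : GSepStmt := by
  intro G _ _ K m X c h1 h3 hc σ hσ
  have hSm : ∀ σ ∈ topS X c, ∃ x ∈ X, ∃ a ∈ x.2, a ≠ c x ∧ σ = insert x.1 (x.2.erase a) := by
    intro σ hσ
    obtain ⟨x, hx, h⟩ := Finset.mem_biUnion.1 hσ
    obtain ⟨a, ha, rfl⟩ := Finset.mem_image.1 h
    exact ⟨x, hx, a, Finset.mem_of_mem_erase ha, Finset.ne_of_mem_erase ha, rfl⟩
  obtain ⟨x, hx, a, ha, hac, rfl⟩ := hSm σ hσ
  obtain ⟨x1, x2, x3, x4⟩ := h1 x hx
  have hcm : c x ∈ x.2.erase a := Finset.mem_erase.2 ⟨hac.symm, hc x hx⟩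
  have hcard : ((x.2.erase a).erase (c x)).card = m := by
    rw [Finset.card_erase_of_mem hcm, Finset.card_erase_of_mem ha, x3]; rfl
  let e := (Finset.equivFinOfCardEq hcard).symm
  let u₀ : Fin (m + 1) → G := Fin.snoc (fun i => (e i).1) (c x)
  have hu₀ : ∀ g, (∃ i, u₀ i = g) ↔ g ∈ x.2.erase a := by
    intro g
    constructor
    · rintro ⟨i, rfl⟩
      refine Fin.lastCases ?_ (fun i => ?_) i
      · simpa [u₀] using hcm
      · simpa [u₀] using Finset.mem_of_mem_erase (e i).2
    · intro hg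
      by_cases hxc : g = c x
      · exact ⟨Fin.last m, by simp [u₀, hxc]⟩
      · exact ⟨(e.symm ⟨g, Finset.mem_erase.2 ⟨hxc, hg⟩⟩).castSucc, by simp [u₀]⟩
  have ht₀ : Finset.univ.image (Fin.cons x.1 u₀ : Fin (m + 2) → G) =
      insert x.1 (x.2.erase a) := by
    ext g
    rw [Finset.mem_insert, ← hu₀]
    simp only [Finset.mem_image, Finset.mem_univ, true_and]
    rw [Fin.exists_fin_succ]
    simp only [Fin.cons_zero, Fin.cons_succ, eq_comm]
  refine ⟨Fin.cons x.1 u₀, ht₀, fun t ht hch => ?_⟩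
  obtain ⟨y, hy, b, hb, hbc, hBe⟩ := hSm _ ht
  obtain ⟨y1, y2, y3, y4⟩ := h1 y hy
  have c0 : Subgroup.closure (insert (t 0) (∅ : Set G)) = Subgroup.closure (insert x.1 ∅) := by
    have := congrFun hch 0
    unfold ch at this
    rwa [img0, img0, Fin.cons_zero] at this
  have t0 : t 0 = x.1 := by
    have k1 : t 0 ∈ Subgroup.closure (insert x.1 (∅ : Set G)) :=
      c0 ▸ Subgroup.subset_closure (Set.mem_insert _ _)
    rcases (two (K := K) x2 (Y := ∅) (fun _ h => absurd h (Set.notMem_empty _))).2 _ k1 with k | k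
    · rw [Subgroup.closure_empty, Subgroup.mem_bot] at k
      have k2 : x.1 ∈ Subgroup.closure (insert (t 0) (∅ : Set G)) :=
        c0 ▸ Subgroup.subset_closure (Set.mem_insert _ _)
      refine absurd ((Subgroup.closure_le K).2 ?_ k2) x1
      rintro _ (rfl | h)
      · rw [k]; exact K.one_mem
      · exact absurd h (Set.notMem_empty _)
    · rw [Subgroup.closure_empty, Subgroup.mem_bot] at k
      exact mul_left_cancel (k.trans x2.symm)
  have xy : x.1 = y.1 := by
    have k : t 0 ∈ insert y.1 (y.2.erase b) := hBe ▸ Finset.mem_image_of_mem t (Finset.mem_univ _)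
    rw [t0] at k
    rcases Finset.mem_insert.1 k with h | h
    · exact h
    · exact absurd (y4 _ (Finset.mem_of_mem_erase h)).1 x1
  obtain ⟨p1, p2, -, p4⟩ := shape x1 x2 x3 x4 ha _ (Fin.cons_zero _ _) ht₀
  obtain ⟨q1, q2, q3, q4⟩ := shape y1 y2 y3 y4 hb t (t0.trans xy) hBe
  obtain ⟨r1, r2⟩ := h3 x hx y hy xy _ _ p1 q1 (fun i => Finset.mem_of_mem_erase (p2 i))
    (fun i => Finset.mem_of_mem_erase (q2 i)) (funext fun i => by rw [p4, q4, hch])
  obtain rfl : y = x := Prod.ext xy.symm r1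
  rw [Fin.tail_cons] at p1 r2
  obtain ⟨j, hj⟩ := q3 (c y) (Finset.mem_erase.2 ⟨hbc.symm, hc y hy⟩)
  have h5 : u₀ (Fin.last m) = c y := by simp [u₀]
  have h6 : Fin.tail t = u₀ := by
    funext i
    refine Fin.lastCases ?_ r2 i
    revert hj
    refine Fin.lastCases (fun hj => hj.trans h5.symm) (fun j hj => ?_) j
    exact absurd (p1 ((r2 j).symm.trans (hj.trans h5.symm))) (Fin.castSucc_lt_last j).ne
  rw [← h6, ← t0, Fin.cons_self_tail]

end Vale.Agent.P240
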