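import Vale.Agent.P240.Stm4

namespace Vale.Agent.P240

theorem gt6_pf : GT6Stmt := by
  intro G _ m X hc h6
  have h1 : (X.biUnion fun x => x.2.image x.2.erase) ⊆
      (X.image Prod.snd).biUnion fun A => A.image A.erase := by
    intro s hs
    obtain ⟨x, hx, hs⟩ := Finset.mem_biUnion.1 hs
    exact Finset.mem_biUnion.2 ⟨x.2, Finset.mem_image_of_mem _ hx, hs⟩
  have h2 : ((X.image Prod.snd).biUnion fun A => A.image A.erase).card ≤
      (X.image Prod.snd).card * (m + 2) := by
    refine Finset.card_biUnion_le_card_mul _ _ _ fun A hA => ?_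
    obtain ⟨x, hx, rfl⟩ := Finset.mem_image.1 hA
    exact Finset.card_image_le.trans (hc x hx).le
  have h3 : 4 * (X.image Prod.snd).card ≤ X.card := by
    refine Finset.mul_card_image_le_card X 4 fun A hA => ?_
    obtain ⟨x, hx, rfl⟩ := Finset.mem_image.1 hA
    exact h6 x hx
  have h4 := (Finset.card_le_card h1).trans h2
  calc 4 * (X.biUnion fun x => x.2.image x.2.erase).card
      ≤ 4 * ((X.image Prod.snd).card * (m + 2)) := Nat.mul_le_mul_left 4 h4
    _ = (m + 2) * (4 * (X.image Prod.snd).card) := by ring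
    _ ≤ (m + 2) * X.card := Nat.mul_le_mul_left _ h3

end Vale.Agent.P240
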