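import Vale.Agent.P240.Stm4
import Vale.Agent.P240.WRank

namespace Vale.Agent.P240

theorem idx4_pf : Idx4Stmt := by
  classical
  intro G _ _ N γ δ M hM hN hA A hE
  have hw : ∀ g : G, ∃ w ∈ ({1, γ, δ, γ * δ} : Finset G), g * w ∈ N := fun g => by
    rcases hN g with h | h | h | h
    · exact ⟨1, by simp, by rwa [mul_one]⟩
    · exact ⟨γ, by simp, h⟩
    · exact ⟨δ, by simp, h⟩
    · exact ⟨γ * δ, by simp, h⟩
  choose w hw1 hw2 using hw
  have h1 := WRankAux.count A (A ⊓ N) (fun g => w g⁻¹) {1, γ, δ, γ * δ}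
    (fun g _ => hw1 _) (fun g hg h hh e => by
      refine Subgroup.mem_inf.mpr ⟨A.mul_mem (A.inv_mem hg) hh, ?_⟩
      have e' : w g⁻¹ = w h⁻¹ := e
      have a3 := N.mul_mem (hw2 g⁻¹) (N.inv_mem (hw2 h⁻¹))
      rwa [e', mul_inv_rev, inv_inv, mul_assoc, mul_inv_cancel_left] at a3)
  refine h1.trans (Nat.mul_le_mul ?_ Finset.card_le_four)
  by_cases hb : A ⊓ N = ⊥
  · rw [hb, Subgroup.card_bot]
    exact hM
  · exact hA _ ⟨hb, fun x hx y hy => hE.2.1 x hx.1 y hy.1, fun x hx => hE.2.2 x hx.1⟩ inf_le_right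

theorem k1_pf : K1Stmt := by
  intro G _ R δ hδ hR
  have hi : δ⁻¹ = δ := inv_eq_of_mul_eq_one_right hδ
  refine ⟨⟨⟨⟨{g | g ∈ R ∨ g * δ ∈ R}, ?_⟩, Or.inl R.one_mem⟩, ?_⟩, fun _ => Iff.rfl⟩
  · rintro g h (hg | hg) (hh | hh)
    · exact Or.inl (R.mul_mem hg hh)
    · exact Or.inr (by rw [mul_assoc]; exact R.mul_mem hg hh)
    · refine Or.inr ?_
      have e : g * h * δ = g * δ * (δ * h * δ⁻¹) := by
        rw [hi, mul_assoc g δ, ← mul_assoc δ, ← mul_assoc δ, hδ, one_mul, mul_assoc]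
      rw [e]
      exact R.mul_mem hg (hR h hh)
    · refine Or.inl ?_
      have e : g * h = g * δ * (δ * (h * δ) * δ⁻¹) := by
        rw [mul_assoc δ, mul_inv_cancel_right, mul_assoc, ← mul_assoc δ, hδ, one_mul]
      rw [e]
      exact R.mul_mem hg (hR _ hh)
  · rintro g (hg | hg)
    · exact Or.inl (R.inv_mem hg)
    · refine Or.inr ?_
      have e : g⁻¹ * δ = (δ * (g * δ) * δ⁻¹)⁻¹ := by
        rw [mul_assoc δ, mul_inv_cancel_right, mul_inv_rev, hi]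
      rw [e]
      exact R.inv_mem (hR _ hg)

end Vale.Agent.P240
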