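import Vale.Agent.P240.Stm5

namespace Vale.Agent.P240

namespace JAAux

variable {P Q X : Type} {k m : ℕ}

noncomputable def ex (ι : P → X) (α : (Fin k → P) → ℚ) : (Fin k → X) → ℚ :=
  Function.extend (fun v : Fin k → P => ι ∘ v) α 0

theorem ex_eq {ι : P → X} (h : Function.Injective ι) (α : (Fin k → P) → ℚ) (v : Fin k → P) :
    ex ι α (ι ∘ v) = α v :=
  Function.Injective.extend_apply (f := fun v : Fin k → P => ι ∘ v) h.comp_left α 0 v

theorem ex_ne {ι : P → X} (h : Function.Injective ι) {α : (Fin k → P) → ℚ} {T : Fin k → X}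
    (hT : ex ι α T ≠ 0) : ∃ v, T = ι ∘ v ∧ α v ≠ 0 := by
  by_cases h1 : ∃ v : Fin k → P, ι ∘ v = T
  · obtain ⟨v, rfl⟩ := h1
    exact ⟨v, rfl, by rwa [ex_eq h] at hT⟩
  · exact (hT (Function.extend_apply' α (0 : (Fin k → X) → ℚ) T h1)).elim

theorem ex_marg [Fintype P] [Fintype X] {ι : P → X} (h : Function.Injective ι)
    {α : (Fin k → P) → ℚ} (hα : IsAlt α) (T : Fin k → X) (j : Fin k) :
    ∑ x : X, ex ι α (Function.update T j x) = 0 := by
  by_cases h1 : ∃ x, ex ι α (Function.update T j x) ≠ 0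
  · obtain ⟨x, hx⟩ := h1
    obtain ⟨v, hv, -⟩ := ex_ne h hx
    have h2 : ∀ y, Function.update T j y = Function.update (ι ∘ v) j y := fun y => by
      rw [← hv, Function.update_idem]
    rw [← hα.2 v j]
    refine (Fintype.sum_of_injective ι h _ _ (fun y hy => ?_) fun p => ?_).symm
    · by_contra hne
      obtain ⟨w, hw, -⟩ := ex_ne h hne
      have := congrFun hw j
      rw [Function.update_self] at this
      exact hy ⟨w j, this.symm⟩
    · rw [h2, ← Function.comp_update, ex_eq h]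
  · exact Finset.sum_eq_zero fun x _ => not_not.1 fun h' => h1 ⟨x, h'⟩

noncomputable def be (α : (Fin k → P) → ℚ) (β : (Fin m → Q) → ℚ) (T : Fin (k + m) → P ⊕ Q) : ℚ :=
  ex Sum.inl α (T ∘ Fin.castAdd m) * ex Sum.inr β (T ∘ Fin.natAdd k)

noncomputable def AA (α : (Fin k → P) → ℚ) (β : (Fin m → Q) → ℚ) (T : Fin (k + m) → P ⊕ Q) : ℚ :=
  ∑ π : Equiv.Perm (Fin (k + m)), ((Equiv.Perm.sign π : ℤ) : ℚ) * be α β (T ∘ π)

theorem sg_sq {n : ℕ} (σ : Equiv.Perm (Fin n)) :
    ((Equiv.Perm.sign σ : ℤ) : ℚ) * ((Equiv.Perm.sign σ : ℤ) : ℚ) = 1 := by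
  rcases Int.units_eq_one_or (Equiv.Perm.sign σ) with h | h <;> simp [h]

theorem AA_sign (α : (Fin k → P) → ℚ) (β : (Fin m → Q) → ℚ) (T : Fin (k + m) → P ⊕ Q)
    (σ : Equiv.Perm (Fin (k + m))) :
    AA α β (T ∘ σ) = ((Equiv.Perm.sign σ : ℤ) : ℚ) * AA α β T := by
  unfold AA
  rw [← Equiv.sum_comp (Equiv.mulLeft σ)
    (fun π : Equiv.Perm (Fin (k + m)) => ((Equiv.Perm.sign π : ℤ) : ℚ) * be α β (T ∘ π)),
    Finset.mul_sum]
  refine Finset.sum_congr rfl fun π _ => ?_
  have h : (T ∘ σ) ∘ π = T ∘ (σ * π : Equiv.Perm (Fin (k + m))) := rfl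
  simp only [Equiv.coe_mulLeft, Equiv.Perm.sign_mul, Units.val_mul, Int.cast_mul]
  rw [h, ← mul_assoc, ← mul_assoc, sg_sq, one_mul]

theorem cn (i : Fin k) (j : Fin m) : Fin.castAdd m i ≠ Fin.natAdd k j := fun h => by
  have := congrArg Fin.val h
  simp only [Fin.val_castAdd, Fin.val_natAdd] at this
  omega

theorem be_marg [Fintype P] [Fintype Q] {α : (Fin k → P) → ℚ} {β : (Fin m → Q) → ℚ}
    (hα : IsAlt α) (hβ : IsAlt β) (T : Fin (k + m) → P ⊕ Q) (j : Fin (k + m)) :
    ∑ x : P ⊕ Q, be α β (Function.update T j x) = 0 := by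
  unfold be
  induction j using Fin.addCases with
  | left i =>
    simp only [Function.update_comp_eq_of_injective _ (Fin.castAdd_injective k m),
      Function.update_comp_eq_of_forall_ne T _ fun l => (cn i l).symm]
    rw [← Finset.sum_mul, ex_marg Sum.inl_injective hα, zero_mul]
  | right i =>
    simp only [Function.update_comp_eq_of_injective _ (Fin.natAdd_injective m k),
      Function.update_comp_eq_of_forall_ne T _ fun l => cn l i]
    rw [← Finset.mul_sum, ex_marg Sum.inr_injective hβ, mul_zero]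

theorem AA_marg [Fintype P] [Fintype Q] {α : (Fin k → P) → ℚ} {β : (Fin m → Q) → ℚ}
    (hα : IsAlt α) (hβ : IsAlt β) (T : Fin (k + m) → P ⊕ Q) (j : Fin (k + m)) :
    ∑ x : P ⊕ Q, AA α β (Function.update T j x) = 0 := by
  unfold AA
  rw [Finset.sum_comm]
  refine Finset.sum_eq_zero fun π _ => ?_
  rw [← Finset.mul_sum]
  simp only [Function.update_comp_equiv]
  rw [be_marg hα hβ, mul_zero]

theorem be_ne {α : (Fin k → P) → ℚ} {β : (Fin m → Q) → ℚ} {T : Fin (k + m) → P ⊕ Q}
    (h : be α β T ≠ 0) :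
    ∃ v w, α v ≠ 0 ∧ β w ≠ 0 ∧ T = Fin.append (Sum.inl ∘ v) (Sum.inr ∘ w) := by
  obtain ⟨v, h1, h2⟩ := ex_ne Sum.inl_injective (left_ne_zero_of_mul h)
  obtain ⟨w, h3, h4⟩ := ex_ne Sum.inr_injective (right_ne_zero_of_mul h)
  refine ⟨v, w, h2, h4, funext fun j => ?_⟩
  induction j using Fin.addCases with
  | left i => rw [Fin.append_left, ← h1]; rfl
  | right i => rw [Fin.append_right, ← h3]; rfl

theorem term [Fintype P] [Fintype Q] {α : (Fin k → P) → ℚ} {β : (Fin m → Q) → ℚ}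
    (hα : IsAlt α) (hβ : IsAlt β) (u : Fin k → P) (u' : Fin m → Q)
    (π : Equiv.Perm (Fin (k + m))) (h1 : ∀ i, ∃ i', π (Fin.castAdd m i) = Fin.castAdd m i')
    (h2 : ∀ i, ∃ i', π (Fin.natAdd k i) = Fin.natAdd k i') :
    ((Equiv.Perm.sign π : ℤ) : ℚ) *
      be α β (Fin.append (Sum.inl ∘ u) (Sum.inr ∘ u') ∘ π) = α u * β u' := by
  choose f hf using h1
  choose g hg using h2
  have fi : Function.Injective f := fun a b h =>
    Fin.castAdd_injective k m (π.injective (by rw [hf, hf, h]))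
  have gi : Function.Injective g := fun a b h =>
    Fin.natAdd_injective m k (π.injective (by rw [hg, hg, h]))
  obtain ⟨ρ, hρ⟩ : ∃ ρ : Equiv.Perm (Fin k), ∀ i, ρ i = f i :=
    ⟨Equiv.ofBijective _ (Finite.injective_iff_bijective.1 fi), fun _ => rfl⟩
  obtain ⟨τ, hτ⟩ : ∃ τ : Equiv.Perm (Fin m), ∀ i, τ i = g i :=
    ⟨Equiv.ofBijective _ (Finite.injective_iff_bijective.1 gi), fun _ => rfl⟩
  have hπ : π = finSumFinEquiv.permCongr (Equiv.Perm.sumCongr ρ τ) := by
    ext1 j
    induction j using Fin.addCases with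
    | left i => simp [Equiv.permCongr_apply, hf, hρ]
    | right i => simp [Equiv.permCongr_apply, hg, hτ]
  have hs : Equiv.Perm.sign π = Equiv.Perm.sign ρ * Equiv.Perm.sign τ := by
    rw [hπ, Equiv.Perm.sign_permCongr, Equiv.Perm.sign_sumCongr]
  have e1 : (Fin.append (Sum.inl ∘ u) (Sum.inr ∘ u') ∘ π) ∘ Fin.castAdd m =
      (Sum.inl : P → P ⊕ Q) ∘ (u ∘ ρ) := funext fun i => by
    simp only [Function.comp_apply, hf, Fin.append_left, hρ]
  have e2 : (Fin.append (Sum.inl ∘ u) (Sum.inr ∘ u') ∘ π) ∘ Fin.natAdd k =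
      (Sum.inr : Q → P ⊕ Q) ∘ (u' ∘ τ) := funext fun i => by
    simp only [Function.comp_apply, hg, Fin.append_right, hτ]
  unfold be
  rw [e1, e2, ex_eq Sum.inl_injective, ex_eq Sum.inr_injective, hα.1, hβ.1, hs, Units.val_mul,
    Int.cast_mul]
  linear_combination (α u * β u' * (((Equiv.Perm.sign τ : ℤ) : ℚ) *
    ((Equiv.Perm.sign τ : ℤ) : ℚ))) * sg_sq ρ + (α u * β u') * sg_sq τ

end JAAux

open JAAux in
theorem ja_pf : JAStmt := by
  intro P Q _ _ a b α β u u' hα hβ hu hu'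
  refine ⟨AA α β, ⟨AA_sign α β, AA_marg hα hβ⟩, ?_, fun T hT => ?_⟩
  · have hk : 0 < (α u * β u') * (α u * β u') := mul_self_pos.2 (mul_ne_zero hu hu')
    have h : 0 < AA α β (Fin.append (Sum.inl ∘ u) (Sum.inr ∘ u')) * (α u * β u') := by
      unfold AA
      rw [Finset.sum_mul]
      refine Finset.sum_pos' (fun π _ => ?_) ⟨1, Finset.mem_univ _, ?_⟩
      · by_cases h : be α β (Fin.append (Sum.inl ∘ u) (Sum.inr ∘ u') ∘ π) = 0
        · rw [h, mul_zero, zero_mul]
        · obtain ⟨v, w, -, -, e⟩ := be_ne h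
          rw [term hα hβ u u' π (fun i => ?_) fun i => ?_]
          · exact hk.le
          · have e1 := congrFun e (Fin.castAdd _ i)
            rw [Fin.append_left, Function.comp_apply] at e1
            generalize π (Fin.castAdd _ i) = j at e1
            induction j using Fin.addCases with
            | left l => exact ⟨l, rfl⟩
            | right l =>
              rw [Fin.append_right] at e1
              exact absurd e1 Sum.inr_ne_inl
          · have e1 := congrFun e (Fin.natAdd _ i)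
            rw [Fin.append_right, Function.comp_apply] at e1
            generalize π (Fin.natAdd _ i) = j at e1
            induction j using Fin.addCases with
            | left l =>
              rw [Fin.append_left] at e1
              exact absurd e1 Sum.inl_ne_inr
            | right l => exact ⟨l, rfl⟩
      · rw [term hα hβ u u' 1 (fun i => ⟨i, rfl⟩) fun i => ⟨i, rfl⟩]
        exact hk
    intro z
    rw [z, zero_mul] at h
    exact lt_irrefl _ h
  · obtain ⟨π, -, hπ⟩ := Finset.exists_ne_zero_of_sum_ne_zero hT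
    obtain ⟨v, w, h1, h2, h3⟩ := be_ne (right_ne_zero_of_mul hπ)
    exact ⟨π, v, w, h1, h2, h3⟩

end Vale.Agent.P240
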