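import Vale.Agent.P240.Stm5

namespace Vale.Agent.P240

namespace JAAuxb

open Classical in
noncomputable def lf {P X : Type} {k : ℕ} (e : P → X) (g : X → P) (α : (Fin k → P) → ℚ)
    (t : Fin k → X) : ℚ := if ∀ l, e (g (t l)) = t l then α (g ∘ t) else 0

theorem lf_comp {P X : Type} {k : ℕ} {e : P → X} {g : X → P} (h : ∀ p, g (e p) = p)
    (α : (Fin k → P) → ℚ) (v : Fin k → P) : lf e g α (e ∘ v) = α v := by
  unfold lf
  rw [if_pos fun l => by simp only [Function.comp_apply, h]]
  exact congrArg α (funext fun l => h _)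

theorem lf_ne {P X : Type} {k : ℕ} {e : P → X} {g : X → P} {α : (Fin k → P) → ℚ}
    {t : Fin k → X} (h : lf e g α t ≠ 0) : α (g ∘ t) ≠ 0 ∧ t = e ∘ (g ∘ t) := by
  unfold lf at h
  by_cases q : ∀ l, e (g (t l)) = t l
  · rw [if_pos q] at h
    exact ⟨h, funext fun l => (q l).symm⟩
  · exact absurd (if_neg q) h

theorem lf_marg {P X : Type} [Fintype P] [Fintype X] {k : ℕ} {e : P → X} {g : X → P}
    (h : ∀ p, g (e p) = p) {α : (Fin k → P) → ℚ} (hα : IsAlt α) (t : Fin k → X) (l : Fin k) :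
    ∑ x : X, lf e g α (Function.update t l x) = 0 := by
  by_cases q : ∀ l', l' ≠ l → e (g (t l')) = t l'
  · rw [← hα.2 (g ∘ t) l]
    symm
    refine Fintype.sum_of_injective e (Function.LeftInverse.injective h) _ _ (fun x hx => ?_)
      fun p => ?_
    · by_contra hn
      have := congrFun (lf_ne hn).2 l
      simp only [Function.comp_apply, Function.update_self] at this
      exact hx ⟨_, this.symm⟩
    · have z : Function.update t l (e p) = e ∘ Function.update (g ∘ t) l p := by
        funext l'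
        by_cases hl : l' = l
        · subst hl
          simp
        · simp only [Function.comp_apply, Function.update_of_ne hl, q l' hl]
      rw [z, lf_comp h]
  · refine Finset.sum_eq_zero fun x _ => ?_
    by_contra hn
    refine q fun l' hl => ?_
    have := congrFun (lf_ne hn).2 l'
    simp only [Function.comp_apply, Function.update_of_ne hl] at this
    exact this.symm

theorem sg_sq {n : ℕ} (σ : Equiv.Perm (Fin n)) :
    ((Equiv.Perm.sign σ : ℤ) : ℚ) * ((Equiv.Perm.sign σ : ℤ) : ℚ) = 1 := by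
  rcases Int.units_eq_one_or (Equiv.Perm.sign σ) with h | h <;> simp [h]

theorem alt {X : Type} [Fintype X] {N : ℕ} (B : (Fin N → X) → ℚ)
    (hB : ∀ T j, ∑ x : X, B (Function.update T j x) = 0) :
    IsAlt fun T => ∑ π : Equiv.Perm (Fin N), ((Equiv.Perm.sign π : ℤ) : ℚ) * B (T ∘ π) := by
  refine ⟨fun T σ => ?_, fun T j => ?_⟩
  · beta_reduce
    rw [← Equiv.sum_comp (Equiv.mulLeft σ)
      (fun π : Equiv.Perm (Fin N) => ((Equiv.Perm.sign π : ℤ) : ℚ) * B (T ∘ π)), Finset.mul_sum]
    refine Finset.sum_congr rfl fun π _ => ?_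
    have h : (T ∘ σ) ∘ π = T ∘ (σ * π : Equiv.Perm (Fin N)) := rfl
    simp only [Equiv.coe_mulLeft, Equiv.Perm.sign_mul, Units.val_mul, Int.cast_mul]
    rw [h, ← mul_assoc, ← mul_assoc, sg_sq, one_mul]
  · rw [Finset.sum_comm]
    refine Finset.sum_eq_zero fun π _ => ?_
    rw [← Finset.mul_sum]
    simp only [Function.update_comp_equiv]
    rw [hB, mul_zero]

theorem ne1 {m n : ℕ} (i : Fin m) (j : Fin n) : Fin.castAdd n i ≠ Fin.natAdd m j := by
  intro h
  have := congrArg Fin.val h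
  simp only [Fin.val_castAdd, Fin.val_natAdd] at this
  omega

theorem sgn {m n : ℕ} (π : Equiv.Perm (Fin (m + n)))
    (h1 : ∀ l, ∃ l', π (Fin.castAdd n l) = Fin.castAdd n l')
    (h2 : ∀ l, ∃ l', π (Fin.natAdd m l) = Fin.natAdd m l') :
    ∃ (ρ : Equiv.Perm (Fin m)) (τ : Equiv.Perm (Fin n)),
      (∀ l, π (Fin.castAdd n l) = Fin.castAdd n (ρ l)) ∧
      (∀ l, π (Fin.natAdd m l) = Fin.natAdd m (τ l)) ∧
      Equiv.Perm.sign π = Equiv.Perm.sign ρ * Equiv.Perm.sign τ := by
  choose f hf using h1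
  choose g hg using h2
  have i1 : Function.Injective f := fun l l' q =>
    Fin.castAdd_injective _ _ (π.injective (by rw [hf, hf, q]))
  have i2 : Function.Injective g := fun l l' q =>
    Fin.natAdd_injective _ _ (π.injective (by rw [hg, hg, q]))
  refine ⟨Equiv.ofBijective f (Finite.injective_iff_bijective.1 i1),
    Equiv.ofBijective g (Finite.injective_iff_bijective.1 i2), hf, hg, ?_⟩
  rw [← Equiv.Perm.sign_sumCongr, ← Equiv.Perm.sign_permCongr finSumFinEquiv]
  refine congrArg _ (Equiv.ext fun j => ?_)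
  refine Fin.addCases (fun l => ?_) (fun l => ?_) j
  · simp [hf]
  · simp [hg]

end JAAuxb

open JAAuxb in
theorem ja_pfb : JAStmt := by
  intro P Q _ _ a b α β u u' hα hβ hu hu'
  obtain ⟨g, hg⟩ : ∃ g : P ⊕ Q → P, ∀ p, g (Sum.inl p) = p :=
    ⟨Sum.elim id fun _ => u 0, fun _ => rfl⟩
  obtain ⟨g', hg'⟩ : ∃ g : P ⊕ Q → Q, ∀ p, g (Sum.inr p) = p :=
    ⟨Sum.elim (fun _ => u' 0) id, fun _ => rfl⟩
  obtain ⟨B, hB⟩ : ∃ B : (Fin (a + 1 + (b + 1)) → P ⊕ Q) → ℚ, ∀ T, B T =
      lf Sum.inl g α (T ∘ Fin.castAdd (b + 1)) * lf Sum.inr g' β (T ∘ Fin.natAdd (a + 1)) :=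
    ⟨_, fun _ => rfl⟩
  have hm : ∀ T j, ∑ x : P ⊕ Q, B (Function.update T j x) = 0 := by
    intro T j
    simp only [hB]
    refine Fin.addCases (fun l => ?_) (fun l => ?_) j
    · simp only [Function.update_comp_eq_of_injective T (Fin.castAdd_injective _ _),
        Function.update_comp_eq_of_forall_ne T _ (fun x => (ne1 l x).symm)]
      rw [← Finset.sum_mul, lf_marg hg hα, zero_mul]
    · simp only [Function.update_comp_eq_of_injective T (Fin.natAdd_injective _ _),
        Function.update_comp_eq_of_forall_ne T _ (fun x => ne1 x l)]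
      rw [← Finset.mul_sum, lf_marg hg' hβ, mul_zero]
  obtain ⟨T0, hT⟩ : ∃ T0 : Fin (a + 1 + (b + 1)) → P ⊕ Q,
      T0 = Fin.append (Sum.inl ∘ u) (Sum.inr ∘ u') := ⟨_, rfl⟩
  have t1 : ∀ l, T0 (Fin.castAdd (b + 1) l) = Sum.inl (u l) := fun l => by
    rw [hT, Fin.append_left]
    rfl
  have t2 : ∀ l, T0 (Fin.natAdd (a + 1) l) = Sum.inr (u' l) := fun l => by
    rw [hT, Fin.append_right]
    rfl
  have term : ∀ π : Equiv.Perm (Fin (a + 1 + (b + 1))),
      (∀ l, ∃ l', π (Fin.castAdd (b + 1) l) = Fin.castAdd (b + 1) l') →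
      (∀ l, ∃ l', π (Fin.natAdd (a + 1) l) = Fin.natAdd (a + 1) l') →
      ((Equiv.Perm.sign π : ℤ) : ℚ) * B (T0 ∘ π) = α u * β u' := by
    intro π h1 h2
    obtain ⟨ρ, τ, r1, r2, r3⟩ := sgn π h1 h2
    have e1 : (T0 ∘ π) ∘ Fin.castAdd (b + 1) = Sum.inl ∘ (u ∘ ρ) :=
      funext fun l => by simp only [Function.comp_apply, r1, t1]
    have e2 : (T0 ∘ π) ∘ Fin.natAdd (a + 1) = Sum.inr ∘ (u' ∘ τ) :=
      funext fun l => by simp only [Function.comp_apply, r2, t2]
    rw [hB, e1, e2, lf_comp hg, lf_comp hg', hα.1, hβ.1, r3, Units.val_mul, Int.cast_mul]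
    linear_combination (((Equiv.Perm.sign τ : ℤ) : ℚ) * ((Equiv.Perm.sign τ : ℤ) : ℚ) *
      (α u * β u')) * sg_sq ρ + (α u * β u') * sg_sq τ
  refine ⟨_, alt B hm, ?_, fun T hT => ?_⟩
  · rw [← hT]
    have hk : 0 < (α u * β u') * (α u * β u') := mul_self_pos.2 (mul_ne_zero hu hu')
    have h : 0 < (∑ π : Equiv.Perm (Fin (a + 1 + (b + 1))),
        ((Equiv.Perm.sign π : ℤ) : ℚ) * B (T0 ∘ π)) * (α u * β u') := by
      rw [Finset.sum_mul]
      refine Finset.sum_pos' (fun π _ => ?_) ⟨1, Finset.mem_univ _, ?_⟩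
      · by_cases z : B (T0 ∘ π) = 0
        · rw [z, mul_zero, zero_mul]
        · have z' := z
          rw [hB] at z'
          have z1 := (lf_ne (left_ne_zero_of_mul z')).2
          have z2 := (lf_ne (right_ne_zero_of_mul z')).2
          rw [term π (fun l => ?_) fun l => ?_]
          · exact hk.le
          · have := congrFun z1 l
            simp only [Function.comp_apply] at this
            generalize π (Fin.castAdd (b + 1) l) = j at this ⊢
            revert this
            refine Fin.addCases (fun i _ => ⟨i, rfl⟩) (fun i q => ?_) j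
            rw [t2] at q
            exact absurd q Sum.inr_ne_inl
          · have := congrFun z2 l
            simp only [Function.comp_apply] at this
            generalize π (Fin.natAdd (a + 1) l) = j at this ⊢
            revert this
            refine Fin.addCases (fun i q => ?_) (fun i _ => ⟨i, rfl⟩) j
            rw [t1] at q
            exact absurd q Sum.inl_ne_inr
      · rw [term 1 (fun l => ⟨l, rfl⟩) fun l => ⟨l, rfl⟩]
        exact hk
    intro z
    rw [z, zero_mul] at h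
    exact lt_irrefl _ h
  · obtain ⟨π, -, hπ⟩ := Finset.exists_ne_zero_of_sum_ne_zero hT
    have z := right_ne_zero_of_mul hπ
    rw [hB] at z
    obtain ⟨y1, z1⟩ := lf_ne (left_ne_zero_of_mul z)
    obtain ⟨y2, z2⟩ := lf_ne (right_ne_zero_of_mul z)
    refine ⟨π, _, _, y1, y2, funext fun j => ?_⟩
    refine Fin.addCases (fun l => ?_) (fun l => ?_) j
    · rw [Fin.append_left]
      exact congrFun z1 l
    · rw [Fin.append_right]
      exact congrFun z2 l

end Vale.Agent.P240
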