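import Vale.Agent.P240.Stm5

namespace Vale.Agent.P240

namespace JPAux

theorem mem_ch {G P : Type} [Group G] (s : P → G) {k : ℕ} (t : Fin k → P) {i j : Fin k}
    (h : i ≤ j) : s (t i) ∈ ch s t j :=
  Subgroup.subset_closure ⟨t i, ⟨i, h, rfl⟩, rfl⟩

theorem alt_ne {P : Type} [Fintype P] {k : ℕ} {α : (Fin k → P) → ℚ} (hα : IsAlt α)
    {t : Fin k → P} (ht : α t ≠ 0) (π : Equiv.Perm (Fin k)) : α (t ∘ π) ≠ 0 := by
  rw [hα.1]
  refine mul_ne_zero ?_ ht
  exact_mod_cast Units.ne_zero _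

theorem ne_one {G Q : Type} [Group G] [Fintype Q] (s : Q → G) {b : ℕ}
    {β : (Fin (b + 1) → Q) → ℚ} (hβ : IsAlt β) (hs : ∀ t, β t ≠ 0 → IsSimplex 2 (ch s t))
    {w : Fin (b + 1) → Q} (hw : β w ≠ 0) (l : Fin (b + 1)) : s (w l) ≠ 1 := by
  intro h
  apply ((hs _ (alt_ne hβ hw (Equiv.swap 0 l))).2 0).1
  rw [eq_bot_iff]
  refine (Subgroup.closure_le _).2 ?_
  rintro _ ⟨_, ⟨j, hj, rfl⟩, rfl⟩
  have hj0 : j = 0 := le_antisymm hj (Fin.zero_le _)
  subst hj0
  rw [Function.comp_apply, Equiv.swap_apply_left, h]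
  exact Subgroup.one_mem _

theorem cases_add {m n : ℕ} (j : Fin (m + n)) :
    (∃ i, j = Fin.castAdd n i) ∨ ∃ l, j = Fin.natAdd m l := by
  induction j using Fin.addCases with
  | left i => exact Or.inl ⟨i, rfl⟩
  | right l => exact Or.inr ⟨l, rfl⟩

theorem not_le {m n : ℕ} (i : Fin m) (l : Fin n) : ¬ Fin.natAdd m l ≤ Fin.castAdd n i := by
  rw [Fin.le_def, Fin.val_natAdd, Fin.val_castAdd]
  have := i.2
  omega

variable {G₁ G₂ P Q : Type} [Group G₁] [Group G₂] (s : P → G₁) (s' : Q → G₂) {m n : ℕ}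

theorem proj1 (x : Fin m → P) (y : Fin n → Q) (i : Fin m) :
    (ch (jn s s') (Fin.append (Sum.inl ∘ x) (Sum.inr ∘ y)) (Fin.castAdd n i)).map
      (MonoidHom.fst G₁ G₂) = ch s x i := by
  apply le_antisymm
  · rw [Subgroup.map_le_iff_le_comap]
    refine (Subgroup.closure_le _).2 ?_
    rintro _ ⟨_, ⟨j, hj, rfl⟩, rfl⟩
    refine Subgroup.mem_comap.2 ?_
    rcases cases_add j with ⟨i', rfl⟩ | ⟨l, rfl⟩
    · rw [Fin.append_left]
      have h1 : i' ≤ i := hj
      exact mem_ch s x h1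
    · exact absurd hj (not_le i l)
  · refine (Subgroup.closure_le _).2 ?_
    rintro _ ⟨_, ⟨i', hi', rfl⟩, rfl⟩
    have h1 : Fin.castAdd n i' ≤ Fin.castAdd n i := hi'
    refine Subgroup.mem_map.2 ⟨_, mem_ch _ _ h1, ?_⟩
    rw [Fin.append_left]
    rfl

theorem proj2 (x : Fin m → P) (y : Fin n → Q) (l : Fin n) :
    (ch (jn s s') (Fin.append (Sum.inl ∘ x) (Sum.inr ∘ y)) (Fin.natAdd m l)).map
      (MonoidHom.snd G₁ G₂) = ch s' y l := by
  apply le_antisymm
  · rw [Subgroup.map_le_iff_le_comap]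
    refine (Subgroup.closure_le _).2 ?_
    rintro _ ⟨_, ⟨j, hj, rfl⟩, rfl⟩
    refine Subgroup.mem_comap.2 ?_
    rcases cases_add j with ⟨i', rfl⟩ | ⟨l', rfl⟩
    · rw [Fin.append_left]
      exact Subgroup.one_mem _
    · rw [Fin.append_right]
      have h0 : m + l'.1 ≤ m + l.1 := hj
      have h1 : l' ≤ l := Nat.le_of_add_le_add_left h0
      exact mem_ch s' y h1
  · refine (Subgroup.closure_le _).2 ?_
    rintro _ ⟨_, ⟨l', hl', rfl⟩, rfl⟩
    have h1 : Fin.natAdd m l' ≤ Fin.natAdd m l := Nat.add_le_add_left hl' m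
    refine Subgroup.mem_map.2 ⟨_, mem_ch _ _ h1, ?_⟩
    rw [Fin.append_right]
    rfl

theorem ker1 (x : Fin m → P) (y : Fin n → Q) (i : Fin m) :
    ch (jn s s') (Fin.append (Sum.inl ∘ x) (Sum.inr ∘ y)) (Fin.castAdd n i) ≤
      (MonoidHom.snd G₁ G₂).ker := by
  refine (Subgroup.closure_le _).2 ?_
  rintro _ ⟨_, ⟨j, hj, rfl⟩, rfl⟩
  rcases cases_add j with ⟨i', rfl⟩ | ⟨l, rfl⟩
  · rw [Fin.append_left]
    rfl
  · exact absurd hj (not_le i l)

end JPAux

theorem jp_pf (_hS : JSStmt) : JPStmt := by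
  intro G₁ G₂ P Q _ _ _ _ s s' a b α β u u' T hα hβ hsα hsβ huα huβ hsh hch
  obtain ⟨π, v, w, hv, hw, hπ⟩ := hsh
  have hT : ∀ j, T j = Fin.append (Sum.inl ∘ v) (Sum.inr ∘ w) (π.symm j) := by
    intro j
    rw [← hπ, Function.comp_apply, Equiv.apply_symm_apply]
  have h1 : ∀ i : Fin (a + 1), ∃ i', π.symm (Fin.castAdd (b + 1) i) = Fin.castAdd (b + 1) i' := by
    intro i
    rcases JPAux.cases_add (π.symm (Fin.castAdd (b + 1) i)) with h | ⟨l, hl⟩
    · exact h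
    · exfalso
      have h2 := JPAux.mem_ch (jn s s') T (le_refl (Fin.castAdd (b + 1) i))
      rw [hch] at h2
      have h3 := JPAux.ker1 s s' u u' i h2
      rw [hT, hl, Fin.append_right] at h3
      exact JPAux.ne_one s' hβ hsβ hw l h3
  choose p1 hp1 using h1
  have hp1i : Function.Injective p1 := by
    intro i i' h
    have h2 : π.symm (Fin.castAdd (b + 1) i) = π.symm (Fin.castAdd (b + 1) i') := by
      rw [hp1, hp1, h]
    exact Fin.castAdd_injective _ _ (π.symm.injective h2)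
  have hp1b := Finite.injective_iff_bijective.1 hp1i
  have h2 : ∀ l : Fin (b + 1), ∃ l', π.symm (Fin.natAdd (a + 1) l) = Fin.natAdd (a + 1) l' := by
    intro l
    rcases JPAux.cases_add (π.symm (Fin.natAdd (a + 1) l)) with ⟨i, hi⟩ | h
    · exfalso
      obtain ⟨i', rfl⟩ := hp1b.2 i
      rw [← hp1] at hi
      exact JPAux.not_le i' l (π.symm.injective hi).le
    · exact h
  choose p2 hp2 using h2
  have hp2i : Function.Injective p2 := by
    intro l l' h
    have h3 : π.symm (Fin.natAdd (a + 1) l) = π.symm (Fin.natAdd (a + 1) l') := by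
      rw [hp2, hp2, h]
    exact Fin.natAdd_injective _ _ (π.symm.injective h3)
  have hp2b := Finite.injective_iff_bijective.1 hp2i
  have hT' : T = Fin.append (Sum.inl ∘ (v ∘ Equiv.ofBijective p1 hp1b))
      (Sum.inr ∘ (w ∘ Equiv.ofBijective p2 hp2b)) := by
    funext j
    rcases JPAux.cases_add j with ⟨i, rfl⟩ | ⟨l, rfl⟩
    · rw [hT, hp1, Fin.append_left, Fin.append_left]
      rfl
    · rw [hT, hp2, Fin.append_right, Fin.append_right]
      rfl
  rw [hT'] at hch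
  have hx : v ∘ Equiv.ofBijective p1 hp1b = u := by
    apply huα _ (JPAux.alt_ne hα hv _)
    funext i
    rw [← JPAux.proj1 s s' _ (w ∘ Equiv.ofBijective p2 hp2b) i, hch, JPAux.proj1]
  have hy : w ∘ Equiv.ofBijective p2 hp2b = u' := by
    apply huβ _ (JPAux.alt_ne hβ hw _)
    funext l
    rw [← JPAux.proj2 s s' (v ∘ Equiv.ofBijective p1 hp1b) _ l, hch, JPAux.proj2]
  rw [hT', hx, hy]

end Vale.Agent.P240
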