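import Vale.Agent.P240.Stm5

namespace Vale.Agent.P240

namespace JPAuxb

theorem mem_ch {G P : Type} [Group G] (s : P → G) {k : ℕ} (t : Fin k → P) {i j : Fin k}
    (h : i ≤ j) : s (t i) ∈ ch s t j :=
  Subgroup.subset_closure ⟨t i, ⟨i, h, rfl⟩, rfl⟩

theorem perm_ne {P : Type} [Fintype P] {k : ℕ} {α : (Fin k → P) → ℚ} (hα : IsAlt α)
    {t : Fin k → P} (ht : α t ≠ 0) (π : Equiv.Perm (Fin k)) : α (t ∘ π) ≠ 0 := by
  rw [hα.1]
  refine mul_ne_zero ?_ ht
  exact_mod_cast Units.ne_zero _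

theorem ne_one {G P : Type} [Group G] [Fintype P] {s : P → G} {k : ℕ}
    {α : (Fin (k + 1) → P) → ℚ} (hα : IsAlt α) (hs : ∀ t, α t ≠ 0 → IsSimplex 2 (ch s t))
    {t : Fin (k + 1) → P} (ht : α t ≠ 0) (l : Fin (k + 1)) : s (t l) ≠ 1 := by
  intro h
  refine ((hs _ (perm_ne hα ht (Equiv.swap 0 l))).2 0).1 ?_
  rw [eq_bot_iff]
  refine (Subgroup.closure_le _).2 ?_
  rintro _ ⟨_, ⟨j, hj, rfl⟩, rfl⟩
  have : j = 0 := le_antisymm hj (Fin.zero_le _)
  subst this
  simp [h]

variable {G₁ G₂ P Q : Type} [Group G₁] [Group G₂] (s : P → G₁) (s' : Q → G₂) {a b : ℕ}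

theorem ker (x : Fin a → P) (y : Fin b → Q) (l : Fin a) :
    ch (jn s s') (Fin.append (Sum.inl ∘ x) (Sum.inr ∘ y)) (Fin.castAdd b l) ≤
      (MonoidHom.snd G₁ G₂).ker := by
  refine (Subgroup.closure_le _).2 ?_
  rintro _ ⟨_, ⟨j, hj, rfl⟩, rfl⟩
  revert hj
  refine Fin.addCases (fun l' _ => ?_) (fun l' hj => ?_) j
  · simp [jn, Subgroup.mem_prod]
  · exfalso
    have h1 : (Fin.natAdd a l').val ≤ (Fin.castAdd b l).val := hj
    have h2 := l.2
    simp only [Fin.val_natAdd, Fin.val_castAdd] at h1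
    omega

theorem pfst (x : Fin a → P) (y : Fin b → Q) (l : Fin a) :
    (ch (jn s s') (Fin.append (Sum.inl ∘ x) (Sum.inr ∘ y)) (Fin.castAdd b l)).map
      (MonoidHom.fst G₁ G₂) = ch s x l := by
  apply le_antisymm
  · rw [Subgroup.map_le_iff_le_comap]
    refine (Subgroup.closure_le _).2 ?_
    rintro _ ⟨_, ⟨j, hj, rfl⟩, rfl⟩
    revert hj
    refine Fin.addCases (fun l' hj => ?_) (fun l' _ => ?_) j
    · have h1 : l' ≤ l := hj
      simpa [jn] using mem_ch s x h1
    · simp [jn]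
  · refine (Subgroup.closure_le _).2 ?_
    rintro _ ⟨_, ⟨l', hl', rfl⟩, rfl⟩
    have h1 : Fin.castAdd b l' ≤ Fin.castAdd b l := hl'
    exact Subgroup.mem_map.2 ⟨_, mem_ch _ _ h1, by simp [jn]⟩

theorem psnd (x : Fin a → P) (y : Fin b → Q) (l : Fin b) :
    (ch (jn s s') (Fin.append (Sum.inl ∘ x) (Sum.inr ∘ y)) (Fin.natAdd a l)).map
      (MonoidHom.snd G₁ G₂) = ch s' y l := by
  apply le_antisymm
  · rw [Subgroup.map_le_iff_le_comap]
    refine (Subgroup.closure_le _).2 ?_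
    rintro _ ⟨_, ⟨j, hj, rfl⟩, rfl⟩
    revert hj
    refine Fin.addCases (fun l' _ => ?_) (fun l' hj => ?_) j
    · simp [jn]
    · have h0 : (Fin.natAdd a l').val ≤ (Fin.natAdd a l).val := hj
      have h1 : l' ≤ l := by
        simp only [Fin.val_natAdd] at h0
        exact Fin.le_def.2 (by omega)
      simpa [jn] using mem_ch s' y h1
  · refine (Subgroup.closure_le _).2 ?_
    rintro _ ⟨_, ⟨l', hl', rfl⟩, rfl⟩
    have h0 : l'.val ≤ l.val := hl'
    have h1 : Fin.natAdd a l' ≤ Fin.natAdd a l := by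
      refine Fin.le_def.2 ?_
      simp only [Fin.val_natAdd]
      omega
    exact Subgroup.mem_map.2 ⟨_, mem_ch _ _ h1, by simp [jn]⟩

end JPAuxb

open JPAuxb in
theorem jp_pfb (_hS : JSStmt) : JPStmt := by
  intro G₁ G₂ P Q _ _ _ _ s s' a b α β u u' T hα hβ hs hs' hu hu' hsh hch
  obtain ⟨π, v, w, hv, hw, hT⟩ := hsh
  have hT' : ∀ j, T j = Fin.append (Sum.inl ∘ v) (Sum.inr ∘ w) (π.symm j) := fun j => by
    rw [← hT, Function.comp_apply, Equiv.apply_symm_apply]
  have h1 : ∀ l : Fin (a + 1), ∃ l', π.symm (Fin.castAdd (b + 1) l) = Fin.castAdd (b + 1) l' := by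
    intro l
    have h2 := mem_ch (jn s s') T (le_refl (Fin.castAdd (b + 1) l))
    rw [hch] at h2
    have h3 := ker s s' u u' l h2
    rw [hT'] at h3
    revert h3
    refine Fin.addCases (fun l' _ => ⟨l', rfl⟩) (fun l' h3 => ?_) (π.symm (Fin.castAdd (b + 1) l))
    exact absurd (by simpa [jn, Subgroup.mem_prod] using h3) (ne_one hβ hs' hw l')
  choose f hf using h1
  have hfi : Function.Injective f := fun l l' h =>
    Fin.castAdd_injective _ _ (π.symm.injective (by rw [hf, hf, h]))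
  have hfb := Finite.injective_iff_bijective.1 hfi
  have h2 : ∀ l : Fin (b + 1), ∃ l', π.symm (Fin.natAdd (a + 1) l) = Fin.natAdd (a + 1) l' := by
    intro l
    have h3 : ∀ l', π.symm (Fin.natAdd (a + 1) l) ≠ Fin.castAdd (b + 1) l' := by
      intro l' h
      obtain ⟨l'', rfl⟩ := hfb.2 l'
      rw [← hf] at h
      have h4 := congrArg Fin.val (π.symm.injective h)
      have h5 := l''.2
      simp only [Fin.val_natAdd, Fin.val_castAdd] at h4
      omega
    revert h3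
    refine Fin.addCases (fun l' h3 => ?_) (fun l' _ => ⟨l', rfl⟩) (π.symm (Fin.natAdd (a + 1) l))
    exact absurd rfl (h3 l')
  choose g hg using h2
  have hgi : Function.Injective g := fun l l' h =>
    Fin.natAdd_injective _ _ (π.symm.injective (by rw [hg, hg, h]))
  have hgb := Finite.injective_iff_bijective.1 hgi
  have hE : T = Fin.append (Sum.inl ∘ (v ∘ Equiv.ofBijective f hfb))
      (Sum.inr ∘ (w ∘ Equiv.ofBijective g hgb)) := by
    funext j
    refine Fin.addCases (fun l => ?_) (fun l => ?_) j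
    · rw [hT', hf]
      simp
    · rw [hT', hg]
      simp
  rw [hE] at hch
  have e1 : v ∘ Equiv.ofBijective f hfb = u := by
    refine hu _ (perm_ne hα hv _) (funext fun l => ?_)
    rw [← pfst s s' _ (w ∘ Equiv.ofBijective g hgb) l, hch, pfst]
  have e2 : w ∘ Equiv.ofBijective g hgb = u' := by
    refine hu' _ (perm_ne hβ hw _) (funext fun l => ?_)
    rw [← psnd s s' (v ∘ Equiv.ofBijective f hfb) _ l, hch, psnd]
  rw [hE, e1, e2]

end Vale.Agent.P240
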