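import Vale.Agent.P240.Stm5
import Vale.Agent.P240.ProdS

namespace Vale.Agent.P240

namespace JSAux

theorem gen {G P : Type} [Group G] (f : P → G) {N : ℕ} (T : Fin N → P)
    (key : ∀ j, f (T j) ∉ Subgroup.closure (f '' (T '' Set.Iio j)))
    (hc : ∀ i j, f (T i) * f (T j) = f (T j) * f (T i)) (h2 : ∀ i, f (T i) ^ 2 = 1) :
    IsSimplex 2 (ch f T) := by
  have hgen : ∀ j, f (T j) ∈ ch f T j := fun j =>
    Subgroup.subset_closure ⟨_, ⟨j, Set.mem_Iic.2 le_rfl, rfl⟩, rfl⟩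
  refine ⟨?_, ?_⟩
  · intro a b hab
    refine lt_of_le_of_ne ?_ ?_
    · exact Subgroup.closure_mono
        (Set.image_mono (Set.image_mono (Set.Iic_subset_Iic.2 hab.le)))
    · intro heq
      apply key b
      have h1 := hgen b
      rw [← heq] at h1
      refine Subgroup.closure_mono ?_ h1
      exact Set.image_mono (Set.image_mono (Set.Iic_subset_Iio.2 hab))
  · intro j
    refine ⟨?_, ?_⟩
    · intro hb
      have h1 := hgen j
      rw [hb, Subgroup.mem_bot] at h1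
      apply key j
      rw [h1]
      exact one_mem _
    · apply ProdSAux.elem_closure
      · rintro _ ⟨_, ⟨a, -, rfl⟩, rfl⟩ _ ⟨_, ⟨b, -, rfl⟩, rfl⟩
        exact hc a b
      · rintro _ ⟨_, ⟨a, -, rfl⟩, rfl⟩
        exact h2 a

theorem proj {G H : Type} [Group G] [Group H] (φ : G →* H) (S : Set G) (K : Subgroup H)
    (h : ∀ x ∈ S, φ x ∈ K) (x : G) (hx : x ∈ Subgroup.closure S) : φ x ∈ K :=
  (Subgroup.closure_le (K.comap φ)).2 (fun y hy => h y hy) hx

end JSAux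

theorem js_pf : JSStmt := by
  intro G₁ G₂ P Q _ _ _ _ s s' a b α β T hα hβ hs hs' hT
  obtain ⟨π, v, w, hv, hw, hT⟩ := hT
  have hL : ∀ l, T (π (Fin.castAdd (b + 1) l)) = Sum.inl (v l) := fun l => by
    have h := congrFun hT (Fin.castAdd (b + 1) l)
    rw [Fin.append_left] at h
    exact h
  have hR : ∀ l, T (π (Fin.natAdd (a + 1) l)) = Sum.inr (w l) := fun l => by
    have h := congrFun hT (Fin.natAdd (a + 1) l)
    rw [Fin.append_right] at h
    exact h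
  have hj : ∀ j, (∃ l, j = π (Fin.castAdd (b + 1) l)) ∨ ∃ l, j = π (Fin.natAdd (a + 1) l) := by
    intro j
    obtain ⟨i, rfl⟩ := π.surjective j
    refine Fin.addCases (motive := fun i => (∃ l, π i = π (Fin.castAdd (b + 1) l)) ∨
      ∃ l, π i = π (Fin.natAdd (a + 1) l)) (fun l => Or.inl ⟨l, rfl⟩) (fun l => Or.inr ⟨l, rfl⟩) i
  have e1 : ∀ p, jn s s' (Sum.inl p) = (s p, 1) := fun _ => rfl
  have e2 : ∀ q, jn s s' (Sum.inr q) = (1, s' q) := fun _ => rfl
  have m1 : ∀ l, s (v l) ∈ ch s v (Fin.last a) := fun l =>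
    Subgroup.subset_closure ⟨_, ⟨l, Fin.le_last l, rfl⟩, rfl⟩
  have m2 : ∀ l, s' (w l) ∈ ch s' w (Fin.last b) := fun l =>
    Subgroup.subset_closure ⟨_, ⟨l, Fin.le_last l, rfl⟩, rfl⟩
  have c1 := ((hs _ hv).2 (Fin.last a)).2
  have c2 := ((hs' _ hw).2 (Fin.last b)).2
  refine JSAux.gen _ T ?_ ?_ ?_
  · intro j hm
    rcases hj j with ⟨l0, rfl⟩ | ⟨l0, rfl⟩
    · apply ProdSAux.nm s a α hα hs v hv l0
      have h := JSAux.proj (MonoidHom.fst G₁ G₂) _
        (Subgroup.closure (s '' (v '' {l | l ≠ l0}))) ?_ _ hm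
      · rw [hL, e1] at h
        exact h
      · rintro _ ⟨_, ⟨j', hj', rfl⟩, rfl⟩
        rcases hj j' with ⟨l, rfl⟩ | ⟨l, rfl⟩
        · rw [hL, e1]
          have hl : l ≠ l0 := by
            rintro rfl
            exact lt_irrefl _ (Set.mem_Iio.1 hj')
          exact Subgroup.subset_closure ⟨_, ⟨l, hl, rfl⟩, rfl⟩
        · rw [hR, e2]
          exact one_mem _
    · apply ProdSAux.nm s' b β hβ hs' w hw l0
      have h := JSAux.proj (MonoidHom.snd G₁ G₂) _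
        (Subgroup.closure (s' '' (w '' {l | l ≠ l0}))) ?_ _ hm
      · rw [hR, e2] at h
        exact h
      · rintro _ ⟨_, ⟨j', hj', rfl⟩, rfl⟩
        rcases hj j' with ⟨l, rfl⟩ | ⟨l, rfl⟩
        · rw [hL, e1]
          exact one_mem _
        · rw [hR, e2]
          have hl : l ≠ l0 := by
            rintro rfl
            exact lt_irrefl _ (Set.mem_Iio.1 hj')
          exact Subgroup.subset_closure ⟨_, ⟨l, hl, rfl⟩, rfl⟩
  · intro i j
    rcases hj i with ⟨l, rfl⟩ | ⟨l, rfl⟩ <;> rcases hj j with ⟨l', rfl⟩ | ⟨l', rfl⟩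
    · rw [hL, hL, e1, e1, Prod.mk_mul_mk, Prod.mk_mul_mk, c1.1 _ (m1 l) _ (m1 l')]
    · rw [hL, hR, e1, e2, Prod.mk_mul_mk, Prod.mk_mul_mk, mul_one, mul_one, one_mul, one_mul]
    · rw [hL, hR, e1, e2, Prod.mk_mul_mk, Prod.mk_mul_mk, mul_one, mul_one, one_mul, one_mul]
    · rw [hR, hR, e2, e2, Prod.mk_mul_mk, Prod.mk_mul_mk, c2.1 _ (m2 l) _ (m2 l')]
  · intro i
    rcases hj i with ⟨l, rfl⟩ | ⟨l, rfl⟩
    · rw [hL, e1, Prod.pow_mk, c1.2 _ (m1 l), one_pow]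
      rfl
    · rw [hR, e2, Prod.pow_mk, c2.2 _ (m2 l), one_pow]
      rfl

end Vale.Agent.P240
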