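import Vale.Agent.P240.Stm5
import Vale.Agent.P240.ProdS

namespace Vale.Agent.P240

open ProdSAux in
theorem js_pfb : JSStmt := by
  intro G₁ G₂ P Q _ _ _ _ s s' a b α β T hα hβ hs hs' hT
  obtain ⟨π, v, w, hv, hw, hT⟩ := hT
  have hL : ∀ l, jn s s' (T (π (Fin.castAdd (b + 1) l))) = (s (v l), 1) := fun l => by
    have h := congrFun hT (Fin.castAdd (b + 1) l)
    rw [Fin.append_left, Function.comp_apply] at h
    rw [h]
    rfl
  have hR : ∀ l, jn s s' (T (π (Fin.natAdd (a + 1) l))) = (1, s' (w l)) := fun l => by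
    have h := congrFun hT (Fin.natAdd (a + 1) l)
    rw [Fin.append_right, Function.comp_apply] at h
    rw [h]
    rfl
  have hj : ∀ j : Fin (a + 1 + (b + 1)), (∃ l, j = π (Fin.castAdd (b + 1) l)) ∨
      ∃ l, j = π (Fin.natAdd (a + 1) l) := fun j => by
    obtain ⟨i, rfl⟩ := π.surjective j
    induction i using Fin.addCases with
    | left l => exact Or.inl ⟨l, rfl⟩
    | right l => exact Or.inr ⟨l, rfl⟩
  have key : ∀ j, jn s s' (T j) ∉ Subgroup.closure (jn s s' '' (T '' Set.Iio j)) := by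
    intro j hm
    rcases hj j with ⟨l0, rfl⟩ | ⟨l0, rfl⟩
    · apply nm s a α hα hs v hv l0
      have h1 : ∀ x ∈ Subgroup.closure (jn s s' '' (T '' Set.Iio (π (Fin.castAdd (b + 1) l0)))),
          x.1 ∈ Subgroup.closure (s '' (v '' {l | l ≠ l0})) := by
        intro x hx
        induction hx using Subgroup.closure_induction with
        | mem x hx =>
          obtain ⟨_, ⟨j', hj', rfl⟩, rfl⟩ := hx
          rcases hj j' with ⟨l', rfl⟩ | ⟨l', rfl⟩
          · rw [hL]
            have hl : l' ≠ l0 := by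
              rintro rfl
              exact lt_irrefl _ (Set.mem_Iio.1 hj')
            exact Subgroup.subset_closure ⟨_, ⟨l', hl, rfl⟩, rfl⟩
          · rw [hR]
            exact one_mem _
        | one => exact one_mem _
        | mul x y _ _ h1 h2 => exact mul_mem h1 h2
        | inv x _ h => exact inv_mem h
      have h2 := h1 _ hm
      rw [hL] at h2
      exact h2
    · apply nm s' b β hβ hs' w hw l0
      have h1 : ∀ x ∈ Subgroup.closure (jn s s' '' (T '' Set.Iio (π (Fin.natAdd (a + 1) l0)))),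
          x.2 ∈ Subgroup.closure (s' '' (w '' {l | l ≠ l0})) := by
        intro x hx
        induction hx using Subgroup.closure_induction with
        | mem x hx =>
          obtain ⟨_, ⟨j', hj', rfl⟩, rfl⟩ := hx
          rcases hj j' with ⟨l', rfl⟩ | ⟨l', rfl⟩
          · rw [hL]
            exact one_mem _
          · rw [hR]
            have hl : l' ≠ l0 := by
              rintro rfl
              exact lt_irrefl _ (Set.mem_Iio.1 hj')
            exact Subgroup.subset_closure ⟨_, ⟨l', hl, rfl⟩, rfl⟩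
        | one => exact one_mem _
        | mul x y _ _ h1 h2 => exact mul_mem h1 h2
        | inv x _ h => exact inv_mem h
      have h2 := h1 _ hm
      rw [hR] at h2
      exact h2
  have hm1 : ∀ l, s (v l) ∈ ch s v (Fin.last a) := fun l =>
    Subgroup.subset_closure ⟨_, ⟨l, Fin.le_last l, rfl⟩, rfl⟩
  have hm2 : ∀ l, s' (w l) ∈ ch s' w (Fin.last b) := fun l =>
    Subgroup.subset_closure ⟨_, ⟨l, Fin.le_last l, rfl⟩, rfl⟩
  have hp : ∀ j, (jn s s' (T j)).1 ∈ ch s v (Fin.last a) ∧
      (jn s s' (T j)).2 ∈ ch s' w (Fin.last b) := fun j => by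
    rcases hj j with ⟨l, rfl⟩ | ⟨l, rfl⟩
    · rw [hL]
      exact ⟨hm1 l, one_mem _⟩
    · rw [hR]
      exact ⟨one_mem _, hm2 l⟩
  have e1 := (hs _ hv).2 (Fin.last a)
  have e2 := (hs' _ hw).2 (Fin.last b)
  have hgen : ∀ j, jn s s' (T j) ∈ ch (jn s s') T j := fun j =>
    Subgroup.subset_closure ⟨_, ⟨j, Set.mem_Iic.2 le_rfl, rfl⟩, rfl⟩
  refine ⟨?_, ?_⟩
  · intro i j hab
    refine lt_of_le_of_ne ?_ ?_
    · exact Subgroup.closure_mono
        (Set.image_mono (Set.image_mono (Set.Iic_subset_Iic.2 hab.le)))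
    · intro heq
      apply key j
      have h1 := hgen j
      rw [← heq] at h1
      refine Subgroup.closure_mono ?_ h1
      exact Set.image_mono (Set.image_mono (Set.Iic_subset_Iio.2 hab))
  · intro j
    refine ⟨?_, ?_⟩
    · intro hb
      have h1 := hgen j
      rw [hb, Subgroup.mem_bot] at h1
      apply key j
      rw [h1]
      exact one_mem _
    · apply elem_closure
      · rintro _ ⟨_, ⟨i, -, rfl⟩, rfl⟩ _ ⟨_, ⟨i', -, rfl⟩, rfl⟩
        exact Prod.ext (e1.2.1 _ (hp i).1 _ (hp i').1) (e2.2.1 _ (hp i).2 _ (hp i').2)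
      · rintro _ ⟨_, ⟨i, -, rfl⟩, rfl⟩
        exact Prod.ext (e1.2.2 _ (hp i).1) (e2.2.2 _ (hp i).2)

end Vale.Agent.P240
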