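import Vale.Agent.P240.Stm

namespace Vale.Agent.P240

open Matrix

theorem card_pf : CardStmt := by
  intro G _ _ k
  have key : ∀ E E' : Subgroup G, E < E' → 2 * Nat.card E ≤ Nat.card E' := by
    intro E E' h
    obtain ⟨d, hd⟩ := Subgroup.card_dvd_of_le h.le
    have h1 : Nat.card E' ≠ Nat.card E := fun he =>
      h.ne (Subgroup.eq_of_le_of_card_ge h.le he.le)
    have h2 : 0 < Nat.card E' := Nat.card_pos
    rcases d with _ | _ | d
    · omega
    · omega
    · rw [hd]; nlinarith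
  induction k with
  | zero =>
    intro c hc
    have := key ⊥ _ (bot_lt_iff_ne_bot.2 (hc.2 (Fin.last 0)).1)
    simpa using this
  | succ k ih =>
    intro c hc
    have h1 := ih (c ∘ Fin.castSucc) ⟨hc.1.comp Fin.strictMono_castSucc, fun i => hc.2 _⟩
    have h2 := key _ _ (hc.1 (Fin.castSucc_lt_last (Fin.last k)))
    rw [pow_succ]
    simp only [Function.comp_apply] at h1
    omega

theorem qd_of (hR : RankStmt) (hCyc : CycStmt) (hS : SumStmt) (hCo : CountStmt)
    (hSi : SimpStmt) (hSe : SepStmt)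
    (F : Type) [Field F] [Fintype F] [DecidableEq F] (m : ℕ) (G : Type) [Group G] [Finite G]
    (φ : G →* Matrix (Fin (m + 2)) (Fin (m + 2)) F) (h2 : (2 : F) ≠ 0) (hn : Odd (m + 2))
    (hq : 2 * m + 7 ≤ Fintype.card F) (hφ : Function.Injective φ) (hd : ∀ g, (φ g).det = 1)
    (hs : ∀ A, IsFrame A → ∀ a ∈ A, ∃ g, φ g = (2 : F) • a - 1) :
    HasRank G 2 (m + 1) ∧ HomologyNe G 2 m := by
  classical
  have hs' : ∀ a : Matrix (Fin (m + 2)) (Fin (m + 2)) F, ∃ g : G,
      ∀ A, IsFrame A → a ∈ A → φ g = (2 : F) • a - 1 := by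
    intro a
    by_cases h : ∃ A, IsFrame A ∧ a ∈ A
    · obtain ⟨A, hA, ha⟩ := h
      obtain ⟨g, hg⟩ := hs A hA a ha
      exact ⟨g, fun _ _ _ => hg⟩
    · exact ⟨1, fun A hA ha => absurd ⟨A, hA, ha⟩ h⟩
  choose s hsa using hs'
  have hc' : ∀ A : Finset (Matrix (Fin (m + 2)) (Fin (m + 2)) F), ∃ c, IsFrame A → c ∈ A := by
    intro A
    by_cases h : IsFrame A
    · obtain ⟨c, hc⟩ := Finset.card_pos.1 (show 0 < A.card by rw [h.1]; omega)
      exact ⟨c, fun _ => hc⟩
    · exact ⟨0, fun h' => absurd h' h⟩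
  choose c hc using hc'
  set Fr : Finset (Finset (Matrix (Fin (m + 2)) (Fin (m + 2)) F)) :=
    Finset.univ.filter IsFrame with hFr
  have hFm : ∀ B, B ∈ Fr ↔ IsFrame B := fun B => by simp [hFr]
  set S := Fr.biUnion fun A => (A.erase (c A)).image A.erase with hSdef
  set T := S.biUnion fun σ => σ.image σ.erase with hT
  have hSm : ∀ σ, σ ∈ S ↔ ∃ A, IsFrame A ∧ ∃ a ∈ A, a ≠ c A ∧ A.erase a = σ := by
    intro σ
    simp only [hSdef, Finset.mem_biUnion, Finset.mem_image, Finset.mem_erase, hFm]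
    constructor
    · rintro ⟨A, hA, a, ⟨h1, h3⟩, h4⟩; exact ⟨A, hA, a, h3, h1, h4⟩
    · rintro ⟨A, hA, a, h3, h1, h4⟩; exact ⟨A, hA, a, ⟨h1, h3⟩, h4⟩
  have hS1 : ∀ σ ∈ S, σ.card = m + 1 := by
    intro σ hσ
    obtain ⟨A, hA, a, ha, -, rfl⟩ := (hSm σ).1 hσ
    rw [Finset.card_erase_of_mem ha, hA.1]; rfl
  have hScard : S.card = (m + 1) * Fr.card := by
    rw [hSdef, Finset.card_biUnion, Finset.sum_const_nat (m := m + 1), mul_comm]
    · intro A hA
      have hA' := (hFm A).1 hA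
      rw [Finset.card_image_of_injOn, Finset.card_erase_of_mem (hc A hA'), hA'.1]; · rfl
      intro a ha b _ hab
      exact (Finset.erase_inj A (Finset.mem_of_mem_erase ha)).1 hab
    · intro A hA B hB hAB
      refine Finset.disjoint_left.2 fun σ h1 h3 => hAB ?_
      obtain ⟨a, ha, rfl⟩ := Finset.mem_image.1 h1
      obtain ⟨b, hb, e⟩ := Finset.mem_image.1 h3
      have ha' := Finset.mem_of_mem_erase ha
      have hb' := Finset.mem_of_mem_erase hb
      have e1 := hS F _ A ((hFm A).1 hA)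
      have e2 := hS F _ B ((hFm B).1 hB)
      rw [← Finset.add_sum_erase _ _ ha'] at e1
      rw [← Finset.add_sum_erase _ _ hb', e] at e2
      have : a = b := add_right_cancel (e1.trans e2.symm)
      rw [← Finset.insert_erase ha', ← Finset.insert_erase hb', e, this]
  have hTc : T.card < S.card := by
    rw [hScard]
    refine hCo F m Fr T h2 hq hFm fun τ hτ => ?_
    obtain ⟨σ, hσ, h1⟩ := Finset.mem_biUnion.1 hτ
    obtain ⟨b, hb, rfl⟩ := Finset.mem_image.1 h1
    refine ⟨by rw [Finset.card_erase_of_mem hb, hS1 σ hσ]; rfl, ?_⟩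
    obtain ⟨A, hA, a, -, -, rfl⟩ := (hSm σ).1 hσ
    exact ⟨A, hA, (Finset.erase_subset _ _).trans (Finset.erase_subset _ _)⟩
  have hinj : ∀ t : Fin (m + 1) → Matrix (Fin (m + 2)) (Fin (m + 2)) F,
      Finset.univ.image t ∈ S → Function.Injective t := by
    intro t ht
    have := Finset.card_image_iff.1 ((hS1 _ ht).trans (by simp))
    exact fun i j h => this (Finset.mem_univ i) (Finset.mem_univ j) h
  obtain ⟨z, hz0, hzb, hzs⟩ := hCyc G _ s m S T hS1
    (fun σ hσ a ha => Finset.mem_biUnion.2 ⟨σ, hσ, Finset.mem_image_of_mem _ ha⟩) hTc (by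
      intro σ hσ
      obtain ⟨A, hA, a, ha, hac, rfl⟩ := (hSm σ).1 hσ
      have hcm : c A ∈ A.erase a := Finset.mem_erase.2 ⟨hac.symm, hc A hA⟩
      have hcard : ((A.erase a).erase (c A)).card = m := by
        rw [Finset.card_erase_of_mem hcm, hS1 _ hσ]; rfl
      let e := (Finset.equivFinOfCardEq hcard).symm
      let t₀ : Fin (m + 1) → Matrix (Fin (m + 2)) (Fin (m + 2)) F :=
        Fin.snoc (fun i => (e i).1) (c A)
      have ht₀ : Finset.univ.image t₀ = A.erase a := by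
        ext x
        simp only [Finset.mem_image, Finset.mem_univ, true_and]
        constructor
        · rintro ⟨i, rfl⟩
          refine Fin.lastCases ?_ (fun i => ?_) i
          · simpa [t₀] using hcm
          · simpa [t₀] using Finset.mem_of_mem_erase (e i).2
        · intro hx
          by_cases hxc : x = c A
          · exact ⟨Fin.last m, by simp [t₀, hxc]⟩
          · exact ⟨(e.symm ⟨x, Finset.mem_erase.2 ⟨hxc, hx⟩⟩).castSucc, by simp [t₀]⟩
      refine ⟨t₀, ht₀, fun t ht hch => ?_⟩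
      obtain ⟨B, hB, b, -, hbc, hBe⟩ := (hSm _).1 ht
      have hi₀ : Function.Injective t₀ := hinj t₀ (ht₀ ▸ hσ)
      obtain ⟨rfl, h3⟩ := hSe F m G φ s A B t₀ t h2 hA hB (fun x hx => hsa x A hA hx)
        (fun x hx => hsa x B hB hx) hi₀ (hinj t ht)
        (fun i => Finset.mem_of_mem_erase (ht₀ ▸ Finset.mem_image_of_mem t₀ (Finset.mem_univ i)))
        (fun i => Finset.mem_of_mem_erase (hBe ▸ Finset.mem_image_of_mem t (Finset.mem_univ i)))
        hch
      have h4 : c B ∈ Finset.univ.image t := hBe ▸ Finset.mem_erase.2 ⟨hbc.symm, hc B hB⟩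
      obtain ⟨j, -, hj⟩ := Finset.mem_image.1 h4
      have h5 : t₀ (Fin.last m) = c B := by simp [t₀]
      funext i
      refine Fin.lastCases ?_ h3 i
      revert hj
      refine Fin.lastCases (fun hj => hj.trans h5.symm) (fun j hj => ?_) j
      exact absurd (hi₀ ((h3 j).symm.trans (hj.trans h5.symm))) (Fin.castSucc_lt_last j).ne)
  have hz : IsCh 2 z := by
    intro x hx
    obtain ⟨t, ht, rfl⟩ := hzs x hx
    obtain ⟨B, hB, b, -, -, hBe⟩ := (hSm _).1 ht
    exact hSi F m G φ s B t h2 hφ hB (fun x hx => hsa x B hB hx) (hinj t ht)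
      fun i => Finset.mem_of_mem_erase (hBe ▸ Finset.mem_image_of_mem t (Finset.mem_univ i))
  have hrk : ∀ E : Subgroup G, IsElemAb 2 E → Nat.card E ≤ 2 ^ (m + 1) :=
    hR F (m + 2) G φ h2 hn hφ hd
  refine ⟨⟨?_, hrk⟩, z, hz, hzb, ?_⟩
  · obtain ⟨x, hx⟩ := Finsupp.support_nonempty_iff.2 hz0
    exact ⟨_, (hz x hx).2 (Fin.last m), le_antisymm (hrk _ ((hz x hx).2 _))
      (card_pf G m x (hz x hx))⟩
  · rintro ⟨w, hw, rfl⟩
    have : w = 0 := by
      by_contra h
      obtain ⟨x, hx⟩ := Finsupp.support_nonempty_iff.2 h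
      have h1 := (card_pf G (m + 1) x (hw x hx)).trans (hrk _ ((hw x hx).2 _))
      rw [pow_succ] at h1
      have : 0 < 2 ^ (m + 1) := by positivity
      omega
    exact hz0 (by rw [this, bd, Finsupp.sum_zero_index])

end Vale.Agent.P240
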