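import Vale.Agent.P240.Stm

namespace Vale.Agent.P240

/-- Alternating functions with vanishing marginals. -/
def IsAlt {P : Type} [Fintype P] {k : ℕ} (α : (Fin k → P) → ℚ) : Prop :=
  (∀ (t : Fin k → P) (π : Equiv.Perm (Fin k)), α (t ∘ π) = ((Equiv.Perm.sign π : ℤ) : ℚ) * α t) ∧
    ∀ (t : Fin k → P) (j : Fin k), ∑ a : P, α (Function.update t j a) = 0

/-- `T` is a shuffle of `k` tuples in the support of `α`. -/
def IsShuf {P : Type} {k m N : ℕ} (α : (Fin (m + 1) → P) → ℚ) (e : Fin k × Fin (m + 1) ≃ Fin N)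
    (T : Fin N → Fin k × P) : Prop :=
  ∃ (π : Equiv.Perm (Fin N)) (w : Fin k → Fin (m + 1) → P),
    (∀ i, α (w i) ≠ 0) ∧ ∀ i l, T (π (e (i, l))) = (i, w i l)

def AltStmt : Prop :=
  ∀ (P : Type) [Fintype P] [DecidableEq P] (m : ℕ) (S T : Finset (Finset P)),
    (∀ σ ∈ S, σ.card = m + 1) → (∀ σ ∈ S, ∀ a ∈ σ, σ.erase a ∈ T) → T.card < S.card →
    ∃ α : (Fin (m + 1) → P) → ℚ, IsAlt α ∧ (∃ t, α t ≠ 0) ∧
      ∀ t, α t ≠ 0 → Finset.univ.image t ∈ S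

def Cyc2Stmt : Prop :=
  ∀ (G P : Type) [Group G] [Fintype P] (s : P → G) (m : ℕ) (α : (Fin (m + 1) → P) → ℚ)
    (t₀ : Fin (m + 1) → P), IsAlt α → α t₀ ≠ 0 → (∀ t, α t ≠ 0 → IsSimplex 2 (ch s t)) →
    (∀ t, α t ≠ 0 → ch s t = ch s t₀ → t = t₀) →
    ∃ z : (Fin (m + 1) → Subgroup G) →₀ ℚ, z ≠ 0 ∧ IsCh 2 z ∧ bd z = 0

def ProdAStmt : Prop :=
  ∀ (P : Type) [Fintype P] (k m N : ℕ) (α : (Fin (m + 1) → P) → ℚ) (u : Fin (m + 1) → P)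
    (e : Fin k × Fin (m + 1) ≃ Fin N), IsAlt α → α u ≠ 0 →
    ∃ A : (Fin N → Fin k × P) → ℚ, IsAlt A ∧
      A (fun j => ((e.symm j).1, u (e.symm j).2)) ≠ 0 ∧ ∀ T, A T ≠ 0 → IsShuf α e T

def ProdSStmt : Prop :=
  ∀ (G P : Type) [Group G] [Fintype P] (s : P → G) (k m N : ℕ) (α : (Fin (m + 1) → P) → ℚ)
    (e : Fin k × Fin (m + 1) ≃ Fin N) (T : Fin N → Fin k × P), IsAlt α →
    (∀ t, α t ≠ 0 → IsSimplex 2 (ch s t)) → IsShuf α e T →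
    IsSimplex 2 (ch (fun x : Fin k × P => (Pi.mulSingle x.1 (s x.2) : Fin k → G)) T) ∧
    ∀ j, (Pi.mulSingle (T j).1 (s (T j).2) : Fin k → G) ∉ Subgroup.closure
      ((fun x : Fin k × P => (Pi.mulSingle x.1 (s x.2) : Fin k → G)) '' (T '' Set.Iio j))

def ProdPStmt : Prop :=
  ∀ (G P : Type) [Group G] [Fintype P] (s : P → G) (k m N : ℕ) (α : (Fin (m + 1) → P) → ℚ)
    (u : Fin (m + 1) → P) (e : Fin k × Fin (m + 1) ≃ Fin N) (T : Fin N → Fin k × P), IsAlt α →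
    (∀ i, StrictMono fun l => e (i, l)) → (∀ t, α t ≠ 0 → IsSimplex 2 (ch s t)) →
    (∀ t, α t ≠ 0 → ch s t = ch s u → t = u) → IsShuf α e T →
    ch (fun x : Fin k × P => (Pi.mulSingle x.1 (s x.2) : Fin k → G)) T =
      ch (fun x : Fin k × P => (Pi.mulSingle x.1 (s x.2) : Fin k → G))
        (fun j => ((e.symm j).1, u (e.symm j).2)) →
    T = fun j => ((e.symm j).1, u (e.symm j).2)

def InhStmt : Prop :=
  ∀ (B G : Type) [Group B] [Group G] (ψ : B →* G) (m : ℕ)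
    (z : (Fin (m + 1) → Subgroup B) →₀ ℚ), Function.Injective ψ → z ≠ 0 → IsCh 2 z → bd z = 0 →
    ∃ z' : (Fin (m + 1) → Subgroup G) →₀ ℚ, z' ≠ 0 ∧ IsCh 2 z' ∧ bd z' = 0

def WRankStmt : Prop :=
  ∀ (H : Type) [Group H] [Finite H] (k M : ℕ), 2 ≤ M →
    (∀ E : Subgroup H, IsElemAb 2 E → Nat.card E ≤ M) →
    ∀ E : Subgroup ((Fin k → H) ⋊[mulAutArrow] Equiv.Perm (Fin k)), IsElemAb 2 E →
      Nat.card E ≤ M ^ k

end Vale.Agent.P240
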