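import Vale.Agent.P240.Main
import Vale.Agent.P240.Stm2

namespace Vale.Agent.P240

open Matrix

theorem good_of (hA : AltStmt) (hS : SumStmt) (hCo : CountStmt) (hSi : SimpStmt) (hSe : SepStmt)
    (F : Type) [Field F] [Fintype F] [DecidableEq F] (m : ℕ) (G : Type) [Group G]
    (φ : G →* Matrix (Fin (m + 2)) (Fin (m + 2)) F) (h2 : (2 : F) ≠ 0)
    (hq : 2 * m + 7 ≤ Fintype.card F) (hφ : Function.Injective φ)
    (hs : ∀ A, IsFrame A → ∀ a ∈ A, ∃ g, φ g = (2 : F) • a - 1) :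
    ∃ (s : Matrix (Fin (m + 2)) (Fin (m + 2)) F → G)
      (α : (Fin (m + 1) → Matrix (Fin (m + 2)) (Fin (m + 2)) F) → ℚ)
      (u : Fin (m + 1) → Matrix (Fin (m + 2)) (Fin (m + 2)) F), IsAlt α ∧ α u ≠ 0 ∧
      (∀ t, α t ≠ 0 → IsSimplex 2 (ch s t)) ∧ ∀ t, α t ≠ 0 → ch s t = ch s u → t = u := by
  classical
  have hs' : ∀ a : Matrix (Fin (m + 2)) (Fin (m + 2)) F, ∃ g : G,
      ∀ A, IsFrame A → a ∈ A → φ g = (2 : F) • a - 1 := by
    intro a
    by_cases h : ∃ A, IsFrame A ∧ a ∈ A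
    · obtain ⟨A, hA, ha⟩ := h
      obtain ⟨g, hg⟩ := hs A hA a ha
      exact ⟨g, fun _ _ _ => hg⟩
    · exact ⟨1, fun A hA ha => absurd ⟨A, hA, ha⟩ h⟩
  choose s hsa using hs'
  have hc' : ∀ A : Finset (Matrix (Fin (m + 2)) (Fin (m + 2)) F), ∃ c, IsFrame A → c ∈ A := by
    intro A
    by_cases h : IsFrame A
    · obtain ⟨c, hc⟩ := Finset.card_pos.1 (show 0 < A.card by rw [h.1]; omega)
      exact ⟨c, fun _ => hc⟩
    · exact ⟨0, fun h' => absurd h' h⟩
  choose c hc using hc'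
  set Fr : Finset (Finset (Matrix (Fin (m + 2)) (Fin (m + 2)) F)) :=
    Finset.univ.filter IsFrame with hFr
  have hFm : ∀ B, B ∈ Fr ↔ IsFrame B := fun B => by simp [hFr]
  set S := Fr.biUnion fun A => (A.erase (c A)).image A.erase with hSdef
  set T := S.biUnion fun σ => σ.image σ.erase with hT
  have hSm : ∀ σ, σ ∈ S ↔ ∃ A, IsFrame A ∧ ∃ a ∈ A, a ≠ c A ∧ A.erase a = σ := by
    intro σ
    simp only [hSdef, Finset.mem_biUnion, Finset.mem_image, Finset.mem_erase, hFm]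
    constructor
    · rintro ⟨A, hA, a, ⟨h1, h3⟩, h4⟩; exact ⟨A, hA, a, h3, h1, h4⟩
    · rintro ⟨A, hA, a, h3, h1, h4⟩; exact ⟨A, hA, a, ⟨h1, h3⟩, h4⟩
  have hS1 : ∀ σ ∈ S, σ.card = m + 1 := by
    intro σ hσ
    obtain ⟨A, hA, a, ha, -, rfl⟩ := (hSm σ).1 hσ
    rw [Finset.card_erase_of_mem ha, hA.1]; rfl
  have hScard : S.card = (m + 1) * Fr.card := by
    rw [hSdef, Finset.card_biUnion, Finset.sum_const_nat (m := m + 1), mul_comm]
    · intro A hA
      have hA' := (hFm A).1 hA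
      rw [Finset.card_image_of_injOn, Finset.card_erase_of_mem (hc A hA'), hA'.1]; · rfl
      intro a ha b _ hab
      exact (Finset.erase_inj A (Finset.mem_of_mem_erase ha)).1 hab
    · intro A hA B hB hAB
      refine Finset.disjoint_left.2 fun σ h1 h3 => hAB ?_
      obtain ⟨a, ha, rfl⟩ := Finset.mem_image.1 h1
      obtain ⟨b, hb, e⟩ := Finset.mem_image.1 h3
      have ha' := Finset.mem_of_mem_erase ha
      have hb' := Finset.mem_of_mem_erase hb
      have e1 := hS F _ A ((hFm A).1 hA)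
      have e2 := hS F _ B ((hFm B).1 hB)
      rw [← Finset.add_sum_erase _ _ ha'] at e1
      rw [← Finset.add_sum_erase _ _ hb', e] at e2
      have : a = b := add_right_cancel (e1.trans e2.symm)
      rw [← Finset.insert_erase ha', ← Finset.insert_erase hb', e, this]
  have hTc : T.card < S.card := by
    rw [hScard]
    refine hCo F m Fr T h2 hq hFm fun τ hτ => ?_
    obtain ⟨σ, hσ, h1⟩ := Finset.mem_biUnion.1 hτ
    obtain ⟨b, hb, rfl⟩ := Finset.mem_image.1 h1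
    refine ⟨by rw [Finset.card_erase_of_mem hb, hS1 σ hσ]; rfl, ?_⟩
    obtain ⟨A, hA, a, -, -, rfl⟩ := (hSm σ).1 hσ
    exact ⟨A, hA, (Finset.erase_subset _ _).trans (Finset.erase_subset _ _)⟩
  have hinj : ∀ t : Fin (m + 1) → Matrix (Fin (m + 2)) (Fin (m + 2)) F,
      Finset.univ.image t ∈ S → Function.Injective t := by
    intro t ht
    have := Finset.card_image_iff.1 ((hS1 _ ht).trans (by simp))
    exact fun i j h => this (Finset.mem_univ i) (Finset.mem_univ j) h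
  have hsep : ∀ σ ∈ S, ∃ t₀ : Fin (m + 1) → Matrix (Fin (m + 2)) (Fin (m + 2)) F,
      Finset.univ.image t₀ = σ ∧ ∀ t : Fin (m + 1) → Matrix (Fin (m + 2)) (Fin (m + 2)) F,
        Finset.univ.image t ∈ S → ch s t = ch s t₀ → t = t₀ := by
    intro σ hσ
    obtain ⟨A, hA, a, ha, hac, rfl⟩ := (hSm σ).1 hσ
    have hcm : c A ∈ A.erase a := Finset.mem_erase.2 ⟨hac.symm, hc A hA⟩
    have hcard : ((A.erase a).erase (c A)).card = m := by
      rw [Finset.card_erase_of_mem hcm, hS1 _ hσ]; rfl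
    let e := (Finset.equivFinOfCardEq hcard).symm
    let t₀ : Fin (m + 1) → Matrix (Fin (m + 2)) (Fin (m + 2)) F :=
      Fin.snoc (fun i => (e i).1) (c A)
    have ht₀ : Finset.univ.image t₀ = A.erase a := by
      ext x
      simp only [Finset.mem_image, Finset.mem_univ, true_and]
      constructor
      · rintro ⟨i, rfl⟩
        refine Fin.lastCases ?_ (fun i => ?_) i
        · simpa [t₀] using hcm
        · simpa [t₀] using Finset.mem_of_mem_erase (e i).2
      · intro hx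
        by_cases hxc : x = c A
        · exact ⟨Fin.last m, by simp [t₀, hxc]⟩
        · exact ⟨(e.symm ⟨x, Finset.mem_erase.2 ⟨hxc, hx⟩⟩).castSucc, by simp [t₀]⟩
    refine ⟨t₀, ht₀, fun t ht hch => ?_⟩
    obtain ⟨B, hB, b, -, hbc, hBe⟩ := (hSm _).1 ht
    have hi₀ : Function.Injective t₀ := hinj t₀ (ht₀ ▸ hσ)
    obtain ⟨rfl, h3⟩ := hSe F m G φ s A B t₀ t h2 hA hB (fun x hx => hsa x A hA hx)
      (fun x hx => hsa x B hB hx) hi₀ (hinj t ht)
      (fun i => Finset.mem_of_mem_erase (ht₀ ▸ Finset.mem_image_of_mem t₀ (Finset.mem_univ i)))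
      (fun i => Finset.mem_of_mem_erase (hBe ▸ Finset.mem_image_of_mem t (Finset.mem_univ i)))
      hch
    have h4 : c B ∈ Finset.univ.image t := hBe ▸ Finset.mem_erase.2 ⟨hbc.symm, hc B hB⟩
    obtain ⟨j, -, hj⟩ := Finset.mem_image.1 h4
    have h5 : t₀ (Fin.last m) = c B := by simp [t₀]
    funext i
    refine Fin.lastCases ?_ h3 i
    revert hj
    refine Fin.lastCases (fun hj => hj.trans h5.symm) (fun j hj => ?_) j
    exact absurd (hi₀ ((h3 j).symm.trans (hj.trans h5.symm))) (Fin.castSucc_lt_last j).ne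
  obtain ⟨α, hα, ⟨t₁, ht₁⟩, hαS⟩ := hA _ m S T hS1
    (fun σ hσ a ha => Finset.mem_biUnion.2 ⟨σ, hσ, Finset.mem_image_of_mem _ ha⟩) hTc
  obtain ⟨u, hu, hu2⟩ := hsep _ (hαS t₁ ht₁)
  have hui : Function.Injective u := hinj u (hu ▸ hαS t₁ ht₁)
  have hex : ∀ i, ∃ j, t₁ j = u i := fun i => by
    obtain ⟨j, -, hj⟩ := Finset.mem_image.1 (hu ▸ Finset.mem_image_of_mem u (Finset.mem_univ i))
    exact ⟨j, hj⟩
  choose ρ hρ using hex
  have hρi : Function.Injective ρ := fun i j h => hui (by rw [← hρ, ← hρ, h])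
  have hue : u = t₁ ∘ Equiv.ofBijective ρ (Finite.injective_iff_bijective.1 hρi) :=
    funext fun i => (hρ i).symm
  refine ⟨s, α, u, hα, ?_, fun t ht => ?_, fun t ht => hu2 t (hαS t ht)⟩
  · rw [hue, hα.1]
    exact mul_ne_zero (Int.cast_ne_zero.2 (Units.ne_zero _)) ht₁
  · obtain ⟨B, hB, b, -, -, hBe⟩ := (hSm _).1 (hαS t ht)
    exact hSi F m G φ s B t h2 hφ hB (fun x hx => hsa x B hB hx) (hinj t (hαS t ht))
      fun i => Finset.mem_of_mem_erase (hBe ▸ Finset.mem_image_of_mem t (Finset.mem_univ i))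

theorem qd_fin (G : Type) [Group G] [Finite G] (m : ℕ) (z : (Fin (m + 1) → Subgroup G) →₀ ℚ)
    (hz0 : z ≠ 0) (hz : IsCh 2 z) (hzb : bd z = 0)
    (hrk : ∀ E : Subgroup G, IsElemAb 2 E → Nat.card E ≤ 2 ^ (m + 1)) :
    HasRank G 2 (m + 1) ∧ HomologyNe G 2 m := by
  refine ⟨⟨?_, hrk⟩, z, hz, hzb, ?_⟩
  · obtain ⟨x, hx⟩ := Finsupp.support_nonempty_iff.2 hz0
    exact ⟨_, (hz x hx).2 (Fin.last m), le_antisymm (hrk _ ((hz x hx).2 _))
      (card_pf G m x (hz x hx))⟩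
  · rintro ⟨w, hw, rfl⟩
    have : w = 0 := by
      by_contra h
      obtain ⟨x, hx⟩ := Finsupp.support_nonempty_iff.2 h
      have h1 := (card_pf G (m + 1) x (hw x hx)).trans (hrk _ ((hw x hx).2 _))
      rw [pow_succ] at h1
      have : 0 < 2 ^ (m + 1) := by positivity
      omega
    exact hz0 (by rw [this, bd, Finsupp.sum_zero_index])

theorem elem_map {B G : Type} [Group B] [Group G] (ψ : B →* G) (hψ : Function.Injective ψ)
    (E : Subgroup B) (hE : IsElemAb 2 E) : IsElemAb 2 (E.map ψ) := by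
  refine ⟨fun h => hE.1 ((Subgroup.map_eq_bot_iff_of_injective _ hψ).1 h), ?_, ?_⟩
  · rintro _ ⟨x, hx, rfl⟩ _ ⟨y, hy, rfl⟩
    rw [← map_mul, ← map_mul, hE.2.1 x hx y hy]
  · rintro _ ⟨x, hx, rfl⟩
    rw [← map_pow, hE.2.2 x hx, map_one]

theorem rank_odd {N H : Type} [Group N] [Group H] [Finite H] (ι : N →* H)
    (hι : Function.Injective ι) (hn : ι.range.Normal) (ho : Odd ι.range.index) (M : ℕ)
    (hM : ∀ E : Subgroup N, IsElemAb 2 E → Nat.card E ≤ M) (E : Subgroup H)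
    (hE : IsElemAb 2 E) : Nat.card E ≤ M := by
  have hle : E ≤ ι.range := by
    intro x hx
    obtain ⟨d, hd⟩ := ho
    have := ι.range.pow_index_mem x
    rwa [hd, pow_succ, pow_mul, hE.2.2 x hx, one_pow, one_mul] at this
  have he : (E.comap ι).map ι = E := Subgroup.map_comap_eq_self hle
  have h1 : IsElemAb 2 (E.comap ι) := by
    refine ⟨fun h => hE.1 (by rw [← he, h, Subgroup.map_bot]), fun x hx y hy => hι ?_,
      fun x hx => hι ?_⟩
    · rw [map_mul, map_mul, hE.2.1 _ hx _ hy]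
    · rw [map_pow, hE.2.2 _ hx, map_one]
  rw [← he, Subgroup.card_map_of_injective hι]
  exact hM _ h1

end Vale.Agent.P240
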