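import Vale.Agent.P240.Stm2

namespace Vale.Agent.P240

open Matrix

/-- Abstract systems of pairs (outer involution, frame of inner involutions). -/
def Sys1 {G : Type} [Group G] (K : Subgroup G) (m : ℕ) (X : Finset (G × Finset G)) : Prop :=
  ∀ x ∈ X, x.1 ∉ K ∧ x.1 * x.1 = 1 ∧ x.2.card = m + 2 ∧ ∀ a ∈ x.2, a ∈ K ∧ x.1 * a = a * x.1

def Sys2 {G : Type} [Group G] (m : ℕ) (X : Finset (G × Finset G)) : Prop :=
  ∀ x ∈ X, ∀ t : Fin (m + 1) → G, Function.Injective t → (∀ i, t i ∈ x.2) →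
    IsSimplex 2 (ch id t)

def Sys3 {G : Type} [Group G] (m : ℕ) (X : Finset (G × Finset G)) : Prop :=
  ∀ x ∈ X, ∀ y ∈ X, x.1 = y.1 → ∀ t₀ t : Fin (m + 1) → G, Function.Injective t₀ →
    Function.Injective t → (∀ i, t₀ i ∈ x.2) → (∀ i, t i ∈ y.2) → ch id t = ch id t₀ →
    y.2 = x.2 ∧ ∀ i : Fin m, t i.castSucc = t₀ i.castSucc

def Sys4 {G : Type} [DecidableEq G] (m : ℕ) (X : Finset (G × Finset G)) : Prop :=
  ∀ x ∈ X, ∀ τ : Finset G, τ ⊆ x.2 → τ.card = m →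
    m + 6 ≤ (X.filter fun y => y.1 = x.1 ∧ τ ⊆ y.2).card

def Sys5 {G : Type} (X : Finset (G × Finset G)) : Prop :=
  ∀ x ∈ X, ∃ y ∈ X, y.1 ≠ x.1 ∧ y.2 = x.2

/-- The top simplices. -/
def topS {G : Type} [DecidableEq G] (X : Finset (G × Finset G)) (c : G × Finset G → G) :
    Finset (Finset G) :=
  X.biUnion fun x => (x.2.erase (c x)).image fun a => insert x.1 (x.2.erase a)

def GSimpStmt : Prop :=
  ∀ (G : Type) [Group G] [DecidableEq G] (K : Subgroup G) (m : ℕ) (X : Finset (G × Finset G)),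
    Sys1 K m X → Sys2 m X → ∀ x ∈ X, ∀ a ∈ x.2, ∀ t : Fin (m + 2) → G,
      Finset.univ.image t = insert x.1 (x.2.erase a) → IsSimplex 2 (ch id t)

def GSepStmt : Prop :=
  ∀ (G : Type) [Group G] [DecidableEq G] (K : Subgroup G) (m : ℕ) (X : Finset (G × Finset G))
    (c : G × Finset G → G), Sys1 K m X → Sys3 m X → (∀ x ∈ X, c x ∈ x.2) →
    ∀ σ ∈ topS X c, ∃ t₀ : Fin (m + 2) → G, Finset.univ.image t₀ = σ ∧
      ∀ t : Fin (m + 2) → G, Finset.univ.image t ∈ topS X c → ch id t = ch id t₀ → t = t₀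

def GCardStmt : Prop :=
  ∀ (G : Type) [Group G] [DecidableEq G] (K : Subgroup G) (m : ℕ) (X : Finset (G × Finset G))
    (c : G × Finset G → G), Sys1 K m X → Sys3 m X → (∀ x ∈ X, c x ∈ x.2) →
    (topS X c).card = (m + 1) * X.card

def GT1Stmt : Prop :=
  ∀ (G : Type) [DecidableEq G] (m : ℕ) (X : Finset (G × Finset G)),
    (∀ x ∈ X, x.2.card = m + 2) → Sys5 X →
    2 * (X.biUnion fun x => x.2.image x.2.erase).card ≤ (m + 2) * X.card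

def GT2Stmt : Prop :=
  ∀ (G : Type) [DecidableEq G] (m : ℕ) (X : Finset (G × Finset G)),
    (∀ x ∈ X, x.2.card = m + 2) → Sys4 m X →
    2 * (m + 6) * (X.biUnion fun x => (x.2.powersetCard m).image (insert x.1)).card ≤
      (m + 2) * (m + 1) * X.card

/-- Matrix groups of determinant one modulo scalars. -/
def Base (E : Type) [Field E] (n : ℕ) (K G : Type) [Group K] [Group G]
    (φ : K →* Matrix (Fin n) (Fin n) E) (ι : K →* G) : Prop :=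
  (2 : E) ≠ 0 ∧ Odd n ∧ Function.Injective φ ∧ (∀ k, (φ k).det = 1) ∧
    ∀ k, ι k = 1 → ∃ c : E, φ k = c • (1 : Matrix (Fin n) (Fin n) E)

/-- The hypotheses of the concrete situation. -/
def Conc (E : Type) [Field E] (m : ℕ) (K G : Type) [Group K] [Group G] [DecidableEq G]
    (φ : K →* Matrix (Fin (m + 2)) (Fin (m + 2)) E) (ι : K →* G) (γ : G)
    (s : Matrix (Fin (m + 2)) (Fin (m + 2)) E → K)
    (Fa : Finset (Finset (Matrix (Fin (m + 2)) (Fin (m + 2)) E)))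
    (X : Finset (G × Finset G)) : Prop :=
  Base E (m + 2) K G φ ι ∧ γ ∉ ι.range ∧ γ * γ = 1 ∧
    (∀ k, ∃ l, γ * ι k * γ⁻¹ = ι l ∧ φ l * (φ k)ᵀ = 1) ∧
    (∀ a k, φ k = (2 : E) • a - 1 → s a = k) ∧
    (∀ A ∈ Fa, IsFrame A ∧ ∀ a ∈ A, φ (s a) = (2 : E) • a - 1) ∧
    ∀ x, x ∈ X ↔ ∃ g, ∃ A ∈ Fa,
      x = (ι g * γ * (ι g)⁻¹, A.image fun a => ι (g * s a * g⁻¹))

def OInjStmt : Prop :=
  ∀ (E : Type) [Field E] (n : ℕ) (K G : Type) [Group K] [Group G] φ ι, Base E n K G φ ι →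
    ∀ k l : K, φ k * (φ k)ᵀ = 1 → φ l * (φ l)ᵀ = 1 → ι k = ι l → k = l

def LiftStmt : Prop :=
  ∀ (E : Type) [Field E] (n : ℕ) (K G : Type) [Group K] [Finite K] [Group G] φ ι,
    Base E n K G φ ι → ∀ A : Subgroup G, IsElemAb 2 A → A ≤ ι.range → Nat.card A ≤ 2 ^ (n - 1)

def FrConjStmt : Prop :=
  ∀ (E : Type) [Field E] [DecidableEq E] (n : ℕ) (h h' : Matrix (Fin n) (Fin n) E) (c : E)
    (A : Finset (Matrix (Fin n) (Fin n) E)), Odd n → h.det = 1 → h * h' = 1 →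
    h * hᵀ = c • (1 : Matrix (Fin n) (Fin n) E) → IsFrame A →
    IsFrame (A.image fun a => h * a * h')

def C1Stmt : Prop :=
  ∀ (E : Type) [Field E] (m : ℕ) (K G : Type) [Group K] [Group G] [DecidableEq G] φ ι γ s Fa X,
    Conc E m K G φ ι γ s Fa X → Sys1 ι.range m X

def C2Stmt : Prop :=
  ∀ (E : Type) [Field E] (m : ℕ) (K G : Type) [Group K] [Group G] [DecidableEq G] φ ι γ s Fa X,
    Conc E m K G φ ι γ s Fa X → Sys2 m X

def C3aStmt : Prop :=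
  ∀ (E : Type) [Field E] (m : ℕ) (K G : Type) [Group K] [Group G] [DecidableEq G] φ ι γ s Fa X,
    Conc E m K G φ ι γ s Fa X → ∀ x ∈ X, ∀ y ∈ X, x.1 = y.1 →
    ∃ (g : K) (A B : Finset (Matrix (Fin (m + 2)) (Fin (m + 2)) E)), IsFrame A ∧ IsFrame B ∧
      (∀ a ∈ A, φ (s a) = (2 : E) • a - 1) ∧ (∀ a ∈ B, φ (s a) = (2 : E) • a - 1) ∧
      (x.2 = A.image fun a => ι (g * s a * g⁻¹)) ∧ y.2 = B.image fun a => ι (g * s a * g⁻¹)

def C3bStmt : Prop :=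
  ∀ (E : Type) [Field E] (m : ℕ) (K G : Type) [Group K] [Group G] [DecidableEq G] φ ι
    (s : Matrix (Fin (m + 2)) (Fin (m + 2)) E → K) (g : K)
    (A B : Finset (Matrix (Fin (m + 2)) (Fin (m + 2)) E)), Base E (m + 2) K G φ ι →
    IsFrame A → IsFrame B → (∀ a ∈ A, φ (s a) = (2 : E) • a - 1) →
    (∀ a ∈ B, φ (s a) = (2 : E) • a - 1) → ∀ t₀ t : Fin (m + 1) → G, Function.Injective t₀ →
    Function.Injective t → (∀ i, t₀ i ∈ A.image fun a => ι (g * s a * g⁻¹)) →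
    (∀ i, t i ∈ B.image fun a => ι (g * s a * g⁻¹)) → ch id t = ch id t₀ →
    B = A ∧ ∀ i : Fin m, t i.castSucc = t₀ i.castSucc

def C4Stmt : Prop :=
  ∀ (E : Type) [Field E] [DecidableEq E] (m : ℕ) (K G : Type) [Group K] [Group G]
    [DecidableEq G] φ ι γ s Fa X, Conc E m K G φ ι γ s Fa X →
    (∀ A ∈ Fa, ∀ τ, τ ⊆ A → τ.card = m → m + 6 ≤ (Fa.filter fun B => τ ⊆ B).card) → Sys4 m X

def C5Stmt : Prop :=
  ∀ (E : Type) [Field E] (m : ℕ) (K G : Type) [Group K] [Group G] [DecidableEq G] φ ι γ s Fa X,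
    Conc E m K G φ ι γ s Fa X →
    (∀ A ∈ Fa, ∃ d : K, (∀ p ∈ A, φ d * p = p * φ d) ∧
      ∀ e : E, φ d * (φ d)ᵀ ≠ e • (1 : Matrix (Fin (m + 2)) (Fin (m + 2)) E)) → Sys5 X

def Idx2Stmt : Prop :=
  ∀ (G : Type) [Group G] [Finite G] (N : Subgroup G) (γ : G) (M : ℕ), 1 ≤ M →
    (∀ g, g ∈ N ∨ g * γ ∈ N) → (∀ A : Subgroup G, IsElemAb 2 A → A ≤ N → Nat.card A ≤ M) →
    ∀ A : Subgroup G, IsElemAb 2 A → Nat.card A ≤ M * 2

def FamStmt : Prop :=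
  ∀ (F E : Type) [Field F] [Fintype F] [Field E] [DecidableEq E] (f : F →+* E) (m : ℕ),
    (2 : F) ≠ 0 → 4 * m + 23 ≤ Fintype.card F →
    ∃ Fa : Finset (Finset (Matrix (Fin (m + 2)) (Fin (m + 2)) E)), Fa.Nonempty ∧
      (∀ A ∈ Fa, IsFrame A ∧ ∀ a ∈ A, ∃ b : Matrix (Fin (m + 2)) (Fin (m + 2)) F, a = b.map f) ∧
      ∀ A ∈ Fa, ∀ τ, τ ⊆ A → τ.card = m → m + 6 ≤ (Fa.filter fun B => τ ⊆ B).card

def DStmt : Prop :=
  ∀ (E : Type) [Field E] (m : ℕ) (A : Finset (Matrix (Fin (m + 3)) (Fin (m + 3)) E)) (c : E),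
    IsFrame A → c ≠ 0 → c ^ 2 ≠ 1 → ∃ a ∈ A, ∃ b ∈ A, ∃ D : Matrix (Fin (m + 3)) (Fin (m + 3)) E,
      D = 1 + (c - 1) • a + (c⁻¹ - 1) • b ∧ D.det = 1 ∧ (∀ p ∈ A, D * p = p * D) ∧
      (∀ e : E, D * Dᵀ ≠ e • (1 : Matrix (Fin (m + 3)) (Fin (m + 3)) E)) ∧
      (1 + (c⁻¹ - 1) • a + (c - 1) • b) * D = 1

def RDetStmt : Prop :=
  ∀ (E : Type) [Field E] (n : ℕ) (a : Matrix (Fin n) (Fin n) E), Odd n → IsPt a →
    ((2 : E) • a - 1).det = 1 ∧ aᵀ = a ∧ ((2 : E) • a - 1) * ((2 : E) • a - 1) = 1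

end Vale.Agent.P240
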