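import Vale.Agent.P240.Top
import Vale.Agent.P240.Stm3
import Vale.Agent.P240.Defs2

namespace Vale.Agent.P240

open Matrix

theorem ggood_of (hA : AltStmt) (hSi : GSimpStmt) (hSe : GSepStmt) (hCa : GCardStmt)
    (h1 : GT1Stmt) (h2 : GT2Stmt) (G : Type) [Group G] [Fintype G] [DecidableEq G]
    (K : Subgroup G) (m : ℕ) (hm : 1 ≤ m) (X : Finset (G × Finset G)) (hX : X.Nonempty)
    (s1 : Sys1 K m X) (s2 : Sys2 m X) (s3 : Sys3 m X) (s4 : Sys4 m X) (s5 : Sys5 X) :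
    ∃ (α : (Fin (m + 1 + 1) → G) → ℚ) (u : Fin (m + 1 + 1) → G), IsAlt α ∧ α u ≠ 0 ∧
      (∀ t, α t ≠ 0 → IsSimplex 2 (ch id t)) ∧ ∀ t, α t ≠ 0 → ch id t = ch id u → t = u := by
  have hc' : ∀ x : G × Finset G, ∃ c, x ∈ X → c ∈ x.2 := by
    intro x
    by_cases h : x ∈ X
    · obtain ⟨c, hc⟩ := Finset.card_pos.1 (show 0 < x.2.card by rw [(s1 x h).2.2.1]; omega)
      exact ⟨c, fun _ => hc⟩
    · exact ⟨1, fun h' => absurd h' h⟩
  choose c hc using hc'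
  have hSm : ∀ σ ∈ topS X c, ∃ x ∈ X, ∃ a ∈ x.2, σ = insert x.1 (x.2.erase a) := by
    intro σ hσ
    obtain ⟨x, hx, h⟩ := Finset.mem_biUnion.1 hσ
    obtain ⟨a, ha, rfl⟩ := Finset.mem_image.1 h
    exact ⟨x, hx, a, Finset.mem_of_mem_erase ha, rfl⟩
  have hnot : ∀ x ∈ X, ∀ a, x.1 ∉ x.2.erase a := fun x hx a h =>
    (s1 x hx).1 ((s1 x hx).2.2.2 _ (Finset.mem_of_mem_erase h)).1
  have hS1 : ∀ σ ∈ topS X c, σ.card = m + 1 + 1 := by
    intro σ hσ
    obtain ⟨x, hx, a, ha, rfl⟩ := hSm σ hσ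
    rw [Finset.card_insert_of_notMem (hnot x hx a), Finset.card_erase_of_mem ha, (s1 x hx).2.2.1]
    rfl
  have hcard : ∀ x ∈ X, x.2.card = m + 2 := fun x hx => (s1 x hx).2.2.1
  obtain ⟨α, hα, ⟨t₁, ht₁⟩, hαS⟩ := hA G (m + 1) (topS X c)
    ((X.biUnion fun x => x.2.image x.2.erase) ∪
      X.biUnion fun x => (x.2.powersetCard m).image (insert x.1)) hS1
    (fun σ hσ b hb => by
      obtain ⟨x, hx, a, ha, rfl⟩ := hSm σ hσ
      rcases Finset.mem_insert.1 hb with rfl | hb'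
      · rw [Finset.erase_insert (hnot x hx a)]
        exact Finset.mem_union_left _
          (Finset.mem_biUnion.2 ⟨x, hx, Finset.mem_image_of_mem _ ha⟩)
      · have hne : x.1 ≠ b := fun h => hnot x hx a (h ▸ hb')
        rw [Finset.erase_insert_of_ne hne]
        refine Finset.mem_union_right _
          (Finset.mem_biUnion.2 ⟨x, hx, Finset.mem_image_of_mem _ ?_⟩)
        refine Finset.mem_powersetCard.2
          ⟨(Finset.erase_subset _ _).trans (Finset.erase_subset _ _), ?_⟩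
        rw [Finset.card_erase_of_mem hb', Finset.card_erase_of_mem ha, hcard x hx]
        rfl)
    (by
      have e1 := h1 G m X hcard s5
      have e2 := h2 G m X hcard s4
      have e3 := hCa G K m X c s1 s3 hc
      have e4 := Finset.card_union_le (X.biUnion fun x => x.2.image x.2.erase)
        (X.biUnion fun x => (x.2.powersetCard m).image (insert x.1))
      have e5 : 0 < X.card := hX.card_pos
      refine lt_of_le_of_lt e4 ?_
      rw [e3]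
      generalize (X.biUnion fun x => x.2.image x.2.erase).card = p at e1 ⊢
      generalize (X.biUnion fun x => (x.2.powersetCard m).image (insert x.1)).card = r at e2 ⊢
      generalize X.card = N at e1 e2 e5 ⊢
      refine lt_of_mul_lt_mul_left (a := 2 * (m + 6)) ?_ (by omega)
      have e6 : (m + 6) * (2 * p) ≤ (m + 6) * ((m + 2) * N) := Nat.mul_le_mul_left _ e1
      have e7 : 1 * N ≤ m * N := Nat.mul_le_mul_right _ hm
      nlinarith)
  obtain ⟨u, hu, hu2⟩ := hSe G K m X c s1 s3 hc _ (hαS t₁ ht₁)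
  have hui : Function.Injective u := by
    have := Finset.card_image_iff.1 ((hS1 _ (hu ▸ hαS t₁ ht₁)).trans (by simp))
    exact fun i j h => this (Finset.mem_univ i) (Finset.mem_univ j) h
  have hex : ∀ i, ∃ j, t₁ j = u i := fun i => by
    obtain ⟨j, -, hj⟩ := Finset.mem_image.1 (hu ▸ Finset.mem_image_of_mem u (Finset.mem_univ i))
    exact ⟨j, hj⟩
  choose ρ hρ using hex
  have hρi : Function.Injective ρ := fun i j h => hui (by rw [← hρ, ← hρ, h])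
  have hue : u = t₁ ∘ Equiv.ofBijective ρ (Finite.injective_iff_bijective.1 hρi) :=
    funext fun i => (hρ i).symm
  refine ⟨α, u, hα, ?_, fun t ht => ?_, fun t ht => hu2 t (hαS t ht)⟩
  · rw [hue, hα.1]
    exact mul_ne_zero (Int.cast_ne_zero.2 (Units.ne_zero _)) ht₁
  · obtain ⟨x, hx, a, ha, h⟩ := hSm _ (hαS t ht)
    exact hSi G K m X s1 s2 x hx a ha t h

theorem le_of_odd {H : Type} [Group H] [Finite H] (N : Subgroup H) (hn : N.Normal)
    (ho : Odd N.index) (E : Subgroup H) (hE : IsElemAb 2 E) : E ≤ N := by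
  intro x hx
  obtain ⟨d, hd⟩ := ho
  have := N.pow_index_mem x
  rwa [hd, pow_succ, pow_mul, hE.2.2 x hx, one_pow, one_mul] at this

/-- All the statements that are used. -/
def AllStmt : Prop :=
  AltStmt ∧ SumStmt ∧ CountStmt ∧ SimpStmt ∧ SepStmt ∧ CommStmt ∧ Cyc2Stmt ∧ ProdAStmt ∧
    ProdSStmt ∧ ProdPStmt ∧ InhStmt ∧ WRankStmt ∧ GSimpStmt ∧ GSepStmt ∧ GCardStmt ∧ GT1Stmt ∧
    GT2Stmt ∧ OInjStmt ∧ LiftStmt ∧ C1Stmt ∧ C2Stmt ∧ C3aStmt ∧ C3bStmt ∧ C4Stmt ∧ C5Stmt ∧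
    Idx2Stmt ∧ FamStmt ∧ DStmt ∧ RDetStmt

theorem graph_of (hAll : AllStmt) (E : Type) [Field E] [DecidableEq E] (m : ℕ) (hm : 1 ≤ m)
    (K G : Type) [Group K] [Finite K] [Group G] [Finite G]
    (φ : K →* Matrix (Fin (m + 2)) (Fin (m + 2)) E) (ι : K →* G) (γ : G)
    (hB : Base E (m + 2) K G φ ι) (hγ : γ ∉ ι.range) (hγ2 : γ * γ = 1)
    (hγ3 : ∀ k, ∃ l, γ * ι k * γ⁻¹ = ι l ∧ φ l * (φ k)ᵀ = 1)
    (hG : ∀ g, g ∈ ι.range ∨ g * γ ∈ ι.range)
    (Fa : Finset (Finset (Matrix (Fin (m + 2)) (Fin (m + 2)) E))) (hF0 : Fa.Nonempty)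
    (hF1 : ∀ A ∈ Fa, IsFrame A ∧ ∀ a ∈ A, ∃ k, φ k = (2 : E) • a - 1)
    (hF2 : ∀ A ∈ Fa, ∀ τ, τ ⊆ A → τ.card = m → m + 6 ≤ (Fa.filter fun B => τ ⊆ B).card)
    (hF3 : ∀ A ∈ Fa, ∃ d : K, (∀ p ∈ A, φ d * p = p * φ d) ∧
      ∀ e : E, φ d * (φ d)ᵀ ≠ e • (1 : Matrix (Fin (m + 2)) (Fin (m + 2)) E))
    (H : Type) [Group H] [Finite H] (j : G →* H) (hj : Function.Injective j)
    (hN : j.range.Normal) (ho : Odd j.range.index) : WQD H j.range (m + 2) := by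
  classical
  obtain ⟨hA, -, -, -, -, -, hC, hPA, hPS, hPP, hI, hW, g1, g2, g3, g4, g5, -, hL, c1, c2, c3a,
    c3b, c4, c5, hI2, -, -, -⟩ := hAll
  haveI := Fintype.ofFinite G
  haveI := Fintype.ofFinite K
  let s : Matrix (Fin (m + 2)) (Fin (m + 2)) E → K := fun a =>
    if h : ∃ k, φ k = (2 : E) • a - 1 then h.choose else 1
  have hs : ∀ a, (∃ k, φ k = (2 : E) • a - 1) → φ (s a) = (2 : E) • a - 1 := fun a h => by
    simp only [s, dif_pos h]
    exact h.choose_spec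
  let X : Finset (G × Finset G) := (Finset.univ ×ˢ Fa).image fun z : K × _ =>
    (ι z.1 * γ * (ι z.1)⁻¹, z.2.image fun a => ι (z.1 * s a * z.1⁻¹))
  have hc : Conc E m K G φ ι γ s Fa X := by
    refine ⟨hB, hγ, hγ2, hγ3, fun a k h => hB.2.2.1 ((hs a ⟨k, h⟩).trans h.symm),
      fun A hA => ⟨(hF1 A hA).1, fun a ha => hs a ((hF1 A hA).2 a ha)⟩, fun x => ?_⟩
    simp only [X, Finset.mem_image, Finset.mem_product, Finset.mem_univ, true_and]
    constructor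
    · rintro ⟨z, hz, rfl⟩
      exact ⟨z.1, z.2, hz, rfl⟩
    · rintro ⟨g, A, hA, rfl⟩
      exact ⟨(g, A), hA, rfl⟩
  have s3 : Sys3 m X := by
    intro x hx y hy hxy t₀ t h0 h1 h2 h3 h4
    obtain ⟨g, A, B, hA, hB', hsA, hsB, e1, e2⟩ := c3a E m K G φ ι γ s Fa X hc x hx y hy hxy
    obtain ⟨h5, h6⟩ := c3b E m K G φ ι s g A B hB hA hB' hsA hsB t₀ t h0 h1 (e1 ▸ h2) (e2 ▸ h3) h4
    exact ⟨by rw [e1, e2, h5], h6⟩
  obtain ⟨α, u, hα, hu, hsi, hse⟩ := ggood_of hA g1 g2 g3 g4 g5 G ι.range m hm X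
    ((Finset.univ_nonempty.product hF0).image _) (c1 E m K G φ ι γ s Fa X hc)
    (c2 E m K G φ ι γ s Fa X hc) s3 (c4 E m K G φ ι γ s Fa X hc hF2)
    (c5 E m K G φ ι γ s Fa X hc hF3)
  intro t ht G' hG'
  refine wreath_of hC hPA hPS hPP hI hW G G H (m + 1) id α u hα hu hsi hse j hj
    (rank_odd j hj hN ho _ fun A hA => ?_) t ht G' fun f => hG' _ fun i => ⟨f i, rfl⟩
  rw [pow_succ]
  exact hI2 G ι.range γ _ Nat.one_le_two_pow hG (hL E (m + 2) K G φ ι hB) A hA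

end Vale.Agent.P240
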