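import Vale.Agent.P240.Stm3

namespace Vale.Agent.P240

open Matrix

/-- The frame is fixed by the semilinear map given by `k`. -/
def Fix {E : Type} [Field E] [StarRing E] {n : ℕ} (k : Matrix (Fin n) (Fin n) E)
    (A : Finset (Matrix (Fin n) (Fin n) E)) : Prop :=
  ∀ a ∈ A, k * a.map star * kᵀ = a

def SqStmt : Prop :=
  ∀ (E : Type) [Field E] [Finite E] [StarRing E], (2 : E) ≠ 0 → (∃ x : E, star x ≠ x) →
    ∀ x : E, star x = x → IsSquare x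

def FExtStmt : Prop :=
  ∀ (F E : Type) [Field F] [Fintype F] [Field E] [StarRing E] [DecidableEq E] (f : F →+* E)
    (m : ℕ) (k : Matrix (Fin (m + 2)) (Fin (m + 2)) E)
    (A τ : Finset (Matrix (Fin (m + 2)) (Fin (m + 2)) E))
    (Fr : Finset (Finset (Matrix (Fin (m + 2)) (Fin (m + 2)) E))), (2 : E) ≠ 0 →
    (∀ x, star (f x) = f x) → (∃ x : E, star x ≠ x) → (∀ x : E, star x = x → IsSquare x) →
    k * kᵀ = 1 → (∀ B, B ∈ Fr ↔ IsFrame B ∧ Fix k B) → A ∈ Fr → τ ⊆ A → τ.card = m →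
    Fintype.card F ≤ 2 * (Fr.filter fun B => τ ⊆ B).card + 2

/-- The hypotheses of the concrete situation with a field automorphism. -/
def ConcF (E : Type) [Field E] [StarRing E] (m : ℕ) (K G : Type) [Group K] [Group G]
    [DecidableEq G] (φ : K →* Matrix (Fin (m + 2)) (Fin (m + 2)) E) (ι : K →* G) (δ : G)
    (s : Matrix (Fin (m + 2)) (Fin (m + 2)) E → K) (X : Finset (G × Finset G)) : Prop :=
  Base E (m + 2) K G φ ι ∧ δ ∉ ι.range ∧ δ * δ = 1 ∧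
    (∀ l, φ l * (φ l)ᵀ = 1 → ∃ l', δ * ι l * δ⁻¹ = ι l' ∧ φ l' = (φ l).map star) ∧
    (∀ A, IsFrame A → ∀ a ∈ A, φ (s a) = (2 : E) • a - 1) ∧
    ∀ x, x ∈ X ↔ ∃ k A, φ k * (φ k)ᵀ = 1 ∧ ι k * δ * (ι k * δ) = 1 ∧ IsFrame A ∧ Fix (φ k) A ∧
      x = (ι k * δ, A.image fun a => ι (s a))

def Sys6 {G : Type} [DecidableEq G] (X : Finset (G × Finset G)) : Prop :=
  ∀ x ∈ X, 4 ≤ (X.filter fun y => y.2 = x.2).card

def F1Stmt : Prop :=
  ∀ (E : Type) [Field E] [StarRing E] (m : ℕ) (K G : Type) [Group K] [Group G] [DecidableEq G]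
    φ ι δ s X, ConcF E m K G φ ι δ s X → Sys1 ι.range m X

def F2Stmt : Prop :=
  ∀ (E : Type) [Field E] [StarRing E] (m : ℕ) (K G : Type) [Group K] [Group G] [DecidableEq G]
    φ ι δ s X, ConcF E m K G φ ι δ s X → Sys2 m X

def F4Stmt : Prop :=
  ∀ (F E : Type) [Field F] [Fintype F] [Field E] [Finite E] [StarRing E] (f : F →+* E) (m : ℕ)
    (K G : Type) [Group K] [Group G] [DecidableEq G] φ ι δ s X, ConcF E m K G φ ι δ s X →
    (∀ x, star (f x) = f x) → (∃ x : E, star x ≠ x) → 2 * m + 14 ≤ Fintype.card F → Sys4 m X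

def F6Stmt : Prop :=
  ∀ (E : Type) [Field E] [StarRing E] (m : ℕ) (K G : Type) [Group K] [Group G] [DecidableEq G]
    φ ι δ s X, ConcF E m K G φ ι δ s X → 1 ≤ m → Sys6 X

def GT6Stmt : Prop :=
  ∀ (G : Type) [DecidableEq G] (m : ℕ) (X : Finset (G × Finset G)),
    (∀ x ∈ X, x.2.card = m + 2) → Sys6 X →
    4 * (X.biUnion fun x => x.2.image x.2.erase).card ≤ (m + 2) * X.card

/-- Conjugation of pairs. -/
def cj {G : Type} [Group G] [DecidableEq G] (g : G) (x : G × Finset G) : G × Finset G :=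
  (g * x.1 * g⁻¹, x.2.image fun a => g * a * g⁻¹)

def GoodS (G : Type) [Group G] [DecidableEq G] (S : Finset (Finset G)) (r : ℕ) : Prop :=
  (∀ σ ∈ S, σ.card = r) ∧ ∀ t : Fin r → G, Finset.univ.image t ∈ S → IsSimplex 2 (ch id t)

def GoodP (G : Type) [Group G] [DecidableEq G] (S : Finset (Finset G)) (r : ℕ) : Prop :=
  ∀ σ ∈ S, ∃ t₀ : Fin r → G, Finset.univ.image t₀ = σ ∧
    ∀ t : Fin r → G, Finset.univ.image t ∈ S → ch id t = ch id t₀ → t = t₀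

def StepH (G : Type) [Group G] [DecidableEq G] (K : Subgroup G) (Γ : Finset G)
    (S : G → Finset (Finset G)) (r : ℕ) : Prop :=
  ∀ γ ∈ Γ, γ ∉ K ∧ γ * γ = 1 ∧ GoodS G (S γ) (r + 1) ∧ GoodP G (S γ) (r + 1) ∧
    ∀ σ ∈ S γ, ∀ a ∈ σ, a ∈ K ∧ γ * a = a * γ

def StepSStmt : Prop :=
  ∀ (G : Type) [Group G] [DecidableEq G] (K : Subgroup G) (Γ : Finset G)
    (S : G → Finset (Finset G)) (r : ℕ), StepH G K Γ S r →
    GoodS G (Γ.biUnion fun γ => (S γ).image (insert γ)) (r + 2)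

def StepPStmt : Prop :=
  ∀ (G : Type) [Group G] [DecidableEq G] (K : Subgroup G) (Γ : Finset G)
    (S : G → Finset (Finset G)) (r : ℕ), StepH G K Γ S r →
    GoodP G (Γ.biUnion fun γ => (S γ).image (insert γ)) (r + 2) ∧
      (Γ.biUnion fun γ => (S γ).image (insert γ)).card = ∑ γ ∈ Γ, (S γ).card

def GConjStmt : Prop :=
  ∀ (G : Type) [Group G] [DecidableEq G] (g : G) (S : Finset (Finset G)) (r : ℕ),
    GoodS G S r → GoodP G S r →
    GoodS G (S.image fun σ => σ.image fun a => g * a * g⁻¹) r ∧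
      GoodP G (S.image fun σ => σ.image fun a => g * a * g⁻¹) r ∧
      (S.image fun σ => σ.image fun a => g * a * g⁻¹).card = S.card

def XInv {G : Type} [Group G] [DecidableEq G] (K : Subgroup G) (γ : G)
    (X : Finset (G × Finset G)) : Prop :=
  ∀ h ∈ K, h * γ = γ * h → ∀ x ∈ X, cj h x ∈ X

def XFour {G : Type} [Group G] [DecidableEq G] (K : Subgroup G) (γ : G)
    (X : Finset (G × Finset G)) : Prop :=
  ∀ x ∈ X, ∃ D : Finset G, (∀ d ∈ D, d ∈ K ∧ cj d x = x) ∧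
    4 ≤ (D.image fun d => d * γ * d⁻¹).card

def TbStmt : Prop :=
  ∀ (G : Type) [Group G] [DecidableEq G] (K : Subgroup G) (γ : G) (m : ℕ)
    (X : Finset (G × Finset G)) (Γ : Finset G) (w : G → G),
    (∀ g ∈ K, g * γ * g⁻¹ ∈ Γ) → (∀ z ∈ Γ, w z ∈ K ∧ w z * γ * (w z)⁻¹ = z) →
    (∀ x ∈ X, x.2.card = m + 2) → XInv K γ X → XFour K γ X →
    4 * (Γ.biUnion fun z => X.biUnion fun x => x.2.image fun a =>
      (insert x.1 (x.2.erase a)).image fun b => w z * b * (w z)⁻¹).card ≤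
      (m + 2) * (Γ.card * X.card)

def XInvStmt : Prop :=
  ∀ (E : Type) [Field E] [StarRing E] (m : ℕ) (K G : Type) [Group K] [Group G] [DecidableEq G]
    φ ι δ s X (γ : G), ConcF E m K G φ ι δ s X →
    (∀ k, ∃ l, γ * ι k * γ⁻¹ = ι l ∧ φ l * (φ k)ᵀ = 1) → XInv ι.range γ X

def XFourStmt : Prop :=
  ∀ (F E : Type) [Field F] [Fintype F] [Field E] [StarRing E] (f : F →+* E) (m : ℕ)
    (K G : Type) [Group K] [Group G] [DecidableEq G] φ ι δ s X (γ : G),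
    ConcF E m K G φ ι δ s X → (∀ x, star (f x) = f x) → 9 ≤ Fintype.card F → 1 ≤ m →
    (∀ M, M.det = 1 → ∃ k, φ k = M) →
    (∀ l, ∃ l', δ * ι l * δ⁻¹ = ι l' ∧ φ l' = (φ l).map star) →
    (∀ k, ∃ l, γ * ι k * γ⁻¹ = ι l ∧ φ l * (φ k)ᵀ = 1) → XFour ι.range γ X

def XCommStmt : Prop :=
  ∀ (E : Type) [Field E] [StarRing E] (m : ℕ) (K G : Type) [Group K] [Group G] [DecidableEq G]
    φ ι δ s X (γ : G), ConcF E m K G φ ι δ s X → γ * δ = δ * γ →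
    (∀ k, ∃ l, γ * ι k * γ⁻¹ = ι l ∧ φ l * (φ k)ᵀ = 1) →
    ∀ x ∈ X, γ * x.1 = x.1 * γ ∧ x.1 * δ ∈ ι.range ∧ ∀ a ∈ x.2, γ * a = a * γ

def K1Stmt : Prop :=
  ∀ (G : Type) [Group G] (R : Subgroup G) (δ : G), δ * δ = 1 → (∀ r ∈ R, δ * r * δ⁻¹ ∈ R) →
    ∃ K : Subgroup G, ∀ g, g ∈ K ↔ g ∈ R ∨ g * δ ∈ R

def Idx4Stmt : Prop :=
  ∀ (G : Type) [Group G] [Finite G] (N : Subgroup G) (γ δ : G) (M : ℕ), 1 ≤ M →
    (∀ g, g ∈ N ∨ g * γ ∈ N ∨ g * δ ∈ N ∨ g * (γ * δ) ∈ N) →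
    (∀ A : Subgroup G, IsElemAb 2 A → A ≤ N → Nat.card A ≤ M) →
    ∀ A : Subgroup G, IsElemAb 2 A → Nat.card A ≤ M * 4

end Vale.Agent.P240
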