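import Vale.Agent.P240.All3
import Vale.Agent.P240.Stm4
import Vale.Agent.P240.Defs3

namespace Vale.Agent.P240

open Matrix

/-- Alternating data that give a top cycle. -/
def Data (G : Type) [Group G] [Fintype G] (r : ℕ) : Prop :=
  ∃ (α : (Fin (r + 1) → G) → ℚ) (u : Fin (r + 1) → G), IsAlt α ∧ α u ≠ 0 ∧
    (∀ t, α t ≠ 0 → IsSimplex 2 (ch id t)) ∧ ∀ t, α t ≠ 0 → ch id t = ch id u → t = u

theorem data_of (G : Type) [Group G] [Fintype G] [DecidableEq G] (r : ℕ)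
    (S T : Finset (Finset G)) (h1 : GoodS G S (r + 1)) (h2 : GoodP G S (r + 1))
    (h3 : ∀ σ ∈ S, ∀ a ∈ σ, σ.erase a ∈ T) (h4 : T.card < S.card) : Data G r := by
  obtain ⟨α, hα, ⟨t₁, ht₁⟩, hαS⟩ := alt_pf G r S T h1.1 h3 h4
  obtain ⟨u, hu, hu2⟩ := h2 _ (hαS t₁ ht₁)
  have hui : Function.Injective u := by
    have := Finset.card_image_iff.1 ((h1.1 _ (hu ▸ hαS t₁ ht₁)).trans (by simp))
    exact fun i j h => this (Finset.mem_univ i) (Finset.mem_univ j) h
  have hex : ∀ i, ∃ j, t₁ j = u i := fun i => by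
    obtain ⟨j, -, hj⟩ := Finset.mem_image.1 (hu ▸ Finset.mem_image_of_mem u (Finset.mem_univ i))
    exact ⟨j, hj⟩
  choose ρ hρ using hex
  have hρi : Function.Injective ρ := fun i j h => hui (by rw [← hρ, ← hρ, h])
  have hue : u = t₁ ∘ Equiv.ofBijective ρ (Finite.injective_iff_bijective.1 hρi) :=
    funext fun i => (hρ i).symm
  refine ⟨α, u, hα, ?_, fun t ht => h1.2 t (hαS t ht), fun t ht => hu2 t (hαS t ht)⟩
  rw [hue, hα.1]
  exact mul_ne_zero (Int.cast_ne_zero.2 (Units.ne_zero _)) ht₁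

theorem le_of_in {H : Type} [Group H] (N : Subgroup H) (h : InvIn N) (E : Subgroup H)
    (hE : IsElemAb 2 E) : E ≤ N := fun x hx => h x (by rw [← pow_two]; exact hE.2.2 x hx)

theorem wqd_of (H : Type) [Group H] [Finite H] (B : Subgroup H) [Fintype B] (r : ℕ)
    (hB : InvIn B) (hD : Data B r)
    (hM : ∀ A : Subgroup B, IsElemAb 2 A → Nat.card A ≤ 2 ^ (r + 1)) : WQD H B (r + 1) := by
  obtain ⟨α, u, hα, hu, hsi, hse⟩ := hD
  intro t ht G hG
  refine wreath_of cyc2_pf prodA_pf prodS_pf (prodP_pf prodS_pf) inh_pf wrank_pf B B H r id α u hα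
    hu hsi hse B.subtype B.subtype_injective (fun E hE => ?_) t ht G fun f => hG _ fun i => (f i).2
  have hle : E ≤ B.subtype.range := by
    rw [Subgroup.range_subtype]
    exact le_of_in B hB E hE
  have he : (E.comap B.subtype).map B.subtype = E := Subgroup.map_comap_eq_self hle
  have h1 : IsElemAb 2 (E.comap B.subtype) := by
    refine ⟨fun h => hE.1 (by rw [← he, h, Subgroup.map_bot]),
      fun x hx y hy => Subtype.ext (hE.2.1 _ hx _ hy), fun x hx => Subtype.ext (hE.2.2 _ hx)⟩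
  rw [← he, Subgroup.card_map_of_injective B.subtype_injective]
  exact hM _ h1

theorem sys5_of {G : Type} [DecidableEq G] (X : Finset (G × Finset G)) (h : Sys6 X) : Sys5 X := by
  intro x hx
  obtain ⟨y, hy, hne⟩ := Finset.exists_mem_ne (lt_of_lt_of_le (by norm_num) (h x hx)) x
  obtain ⟨h1, h2⟩ := Finset.mem_filter.1 hy
  exact ⟨y, h1, fun h3 => hne (Prod.ext h3 h2), h2⟩

theorem two_of (hT6 : GT6Stmt) (hSS : StepSStmt) (hSP : StepPStmt) (hGC : GConjStmt)
    (hTb : TbStmt) (G : Type) [Group G] [Fintype G] [DecidableEq G]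
    (K K1 : Subgroup G) (hK : K ≤ K1) (γ : G) (hγ : γ ∉ K1) (hγ2 : γ * γ = 1) (m : ℕ)
    (hm : 1 ≤ m) (X : Finset (G × Finset G)) (hX : X.Nonempty)
    (s1 : Sys1 K m X) (s2 : Sys2 m X) (s3 : Sys3 m X) (s4 : Sys4 m X) (s6 : Sys6 X)
    (hI : XInv K γ X) (h4 : XFour K γ X)
    (hC : ∀ x ∈ X, γ * x.1 = x.1 * γ ∧ x.1 ∈ K1 ∧ ∀ a ∈ x.2, γ * a = a * γ) :
    Data G (m + 2) := by
  have hc' : ∀ x : G × Finset G, ∃ c, x ∈ X → c ∈ x.2 := by
    intro x
    by_cases h : x ∈ X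
    · obtain ⟨c, hc⟩ := Finset.card_pos.1 (show 0 < x.2.card by rw [(s1 x h).2.2.1]; omega)
      exact ⟨c, fun _ => hc⟩
    · exact ⟨1, fun h' => absurd h' h⟩
  choose c hc using hc'
  have hSm : ∀ σ ∈ topS X c, ∃ x ∈ X, ∃ a ∈ x.2, σ = insert x.1 (x.2.erase a) := by
    intro σ hσ
    obtain ⟨x, hx, h⟩ := Finset.mem_biUnion.1 hσ
    obtain ⟨a, ha, rfl⟩ := Finset.mem_image.1 h
    exact ⟨x, hx, a, Finset.mem_of_mem_erase ha, rfl⟩
  have hnot : ∀ x ∈ X, ∀ a, x.1 ∉ x.2.erase a := fun x hx a h =>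
    (s1 x hx).1 ((s1 x hx).2.2.2 _ (Finset.mem_of_mem_erase h)).1
  have hcard : ∀ x ∈ X, x.2.card = m + 2 := fun x hx => (s1 x hx).2.2.1
  have g1 : GoodS G (topS X c) (m + 2) := by
    refine ⟨fun σ hσ => ?_, fun t ht => ?_⟩
    · obtain ⟨x, hx, a, ha, rfl⟩ := hSm σ hσ
      rw [Finset.card_insert_of_notMem (hnot x hx a), Finset.card_erase_of_mem ha, hcard x hx]
      rfl
    · obtain ⟨x, hx, a, ha, h⟩ := hSm _ ht
      exact gsimp_pf G K m X s1 s2 x hx a ha t h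
  have g2 : GoodP G (topS X c) (m + 2) := gsep_pf G K m X c s1 s3 hc
  set T₀ := (X.biUnion fun x => x.2.image x.2.erase) ∪
      X.biUnion fun x => (x.2.powersetCard m).image (insert x.1) with hT₀
  have hT : ∀ σ ∈ topS X c, ∀ b ∈ σ, σ.erase b ∈ T₀ := fun σ hσ b hb => by
    obtain ⟨x, hx, a, ha, rfl⟩ := hSm σ hσ
    rcases Finset.mem_insert.1 hb with rfl | hb'
    · rw [Finset.erase_insert (hnot x hx a)]
      exact Finset.mem_union_left _
        (Finset.mem_biUnion.2 ⟨x, hx, Finset.mem_image_of_mem _ ha⟩)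
    · have hne : x.1 ≠ b := fun h => hnot x hx a (h ▸ hb')
      rw [Finset.erase_insert_of_ne hne]
      refine Finset.mem_union_right _
        (Finset.mem_biUnion.2 ⟨x, hx, Finset.mem_image_of_mem _ ?_⟩)
      refine Finset.mem_powersetCard.2
        ⟨(Finset.erase_subset _ _).trans (Finset.erase_subset _ _), ?_⟩
      rw [Finset.card_erase_of_mem hb', Finset.card_erase_of_mem ha, hcard x hx]
      rfl
  obtain ⟨Γ, hΓ⟩ : ∃ Γ : Finset G, ∀ z, z ∈ Γ ↔ ∃ g ∈ K, g * γ * g⁻¹ = z := by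
    classical
    exact ⟨Finset.univ.filter fun z => ∃ g ∈ K, g * γ * g⁻¹ = z, fun z => by simp⟩
  have hw' : ∀ z : G, ∃ w, z ∈ Γ → w ∈ K ∧ w * γ * w⁻¹ = z := fun z => by
    by_cases h : z ∈ Γ
    · obtain ⟨g, hg⟩ := (hΓ z).1 h
      exact ⟨g, fun _ => hg⟩
    · exact ⟨1, fun h' => absurd h' h⟩
  choose w hw using hw'
  have hΓm : ∀ g ∈ K, g * γ * g⁻¹ ∈ Γ := fun g hg => (hΓ _).2 ⟨g, hg, rfl⟩
  let S : G → Finset (Finset G) := fun z =>
    (topS X c).image fun σ => σ.image fun a => w z * a * (w z)⁻¹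
  have hH : StepH G K1 Γ S (m + 1) := by
    intro z hz
    obtain ⟨h1, h2⟩ := hw z hz
    refine ⟨fun h => hγ ?_, ?_, (hGC G (w z) _ _ g1 g2).1, (hGC G (w z) _ _ g1 g2).2.1,
      fun σ hσ a ha => ?_⟩
    · have : γ = (w z)⁻¹ * (w z * γ * (w z)⁻¹) * w z := by group
      rw [this, h2]
      exact K1.mul_mem (K1.mul_mem (K1.inv_mem (hK h1)) h) (hK h1)
    · rw [← h2]
      have : w z * γ * (w z)⁻¹ * (w z * γ * (w z)⁻¹) = w z * (γ * γ) * (w z)⁻¹ := by group
      rw [this, hγ2]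
      group
    · obtain ⟨σ', hσ', rfl⟩ := Finset.mem_image.1 hσ
      obtain ⟨b, hb, rfl⟩ := Finset.mem_image.1 ha
      obtain ⟨x, hx, a', -, rfl⟩ := hSm σ' hσ'
      have hb1 : b ∈ K1 ∧ γ * b = b * γ := by
        rcases Finset.mem_insert.1 hb with rfl | hb'
        · exact ⟨(hC x hx).2.1, (hC x hx).1⟩
        · have := Finset.mem_of_mem_erase hb'
          exact ⟨hK ((s1 x hx).2.2.2 b this).1, (hC x hx).2.2 b this⟩
      refine ⟨K1.mul_mem (K1.mul_mem (hK h1) hb1.1) (K1.inv_mem (hK h1)), ?_⟩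
      generalize w z = v at h2 ⊢
      rw [← h2]
      calc v * γ * v⁻¹ * (v * b * v⁻¹) = v * (γ * b) * v⁻¹ := by group
        _ = v * (b * γ) * v⁻¹ := by rw [hb1.2]
        _ = _ := by group
  obtain ⟨p1, p2⟩ := hSP G K1 Γ S (m + 1) hH
  refine data_of G (m + 2) _ ((Γ.biUnion fun z => X.biUnion fun x => x.2.image fun a =>
      (insert x.1 (x.2.erase a)).image fun b => w z * b * (w z)⁻¹) ∪
      Γ.biUnion fun z => T₀.image fun τ => insert z (τ.image fun b => w z * b * (w z)⁻¹))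
    (hSS G K1 Γ S (m + 1) hH) p1 (fun σ hσ b hb => ?_) ?_
  · obtain ⟨z, hz, h⟩ := Finset.mem_biUnion.1 hσ
    obtain ⟨σ₁, hσ₁, rfl⟩ := Finset.mem_image.1 h
    have hz1 : z ∉ σ₁ := fun h => (hH z hz).1 ((hH z hz).2.2.2.2 σ₁ hσ₁ z h).1
    obtain ⟨σ', hσ', rfl⟩ := Finset.mem_image.1 hσ₁
    rcases Finset.mem_insert.1 hb with rfl | hb'
    · rw [Finset.erase_insert hz1]
      obtain ⟨x, hx, a, ha, rfl⟩ := hSm σ' hσ'
      exact Finset.mem_union_left _ (Finset.mem_biUnion.2 ⟨b, hz,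
        Finset.mem_biUnion.2 ⟨x, hx, Finset.mem_image_of_mem _ ha⟩⟩)
    · have hne : z ≠ b := fun h => hz1 (h ▸ hb')
      obtain ⟨b', hb'', rfl⟩ := Finset.mem_image.1 hb'
      have hinj : Function.Injective fun b => w z * b * (w z)⁻¹ := fun _ _ h =>
        mul_left_cancel (mul_right_cancel h)
      rw [Finset.erase_insert_of_ne hne, ← Finset.image_erase hinj]
      exact Finset.mem_union_right _ (Finset.mem_biUnion.2 ⟨z, hz,
        Finset.mem_image_of_mem _ (hT σ' hσ' b' hb'')⟩)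
  · have e0 := hTb G K γ m X Γ w hΓm hw hcard hI h4
    have e1 := hT6 G m X hcard s6
    have e2 := gt2_pf G m X hcard s4
    have e3 := gcard_pf G K m X c s1 s3 hc
    have e4 : T₀.card ≤ _ := Finset.card_union_le _ _
    have e5 : 0 < X.card := hX.card_pos
    have e6 : 0 < Γ.card := Finset.card_pos.2 ⟨_, hΓm 1 K.one_mem⟩
    have e7 : (Γ.biUnion fun z => T₀.image fun τ =>
        insert z (τ.image fun b => w z * b * (w z)⁻¹)).card ≤ Γ.card * T₀.card :=
      Finset.card_biUnion_le_card_mul _ _ _ fun _ _ => Finset.card_image_le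
    refine lt_of_le_of_lt (Finset.card_union_le _ _) ?_
    rw [p2, Finset.sum_const_nat (m := (m + 1) * X.card) fun z _ =>
      (hGC G (w z) _ _ g1 g2).2.2.trans e3]
    generalize (X.biUnion fun x => x.2.image x.2.erase).card = p at e1 e4
    generalize (X.biUnion fun x => (x.2.powersetCard m).image (insert x.1)).card = r at e2 e4
    generalize (Γ.biUnion fun z => X.biUnion fun x => x.2.image fun a =>
      (insert x.1 (x.2.erase a)).image fun b => w z * b * (w z)⁻¹).card = a at e0 ⊢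
    generalize (Γ.biUnion fun z => T₀.image fun τ =>
        insert z (τ.image fun b => w z * b * (w z)⁻¹)).card = b at e7 ⊢
    generalize T₀.card = d at e4 e7
    generalize X.card = N at e0 e1 e2 e5 ⊢
    generalize Γ.card = g at e0 e6 e7 ⊢
    have f1 : 4 * (m + 6) * d + (m + 6) * ((m + 2) * N) < 4 * (m + 6) * ((m + 1) * N) := by
      have e8 : (m + 6) * (4 * p) ≤ (m + 6) * ((m + 2) * N) := Nat.mul_le_mul_left _ e1
      have e9 : 1 * N ≤ m * N := Nat.mul_le_mul_right _ hm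
      have e10 : 4 * (m + 6) * d ≤ 4 * (m + 6) * (p + r) := Nat.mul_le_mul_left _ e4
      nlinarith
    have f2 := Nat.mul_lt_mul_of_pos_left f1 e6
    refine lt_of_mul_lt_mul_left (a := 4 * (m + 6)) ?_ (by omega)
    have f3 : (m + 6) * (4 * a) ≤ (m + 6) * ((m + 2) * (g * N)) := Nat.mul_le_mul_left _ e0
    have f4 : 4 * (m + 6) * b ≤ 4 * (m + 6) * (g * d) := Nat.mul_le_mul_left _ e7
    nlinarith

end Vale.Agent.P240
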