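import Vale.Agent.P240.Stm2

namespace Vale.Agent.P240

/-- Alternating data that give a top cycle. -/
def DataX (G : Type) [Group G] (r : ℕ) : Prop :=
  ∃ (P : Type) (_ : Fintype P) (s : P → G) (α : (Fin (r + 1) → P) → ℚ) (u : Fin (r + 1) → P),
    IsAlt α ∧ α u ≠ 0 ∧ (∀ t, α t ≠ 0 → IsSimplex 2 (ch s t)) ∧
      ∀ t, α t ≠ 0 → ch s t = ch s u → t = u

/-- `T` is a shuffle of two tuples. -/
def IsShuf2 {P Q : Type} {a b : ℕ} (α : (Fin (a + 1) → P) → ℚ) (β : (Fin (b + 1) → Q) → ℚ)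
    (T : Fin (a + 1 + (b + 1)) → P ⊕ Q) : Prop :=
  ∃ (π : Equiv.Perm (Fin (a + 1 + (b + 1)))) (v : Fin (a + 1) → P) (w : Fin (b + 1) → Q),
    α v ≠ 0 ∧ β w ≠ 0 ∧ T ∘ π = Fin.append (Sum.inl ∘ v) (Sum.inr ∘ w)

/-- The points of a product of two groups. -/
def jn {G₁ G₂ P Q : Type} [Group G₁] [Group G₂] (s : P → G₁) (s' : Q → G₂) : P ⊕ Q → G₁ × G₂ :=
  Sum.elim (fun p => (s p, 1)) fun q => (1, s' q)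

def JAStmt : Prop :=
  ∀ (P Q : Type) [Fintype P] [Fintype Q] (a b : ℕ) (α : (Fin (a + 1) → P) → ℚ)
    (β : (Fin (b + 1) → Q) → ℚ) (u : Fin (a + 1) → P) (u' : Fin (b + 1) → Q), IsAlt α → IsAlt β →
    α u ≠ 0 → β u' ≠ 0 → ∃ A : (Fin (a + 1 + (b + 1)) → P ⊕ Q) → ℚ, IsAlt A ∧
      A (Fin.append (Sum.inl ∘ u) (Sum.inr ∘ u')) ≠ 0 ∧ ∀ T, A T ≠ 0 → IsShuf2 α β T

def JSStmt : Prop :=
  ∀ (G₁ G₂ P Q : Type) [Group G₁] [Group G₂] [Fintype P] [Fintype Q] (s : P → G₁) (s' : Q → G₂)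
    (a b : ℕ) (α : (Fin (a + 1) → P) → ℚ) (β : (Fin (b + 1) → Q) → ℚ)
    (T : Fin (a + 1 + (b + 1)) → P ⊕ Q), IsAlt α → IsAlt β →
    (∀ t, α t ≠ 0 → IsSimplex 2 (ch s t)) → (∀ t, β t ≠ 0 → IsSimplex 2 (ch s' t)) →
    IsShuf2 α β T → IsSimplex 2 (ch (jn s s') T)

def JPStmt : Prop :=
  ∀ (G₁ G₂ P Q : Type) [Group G₁] [Group G₂] [Fintype P] [Fintype Q] (s : P → G₁) (s' : Q → G₂)
    (a b : ℕ) (α : (Fin (a + 1) → P) → ℚ) (β : (Fin (b + 1) → Q) → ℚ) (u : Fin (a + 1) → P)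
    (u' : Fin (b + 1) → Q) (T : Fin (a + 1 + (b + 1)) → P ⊕ Q), IsAlt α → IsAlt β →
    (∀ t, α t ≠ 0 → IsSimplex 2 (ch s t)) → (∀ t, β t ≠ 0 → IsSimplex 2 (ch s' t)) →
    (∀ t, α t ≠ 0 → ch s t = ch s u → t = u) → (∀ t, β t ≠ 0 → ch s' t = ch s' u' → t = u') →
    IsShuf2 α β T →
    ch (jn s s') T = ch (jn s s') (Fin.append (Sum.inl ∘ u) (Sum.inr ∘ u')) →
    T = Fin.append (Sum.inl ∘ u) (Sum.inr ∘ u')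

def JoinStmt : Prop :=
  ∀ (G₁ G₂ : Type) [Group G₁] [Group G₂] (a b : ℕ), DataX G₁ a → DataX G₂ b →
    DataX (G₁ × G₂) (a + 1 + b)

def DMapStmt : Prop :=
  ∀ (G₁ G₂ : Type) [Group G₁] [Group G₂] (ψ : G₁ →* G₂) (a : ℕ), Function.Injective ψ →
    DataX G₁ a → DataX G₂ a

def DPiStmt : Prop :=
  ∀ (t : ℕ) (W : Fin (t + 1) → Type) [∀ i, Group (W i)] (r : Fin (t + 1) → ℕ),
    (∀ i, DataX (W i) (r i)) → DataX (∀ i, W i) (∑ i, r i + t)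

def EchStmt : Prop :=
  ∀ (t : ℕ) (Λ : Subgroup (Fin t → ℤˣ)), ∃ (I : Finset (Fin t))
    (σ : (Fin t → ℤˣ) →* (Fin t → ℤˣ)), (∀ u, σ u ∈ Λ ∧ ∀ i ∈ I, σ u i = u i) ∧
      (∀ u u', (∀ i ∈ I, u i = u' i) → σ u = σ u') ∧ Nat.card Λ ≤ 2 ^ I.card

def PermStmt : Prop :=
  ∀ (t : ℕ) (Q : Subgroup (Equiv.Perm (Fin t))), (∀ a ∈ Q, ∀ b ∈ Q, a * b = b * a) →
    ∃ Y : Finset (Fin t), (∀ x, ∃ g ∈ Q, ∃ y ∈ Y, g y = x) ∧ Nat.card Q * 2 ^ Y.card ≤ 2 ^ t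

def BaseStmt : Prop :=
  ∀ (H : Type) [Group H] [Finite H] (R : Subgroup H) (t M : ℕ)
    (E E₂ : Subgroup ((Fin t → H) ⋊[mulAutArrow] Equiv.Perm (Fin t))) (Y : Finset (Fin t)),
    1 ≤ M → (∀ A : Subgroup H, IsElemAb 2 A → A ≤ R → Nat.card A ≤ M) → IsElemAb 2 E → E₂ ≤ E →
    (∀ x, ∃ g ∈ E, ∃ y ∈ Y, g.right y = x) → (∀ g ∈ E₂, g.right = 1 ∧ ∀ i, g.left i ∈ R) →
    Nat.card E₂ ≤ M ^ Y.card

def RankFStmt : Prop :=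
  ∀ (H : Type) [Group H] [Finite H] (R B : Subgroup H) (ε : B →* ℤˣ) (t M : ℕ)
    (G : Subgroup ((Fin t → H) ⋊[mulAutArrow] Equiv.Perm (Fin t))) (Λ : Subgroup (Fin t → ℤˣ)),
    2 ≤ M → (∀ A : Subgroup H, IsElemAb 2 A → A ≤ R → Nat.card A ≤ M) →
    (∀ h : H, h * h = 1 → h ∈ B) → (∀ b : B, ε b = 1 → b.1 ∈ R) →
    (∀ f : Fin t → B, SemidirectProduct.inl (fun i => (f i).1) ∈ G → (fun i => ε (f i)) ∈ Λ) →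
    ∀ E, IsElemAb 2 E → E ≤ G → Nat.card E ≤ Nat.card Λ * M ^ t

def EpsStmt : Prop :=
  ∀ (H : Type) [Group H] (R B : Subgroup H) (γ : H), γ ∉ R → γ * γ = 1 →
    (∀ r ∈ R, γ * r * γ⁻¹ ∈ R) → (∀ h, h ∈ B ↔ h ∈ R ∨ h * γ ∈ R) →
    ∃ ε : B →* ℤˣ, ∀ b : B, ε b = 1 ↔ b.1 ∈ R

def EmbStmt : Prop :=
  ∀ (H : Type) [Group H] (R B : Subgroup H) (γ : H) (ε : B →* ℤˣ) (t : ℕ)
    (G : Subgroup ((Fin t → H) ⋊[mulAutArrow] Equiv.Perm (Fin t))) (I : Finset (Fin t))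
    (σ : (Fin t → ℤˣ) →* (Fin t → ℤˣ)) (W : Fin t → Subgroup H),
    γ ∉ R → γ * γ = 1 → R ≤ B → γ ∈ B → (∀ b : B, ε b = 1 ↔ b.1 ∈ R) →
    (∀ f : Fin t → H, (∀ i, f i ∈ R) → SemidirectProduct.inl f ∈ G) →
    (∀ u, (∃ f : Fin t → B, SemidirectProduct.inl (fun i => (f i).1) ∈ G ∧
      σ u = fun i => ε (f i)) ∧ ∀ i ∈ I, σ u i = u i) →
    (∀ u u', (∀ i ∈ I, u i = u' i) → σ u = σ u') → (∀ i, W i ≤ B) →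
    (∀ i, i ∉ I → ∀ w ∈ W i, w ∈ R ∧ w * γ = γ * w) →
    ∃ ψ : (∀ i, W i) →* G, Function.Injective ψ

end Vale.Agent.P240
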