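import Vale.Agent.P240.Top6
import Vale.Agent.P240.Stm5
import Vale.Agent.P240.Defs4

namespace Vale.Agent.P240

open Matrix

theorem join_of (hA : JAStmt) (hS : JSStmt) (hP : JPStmt) : JoinStmt := by
  rintro G₁ G₂ _ _ a b ⟨P, _, s, α, u, h1, h2, h3, h4⟩ ⟨Q, _, s', β, u', g1, g2, g3, g4⟩
  obtain ⟨A, a1, a2, a3⟩ := hA P Q a b α β u u' h1 g1 h2 g2
  exact ⟨P ⊕ Q, inferInstance, jn s s', A, _, a1, a2,
    fun T hT => hS G₁ G₂ P Q s s' a b α β T h1 g1 h3 g3 (a3 T hT),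
    fun T hT => hP G₁ G₂ P Q s s' a b α β u u' T h1 g1 h3 g3 h4 g4 (a3 T hT)⟩

def JAll : Prop := DMapStmt ∧ DPiStmt ∧ EchStmt ∧ RankFStmt ∧ EpsStmt ∧ EmbStmt

theorem wfull_of (hJ : JAll) (H : Type) [Group H] [Finite H] (R B : Subgroup H) (γ : H)
    (hγ : γ ∉ R) (hγ2 : γ * γ = 1) (hγ3 : ∀ x ∈ R, γ * x * γ⁻¹ ∈ R)
    (hB : ∀ h, h ∈ B ↔ h ∈ R ∨ h * γ ∈ R) (hI : InvIn B) (r : ℕ)
    (hM : ∀ A : Subgroup H, IsElemAb 2 A → A ≤ R → Nat.card A ≤ 2 ^ (r + 1))
    (dB : DataX B (r + 1)) (dC : DataX (R ⊓ Subgroup.centralizer {γ} : Subgroup H) r) :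
    FullQD H R := by
  classical
  obtain ⟨hMap, hPi, hEch, hRk, hEps, hEmb⟩ := hJ
  intro t ht G hG
  obtain ⟨t, rfl⟩ : ∃ t', t = t' + 1 := ⟨t - 1, by omega⟩
  obtain ⟨ε, hε⟩ := hEps H R B γ hγ hγ2 hγ3 hB
  let Λ : Subgroup (Fin (t + 1) → ℤˣ) :=
    (G.comap (SemidirectProduct.inl.comp (B.subtype.compLeft (Fin (t + 1))))).map
      (ε.compLeft (Fin (t + 1)))
  obtain ⟨I, σ, h1, h2, h3⟩ := hEch (t + 1) Λ
  have hRB : R ≤ B := fun x hx => (hB x).2 (Or.inl hx)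
  let W : Fin (t + 1) → Subgroup H := fun i =>
    if i ∈ I then B else R ⊓ Subgroup.centralizer {γ}
  obtain ⟨ψ, hψ⟩ := hEmb H R B γ ε (t + 1) G I σ W hγ hγ2 hRB
    ((hB γ).2 (Or.inr (by rw [hγ2]; exact one_mem _))) hε hG
    (fun u => by
      obtain ⟨⟨f, hf, e⟩, h4⟩ := h1 u
      exact ⟨⟨f, hf, e.symm⟩, h4⟩) h2
    (fun i => by
      by_cases h : i ∈ I
      · simp only [W, if_pos h, le_refl]
      · simp only [W, if_neg h]
        exact inf_le_left.trans hRB)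
    (fun i h w hw => by
      simp only [W, if_neg h] at hw
      exact ⟨hw.1, (Subgroup.mem_centralizer_iff.1 hw.2 γ rfl).symm⟩)
  have hD := hMap _ _ ψ _ hψ (hPi t (fun i => W i) (fun i => if i ∈ I then r + 1 else r)
    fun i => by
      by_cases h : i ∈ I
      · have e : W i = B := if_pos h
        rw [if_pos h, e]
        exact dB
      · have e : W i = R ⊓ Subgroup.centralizer {γ} := if_neg h
        rw [if_neg h, e]
        exact dC)
  obtain ⟨P, _, s, α, u, a1, a2, a3, a4⟩ := hD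
  obtain ⟨z, hz0, hz, hzb⟩ := cyc2_pf G P s _ α u a1 a2 a3 a4
  haveI : Finite ((Fin (t + 1) → H) ⋊[mulAutArrow] Equiv.Perm (Fin (t + 1))) :=
    Finite.of_equiv _ SemidirectProduct.equivProd.symm
  refine ⟨_, qd_fin G _ z hz0 hz hzb fun E hE => ?_⟩
  have h4 := hRk H R B ε (t + 1) (2 ^ (r + 1)) G Λ
    (by rw [pow_succ]; have := Nat.one_le_two_pow (n := r); omega) hM hI
    (fun b hb => (hε b).1 hb) (fun f hf => ⟨f, hf, rfl⟩) _
    (elem_map G.subtype G.subtype_injective E hE) (Subgroup.map_subtype_le _)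
  rw [Subgroup.card_map_of_injective G.subtype_injective] at h4
  refine h4.trans ((Nat.mul_le_mul_right _ h3).trans (le_of_eq ?_))
  have h5 : ∑ i : Fin (t + 1), (if i ∈ I then r + 1 else r) = (t + 1) * r + I.card := by
    have : ∀ i : Fin (t + 1), (if i ∈ I then r + 1 else r) = r + if i ∈ I then 1 else 0 :=
      fun i => by split_ifs <;> rfl
    simp only [this, Finset.sum_add_distrib, Finset.sum_const, Finset.card_univ, Fintype.card_fin,
      smul_eq_mul, Finset.sum_ite_mem, Finset.univ_inter, mul_one]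
  rw [h5, ← pow_mul, ← pow_add]
  congr 1
  ring

theorem dataC_of (hJ : JAll) (F E : Type) [Field F] [Fintype F] [Field E]
    (f : F →+* E) (m : ℕ) (hn : Odd (m + 2)) (h2 : (2 : F) ≠ 0)
    (hq : 2 * m + 7 ≤ Fintype.card F) (K : Subgroup (SpecialLinearGroup (Fin (m + 2)) E))
    (hK1 : ∀ (g : SpecialLinearGroup (Fin (m + 2)) E),
      ∀ b ∈ commutator (Matrix.specialOrthogonalGroup (Fin (m + 2)) F),
      g.1 = b.1.map f → g.1 * g.1ᵀ = 1 → g ∈ K) (H : Type) [Group H] (ι : K →* H) (γ : H)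
    (hι : ∀ k, ι k = 1 → k.1 ∈ Subgroup.center (SpecialLinearGroup (Fin (m + 2)) E))
    (hγ : ∀ (k : K) (b : Matrix (Fin (m + 2)) (Fin (m + 2)) F), k.1.1 = b.map f →
      k.1.1 * k.1.1ᵀ = 1 → γ * ι k * γ⁻¹ = ι k) :
    DataX (ι.range ⊓ Subgroup.centralizer {γ} : Subgroup H) m := by
  classical
  have hB := base_of hn (two_map f h2) K H ι hι
  let φ₀ : Matrix.specialOrthogonalGroup (Fin (m + 2)) F →*
      Matrix (Fin (m + 2)) (Fin (m + 2)) F := (Matrix.specialOrthogonalGroup _ F).subtype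
  have hφ₀ : Function.Injective φ₀ := Subtype.val_injective
  obtain ⟨s, α, u, hα, hu, hsi, hse⟩ := good_of alt_pf sum_pf (count_pf (ext_pf circ_pf))
    (simp_pf (mem_pf sum_pf)) (sep_pf sum_pf (mem_pf sum_pf)) F m
    (commutator (Matrix.specialOrthogonalGroup (Fin (m + 2)) F))
    (φ₀.comp (Subgroup.subtype _)) h2 hq (hφ₀.comp (Subgroup.subtype_injective _))
    (fun A hA a ha => by
      obtain ⟨g, hg, h⟩ := comm_pf sum_pf F (m + 2) A hn hA a ha
      exact ⟨⟨g, hg⟩, h⟩)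
  have hdet : ∀ g : Matrix.specialOrthogonalGroup (Fin (m + 2)) F, (g.1.map f).det = 1 := by
    intro g
    have := (Matrix.mem_specialOrthogonalGroup_iff.1 g.2).2
    rw [← RingHom.mapMatrix_apply, ← RingHom.map_det, this, map_one]
  have horth : ∀ g : Matrix.specialOrthogonalGroup (Fin (m + 2)) F,
      g.1.map f * (g.1.map f)ᵀ = 1 := by
    intro g
    have := (Matrix.mem_orthogonalGroup_iff _ _).1 (Matrix.mem_specialOrthogonalGroup_iff.1 g.2).1
    rw [← Matrix.transpose_map, ← Matrix.map_mul, this, Matrix.map_one _ (map_zero f) (map_one f)]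
  let j : commutator (Matrix.specialOrthogonalGroup (Fin (m + 2)) F) →* K :=
    MonoidHom.mk' (fun g => ⟨⟨g.1.1.map f, hdet g⟩, hK1 _ g.1 g.2 rfl (horth g)⟩) fun a b =>
      Subtype.ext (Subtype.ext Matrix.map_mul)
  have hj : Function.Injective (ι.comp j) := by
    intro a b h
    have h1 := oinj_pf E (m + 2) K H _ ι hB (j a) (j b) (horth a) (horth b) h
    have h3 : a.1.1.map f = b.1.1.map f := congrArg (mat K) h1
    exact Subtype.ext (Subtype.ext (Matrix.map_injective f.injective h3))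
  refine hJ.1 _ _ ((ι.comp j).codRestrict (ι.range ⊓ Subgroup.centralizer {γ}) fun g =>
    ⟨⟨j g, rfl⟩, Subgroup.mem_centralizer_iff.2 ?_⟩) m
    (fun a b h => hj (congrArg Subtype.val h)) ⟨_, inferInstance, s, α, u, hα, hu, hsi, hse⟩
  rintro _ rfl
  exact mul_inv_eq_iff_eq_mul.1 (hγ (j g) g.1.1 rfl (horth g))

end Vale.Agent.P240
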