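import Vale.Agent.P240.Stm5

/-! P240: the order of an abelian permutation group against its number of orbits. -/

namespace Vale.Agent.P240

namespace PermAux

theorem two_mul_le (n : ℕ) : n * 2 ≤ 2 ^ n := by
  cases n with
  | zero => simp
  | succ m =>
    have h : m < 2 ^ m := Nat.lt_two_pow_self
    rw [pow_succ]
    omega

end PermAux

theorem perm_pf : PermStmt := by
  classical
  intro t Q hQ
  obtain ⟨Y, hY⟩ : ∃ Y : Finset (Fin t), ∀ y, y ∈ Y ↔ ∀ g ∈ Q, y ≤ g y :=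
    ⟨Finset.univ.filter (fun y => ∀ g ∈ Q, y ≤ g y), by simp⟩
  obtain ⟨O, hO⟩ : ∃ O : Fin t → Finset (Fin t), ∀ y x, x ∈ O y ↔ ∃ g ∈ Q, g y = x :=
    ⟨fun y => Finset.univ.filter (fun x => ∃ g ∈ Q, g y = x), by simp⟩
  have hcov : ∀ x, ∃ g ∈ Q, ∃ y ∈ Y, g y = x := by
    intro x
    obtain ⟨y, hy, hmin⟩ := Finset.exists_min_image (O x) id
      ⟨x, (hO x x).mpr ⟨1, Q.one_mem, rfl⟩⟩
    obtain ⟨h, hh, rfl⟩ := (hO x y).mp hy
    refine ⟨h⁻¹, Q.inv_mem hh, h x, (hY _).mpr fun g hg => ?_, by simp⟩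
    exact hmin (g (h x)) ((hO x _).mpr ⟨g * h, Q.mul_mem hg hh, rfl⟩)
  refine ⟨Y, hcov, ?_⟩
  have hdisj : ∀ y ∈ Y, ∀ y' ∈ Y, y ≠ y' → Disjoint (O y) (O y') := by
    intro y hy y' hy' hne
    rw [Finset.disjoint_left]
    intro x hx hx'
    obtain ⟨g, hg, rfl⟩ := (hO y x).mp hx
    obtain ⟨g', hg', he⟩ := (hO y' _).mp hx'
    apply hne
    have h1 := (hY y).mp hy (g'⁻¹ * g) (Q.mul_mem (Q.inv_mem hg') hg)
    have h2 := (hY y').mp hy' (g⁻¹ * g') (Q.mul_mem (Q.inv_mem hg) hg')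
    rw [Equiv.Perm.mul_apply, ← he] at h1
    rw [Equiv.Perm.mul_apply, he] at h2
    simp only [Equiv.Perm.coe_inv, Equiv.symm_apply_apply] at h1 h2
    exact le_antisymm h1 h2
  have hsum : ∑ y ∈ Y, (O y).card ≤ t := by
    rw [← Finset.card_biUnion hdisj]
    simpa using Finset.card_le_univ (Y.biUnion O)
  have hinj : Function.Injective (fun (g : Q) (y : Y) =>
      (⟨g.1 y.1, (hO y.1 _).mpr ⟨g.1, g.2, rfl⟩⟩ : O y.1)) := by
    intro g g' he
    apply Subtype.ext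
    ext x
    obtain ⟨h, hh, y, hy, rfl⟩ := hcov x
    have h1 : g.1 y = g'.1 y := congrArg Subtype.val (congrFun he ⟨y, hy⟩)
    have h2 : g.1 (h y) = h (g.1 y) := by
      rw [← Equiv.Perm.mul_apply, hQ _ g.2 _ hh, Equiv.Perm.mul_apply]
    have h3 : g'.1 (h y) = h (g'.1 y) := by
      rw [← Equiv.Perm.mul_apply, hQ _ g'.2 _ hh, Equiv.Perm.mul_apply]
    rw [h2, h3, h1]
  have hcard : Nat.card Q ≤ ∏ y ∈ Y, (O y).card := by
    have h1 := Nat.card_le_card_of_injective _ hinj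
    rw [Nat.card_pi] at h1
    simp only [Nat.card_eq_fintype_card, Fintype.card_coe] at h1
    rw [Finset.prod_coe_sort Y (fun y => (O y).card)] at h1
    rw [Nat.card_eq_fintype_card]
    exact h1
  calc Nat.card Q * 2 ^ Y.card ≤ (∏ y ∈ Y, (O y).card) * 2 ^ Y.card :=
        Nat.mul_le_mul_right _ hcard
    _ = ∏ y ∈ Y, ((O y).card * 2) := by
        rw [Finset.prod_mul_distrib, Finset.prod_const]
    _ ≤ ∏ y ∈ Y, 2 ^ (O y).card :=
        Finset.prod_le_prod' fun y _ => PermAux.two_mul_le _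
    _ = 2 ^ ∑ y ∈ Y, (O y).card := Finset.prod_pow_eq_pow_sum _ _ _
    _ ≤ 2 ^ t := Nat.pow_le_pow_right (by norm_num) hsum

end Vale.Agent.P240
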