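import Vale.Agent.P240.Stm5
import Vale.Agent.P240.WRank

namespace Vale.Agent.P240

open WRankAux in
theorem rankF_pf (hP : PermStmt) (hB : BaseStmt) : RankFStmt := by
  intro H _ _ R B ε t M G Λ hM hR hBm hε hΛ E hE hEG
  classical
  have : Finite ((Fin t → H) ⋊[mulAutArrow] Equiv.Perm (Fin t)) :=
    Finite.of_equiv _ SemidirectProduct.equivProd.symm
  have hs : ∀ a ∈ E, a * a = 1 := fun a ha => by rw [← pow_two]; exact hE.2.2 a ha
  have hinv : ∀ a ∈ E, a⁻¹ = a := fun a ha => inv_eq_of_mul_eq_one_right (hs a ha)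
  have hfix : ∀ (a b : (Fin t → H) ⋊[mulAutArrow] Equiv.Perm (Fin t)) (i : Fin t),
      a.right = 1 → (a * b).left i = a.left i * b.left i := fun a b i ha =>
    mul_left_fix a b i (by rw [ha]; rfl)
  let Q : Subgroup (Equiv.Perm (Fin t)) := E.map SemidirectProduct.rightHom
  have hQ : ∀ q, q ∈ Q ↔ ∃ g ∈ E, g.right = q := fun q => Subgroup.mem_map
  let E1 : Subgroup ((Fin t → H) ⋊[mulAutArrow] Equiv.Perm (Fin t)) :=
    { carrier := {g | g ∈ E ∧ g.right = 1}
      one_mem' := ⟨E.one_mem, rfl⟩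
      mul_mem' := by
        intro a b ha hb
        refine ⟨E.mul_mem ha.1 hb.1, ?_⟩
        rw [SemidirectProduct.mul_right, ha.2, hb.2, mul_one]
      inv_mem' := by
        intro a ha
        rw [hinv a ha.1]
        exact ha }
  have hE1 : ∀ g, g ∈ E1 ↔ g ∈ E ∧ g.right = 1 := fun g => Iff.rfl
  let E2 : Subgroup ((Fin t → H) ⋊[mulAutArrow] Equiv.Perm (Fin t)) :=
    { carrier := {g | (g ∈ E ∧ g.right = 1) ∧ ∀ i, g.left i ∈ R}
      one_mem' := ⟨⟨E.one_mem, rfl⟩, fun _ => R.one_mem⟩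
      mul_mem' := by
        intro a b ha hb
        refine ⟨E1.mul_mem ((hE1 a).2 ha.1) ((hE1 b).2 hb.1), fun i => ?_⟩
        rw [hfix a b i ha.1.2]
        exact R.mul_mem (ha.2 i) (hb.2 i)
      inv_mem' := by
        intro a ha
        rw [hinv a ha.1.1]
        exact ha }
  have hE2 : ∀ g, g ∈ E2 ↔ (g ∈ E ∧ g.right = 1) ∧ ∀ i, g.left i ∈ R := fun g => Iff.rfl
  have hmB : ∀ g ∈ E1, ∀ i, g.left i ∈ B := by
    intro g hg i
    apply hBm
    rw [← hfix g g i ((hE1 g).1 hg).2, hs g ((hE1 g).1 hg).1]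
    rfl
  have hQc : Nat.card Q = (Finset.univ.filter (fun q : Equiv.Perm (Fin t) => q ∈ Q)).card :=
    Nat.subtype_card _ (by intro x; simp)
  have hLc : Nat.card Λ = (Finset.univ.filter (fun u : Fin t → ℤˣ => u ∈ Λ)).card :=
    Nat.subtype_card _ (by intro x; simp)
  have c1 : Nat.card E ≤ Nat.card E1 * Nat.card Q := by
    rw [hQc]
    refine count E E1 (fun g => g.right) _
      (fun g hg => Finset.mem_filter.2 ⟨Finset.mem_univ _, (hQ _).2 ⟨g, hg, rfl⟩⟩) ?_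
    intro g hg h hh hgh
    refine (hE1 _).2 ⟨E.mul_mem (E.inv_mem hg) hh, ?_⟩
    have hgh' : g.right = h.right := hgh
    rw [SemidirectProduct.mul_right, SemidirectProduct.inv_right, hgh', inv_mul_cancel]
  have c2 : Nat.card E1 ≤ Nat.card E2 * Nat.card Λ := by
    rw [hLc]
    refine count E1 E2
      (fun g => (fun i => if h : g.left i ∈ B then ε ⟨g.left i, h⟩ else 1 : Fin t → ℤˣ)) _ ?_ ?_
    · intro g hg
      refine Finset.mem_filter.2 ⟨Finset.mem_univ _, ?_⟩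
      have h1 : (fun i => if h : g.left i ∈ B then ε ⟨g.left i, h⟩ else 1 : Fin t → ℤˣ) =
          fun i => ε ⟨g.left i, hmB g hg i⟩ := funext fun i => dif_pos (hmB g hg i)
      rw [h1]
      apply hΛ fun i => ⟨g.left i, hmB g hg i⟩
      have h2 : (SemidirectProduct.inl (fun i => g.left i) :
          (Fin t → H) ⋊[mulAutArrow] Equiv.Perm (Fin t)) = g :=
        SemidirectProduct.ext rfl ((hE1 g).1 hg).2.symm
      exact h2.symm ▸ hEG ((hE1 g).1 hg).1
    · intro g hg h hh hgh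
      refine (hE2 _).2 ⟨(hE1 _).1 (E1.mul_mem (E1.inv_mem hg) hh), fun i => ?_⟩
      have h1 := congrFun hgh i
      simp only [dif_pos (hmB g hg i), dif_pos (hmB h hh i)] at h1
      rw [hinv g ((hE1 g).1 hg).1, hfix g h i ((hE1 g).1 hg).2]
      apply hε (⟨g.left i, hmB g hg i⟩ * ⟨h.left i, hmB h hh i⟩)
      rw [map_mul, h1]
      exact Int.units_mul_self _
  obtain ⟨Y, hY, hc⟩ := hP t Q (by
    intro a ha b hb
    obtain ⟨g, hg, rfl⟩ := (hQ a).1 ha
    obtain ⟨h, hh, rfl⟩ := (hQ b).1 hb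
    rw [← SemidirectProduct.mul_right, ← SemidirectProduct.mul_right, hE.2.1 g hg h hh])
  have c3 : Nat.card E2 ≤ M ^ Y.card := by
    refine hB H R t M E E2 Y (by omega) hR hE (fun g hg => ((hE2 g).1 hg).1.1) ?_
      fun g hg => ⟨((hE2 g).1 hg).1.2, ((hE2 g).1 hg).2⟩
    intro x
    obtain ⟨q, hq, y, hy, hqy⟩ := hY x
    obtain ⟨g, hg, rfl⟩ := (hQ q).1 hq
    exact ⟨g, hg, y, hy, hqy⟩
  have hYt : Y.card ≤ t := by
    have h1 := Finset.card_le_univ Y
    rwa [Fintype.card_fin] at h1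
  obtain ⟨d, hd⟩ := Nat.exists_eq_add_of_le hYt
  have c4 : Nat.card Q ≤ M ^ d := by
    have h1 : Nat.card Q * 2 ^ Y.card ≤ 2 ^ d * 2 ^ Y.card := by
      rw [← pow_add, add_comm d, ← hd]
      exact hc
    exact (Nat.le_of_mul_le_mul_right h1 (by positivity)).trans (Nat.pow_le_pow_left hM d)
  have c5 : M ^ t = M ^ Y.card * M ^ d := by rw [← pow_add, ← hd]
  calc Nat.card E ≤ Nat.card E1 * Nat.card Q := c1
    _ ≤ (M ^ Y.card * Nat.card Λ) * M ^ d :=
      Nat.mul_le_mul (c2.trans (Nat.mul_le_mul_right _ c3)) c4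
    _ = Nat.card Λ * M ^ t := by rw [c5]; ring

end Vale.Agent.P240
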