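import Vale.Agent.P240.Stm4

namespace Vale.Agent.P240

namespace SqAux

def F0 (E : Type) [Field E] [StarRing E] : Subfield E where
  carrier := {x | star x = x}
  mul_mem' := by
    intro a b ha hb
    change star (a * b) = a * b
    rw [star_mul', ha, hb]
  one_mem' := star_one E
  add_mem' := by
    intro a b ha hb
    change star (a + b) = a + b
    rw [star_add, ha, hb]
  zero_mem' := star_zero E
  neg_mem' := by
    intro a ha
    change star (-a) = -a
    rw [star_neg, ha]
  inv_mem' := by
    intro a ha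
    change star a⁻¹ = a⁻¹
    rw [star_inv₀, ha]

theorem prod {F : Type} [Field F] [Finite F] {a b : F} (ha : ¬IsSquare a) (hb : ¬IsSquare b) :
    IsSquare (a * b) := by
  classical
  have := Fintype.ofFinite F
  have a0 : a ≠ 0 := fun h => ha (h ▸ IsSquare.zero)
  have b0 : b ≠ 0 := fun h => hb (h ▸ IsSquare.zero)
  rw [← quadraticChar_one_iff_isSquare (mul_ne_zero a0 b0), map_mul,
    quadraticChar_neg_one_iff_not_isSquare.mpr ha, quadraticChar_neg_one_iff_not_isSquare.mpr hb]
  norm_num

end SqAux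

theorem sq_pf : SqStmt := by
  intro E _ _ _ h2 ⟨y, hy⟩ x hx
  obtain ⟨l, hl⟩ : ∃ l, l = y - star y := ⟨_, rfl⟩
  have l0 : l ≠ 0 := by
    rw [hl]
    exact sub_ne_zero.mpr hy.symm
  have ls : star l = -l := by
    rw [hl, star_sub, star_star, neg_sub]
  have le : star (l * l) = l * l := by
    rw [star_mul', ls, neg_mul_neg]
  have hn : ¬IsSquare (⟨l * l, le⟩ : SqAux.F0 E) := by
    rintro ⟨s, hs⟩
    have h1 : l * l = s.1 * s.1 := congrArg Subtype.val hs
    have h3 : star s.1 = s.1 := s.2
    have h4 : star l = l := by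
      rcases mul_self_eq_mul_self_iff.mp h1 with h | h
      · rw [h, h3]
      · rw [h, star_neg, h3]
    have h5 : 2 * l = 0 := by
      rw [ls] at h4
      linear_combination -h4
    exact mul_ne_zero h2 l0 h5
  by_cases h : IsSquare (⟨x, hx⟩ : SqAux.F0 E)
  · obtain ⟨s, hs⟩ := h
    exact ⟨s.1, congrArg Subtype.val hs⟩
  · obtain ⟨s, hs⟩ := SqAux.prod h hn
    have h1 : x * (l * l) = s.1 * s.1 := congrArg Subtype.val hs
    refine ⟨s.1 / l, ?_⟩
    rw [div_mul_div_comm, ← h1, mul_div_assoc, div_self (mul_ne_zero l0 l0), mul_one]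

end Vale.Agent.P240
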