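import Vale.Agent.P240.Stm4
import Vale.Agent.P240.GSep

namespace Vale.Agent.P240

namespace StepPAux

open GSepAux

variable {G : Type} [Group G]

theorem shape [DecidableEq G] {K : Subgroup G} {m : ℕ} {d : G} {A : Finset G} (hd : d ∉ K)
    (hdd : d * d = 1) (hc : A.card = m + 1) (hA : ∀ a ∈ A, a ∈ K ∧ d * a = a * d)
    (t : Fin (m + 2) → G) (h0 : t 0 = d) (ht : Finset.univ.image t = insert d A) :
    Finset.univ.image (Fin.tail t) = A ∧ ∀ i, ch id (Fin.tail t) i = ch id t i.succ ⊓ K := by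
  have hn : d ∉ A := fun h => hd (hA d h).1
  have hi : Function.Injective t := by
    have h1 : (Finset.univ.image t).card = (Finset.univ : Finset (Fin (m + 2))).card := by
      rw [ht, Finset.card_insert_of_notMem hn, hc]
      simp
    exact fun i j h => Finset.card_image_iff.1 h1 (Finset.mem_univ i) (Finset.mem_univ j) h
  have h2 : ∀ i, Fin.tail t i ∈ A := fun i => by
    have h3 : t i.succ ∈ insert d A := ht ▸ Finset.mem_image_of_mem t (Finset.mem_univ _)
    rcases Finset.mem_insert.1 h3 with h | h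
    · exact absurd (hi (h.trans h0.symm)) (Fin.succ_ne_zero i)
    · exact h
  refine ⟨Finset.ext fun b => ⟨fun hb => ?_, fun hb => ?_⟩, fun i => ?_⟩
  · obtain ⟨j, -, rfl⟩ := Finset.mem_image.1 hb
    exact h2 j
  · have h3 : b ∈ Finset.univ.image t := ht ▸ Finset.mem_insert_of_mem hb
    obtain ⟨j, -, hj⟩ := Finset.mem_image.1 h3
    revert hj
    refine Fin.cases (fun hj => ?_)
      (fun j hj => Finset.mem_image.2 ⟨j, Finset.mem_univ _, hj⟩) j
    exact absurd (h0.symm.trans hj ▸ hb) hn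
  · unfold ch
    rw [img, h0, key hd hdd]
    rintro _ ⟨_, ⟨j, -, rfl⟩, rfl⟩
    exact hA _ (h2 j)

theorem zero {K : Subgroup G} {d x : G} (hd : d ∉ K) (hdd : d * d = 1)
    (c0 : Subgroup.closure (insert x (∅ : Set G)) = Subgroup.closure (insert d ∅)) : x = d := by
  have k1 : x ∈ Subgroup.closure (insert d (∅ : Set G)) :=
    c0 ▸ Subgroup.subset_closure (Set.mem_insert _ _)
  rcases (two (K := K) hdd (Y := ∅) (fun _ h => absurd h (Set.notMem_empty _))).2 _ k1 with k | k
  · rw [Subgroup.closure_empty, Subgroup.mem_bot] at k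
    have k2 : d ∈ Subgroup.closure (insert x (∅ : Set G)) :=
      c0 ▸ Subgroup.subset_closure (Set.mem_insert _ _)
    refine absurd ((Subgroup.closure_le K).2 ?_ k2) hd
    rintro _ (rfl | h)
    · rw [k]; exact K.one_mem
    · exact absurd h (Set.notMem_empty _)
  · rw [Subgroup.closure_empty, Subgroup.mem_bot] at k
    exact mul_left_cancel (k.trans hdd.symm)

end StepPAux

open GSepAux StepPAux in
theorem stepP_pf : StepPStmt := by
  intro G _ _ K Γ S r H
  have out : ∀ γ ∈ Γ, ∀ γ' ∈ Γ, ∀ σ ∈ S γ', γ ∉ σ := fun γ h γ' h' σ hσ k =>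
    (H γ h).1 ((H γ' h').2.2.2.2 σ hσ γ k).1
  refine ⟨fun σ hσ => ?_, ?_⟩
  · obtain ⟨γ, hγ, h⟩ := Finset.mem_biUnion.1 hσ
    obtain ⟨A, hA, rfl⟩ := Finset.mem_image.1 h
    obtain ⟨x1, x2, x3, x4, x5⟩ := H γ hγ
    obtain ⟨u₀, hu₀, hu⟩ := x4 A hA
    have ht₀ : Finset.univ.image (Fin.cons γ u₀ : Fin (r + 2) → G) = insert γ A := by
      ext g
      rw [Finset.mem_insert, ← hu₀]
      simp only [Finset.mem_image, Finset.mem_univ, true_and]
      rw [Fin.exists_fin_succ]
      simp only [Fin.cons_zero, Fin.cons_succ, eq_comm]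
    refine ⟨Fin.cons γ u₀, ht₀, fun t ht hch => ?_⟩
    obtain ⟨γ', hγ', h'⟩ := Finset.mem_biUnion.1 ht
    obtain ⟨B, hB, hBe⟩ := Finset.mem_image.1 h'
    have t0 : t 0 = γ := by
      have := congrFun hch 0
      unfold ch at this
      rw [img0, img0, Fin.cons_zero] at this
      exact zero x1 x2 this
    obtain rfl : γ = γ' := by
      have k : t 0 ∈ insert γ' B := hBe.symm ▸ Finset.mem_image_of_mem t (Finset.mem_univ _)
      rw [t0] at k
      exact (Finset.mem_insert.1 k).resolve_right (out γ hγ γ' hγ' B hB)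
    obtain ⟨-, p4⟩ := StepPAux.shape x1 x2 (x3.1 A hA) (x5 A hA) _ (Fin.cons_zero _ _) ht₀
    obtain ⟨q1, q4⟩ := StepPAux.shape x1 x2 (x3.1 B hB) (x5 B hB) t t0 hBe.symm
    rw [Fin.tail_cons] at p4
    have h6 : Fin.tail t = u₀ := hu _ (q1.symm ▸ hB) (funext fun i => by rw [p4, q4, hch])
    rw [← h6, ← t0, Fin.cons_self_tail]
  · rw [Finset.card_biUnion]
    · refine Finset.sum_congr rfl fun γ hγ => Finset.card_image_of_injOn fun A hA B hB e => ?_
      rw [← Finset.erase_insert (out γ hγ γ hγ A hA), e, Finset.erase_insert (out γ hγ γ hγ B hB)]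
    · intro γ hγ γ' hγ' hne
      refine Finset.disjoint_left.2 fun σ k1 k2 => hne ?_
      obtain ⟨A, hA, rfl⟩ := Finset.mem_image.1 k1
      obtain ⟨B, hB, e⟩ := Finset.mem_image.1 k2
      have : γ ∈ insert γ' B := e ▸ Finset.mem_insert_self _ _
      exact (Finset.mem_insert.1 this).resolve_right (out γ hγ γ' hγ' B hB)

end Vale.Agent.P240
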