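import Vale.Agent.P240.Stm4
import Vale.Agent.P240.GSimp

namespace Vale.Agent.P240

namespace StepSAux

open GSimpAux in
theorem core {G : Type} [Group G] [DecidableEq G] (K : Subgroup G) (m : ℕ) (d : G) (Y : Finset G)
    (hdK : d ∉ K) (hdd : d * d = 1) (hYc : Y.card = m + 1) (hYK : ∀ y ∈ Y, y ∈ K)
    (hYd : ∀ y ∈ Y, d * y = y * d)
    (h2 : ∀ u : Fin (m + 1) → G, Finset.univ.image u = Y → IsSimplex 2 (ch id u))
    (t : Fin (m + 2) → G) (ht : Finset.univ.image t = insert d Y) : IsSimplex 2 (ch id t) := by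
  have hF : ∀ b ∈ Y, (∀ c ∈ Y, b * c = c * b) ∧ b ^ 2 = 1 ∧
      b ∉ Subgroup.closure {y | y ∈ Y ∧ y ≠ b} := by
    intro b hb
    obtain ⟨u, -, hu2, hu3, hu4⟩ := enum m _ hYc b hb
    have hs := h2 u (by
      ext y
      simp only [Finset.mem_image, Finset.mem_univ, true_and]
      exact ⟨fun ⟨l, hl⟩ => hl ▸ hu2 l, hu3 y⟩)
    have hm : ∀ c ∈ Y, c ∈ ch id u (Fin.last m) := by
      intro c hc
      obtain ⟨l, hl⟩ := hu3 c hc
      exact Subgroup.subset_closure ⟨_, ⟨l, Fin.le_last l, hl⟩, rfl⟩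
    refine ⟨fun c hc => (hs.2 _).2.1 _ (hm b hb) _ (hm c hc), (hs.2 _).2.2 _ (hm b hb),
      fun hn => last_not id m u hs ?_⟩
    rw [hu4]
    refine Subgroup.closure_mono ?_ hn
    rintro y ⟨hy1, hy2⟩
    obtain ⟨l, hl⟩ := hu3 y hy1
    refine ⟨y, ⟨l, fun h => hy2 ?_, hl⟩, rfl⟩
    rw [← hl, h, hu4]
  have hinj : Function.Injective t := by
    have hc : (Finset.univ.image t).card = (Finset.univ : Finset (Fin (m + 2))).card := by
      rw [ht, Finset.card_insert_of_notMem fun h => hdK (hYK _ h), hYc, Finset.card_univ,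
        Fintype.card_fin]
    intro i j hij
    exact Finset.card_image_iff.1 hc (by simp) (by simp) hij
  have hmem : ∀ j, t j = d ∨ t j ∈ Y := fun j =>
    Finset.mem_insert.1 (ht ▸ Finset.mem_image_of_mem t (Finset.mem_univ j))
  have key : ∀ j, t j ∉ Subgroup.closure (id '' (t '' Set.Iio j)) := by
    intro j hm
    rcases hmem j with hj | hj
    · have hle : Subgroup.closure (id '' (t '' Set.Iio j)) ≤ K := by
        rw [Subgroup.closure_le]
        rintro _ ⟨_, ⟨l, hl, rfl⟩, rfl⟩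
        rcases hmem l with h | h
        · exact absurd (hinj (h.trans hj.symm)) (ne_of_lt hl)
        · exact hYK _ h
      exact hdK (hj ▸ hle hm)
    · have hsub : id '' (t '' Set.Iio j) ⊆ insert d {y | y ∈ Y ∧ y ≠ t j} := by
        rintro _ ⟨_, ⟨l, hl, rfl⟩, rfl⟩
        rcases hmem l with h | h
        · exact Or.inl h
        · exact Or.inr ⟨h, fun e => absurd (hinj e) (ne_of_lt hl)⟩
      rcases split _ d hdd (fun y hy => hYd y hy.1) _ (Subgroup.closure_mono hsub hm) with h | h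
      · exact (hF _ hj).2.2 h
      · have hle : Subgroup.closure {y | y ∈ Y ∧ y ≠ t j} ≤ K := by
          rw [Subgroup.closure_le]
          exact fun y hy => hYK y hy.1
        exact hdK ((K.mul_mem_cancel_left (hYK _ hj)).1 (hle h))
  have hgen : ∀ j, t j ∈ ch id t j := fun j =>
    Subgroup.subset_closure ⟨_, ⟨j, Set.mem_Iic.2 le_rfl, rfl⟩, rfl⟩
  refine ⟨?_, ?_⟩
  · intro i j hij
    refine lt_of_le_of_ne ?_ ?_
    · exact Subgroup.closure_mono
        (Set.image_mono (Set.image_mono (Set.Iic_subset_Iic.2 hij.le)))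
    · intro heq
      apply key j
      have h3 := hgen j
      rw [← heq] at h3
      refine Subgroup.closure_mono ?_ h3
      exact Set.image_mono (Set.image_mono (Set.Iic_subset_Iio.2 hij))
  · intro j
    refine ⟨?_, ?_⟩
    · intro hb
      have h3 := hgen j
      rw [hb, Subgroup.mem_bot] at h3
      apply key j
      rw [h3]
      exact one_mem _
    · apply elem_closure
      · rintro _ ⟨_, ⟨i, -, rfl⟩, rfl⟩ _ ⟨_, ⟨l, -, rfl⟩, rfl⟩
        show t i * t l = t l * t i
        rcases hmem i with hi | hi <;> rcases hmem l with hl | hl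
        · rw [hi, hl]
        · rw [hi]
          exact hYd _ hl
        · rw [hl]
          exact (hYd _ hi).symm
        · exact (hF _ hi).1 _ hl
      · rintro _ ⟨_, ⟨i, -, rfl⟩, rfl⟩
        show t i ^ 2 = 1
        rcases hmem i with hi | hi
        · rw [hi, pow_two, hdd]
        · exact (hF _ hi).2.1

end StepSAux

theorem stepS_pf : StepSStmt := by
  intro G _ _ K Γ S r h
  refine ⟨fun τ hτ => ?_, fun t ht => ?_⟩
  · obtain ⟨γ, hγ, h1⟩ := Finset.mem_biUnion.1 hτ
    obtain ⟨σ, hσ, rfl⟩ := Finset.mem_image.1 h1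
    obtain ⟨a1, -, a3, -, a5⟩ := h γ hγ
    rw [Finset.card_insert_of_notMem fun hm => a1 (a5 σ hσ γ hm).1, a3.1 σ hσ]
  · obtain ⟨γ, hγ, h1⟩ := Finset.mem_biUnion.1 ht
    obtain ⟨σ, hσ, e⟩ := Finset.mem_image.1 h1
    obtain ⟨a1, a2, a3, -, a5⟩ := h γ hγ
    exact StepSAux.core K r γ σ a1 a2 (a3.1 σ hσ) (fun y hy => (a5 σ hσ y hy).1)
      (fun y hy => (a5 σ hσ y hy).2) (fun u hu => a3.2 u (hu ▸ hσ)) t e.symm

end Vale.Agent.P240
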