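import Vale.Agent.P240.Defs

namespace Vale.Agent.P240

open Matrix

/-- The flag of subgroups generated by the initial segments of `t`. -/
def ch {G P : Type} [Group G] (s : P → G) {k : ℕ} (t : Fin k → P) : Fin k → Subgroup G :=
  fun i => Subgroup.closure (s '' (t '' Set.Iic i))

/-- Rank one orthogonal projections onto unit vectors. -/
def IsPt {F : Type} [Field F] {n : ℕ} (p : Matrix (Fin n) (Fin n) F) : Prop :=
  ∃ v : Fin n → F, v ⬝ᵥ v = 1 ∧ p = vecMulVec v v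

/-- Orthonormal frames, as sets of projections. -/
def IsFrame {F : Type} [Field F] {n : ℕ} (A : Finset (Matrix (Fin n) (Fin n) F)) : Prop :=
  A.card = n ∧ (∀ p ∈ A, IsPt p) ∧ ∀ p ∈ A, ∀ p' ∈ A, p ≠ p' → p * p' = 0

def RankStmt : Prop :=
  ∀ (F : Type) [Field F] (n : ℕ) (G : Type) [Group G] [Finite G]
    (φ : G →* Matrix (Fin n) (Fin n) F), (2 : F) ≠ 0 → Odd n → Function.Injective φ →
    (∀ g, (φ g).det = 1) → ∀ E : Subgroup G, IsElemAb 2 E → Nat.card E ≤ 2 ^ (n - 1)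

def CycStmt : Prop :=
  ∀ (G P : Type) [Group G] [Fintype P] [DecidableEq P] (s : P → G) (m : ℕ)
    (S T : Finset (Finset P)), (∀ σ ∈ S, σ.card = m + 1) → (∀ σ ∈ S, ∀ a ∈ σ, σ.erase a ∈ T) →
    T.card < S.card →
    (∀ σ ∈ S, ∃ t₀ : Fin (m + 1) → P, Finset.univ.image t₀ = σ ∧
      ∀ t : Fin (m + 1) → P, Finset.univ.image t ∈ S → ch s t = ch s t₀ → t = t₀) →
    ∃ z : (Fin (m + 1) → Subgroup G) →₀ ℚ, z ≠ 0 ∧ bd z = 0 ∧
      ∀ c ∈ z.support, ∃ t : Fin (m + 1) → P, Finset.univ.image t ∈ S ∧ c = ch s t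

def SumStmt : Prop :=
  ∀ (F : Type) [Field F] (n : ℕ) (A : Finset (Matrix (Fin n) (Fin n) F)), IsFrame A →
    ∑ p ∈ A, p = 1

def CircStmt : Prop :=
  ∀ (F : Type) [Field F] [Fintype F] [DecidableEq F], (2 : F) ≠ 0 →
    Fintype.card F ≤ (Finset.univ.filter fun x : F × F => x.1 ^ 2 + x.2 ^ 2 = 1).card + 2

def ExtStmt : Prop :=
  ∀ (F : Type) [Field F] [Fintype F] [DecidableEq F] (m : ℕ)
    (A τ : Finset (Matrix (Fin (m + 2)) (Fin (m + 2)) F))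
    (Fr : Finset (Finset (Matrix (Fin (m + 2)) (Fin (m + 2)) F))), (2 : F) ≠ 0 →
    (∀ B, B ∈ Fr ↔ IsFrame B) → IsFrame A → τ ⊆ A → τ.card = m →
    Fintype.card F ≤ 4 * (Fr.filter fun B => τ ⊆ B).card + 2

def CountStmt : Prop :=
  ∀ (F : Type) [Field F] [Fintype F] [DecidableEq F] (m : ℕ)
    (Fr T : Finset (Finset (Matrix (Fin (m + 2)) (Fin (m + 2)) F))), (2 : F) ≠ 0 →
    2 * m + 7 ≤ Fintype.card F → (∀ B, B ∈ Fr ↔ IsFrame B) →
    (∀ τ ∈ T, τ.card = m ∧ ∃ A, IsFrame A ∧ τ ⊆ A) → T.card < (m + 1) * Fr.card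

def CommStmt : Prop :=
  ∀ (F : Type) [Field F] (n : ℕ) (A : Finset (Matrix (Fin n) (Fin n) F)), Odd n → IsFrame A →
    ∀ p ∈ A, ∃ g : Matrix.specialOrthogonalGroup (Fin n) F,
      g ∈ commutator (Matrix.specialOrthogonalGroup (Fin n) F) ∧ g.1 = (2 : F) • p - 1

def MemStmt : Prop :=
  ∀ (F : Type) [Field F] [DecidableEq F] (n : ℕ) (G : Type) [Group G]
    (φ : G →* Matrix (Fin n) (Fin n) F) (s : Matrix (Fin n) (Fin n) F → G)
    (A K : Finset (Matrix (Fin n) (Fin n) F)) (p : Matrix (Fin n) (Fin n) F) (g : G),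
    (2 : F) ≠ 0 → IsFrame A → K ⊆ A → (∀ a ∈ A, φ (s a) = (2 : F) • a - 1) → IsPt p →
    g ∈ Subgroup.closure (s '' (K : Set (Matrix (Fin n) (Fin n) F))) → φ g = (2 : F) • p - 1 →
    p ∈ A ∧ (p ∈ K ∨ A \ K = {p})

def SimpStmt : Prop :=
  ∀ (F : Type) [Field F] [DecidableEq F] (m : ℕ) (G : Type) [Group G]
    (φ : G →* Matrix (Fin (m + 2)) (Fin (m + 2)) F)
    (s : Matrix (Fin (m + 2)) (Fin (m + 2)) F → G)
    (A : Finset (Matrix (Fin (m + 2)) (Fin (m + 2)) F))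
    (t : Fin (m + 1) → Matrix (Fin (m + 2)) (Fin (m + 2)) F),
    (2 : F) ≠ 0 → Function.Injective φ → IsFrame A → (∀ a ∈ A, φ (s a) = (2 : F) • a - 1) →
    Function.Injective t → (∀ i, t i ∈ A) → IsSimplex 2 (ch s t)

def SepStmt : Prop :=
  ∀ (F : Type) [Field F] [DecidableEq F] (m : ℕ) (G : Type) [Group G]
    (φ : G →* Matrix (Fin (m + 2)) (Fin (m + 2)) F)
    (s : Matrix (Fin (m + 2)) (Fin (m + 2)) F → G)
    (A B : Finset (Matrix (Fin (m + 2)) (Fin (m + 2)) F))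
    (t₀ t : Fin (m + 1) → Matrix (Fin (m + 2)) (Fin (m + 2)) F),
    (2 : F) ≠ 0 → IsFrame A → IsFrame B → (∀ a ∈ A, φ (s a) = (2 : F) • a - 1) →
    (∀ a ∈ B, φ (s a) = (2 : F) • a - 1) → Function.Injective t₀ → Function.Injective t →
    (∀ i, t₀ i ∈ A) → (∀ i, t i ∈ B) → ch s t = ch s t₀ →
    B = A ∧ ∀ i : Fin m, t i.castSucc = t₀ i.castSucc

def CardStmt : Prop :=
  ∀ (G : Type) [Group G] [Finite G] (k : ℕ) (c : Fin (k + 1) → Subgroup G), IsSimplex 2 c →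
    2 ^ (k + 1) ≤ Nat.card (c (Fin.last k))

end Vale.Agent.P240
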