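import Vale.Agent.P240.Stm2

namespace Vale.Agent.P240

def WMapStmt : Prop :=
  ∀ (H₀ H : Type) [Group H₀] [Group H] [Finite H] (j : H₀ →* H) (t : ℕ), Function.Injective j →
    Odd j.range.index →
    ∃ Φ : ((Fin t → H₀) ⋊[mulAutArrow] Equiv.Perm (Fin t)) →*
        ((Fin t → H) ⋊[mulAutArrow] Equiv.Perm (Fin t)),
      Function.Injective Φ ∧ Odd Φ.range.index ∧
        ∀ f : Fin t → H₀, Φ (SemidirectProduct.inl f) = SemidirectProduct.inl fun i => j (f i)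

def SylStmt : Prop :=
  ∀ (W : Type) [Group W] [Finite W] (U G : Subgroup W), Odd U.index →
    ∃ w : W, ∀ E : Subgroup W, IsElemAb 2 E → E ≤ G →
      ∃ g ∈ G, ∀ x ∈ E, w * (g * x * g⁻¹) * w⁻¹ ∈ U

def UpStmt : Prop :=
  ∀ (W₀ W : Type) [Group W₀] [Group W] [Finite W] (Φ : W₀ →* W) (G : Subgroup W) (w : W) (r : ℕ),
    Function.Injective Φ →
    (∀ E : Subgroup W, IsElemAb 2 E → E ≤ G →
      ∃ g ∈ G, ∀ x ∈ E, w * (g * x * g⁻¹) * w⁻¹ ∈ Φ.range) →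
    HasRank (G.comap ((MulAut.conj w⁻¹).toMonoidHom.comp Φ)) 2 (r + 1) →
    HomologyNe (G.comap ((MulAut.conj w⁻¹).toMonoidHom.comp Φ)) 2 r →
    HasRank G 2 (r + 1) ∧ HomologyNe G 2 r

def CjBaseStmt : Prop :=
  ∀ (H : Type) [Group H] (R : Subgroup H) (t : ℕ)
    (w : (Fin t → H) ⋊[mulAutArrow] Equiv.Perm (Fin t)) (f : Fin t → H), R.Normal →
    (∀ i, f i ∈ R) → ∃ f' : Fin t → H, (∀ i, f' i ∈ R) ∧
      w⁻¹ * SemidirectProduct.inl f * w = SemidirectProduct.inl f'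

end Vale.Agent.P240
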