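import Vale.Agent.P240.Stm6

open scoped Pointwise

namespace Vale.Agent.P240

namespace SylAux

theorem conj_mem {W : Type} [Group W] {p : ℕ} (Q P : Sylow p W) (w : W) (h : w • Q = P)
    {x : W} (hx : x ∈ (Q : Subgroup W)) : w * x * w⁻¹ ∈ (P : Subgroup W) := by
  rw [← h, Sylow.coe_subgroup_smul]
  exact Subgroup.smul_mem_pointwise_smul x (MulAut.conj w) _ hx

theorem exists_syl {W : Type} [Group W] [Finite W] (U : Subgroup W) (hU : Odd U.index) :
    ∃ P : Sylow 2 W, (P : Subgroup W) ≤ U := by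
  have : Fact (Nat.Prime 2) := ⟨Nat.prime_two⟩
  obtain ⟨P⟩ : Nonempty (Sylow 2 U) := inferInstance
  have hp : IsPGroup 2 ((P : Subgroup U).map U.subtype) := P.isPGroup'.map _
  have hi : ¬2 ∣ ((P : Subgroup U).map U.subtype).index := by
    rw [Subgroup.index_map_subtype]
    intro hd
    rcases (Nat.Prime.dvd_mul Nat.prime_two).1 hd with h | h
    · exact P.not_dvd_index h
    · exact (Nat.not_even_iff_odd.2 hU) (even_iff_two_dvd.2 h)
  exact ⟨hp.toSylow hi, Subgroup.map_subtype_le _⟩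

end SylAux

theorem syl_pf : SylStmt := by
  intro W _ _ U G hU
  have : Fact (Nat.Prime 2) := ⟨Nat.prime_two⟩
  obtain ⟨P, hP⟩ := SylAux.exists_syl U hU
  obtain ⟨S⟩ : Nonempty (Sylow 2 G) := inferInstance
  have hS : IsPGroup 2 ((S : Subgroup G).map G.subtype) := S.isPGroup'.map _
  obtain ⟨Q, hQ⟩ := hS.exists_le_sylow
  obtain ⟨w, hw⟩ := MulAction.exists_smul_eq W Q P
  refine ⟨w, fun E hE hEG => ?_⟩
  have hp : IsPGroup 2 (E.subgroupOf G) := fun x => ⟨1, by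
    apply Subtype.ext
    apply Subtype.ext
    have := hE.2.2 _ (Subgroup.mem_subgroupOf.1 x.2)
    simpa using this⟩
  obtain ⟨S1, h1⟩ := hp.exists_le_sylow
  obtain ⟨g, hg⟩ := MulAction.exists_smul_eq G S1 S
  refine ⟨g, g.2, fun x hx => hP (SylAux.conj_mem Q P w hw (hQ ?_))⟩
  have hx1 : (⟨x, hEG hx⟩ : G) ∈ (S1 : Subgroup G) := h1 (Subgroup.mem_subgroupOf.2 hx)
  exact ⟨_, SylAux.conj_mem S1 S g hg hx1, rfl⟩

end Vale.Agent.P240
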