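import Vale.Agent.P240.Stm6

/-! P240: conjugating the elementary abelian subgroups into a subgroup of odd index. -/

namespace Vale.Agent.P240

namespace SylAuxb

open Pointwise in
theorem conj_mem {W : Type} [Group W] [Finite W] (Q P : Sylow 2 W) :
    ∃ w : W, ∀ x ∈ (Q : Subgroup W), w * x * w⁻¹ ∈ (P : Subgroup W) := by
  have : Fact (Nat.Prime 2) := ⟨Nat.prime_two⟩
  obtain ⟨w, hw⟩ := MulAction.exists_smul_eq W Q P
  refine ⟨w, fun x hx => ?_⟩
  rw [← hw, Sylow.coe_subgroup_smul]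
  exact Subgroup.smul_mem_pointwise_smul x (MulAut.conj w) _ hx

theorem ex_syl {W : Type} [Group W] [Finite W] (U : Subgroup W) (h : Odd U.index) :
    ∃ P : Sylow 2 W, (P : Subgroup W) ≤ U := by
  have : Fact (Nat.Prime 2) := ⟨Nat.prime_two⟩
  obtain ⟨P⟩ : Nonempty (Sylow 2 U) := inferInstance
  have h1 : IsPGroup 2 ((P : Subgroup U).map U.subtype) := P.isPGroup'.map _
  have h2 : ¬2 ∣ ((P : Subgroup U).map U.subtype).index := by
    rw [Subgroup.index_map_subtype]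
    intro h3
    rcases (Nat.Prime.dvd_mul Nat.prime_two).1 h3 with h4 | h4
    · exact P.not_dvd_index h4
    · exact (Nat.not_even_iff_odd.2 h) (even_iff_two_dvd.2 h4)
  exact ⟨h1.toSylow h2, Subgroup.map_subtype_le _⟩

end SylAuxb

theorem syl_pfb : SylStmt := by
  intro W _ _ U G hU
  have : Fact (Nat.Prime 2) := ⟨Nat.prime_two⟩
  obtain ⟨P, hP⟩ := SylAuxb.ex_syl U hU
  obtain ⟨S⟩ : Nonempty (Sylow 2 G) := inferInstance
  obtain ⟨Q, hQ⟩ := (S.isPGroup'.map G.subtype).exists_le_sylow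
  obtain ⟨w, hw⟩ := SylAuxb.conj_mem Q P
  refine ⟨w, fun E hE _ => ?_⟩
  have h1 : IsPGroup 2 (E.subgroupOf G) := by
    intro x
    refine ⟨1, ?_⟩
    ext
    simpa using hE.2.2 _ x.2
  obtain ⟨S1, hS1⟩ := h1.exists_le_sylow
  obtain ⟨g, hg⟩ := SylAuxb.conj_mem S1 S
  refine ⟨g, g.2, fun x hx => hP (hw _ (hQ ?_))⟩
  rename_i hEG
  exact ⟨_, hg ⟨x, hEG hx⟩ (hS1 (Subgroup.mem_subgroupOf.2 hx)), rfl⟩

end Vale.Agent.P240
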