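import Vale.Agent.P240.Stm4

namespace Vale.Agent.P240

namespace TbAux

variable {G : Type} [Group G] [DecidableEq G]

omit [DecidableEq G] in
theorem inj (g : G) : Function.Injective fun a : G => g * a * g⁻¹ := fun a b h => by
  simpa using h

theorem cj_mul (g h : G) (x : G × Finset G) : cj (g * h) x = cj g (cj h x) := by
  unfold cj
  refine Prod.ext ?_ ?_
  · simp only [mul_inv_rev, mul_assoc]
  · simp only [Finset.image_image]
    refine Finset.image_congr fun a _ => ?_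
    simp only [Function.comp, mul_inv_rev, mul_assoc]

end TbAux

open TbAux

theorem tb_pf : TbStmt := by
  intro G _ _ K γ m X Γ w hΓ hw hc hI hF
  obtain ⟨Z, hZ⟩ : ∃ Z, Z = (Γ ×ˢ X).image fun q => (q.1, cj (w q.1) q.2) := ⟨_, rfl⟩
  have hZc : Z.card ≤ Γ.card * X.card := by
    rw [hZ, ← Finset.card_product]
    exact Finset.card_image_le
  have hmem : ∀ p ∈ Z, ∃ z ∈ Γ, ∃ x ∈ X, p = (z, cj (w z) x) := by
    intro p hp
    rw [hZ] at hp
    obtain ⟨q, hq, rfl⟩ := Finset.mem_image.1 hp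
    exact ⟨q.1, (Finset.mem_product.1 hq).1, q.2, (Finset.mem_product.1 hq).2, rfl⟩
  have hin : ∀ z ∈ Γ, ∀ x ∈ X, (z, cj (w z) x) ∈ Z := fun z hz x hx => by
    rw [hZ]
    exact Finset.mem_image.2 ⟨(z, x), Finset.mem_product.2 ⟨hz, hx⟩, rfl⟩
  have h1 : (Γ.biUnion fun z => X.biUnion fun x => x.2.image fun a =>
      (insert x.1 (x.2.erase a)).image fun b => w z * b * (w z)⁻¹) ⊆
      (Z.image Prod.snd).biUnion fun y => y.2.image fun a => insert y.1 (y.2.erase a) := by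
    intro σ hσ
    obtain ⟨z, hz, hσ⟩ := Finset.mem_biUnion.1 hσ
    obtain ⟨x, hx, hσ⟩ := Finset.mem_biUnion.1 hσ
    obtain ⟨a, ha, rfl⟩ := Finset.mem_image.1 hσ
    refine Finset.mem_biUnion.2 ⟨cj (w z) x, Finset.mem_image.2 ⟨_, hin z hz x hx, rfl⟩,
      Finset.mem_image.2 ⟨w z * a * (w z)⁻¹, Finset.mem_image_of_mem _ ha, ?_⟩⟩
    rw [Finset.image_insert, Finset.image_erase (inj (w z))]
    rfl
  have h2 : ((Z.image Prod.snd).biUnion fun y => y.2.image fun a =>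
      insert y.1 (y.2.erase a)).card ≤ (Z.image Prod.snd).card * (m + 2) := by
    refine Finset.card_biUnion_le_card_mul _ _ _ fun y hy => Finset.card_image_le.trans ?_
    obtain ⟨p, hp, rfl⟩ := Finset.mem_image.1 hy
    obtain ⟨z, -, x, hx, rfl⟩ := hmem p hp
    exact Finset.card_image_le.trans (hc x hx).le
  have h3 : 4 * (Z.image Prod.snd).card ≤ Z.card := by
    refine Finset.mul_card_image_le_card Z 4 fun y hy => ?_
    obtain ⟨p, hp, rfl⟩ := Finset.mem_image.1 hy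
    obtain ⟨z, hz, x, hx, rfl⟩ := hmem p hp
    obtain ⟨D, hD, h4⟩ := hF x hx
    refine h4.trans (Finset.card_le_card_of_injOn
      (fun e => (w z * e * (w z)⁻¹, cj (w z) x)) (fun e he => ?_)
      fun a _ b _ h => inj (w z) (congrArg Prod.fst h))
    obtain ⟨d, hd, rfl⟩ := Finset.mem_image.1 (Finset.mem_coe.1 he)
    have hg : w z * d ∈ K := mul_mem (hw z hz).1 (hD d hd).1
    obtain ⟨zd, hzd⟩ : ∃ zd, zd = w z * d * γ * (w z * d)⁻¹ := ⟨_, rfl⟩
    have hzΓ : zd ∈ Γ := hzd ▸ hΓ _ hg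
    have hcomm : (w zd)⁻¹ * (w z * d) * γ = γ * ((w zd)⁻¹ * (w z * d)) := by
      have e : w zd * γ * (w zd)⁻¹ = w z * d * γ * (w z * d)⁻¹ := (hw zd hzΓ).2.trans hzd
      calc (w zd)⁻¹ * (w z * d) * γ
          = (w zd)⁻¹ * (w z * d * γ * (w z * d)⁻¹) * (w z * d) := by group
        _ = (w zd)⁻¹ * (w zd * γ * (w zd)⁻¹) * (w z * d) := by rw [e]
        _ = _ := by group
    have h5 := hin zd hzΓ _ (hI _ (mul_mem (inv_mem (hw zd hzΓ).1) hg) hcomm x hx)
    rw [← cj_mul, mul_inv_cancel_left, cj_mul, (hD d hd).2] at h5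
    have h6 : w z * (d * γ * d⁻¹) * (w z)⁻¹ = zd := by rw [hzd]; group
    refine Finset.mem_coe.2 (Finset.mem_filter.2 ⟨?_, rfl⟩)
    show (w z * (d * γ * d⁻¹) * (w z)⁻¹, cj (w z) x) ∈ Z
    rw [h6]
    exact h5
  calc _ ≤ 4 * ((Z.image Prod.snd).card * (m + 2)) :=
        Nat.mul_le_mul_left _ ((Finset.card_le_card h1).trans h2)
    _ = (m + 2) * (4 * (Z.image Prod.snd).card) := by ring
    _ ≤ _ := Nat.mul_le_mul_left _ (h3.trans hZc)

end Vale.Agent.P240
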