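import Vale.Agent.P240.Main2

namespace Vale.Agent.P240

open Matrix

theorem two_ne (F : Type) [Field F] [Fintype F] (hq : Odd (Fintype.card F)) : (2 : F) ≠ 0 := by
  intro h
  obtain ⟨d, hd⟩ := hq
  have h1 := FiniteField.cast_card_eq_zero F
  rw [hd] at h1
  push_cast at h1
  rw [h, zero_mul, zero_add] at h1
  exact one_ne_zero h1

theorem wreath_of (hC : Cyc2Stmt) (hPA : ProdAStmt) (hPS : ProdSStmt) (hPP : ProdPStmt)
    (hI : InhStmt) (hW : WRankStmt) (B P H : Type) [Group B] [Fintype P] [Group H] [Finite H]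
    (m : ℕ) (s : P → B) (α : (Fin (m + 1) → P) → ℚ) (u : Fin (m + 1) → P) (hα : IsAlt α)
    (hu : α u ≠ 0) (hsi : ∀ t, α t ≠ 0 → IsSimplex 2 (ch s t))
    (hse : ∀ t, α t ≠ 0 → ch s t = ch s u → t = u) (ι : B →* H) (hι : Function.Injective ι)
    (hM : ∀ E : Subgroup H, IsElemAb 2 E → Nat.card E ≤ 2 ^ (m + 1)) (k : ℕ) (hk : 1 ≤ k)
    (G : Subgroup ((Fin k → H) ⋊[mulAutArrow] Equiv.Perm (Fin k)))
    (hG : ∀ f : Fin k → B, SemidirectProduct.inl (fun i => ι (f i)) ∈ G) :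
    HasRank G 2 (k * (m + 1)) ∧ HomologyNe G 2 (k * (m + 1) - 1) := by
  obtain ⟨N, hN⟩ : ∃ N, k * (m + 1) = N + 1 :=
    Nat.exists_eq_succ_of_ne_zero (Nat.mul_ne_zero (by omega) (by omega))
  let e : Fin k × Fin (m + 1) ≃ Fin (N + 1) := finProdFinEquiv.trans (finCongr hN)
  have he : ∀ i, StrictMono fun l => e (i, l) := by
    intro i a b hab
    rw [Fin.lt_def] at hab ⊢
    simp only [e, Equiv.trans_apply, finCongr_apply, Fin.val_cast, finProdFinEquiv_apply_val]
    omega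
  obtain ⟨A, hA, hA0, hAs⟩ := hPA P k m (N + 1) α u e hα hu
  obtain ⟨z, hz0, hz, hzb⟩ := hC (Fin k → B) (Fin k × P)
    (fun x => Pi.mulSingle x.1 (s x.2)) N A _ hA hA0
    (fun T hT => (hPS B P s k m (N + 1) α e T hα hsi (hAs T hT)).1)
    (fun T hT => hPP B P s k m (N + 1) α u e T hα he hsi hse (hAs T hT))
  let ψ : (Fin k → B) →* G :=
    (SemidirectProduct.inl.comp (ι.compLeft (Fin k))).codRestrict G fun f => hG f
  have hψ : Function.Injective ψ := by
    intro f g h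
    have h1 := SemidirectProduct.inl_injective (congrArg Subtype.val h)
    exact funext fun i => hι (congrFun h1 i)
  obtain ⟨z', h0, h1, h2⟩ := hI _ _ ψ N z hψ hz0 hz hzb
  haveI : Finite ((Fin k → H) ⋊[mulAutArrow] Equiv.Perm (Fin k)) :=
    Finite.of_equiv _ SemidirectProduct.equivProd.symm
  rw [hN, Nat.add_sub_cancel]
  refine qd_fin G N z' h0 h1 h2 fun E hE => ?_
  have h3 := hW H k (2 ^ (m + 1)) (by rw [pow_succ]; have := Nat.one_le_two_pow (n := m); omega)
    hM _ (elem_map G.subtype G.subtype_injective E hE)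
  rwa [Subgroup.card_map_of_injective G.subtype_injective, ← pow_mul, mul_comm, hN] at h3

theorem top_of (hR : RankStmt) (hA : AltStmt) (hS : SumStmt) (hCo : CountStmt) (hSi : SimpStmt)
    (hSe : SepStmt) (hCm : CommStmt) (hC : Cyc2Stmt) (hPA : ProdAStmt) (hPS : ProdSStmt)
    (hPP : ProdPStmt) (hI : InhStmt) (hW : WRankStmt)
    (F : Type) [Field F] [Fintype F] (n : ℕ) (hn : Odd n) (h3 : 3 ≤ n)
    (hq : Odd (Fintype.card F)) (hqn : 2 * n + 3 ≤ Fintype.card F)
    (H : Type) [Group H] [Finite H] (ι : Matrix.specialOrthogonalGroup (Fin n) F →* H)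
    (hι : Function.Injective ι) (hN : ι.range.Normal) (ho : Odd ι.range.index)
    (t : ℕ) (ht : 1 ≤ t) (G : Subgroup ((Fin t → H) ⋊[mulAutArrow] Equiv.Perm (Fin t)))
    (hG : ∀ f : Fin t → H,
      (∀ i, f i ∈ (commutator (Matrix.specialOrthogonalGroup (Fin n) F)).map ι) →
        SemidirectProduct.inl f ∈ G) :
    HasRank G 2 (t * (n - 1)) ∧ HomologyNe G 2 (t * (n - 1) - 1) := by
  classical
  obtain ⟨m, rfl⟩ : ∃ m, n = m + 2 := ⟨n - 2, by omega⟩
  have h2 := two_ne F hq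
  let φ₀ : Matrix.specialOrthogonalGroup (Fin (m + 2)) F →*
      Matrix (Fin (m + 2)) (Fin (m + 2)) F := (Matrix.specialOrthogonalGroup _ F).subtype
  have hφ₀ : Function.Injective φ₀ := Subtype.val_injective
  obtain ⟨s, α, u, hα, hu, hsi, hse⟩ := good_of hA hS hCo hSi hSe F m
    (commutator (Matrix.specialOrthogonalGroup (Fin (m + 2)) F))
    (φ₀.comp (Subgroup.subtype _)) h2 (by omega) (hφ₀.comp (Subgroup.subtype_injective _))
    (fun A hA a ha => by
      obtain ⟨g, hg, h⟩ := hCm F (m + 2) A hn hA a ha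
      exact ⟨⟨g, hg⟩, h⟩)
  exact wreath_of hC hPA hPS hPP hI hW _ _ H m s α u hα hu hsi hse (ι.comp (Subgroup.subtype _))
    (hι.comp (Subgroup.subtype_injective _))
    (rank_odd ι hι hN ho _ (hR F (m + 2) _ φ₀ h2 hn hφ₀
      fun g => (Matrix.mem_specialOrthogonalGroup_iff.1 g.2).2)) t ht G
    fun f => hG _ fun i => ⟨(f i).1, (f i).2, rfl⟩

end Vale.Agent.P240
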