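import Vale.Agent.P240.Main3

namespace Vale.Agent.P240

open Matrix

theorem ext_of (hAll : AllStmt) (F E : Type) [Field F] [Fintype F] [Field E] [Finite E]
    (f : F →+* E) (m : ℕ) (hn : Odd (m + 3)) (h2 : (2 : F) ≠ 0)
    (hq : 4 * (m + 1) + 23 ≤ Fintype.card F) (K : Subgroup (SpecialLinearGroup (Fin (m + 3)) E))
    (hK1 : ∀ (g : SpecialLinearGroup (Fin (m + 3)) E) (b : Matrix (Fin (m + 3)) (Fin (m + 3)) F),
      g.1 = b.map f → g.1 * g.1ᵀ = 1 → g ∈ K)
    (c : E) (hc0 : c ≠ 0) (hc : c ^ 2 ≠ 1)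
    (hK2 : ∀ (g : SpecialLinearGroup (Fin (m + 3)) E)
      (a b : Matrix (Fin (m + 3)) (Fin (m + 3)) F), (a.map f)ᵀ = a.map f → (b.map f)ᵀ = b.map f →
      g.1 = 1 + (c - 1) • a.map f + (c⁻¹ - 1) • b.map f →
      (1 + (c⁻¹ - 1) • a.map f + (c - 1) • b.map f) * g.1 = 1 → g ∈ K) : ExtQD K := by
  classical
  intro H _ _ ι hι
  let φ : K →* Matrix (Fin (m + 3)) (Fin (m + 3)) E :=
    { toFun := fun g => g.1.1, map_one' := rfl, map_mul' := fun _ _ => rfl }
  have hφ : ∀ k : K, φ k = k.1.1 := fun _ => rfl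
  have h2E : (2 : E) ≠ 0 := fun h => h2 (f.injective (by rw [map_ofNat, h, map_zero]))
  have hφi : Function.Injective φ := fun a b h => Subtype.ext (Subtype.ext h)
  have hB : ∀ (G : Type) [Group G] (κ : K →* G), (∀ k, κ k = 1 → ι k = 1) →
      Base E (m + 3) K G φ κ := by
    intro G _ κ hκ
    refine ⟨h2E, hn, hφi, fun k => k.1.2, fun k hk => ?_⟩
    obtain ⟨r, -, hr⟩ := Matrix.SpecialLinearGroup.mem_center_iff.1 (hι k (hκ k hk))
    exact ⟨r, by rw [hφ, ← hr, scalar_apply, smul_one_eq_diagonal]⟩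
  have hAll' := hAll
  obtain ⟨hA, hS, hCo, hSi, hSe, hCm, hC, hPA, hPS, hPP, hI, hW, -, -, -, -, -, hO, hL, -, -, -,
    -, -, -, -, hFam, hD, hR⟩ := hAll'
  refine ⟨fun hN ho => ?_, fun γ B hγ hγ2 hγ3 hBm hN ho => ?_⟩
  · let φ₀ : Matrix.specialOrthogonalGroup (Fin (m + 3)) F →*
        Matrix (Fin (m + 3)) (Fin (m + 3)) F := (Matrix.specialOrthogonalGroup _ F).subtype
    have hφ₀ : Function.Injective φ₀ := Subtype.val_injective
    obtain ⟨s, α, u, hα, hu, hsi, hse⟩ := good_of hA hS hCo hSi hSe F (m + 1)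
      (Matrix.specialOrthogonalGroup (Fin (m + 3)) F) φ₀ h2 (by omega) hφ₀
      (fun A hA a ha => by
        obtain ⟨g, -, h⟩ := hCm F (m + 3) A hn hA a ha
        exact ⟨g, h⟩)
    have hdet : ∀ g : Matrix.specialOrthogonalGroup (Fin (m + 3)) F, (g.1.map f).det = 1 := by
      intro g
      have := (Matrix.mem_specialOrthogonalGroup_iff.1 g.2).2
      rw [← RingHom.mapMatrix_apply, ← RingHom.map_det, this, map_one]
    have horth : ∀ g : Matrix.specialOrthogonalGroup (Fin (m + 3)) F,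
        g.1.map f * (g.1.map f)ᵀ = 1 := by
      intro g
      have := (Matrix.mem_orthogonalGroup_iff _ _).1 (Matrix.mem_specialOrthogonalGroup_iff.1 g.2).1
      rw [← Matrix.transpose_map, ← Matrix.map_mul, this, Matrix.map_one _ (map_zero f) (map_one f)]
    let j : Matrix.specialOrthogonalGroup (Fin (m + 3)) F →* K :=
      MonoidHom.mk' (fun g => ⟨⟨g.1.map f, hdet g⟩, hK1 _ g.1 rfl (horth g)⟩) fun a b =>
        Subtype.ext (Subtype.ext Matrix.map_mul)
    have hj : Function.Injective (ι.comp j) := by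
      intro a b h
      have h1 := hO E (m + 3) K H φ ι (hB H ι fun _ h => h) (j a) (j b) (horth a) (horth b) h
      have h3 : a.1.map f = b.1.map f := congrArg φ h1
      exact Subtype.ext (Matrix.map_injective f.injective h3)
    intro t ht G hG
    exact wreath_of hC hPA hPS hPP hI hW _ _ H (m + 1) s α u hα hu hsi hse (ι.comp j) hj
      (fun A hA => hL E (m + 3) K H φ ι (hB H ι fun _ h => h) A hA (le_of_odd _ hN ho A hA))
      t ht G fun f => hG _ fun i => ⟨j (f i), rfl⟩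
  · obtain ⟨Fa, hF0, hF1, hF2⟩ := hFam F E f (m + 1) h2 hq
    have hγB : γ ∈ B := (hBm γ).2 (Or.inr (by rw [hγ2]; exact one_mem _))
    let κ : K →* B := ι.codRestrict B fun k => (hBm _).2 (Or.inl ⟨k, rfl⟩)
    have key := graph_of hAll E (m + 1) (by omega) K B φ κ ⟨γ, hγB⟩
      (hB B κ fun k h => congrArg Subtype.val h)
      (fun ⟨k, hk⟩ => hγ ⟨k, congrArg Subtype.val hk⟩) (Subtype.ext hγ2)
      (fun k => by
        obtain ⟨l, h1, h3⟩ := hγ3 k
        exact ⟨l, Subtype.ext h1, h3⟩)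
      (fun g => by
        rcases (hBm g.1).1 g.2 with ⟨k, hk⟩ | ⟨k, hk⟩
        · exact Or.inl ⟨k, Subtype.ext hk⟩
        · exact Or.inr ⟨k, Subtype.ext hk⟩)
      Fa hF0
      (fun A hA => ⟨(hF1 A hA).1, fun a ha => by
        obtain ⟨b, rfl⟩ := (hF1 A hA).2 a ha
        obtain ⟨r1, r2, r3⟩ := hR E (m + 3) _ hn ((hF1 A hA).1.2.1 _ ha)
        refine ⟨⟨⟨_, r1⟩, hK1 _ ((2 : F) • b - 1) ?_ ?_⟩, rfl⟩
        · ext i j
          simp [Matrix.one_apply, apply_ite f, map_ofNat]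
        · change _ * ((2 : E) • b.map f - 1)ᵀ = 1
          rw [transpose_sub, transpose_smul, r2, transpose_one]
          exact r3⟩)
      hF2
      (fun A hA => by
        obtain ⟨a, ha, b, hb, D, d1, d2, d3, d4, d5⟩ := hD E m A c (hF1 A hA).1 hc0 hc
        obtain ⟨a', rfl⟩ := (hF1 A hA).2 a ha
        obtain ⟨b', rfl⟩ := (hF1 A hA).2 b hb
        exact ⟨⟨⟨D, d2⟩, hK2 _ a' b' (hR E (m + 3) _ hn ((hF1 A hA).1.2.1 _ ha)).2.1
          (hR E (m + 3) _ hn ((hF1 A hA).1.2.1 _ hb)).2.1 d1 d5⟩, d3, d4⟩)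
      H B.subtype B.subtype_injective (by rwa [Subgroup.range_subtype])
      (by rwa [Subgroup.range_subtype])
    rwa [Subgroup.range_subtype] at key

theorem exists_c (F : Type) [Field F] [Fintype F] (h : 4 ≤ Fintype.card F) :
    ∃ c : F, c ≠ 0 ∧ c ^ 2 ≠ 1 := by
  classical
  by_contra hc
  push Not at hc
  have : (Finset.univ : Finset F) ⊆ {0, 1, -1} := fun x _ => by
    by_cases h0 : x = 0
    · simp [h0]
    · rcases sq_eq_one_iff.1 (hc x h0) with h | h <;> simp [h]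
  have h1 := (Finset.card_le_card this).trans Finset.card_le_three
  rw [Finset.card_univ] at h1
  omega

theorem exists_c' (E : Type) [Field E] [StarRing E] (h2 : (2 : E) ≠ 0) (x : E)
    (hx : star x ≠ x) : ∃ c : E, c ≠ 0 ∧ c ^ 2 ≠ 1 ∧ star c = c⁻¹ := by
  have key : ∀ y : E, star y ≠ y → star y ≠ -y → ∃ c : E, c ≠ 0 ∧ c ^ 2 ≠ 1 ∧ star c = c⁻¹ := by
    intro y h1 h3
    have hy : y ≠ 0 := fun h => h1 (by rw [h, star_zero])
    have hy' : star y ≠ 0 := fun h => hy (star_eq_zero.1 h)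
    refine ⟨star y / y, div_ne_zero hy' hy, fun h => ?_, by rw [star_div₀, star_star, inv_div]⟩
    rw [div_pow, div_eq_one_iff_eq (pow_ne_zero _ hy)] at h
    rcases sq_eq_sq_iff_eq_or_eq_neg.1 h with h | h
    · exact h1 h
    · exact h3 h
  by_cases h : star x = -x
  · refine key (x + 1) (fun h1 => hx ?_) fun h1 => h2 ?_
    · rw [star_add, star_one] at h1
      exact add_right_cancel h1
    · rw [star_add, star_one, h] at h1
      linear_combination h1
  · exact key x hx h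

theorem lin_of (hAll : AllStmt) (F : Type) [Field F] [Fintype F] (n : ℕ) (hn : Odd n)
    (h3 : 3 ≤ n) (hq : Odd (Fintype.card F)) (hqn : 4 * n + 15 ≤ Fintype.card F) :
    ExtQD (⊤ : Subgroup (SpecialLinearGroup (Fin n) F)) := by
  obtain ⟨m, rfl⟩ : ∃ m, n = m + 3 := ⟨n - 3, by omega⟩
  obtain ⟨c, h0, h1⟩ := exists_c F (by omega)
  exact ext_of hAll F F (RingHom.id F) m hn (two_ne F hq) (by omega) ⊤
    (fun _ _ _ _ => trivial) c h0 h1 fun _ _ _ _ _ _ _ => trivial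

theorem uni_of (hAll : AllStmt) (F : Type) [Field F] [Fintype F] (n : ℕ) (hn : Odd n)
    (h3 : 3 ≤ n) (hq : Odd (Fintype.card F)) (hqn : 4 * n + 15 ≤ Fintype.card F)
    (E : Type) [Field E] [Finite E] [StarRing E] [Algebra F E]
    (hs : ∀ x : F, star (algebraMap F E x) = algebraMap F E x) (hx : ∃ x : E, star x ≠ x)
    (K : Subgroup (SpecialLinearGroup (Fin n) E))
    (hK : ∀ g, g ∈ K ↔ g.1 ∈ Matrix.unitaryGroup (Fin n) E) : ExtQD K := by
  obtain ⟨m, rfl⟩ : ∃ m, n = m + 3 := ⟨n - 3, by omega⟩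
  have h2 := two_ne F hq
  have h2E : (2 : E) ≠ 0 := fun h =>
    h2 ((algebraMap F E).injective (by rw [map_ofNat, h, map_zero]))
  obtain ⟨x, hx⟩ := hx
  obtain ⟨c, h0, h1, hc⟩ := exists_c' E h2E x hx
  have hst : ∀ b : Matrix (Fin (m + 3)) (Fin (m + 3)) F,
      star (b.map (algebraMap F E)) = (b.map (algebraMap F E))ᵀ := fun b => by
    ext i j
    simp [hs]
  refine ext_of hAll F E (algebraMap F E) m hn h2 (by omega) K (fun g b e h => ?_) c h0 h1
    fun g a b ha hb e h => ?_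
  · rw [hK, Matrix.mem_unitaryGroup_iff, e, hst, ← e, h]
  · rw [hK, Matrix.mem_unitaryGroup_iff', ← h]
    congr 1
    rw [e, star_add, star_add, star_one, star_smul, star_smul, hst, hst, ha, hb, star_sub, star_sub,
      star_one, star_inv₀, hc, inv_inv]

end Vale.Agent.P240
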