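import Vale.Agent.P240.Main4

namespace Vale.Agent.P240

open Matrix

/-- The matrix of an element of a subgroup of the special linear group. -/
def mat {E : Type} [Field E] {n : ℕ} (K : Subgroup (SpecialLinearGroup (Fin n) E)) :
    K →* Matrix (Fin n) (Fin n) E :=
  { toFun := fun g => g.1.1, map_one' := rfl, map_mul' := fun _ _ => rfl }

theorem base_of {E : Type} [Field E] {n : ℕ} (hn : Odd n) (h2 : (2 : E) ≠ 0)
    (K : Subgroup (SpecialLinearGroup (Fin n) E)) (G : Type) [Group G] (κ : K →* G)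
    (hκ : ∀ k, κ k = 1 → k.1 ∈ Subgroup.center (SpecialLinearGroup (Fin n) E)) :
    Base E n K G (mat K) κ := by
  refine ⟨h2, hn, fun a b h => Subtype.ext (Subtype.ext h), fun k => k.1.2, fun k hk => ?_⟩
  obtain ⟨r, -, hr⟩ := Matrix.SpecialLinearGroup.mem_center_iff.1 (hκ k hk)
  exact ⟨r, by rw [show mat K k = k.1.1 from rfl, ← hr, scalar_apply, smul_one_eq_diagonal]⟩

theorem two_map {F E : Type} [Field F] [Field E] (f : F →+* E) (h2 : (2 : F) ≠ 0) :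
    (2 : E) ≠ 0 := fun h => h2 (f.injective (by rw [map_ofNat, h, map_zero]))

theorem ext0_of (F E : Type) [Field F] [Fintype F] [Field E] [Finite E]
    (f : F →+* E) (m : ℕ) (hn : Odd (m + 2)) (h2 : (2 : F) ≠ 0)
    (hq : 2 * m + 7 ≤ Fintype.card F) (K : Subgroup (SpecialLinearGroup (Fin (m + 2)) E))
    (hK1 : ∀ (g : SpecialLinearGroup (Fin (m + 2)) E),
      ∀ b ∈ commutator (Matrix.specialOrthogonalGroup (Fin (m + 2)) F),
      g.1 = b.1.map f → g.1 * g.1ᵀ = 1 → g ∈ K) : Ext0 K := by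
  classical
  intro H _ _ ι hι hI
  have hB := base_of hn (two_map f h2) K H ι hι
  let φ₀ : Matrix.specialOrthogonalGroup (Fin (m + 2)) F →*
      Matrix (Fin (m + 2)) (Fin (m + 2)) F := (Matrix.specialOrthogonalGroup _ F).subtype
  have hφ₀ : Function.Injective φ₀ := Subtype.val_injective
  obtain ⟨s, α, u, hα, hu, hsi, hse⟩ := good_of alt_pf sum_pf (count_pf (ext_pf circ_pf))
    (simp_pf (mem_pf sum_pf)) (sep_pf sum_pf (mem_pf sum_pf)) F m
    (commutator (Matrix.specialOrthogonalGroup (Fin (m + 2)) F))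
    (φ₀.comp (Subgroup.subtype _)) h2 hq (hφ₀.comp (Subgroup.subtype_injective _))
    (fun A hA a ha => by
      obtain ⟨g, hg, h⟩ := comm_pf sum_pf F (m + 2) A hn hA a ha
      exact ⟨⟨g, hg⟩, h⟩)
  have hdet : ∀ g : Matrix.specialOrthogonalGroup (Fin (m + 2)) F, (g.1.map f).det = 1 := by
    intro g
    have := (Matrix.mem_specialOrthogonalGroup_iff.1 g.2).2
    rw [← RingHom.mapMatrix_apply, ← RingHom.map_det, this, map_one]
  have horth : ∀ g : Matrix.specialOrthogonalGroup (Fin (m + 2)) F,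
      g.1.map f * (g.1.map f)ᵀ = 1 := by
    intro g
    have := (Matrix.mem_orthogonalGroup_iff _ _).1 (Matrix.mem_specialOrthogonalGroup_iff.1 g.2).1
    rw [← Matrix.transpose_map, ← Matrix.map_mul, this, Matrix.map_one _ (map_zero f) (map_one f)]
  let j : commutator (Matrix.specialOrthogonalGroup (Fin (m + 2)) F) →* K :=
    MonoidHom.mk' (fun g => ⟨⟨g.1.1.map f, hdet g⟩, hK1 _ g.1 g.2 rfl (horth g)⟩) fun a b =>
      Subtype.ext (Subtype.ext Matrix.map_mul)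
  have hj : Function.Injective (ι.comp j) := by
    intro a b h
    have h1 := oinj_pf E (m + 2) K H _ ι hB (j a) (j b) (horth a) (horth b) h
    have h3 : a.1.1.map f = b.1.1.map f := congrArg (mat K) h1
    exact Subtype.ext (Subtype.ext (Matrix.map_injective f.injective h3))
  intro t ht G hG
  exact wreath_of cyc2_pf prodA_pf prodS_pf (prodP_pf prodS_pf) inh_pf wrank_pf _ _ H m s α u hα
    hu hsi hse (ι.comp j) hj
    (fun A hA => lift_pf rank_pf E (m + 2) K H _ ι hB A hA (le_of_in _ hI A hA))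
    t ht G fun f => hG _ fun i => ⟨j (f i), rfl⟩

theorem graph_data (E : Type) [Field E] [DecidableEq E] (m : ℕ) (hm : 1 ≤ m)
    (K G : Type) [Group K] [Finite K] [Group G] [Fintype G]
    (φ : K →* Matrix (Fin (m + 2)) (Fin (m + 2)) E) (ι : K →* G) (γ : G)
    (hB : Base E (m + 2) K G φ ι) (hγ : γ ∉ ι.range) (hγ2 : γ * γ = 1)
    (hγ3 : ∀ k, ∃ l, γ * ι k * γ⁻¹ = ι l ∧ φ l * (φ k)ᵀ = 1)
    (Fa : Finset (Finset (Matrix (Fin (m + 2)) (Fin (m + 2)) E))) (hF0 : Fa.Nonempty)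
    (hF1 : ∀ A ∈ Fa, IsFrame A ∧ ∀ a ∈ A, ∃ k, φ k = (2 : E) • a - 1)
    (hF2 : ∀ A ∈ Fa, ∀ τ, τ ⊆ A → τ.card = m → m + 6 ≤ (Fa.filter fun B => τ ⊆ B).card)
    (hF3 : ∀ A ∈ Fa, ∃ d : K, (∀ p ∈ A, φ d * p = p * φ d) ∧
      ∀ e : E, φ d * (φ d)ᵀ ≠ e • (1 : Matrix (Fin (m + 2)) (Fin (m + 2)) E)) :
    Data G (m + 1) := by
  classical
  obtain ⟨hA, -, -, -, -, -, -, -, -, -, -, -, g1, g2, g3, g4, g5, -, -, c1, c2, c3a,
    c3b, c4, c5, -, -, -, -⟩ := all_pf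
  haveI := Fintype.ofFinite K
  let s : Matrix (Fin (m + 2)) (Fin (m + 2)) E → K := fun a =>
    if h : ∃ k, φ k = (2 : E) • a - 1 then h.choose else 1
  have hs : ∀ a, (∃ k, φ k = (2 : E) • a - 1) → φ (s a) = (2 : E) • a - 1 := fun a h => by
    simp only [s, dif_pos h]
    exact h.choose_spec
  let X : Finset (G × Finset G) := (Finset.univ ×ˢ Fa).image fun z : K × _ =>
    (ι z.1 * γ * (ι z.1)⁻¹, z.2.image fun a => ι (z.1 * s a * z.1⁻¹))
  have hc : Conc E m K G φ ι γ s Fa X := by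
    refine ⟨hB, hγ, hγ2, hγ3, fun a k h => hB.2.2.1 ((hs a ⟨k, h⟩).trans h.symm),
      fun A hA => ⟨(hF1 A hA).1, fun a ha => hs a ((hF1 A hA).2 a ha)⟩, fun x => ?_⟩
    simp only [X, Finset.mem_image, Finset.mem_product, Finset.mem_univ, true_and]
    constructor
    · rintro ⟨z, hz, rfl⟩
      exact ⟨z.1, z.2, hz, rfl⟩
    · rintro ⟨g, A, hA, rfl⟩
      exact ⟨(g, A), hA, rfl⟩
  have s3 : Sys3 m X := by
    intro x hx y hy hxy t₀ t h0 h1 h2 h3 h4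
    obtain ⟨g, A, B, hA, hB', hsA, hsB, e1, e2⟩ := c3a E m K G φ ι γ s Fa X hc x hx y hy hxy
    obtain ⟨h5, h6⟩ := c3b E m K G φ ι s g A B hB hA hB' hsA hsB t₀ t h0 h1 (e1 ▸ h2) (e2 ▸ h3) h4
    exact ⟨by rw [e1, e2, h5], h6⟩
  exact ggood_of hA g1 g2 g3 g4 g5 G ι.range m hm X
    ((Finset.univ_nonempty.product hF0).image _) (c1 E m K G φ ι γ s Fa X hc)
    (c2 E m K G φ ι γ s Fa X hc) s3 (c4 E m K G φ ι γ s Fa X hc hF2)
    (c5 E m K G φ ι γ s Fa X hc hF3)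

theorem rank1_of (E : Type) [Field E] (m : ℕ) (K G : Type) [Group K] [Finite K] [Group G]
    [Finite G] (φ : K →* Matrix (Fin (m + 2)) (Fin (m + 2)) E) (ι : K →* G) (γ : G)
    (hB : Base E (m + 2) K G φ ι) (hG : ∀ g, g ∈ ι.range ∨ g * γ ∈ ι.range) (A : Subgroup G)
    (hA : IsElemAb 2 A) : Nat.card A ≤ 2 ^ (m + 1 + 1) := by
  rw [pow_succ]
  exact idx2_pf G ι.range γ _ Nat.one_le_two_pow hG (lift_pf rank_pf E (m + 2) K G φ ι hB) A hA

theorem ext1_of (F E : Type) [Field F] [Fintype F] [Field E] [Finite E]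
    (f : F →+* E) (m : ℕ) (hn : Odd (m + 3)) (h2 : (2 : F) ≠ 0)
    (hq : 4 * (m + 1) + 23 ≤ Fintype.card F) (K : Subgroup (SpecialLinearGroup (Fin (m + 3)) E))
    (hK1 : ∀ (g : SpecialLinearGroup (Fin (m + 3)) E) (b : Matrix (Fin (m + 3)) (Fin (m + 3)) F),
      g.1 = b.map f → g.1 * g.1ᵀ = 1 → g ∈ K)
    (c : E) (hc0 : c ≠ 0) (hc : c ^ 2 ≠ 1)
    (hK2 : ∀ (g : SpecialLinearGroup (Fin (m + 3)) E)
      (a b : Matrix (Fin (m + 3)) (Fin (m + 3)) F), (a.map f)ᵀ = a.map f → (b.map f)ᵀ = b.map f →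
      g.1 = 1 + (c - 1) • a.map f + (c⁻¹ - 1) • b.map f →
      (1 + (c⁻¹ - 1) • a.map f + (c - 1) • b.map f) * g.1 = 1 → g ∈ K) :
    Ext1 K fun k l => l * kᵀ = 1 := by
  classical
  intro H _ _ ι γ B hι hγ hγ2 hγ3 hBm hI
  haveI := Fintype.ofFinite B
  have hR := rdet_pf
  obtain ⟨Fa, hF0, hF1, hF2⟩ := fam_pf (ext_pf circ_pf) (count_pf (ext_pf circ_pf)) F E f (m + 1)
    h2 hq
  have hγB : γ ∈ B := (hBm γ).2 (Or.inr (by rw [hγ2]; exact one_mem _))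
  let κ : K →* B := ι.codRestrict B fun k => (hBm _).2 (Or.inl ⟨k, rfl⟩)
  have hB := base_of hn (two_map f h2) K B κ fun k h => hι k (congrArg Subtype.val h)
  refine wqd_of H B (m + 2) hI (graph_data E (m + 1) (by omega) K B (mat K) κ ⟨γ, hγB⟩ hB
    (fun ⟨k, hk⟩ => hγ ⟨k, congrArg Subtype.val hk⟩) (Subtype.ext hγ2)
    (fun k => by
      obtain ⟨l, h1, h3⟩ := hγ3 k
      exact ⟨l, Subtype.ext h1, h3⟩)
    Fa hF0
    (fun A hA => ⟨(hF1 A hA).1, fun a ha => by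
      obtain ⟨b, rfl⟩ := (hF1 A hA).2 a ha
      obtain ⟨r1, r2, r3⟩ := hR E (m + 3) _ hn ((hF1 A hA).1.2.1 _ ha)
      refine ⟨⟨⟨_, r1⟩, hK1 _ ((2 : F) • b - 1) ?_ ?_⟩, rfl⟩
      · ext i j
        simp [Matrix.one_apply, apply_ite f, map_ofNat]
      · change _ * ((2 : E) • b.map f - 1)ᵀ = 1
        rw [transpose_sub, transpose_smul, r2, transpose_one]
        exact r3⟩)
    hF2
    (fun A hA => by
      obtain ⟨a, ha, b, hb, D, d1, d2, d3, d4, d5⟩ := dd_pf E m A c (hF1 A hA).1 hc0 hc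
      obtain ⟨a', rfl⟩ := (hF1 A hA).2 a ha
      obtain ⟨b', rfl⟩ := (hF1 A hA).2 b hb
      exact ⟨⟨⟨D, d2⟩, hK2 _ a' b' (hR E (m + 3) _ hn ((hF1 A hA).1.2.1 _ ha)).2.1
        (hR E (m + 3) _ hn ((hF1 A hA).1.2.1 _ hb)).2.1 d1 d5⟩, d3, d4⟩))
    (rank1_of E (m + 1) K B (mat K) κ ⟨γ, hγB⟩ hB fun g => ?_)
  rcases (hBm g.1).1 g.2 with ⟨k, hk⟩ | ⟨k, hk⟩
  · exact Or.inl ⟨k, Subtype.ext hk⟩
  · exact Or.inr ⟨k, Subtype.ext hk⟩

end Vale.Agent.P240
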