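import Vale.Agent.P240.Stm4

namespace Vale.Agent.P240

open Matrix

theorem xcomm_pf (hR : RDetStmt) : XCommStmt := by
  intro E _ _ m K G _ _ _ φ ι δ s X γ hC hγδ hγ x hx
  obtain ⟨hB, -, hδ, -, hs, hX⟩ := hC
  have key : ∀ k, φ k * (φ k)ᵀ = 1 → γ * ι k = ι k * γ := by
    intro k hk
    obtain ⟨l, h1, h2⟩ := hγ k
    have h3 : (φ k)ᵀ * φ k = 1 := mul_eq_one_comm.1 hk
    have h4 : φ l = φ k := by
      rw [← mul_one (φ l), ← h3, ← mul_assoc, h2, one_mul]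
    rw [hB.2.2.1 h4] at h1
    exact mul_inv_eq_iff_eq_mul.1 h1
  obtain ⟨k, A, hk, -, hA, -, rfl⟩ := (hX x).1 hx
  refine ⟨?_, ⟨k, ?_⟩, fun a ha => ?_⟩
  · show γ * (ι k * δ) = ι k * δ * γ
    rw [← mul_assoc, key k hk, mul_assoc, hγδ, mul_assoc]
  · show ι k = ι k * δ * δ
    rw [mul_assoc, hδ, mul_one]
  · obtain ⟨b, hb, rfl⟩ := Finset.mem_image.1 ha
    obtain ⟨-, h1, h2⟩ := hR E (m + 2) b hB.2.1 (hA.2.1 b hb)
    refine key _ ?_
    rw [hs A hA b hb, transpose_sub, transpose_smul, transpose_one, h1, h2]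

end Vale.Agent.P240
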