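import Vale.Agent.P240.Stm4
import Vale.Agent.P240.DD

namespace Vale.Agent.P240

open Matrix

namespace XFourAux

open DDAux

variable {E : Type} [Field E] {n : ℕ}

def Dm (a b : Matrix (Fin n) (Fin n) E) (c : E) : Matrix (Fin n) (Fin n) E :=
  1 + (c - 1) • a + (c⁻¹ - 1) • b

theorem dm_det {a b : Matrix (Fin n) (Fin n) E} (ha : IsPt a) (hb : IsPt b) (h1 : a * b = 0)
    {c : E} (hc : c ≠ 0) : (Dm a b c).det = 1 := by
  have e : Dm a b c = (1 + (c - 1) • a) * (1 + (c⁻¹ - 1) • b) := by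
    simp only [Dm, add_mul, mul_add, one_mul, mul_one, smul_mul_assoc, mul_smul_comm, h1,
      smul_zero, add_zero]
  rw [e, det_mul, pt_det ha, pt_det hb]
  field_simp
  ring

theorem dm_tr {a b : Matrix (Fin n) (Fin n) E} (ha : IsPt a) (hb : IsPt b) (c : E) :
    (Dm a b c)ᵀ = Dm a b c := by
  rw [Dm, transpose_add, transpose_add, transpose_one, transpose_smul, transpose_smul,
    pt_tr ha, pt_tr hb]

theorem dm_p {a b p : Matrix (Fin n) (Fin n) E} (ha : a * p = 0) (hb : b * p = 0) (c : E) :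
    Dm a b c * p = p := by
  simp only [Dm, add_mul, one_mul, smul_mul_assoc, ha, hb, smul_zero, add_zero]

theorem dm_a {a b : Matrix (Fin n) (Fin n) E} (ha : a * a = a) (hb : b * a = 0) (c : E) :
    Dm a b c * a = c • a := by
  simp only [Dm, add_mul, one_mul, smul_mul_assoc, ha, hb, smul_zero, add_zero]
  module

theorem dm_star [StarRing E] {a b k : Matrix (Fin n) (Fin n) E} (hk : k * kᵀ = 1)
    (ha : k * a.map star * kᵀ = a) (hb : k * b.map star * kᵀ = b) {c : E} (hc : star c = c) :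
    k * (Dm a b c).map star * kᵀ = Dm a b c := by
  have e : (Dm a b c).map star = Dm (a.map star) (b.map star) c := by
    ext i j
    simp [Dm, Matrix.one_apply, apply_ite star, hc]
  rw [e]
  simp only [Dm, add_mul, mul_add, mul_one, smul_mul_assoc, mul_smul_comm, hk, ha, hb]

end XFourAux

open XFourAux DDAux in
theorem xfour_pf (_hR : RDetStmt) : XFourStmt := by
  intro F E _ _ _ _ f m K G _ _ _ φ ι δ s X γ hC hf hF hm hsur hδ hγ x hx
  classical
  obtain ⟨⟨-, -, hinj, -, hker⟩, -, -, -, hs, hX⟩ := hC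
  obtain ⟨k, A, hk, -, hA, hfix, rfl⟩ := (hX x).1 hx
  have hsA := hs A hA
  obtain ⟨hcard, hpt, horth⟩ := hA
  obtain ⟨a, b, p, ha, hb, hp, hab, hap, hbp⟩ :=
    (Finset.two_lt_card_iff (s := A)).mp (by rw [hcard]; omega)
  have hcomm : ∀ x ∈ A, ∀ y ∈ A, x * y = y * x := by
    intro x hx y hy
    by_cases hxy : x = y
    · rw [hxy]
    · rw [horth x hx y hy hxy, horth y hy x hx (Ne.symm hxy)]
  have hd : ∀ c : F, ∃ d : K, c ≠ 0 → φ d = Dm a b (f c) := fun c => by
    by_cases hc : c = 0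
    · exact ⟨1, fun h => absurd hc h⟩
    · obtain ⟨d, hd⟩ := hsur _ (dm_det (hpt a ha) (hpt b hb) (horth a ha b hb hab)
        ((map_ne_zero f).2 hc))
      exact ⟨d, fun _ => hd⟩
  choose d hd using hd
  refine ⟨(Finset.univ.erase 0).image fun c => ι (d c), fun y hy => ?_, ?_⟩
  · obtain ⟨c, hc, rfl⟩ := Finset.mem_image.1 hy
    have e := hd c (Finset.mem_erase.1 hc).1
    refine ⟨⟨_, rfl⟩, Prod.ext ?_ ?_⟩
    · obtain ⟨l, l1, l2⟩ := hδ (d c)
      have e1 : k * l = d c * k := hinj (by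
        rw [map_mul, map_mul, l2, e, ← dm_star hk (hfix a ha) (hfix b hb) (hf c),
          dm_star hk (hfix a ha) (hfix b hb) (hf c)]
        conv_rhs => rw [← dm_star hk (hfix a ha) (hfix b hb) (hf c)]
        rw [Matrix.mul_assoc _ _ (φ k), mul_eq_one_comm.1 hk, Matrix.mul_one])
      show ι (d c) * (ι k * δ) * (ι (d c))⁻¹ = ι k * δ
      rw [← mul_assoc, ← map_mul, ← e1, map_mul, ← l1]
      group
    · show (A.image fun a => ι (s a)).image (fun z => ι (d c) * z * (ι (d c))⁻¹) = _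
      rw [Finset.image_image]
      refine Finset.image_congr fun q hq => ?_
      have e1 : d c * s q = s q * d c := hinj (by
        rw [map_mul, map_mul, hsA q hq, e]
        simp only [Dm, add_mul, mul_add, one_mul, mul_one, smul_mul_assoc, mul_smul_comm,
          mul_sub, sub_mul, hcomm a ha q hq, hcomm b hb q hq]
        module)
      show ι (d c) * ι (s q) * (ι (d c))⁻¹ = ι (s q)
      rw [← map_mul, e1, map_mul, mul_inv_cancel_right]
  · rw [Finset.image_image]
    have h8 : 8 ≤ (Finset.univ.erase (0 : F)).card := by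
      rw [Finset.card_erase_of_mem (Finset.mem_univ _), Finset.card_univ]
      omega
    refine Nat.le_of_mul_le_mul_left (h8.trans (Finset.card_le_mul_card_image _ 2 ?_)) two_pos
    intro z hz
    obtain ⟨c', hc', rfl⟩ := Finset.mem_image.1 hz
    refine le_trans (Finset.card_le_card fun c hc => ?_) (Finset.card_le_two (a := c') (b := -c'))
    obtain ⟨hc, e1⟩ := Finset.mem_filter.1 hc
    have e1 : ι (d c) * γ * (ι (d c))⁻¹ = ι (d c') * γ * (ι (d c'))⁻¹ := e1
    have q := hd c (Finset.mem_erase.1 hc).1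
    have q' := hd c' (Finset.mem_erase.1 hc').1
    obtain ⟨h, hh⟩ : ∃ h, d c = d c' * h := ⟨(d c')⁻¹ * d c, by group⟩
    obtain ⟨l, l1, l2⟩ := hγ h
    have e2 : γ * ι h * γ⁻¹ = ι h := by
      calc γ * ι h * γ⁻¹ = (ι (d c'))⁻¹ * (ι (d c') * γ * (ι (d c'))⁻¹) * ι (d c') * ι h * γ⁻¹ := by
            group
        _ = ι h := by rw [← e1, hh, map_mul]; group
    obtain ⟨e, he⟩ := hker (l⁻¹ * h) (by rw [map_mul, map_inv, ← l1, e2, inv_mul_cancel])
    have e3 : φ h = e • φ l := by
      calc φ h = φ l * φ (l⁻¹ * h) := by rw [← map_mul, mul_inv_cancel_left]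
        _ = e • φ l := by rw [he, Matrix.mul_smul, Matrix.mul_one]
    have e4 : φ h * (φ h)ᵀ = e • (1 : Matrix (Fin (m + 2)) (Fin (m + 2)) E) := by
      calc φ h * (φ h)ᵀ = (e • φ l) * (φ h)ᵀ := by rw [← e3]
        _ = _ := by rw [Matrix.smul_mul, l2]
    have e5 : Dm a b (f c) * Dm a b (f c) = e • (Dm a b (f c') * Dm a b (f c')) := by
      calc Dm a b (f c) * Dm a b (f c) = φ (d c) * (φ (d c))ᵀ := by
            rw [q, dm_tr (hpt a ha) (hpt b hb)]
        _ = φ (d c') * (φ h * (φ h)ᵀ) * (φ (d c'))ᵀ := by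
            rw [hh, map_mul, transpose_mul]
            simp only [Matrix.mul_assoc]
        _ = _ := by
            rw [e4, q', dm_tr (hpt a ha) (hpt b hb), Matrix.mul_smul, Matrix.mul_one,
              Matrix.smul_mul]
    have p1 := dm_p (horth a ha p hp hap) (horth b hb p hp hbp)
    have p2 := dm_a (pt_sq (hpt a ha)) (horth b hb a ha hab.symm)
    have g1 := congrArg (· * p) e5
    have g2 := congrArg (· * a) e5
    simp only [Matrix.smul_mul, Matrix.mul_assoc, p1] at g1
    simp only [Matrix.smul_mul, Matrix.mul_assoc, p2, Matrix.mul_smul, smul_smul] at g2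
    have f1 : (1 : E) = e := inj (pt_ne (hpt p hp)) (by rw [one_smul]; exact g1)
    have f2 := inj (pt_ne (hpt a ha)) g2
    rw [← f1, one_mul, ← map_mul, ← map_mul] at f2
    rcases mul_self_eq_mul_self_iff.1 (f.injective f2) with r | r <;> simp [r]

end Vale.Agent.P240
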