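import Vale.Agent.P240.Stm4

namespace Vale.Agent.P240

open Matrix

namespace XInvAux

theorem conj {E : Type} [Field E] {n : ℕ} {K : Type} [Group K]
    (φ : K →* Matrix (Fin n) (Fin n) E) (h k : K) (b : Matrix (Fin n) (Fin n) E)
    (hb : φ k = (2 : E) • b - 1) :
    φ (h * k * h⁻¹) = (2 : E) • (φ h * b * φ h⁻¹) - 1 := by
  have e : φ h * φ h⁻¹ = 1 := by rw [← map_mul, mul_inv_cancel, map_one]
  rw [map_mul, map_mul, hb, mul_sub, sub_mul, mul_one, e, mul_smul_comm, smul_mul_assoc]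

theorem inv_t {E : Type} [Field E] {n : ℕ} {K : Type} [Group K]
    (φ : K →* Matrix (Fin n) (Fin n) E) {a : K} (h : φ a * (φ a)ᵀ = 1) :
    φ a⁻¹ = (φ a)ᵀ ∧ (φ a)ᵀ * φ a = 1 := by
  have e : φ a⁻¹ * φ a = 1 := by rw [← map_mul, inv_mul_cancel, map_one]
  have e' : φ a⁻¹ = (φ a)ᵀ := by
    calc φ a⁻¹ = φ a⁻¹ * (φ a * (φ a)ᵀ) := by rw [h, mul_one]
      _ = (φ a)ᵀ := by rw [← mul_assoc, e, one_mul]
  exact ⟨e', e' ▸ e⟩

theorem smul {E : Type} [Field E] [StarRing E] {n : ℕ} (M N : Matrix (Fin n) (Fin n) E) :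
    (M * N).map star = M.map star * N.map star := Matrix.map_mul (f := starRingEnd E)

theorem orth {E : Type} [Field E] {n : ℕ} {K G : Type} [Group K] [Group G]
    {φ : K →* Matrix (Fin n) (Fin n) E} {ι : K →* G} (hB : Base E n K G φ ι) {h l : K}
    (h1 : ι l = ι h) (h2 : φ l * (φ h)ᵀ = 1) : ∃ k, ι k = ι h ∧ φ k * (φ k)ᵀ = 1 := by
  obtain ⟨-, ⟨j, hj⟩, -, hdet, hker⟩ := hB
  have z1 : ι (h * l⁻¹) = 1 := by rw [map_mul, map_inv, h1, mul_inv_cancel]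
  obtain ⟨c, hc⟩ := hker _ z1
  have c1 : c ^ (2 * j + 1) = 1 := by
    have := hdet (h * l⁻¹)
    rwa [hc, det_smul, det_one, mul_one, Fintype.card_fin, hj] at this
  have c0 : c ≠ 0 := fun h0 => by
    rw [h0, zero_pow (by omega)] at c1
    exact zero_ne_one c1
  have h3 : φ h * (φ h)ᵀ = c • (1 : Matrix (Fin n) (Fin n) E) := by
    calc φ h * (φ h)ᵀ = φ (h * l⁻¹) * φ l * (φ h)ᵀ := by rw [← map_mul, inv_mul_cancel_right]
      _ = _ := by rw [mul_assoc, h2, mul_one, hc]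
  refine ⟨((h * l⁻¹) ^ (j + 1))⁻¹ * h, by rw [map_mul, map_inv, map_pow, z1, one_pow, inv_one,
    one_mul], ?_⟩
  obtain ⟨k, hk⟩ : ∃ k, k = ((h * l⁻¹) ^ (j + 1))⁻¹ * h := ⟨_, rfl⟩
  rw [← hk]
  have h4 : φ h = c ^ (j + 1) • φ k := by
    calc φ h = φ ((h * l⁻¹) ^ (j + 1)) * φ k := by rw [← map_mul, hk, mul_inv_cancel_left]
      _ = _ := by rw [map_pow, hc, smul_pow, one_pow, smul_mul_assoc, one_mul]
  have h5 : c ^ (j + 1) * c ^ (j + 1) = c := by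
    calc c ^ (j + 1) * c ^ (j + 1) = c ^ (2 * j + 1) * c := by ring
      _ = c := by rw [c1, one_mul]
  rw [h4, transpose_smul, smul_mul_assoc, mul_smul_comm, smul_smul, h5] at h3
  exact smul_right_injective _ c0 h3

end XInvAux

theorem xinv_pf (hF : FrConjStmt) : XInvStmt := by
  classical
  intro E _ _ m K G _ _ _ φ ι δ s X γ hC hγ
  obtain ⟨hB, -, -, hδ, hs, hX⟩ := hC
  rintro _ ⟨h0, rfl⟩ hc x hx
  obtain ⟨k, A, k1, k2, hA, k3, rfl⟩ := (hX x).1 hx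
  obtain ⟨l, hl1, hl2⟩ := hγ h0
  obtain ⟨h, e1, e2⟩ := XInvAux.orth hB (l := l) (h := h0)
    (by rw [← hl1, ← hc, mul_inv_cancel_right]) hl2
  rw [← e1]
  obtain ⟨l1, d1, d2⟩ := hδ h e2
  have o1 : φ l1 * (φ l1)ᵀ = 1 := by
    rw [d2, ← transpose_map, ← XInvAux.smul, e2]
    exact Matrix.map_one _ (star_zero _) (star_one _)
  obtain ⟨i1, i2⟩ := XInvAux.inv_t φ o1
  obtain ⟨i3, -⟩ := XInvAux.inv_t φ e2
  have p1 : φ (h * k * l1⁻¹) = φ h * φ k * (φ l1)ᵀ := by rw [map_mul, map_mul, i1]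
  have p2 : ι (h * k * l1⁻¹) * δ = ι h * (ι k * δ) * (ι h)⁻¹ := by
    rw [map_mul, map_mul, map_inv, ← d1]
    group
  have fr : IsFrame (A.image fun a => φ h * a * φ h⁻¹) :=
    hF E (m + 2) (φ h) (φ h⁻¹) 1 A hB.2.1 (hB.2.2.2.1 h)
      (by rw [← map_mul, mul_inv_cancel, map_one]) (by rw [e2, one_smul]) hA
  refine (hX _).2 ⟨h * k * l1⁻¹, A.image fun a => φ h * a * φ h⁻¹, ?_, ?_, fr, fun b hb => ?_, ?_⟩
  · rw [p1, transpose_mul, transpose_mul, transpose_transpose]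
    calc φ h * φ k * (φ l1)ᵀ * (φ l1 * ((φ k)ᵀ * (φ h)ᵀ))
        = φ h * (φ k * ((φ l1)ᵀ * φ l1) * (φ k)ᵀ) * (φ h)ᵀ := by simp only [mul_assoc]
      _ = 1 := by rw [i2, mul_one, k1, mul_one, e2]
  · rw [p2]
    calc ι h * (ι k * δ) * (ι h)⁻¹ * (ι h * (ι k * δ) * (ι h)⁻¹)
        = ι h * (ι k * δ * (ι k * δ)) * (ι h)⁻¹ := by group
      _ = 1 := by rw [k2, mul_one, mul_inv_cancel]
  · obtain ⟨a, ha, rfl⟩ := Finset.mem_image.1 hb
    rw [p1, i3, XInvAux.smul, XInvAux.smul, transpose_map, ← d2, transpose_mul, transpose_mul,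
      transpose_transpose]
    calc φ h * φ k * (φ l1)ᵀ * (φ l1 * a.map star * (φ l1)ᵀ) * (φ l1 * ((φ k)ᵀ * (φ h)ᵀ))
        = φ h * (φ k * (((φ l1)ᵀ * φ l1) * a.map star * ((φ l1)ᵀ * φ l1)) * (φ k)ᵀ) * (φ h)ᵀ := by
          simp only [mul_assoc]
      _ = _ := by rw [i2, mul_one, one_mul, k3 a ha]
  · refine Prod.ext p2.symm ?_
    show (A.image fun a => ι (s a)).image (fun a => ι h * a * (ι h)⁻¹) = _
    rw [Finset.image_image, Finset.image_image]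
    refine Finset.image_congr fun a ha => ?_
    show ι h * ι (s a) * (ι h)⁻¹ = ι (s (φ h * a * φ h⁻¹))
    have q : s (φ h * a * φ h⁻¹) = h * s a * h⁻¹ := hB.2.2.1 (by
      rw [hs _ fr _ (Finset.mem_image_of_mem _ ha), XInvAux.conj φ h (s a) a (hs A hA a ha)])
    rw [q, map_mul, map_mul, map_inv]

end Vale.Agent.P240
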