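import Vale.Agent.P240.Top4
import Vale.Agent.P240.FExt
import Vale.Agent.P240.XFour
import Vale.Agent.P240.XInv
import Vale.Agent.P240.Tb
import Vale.Agent.P240.StepP
import Vale.Agent.P240.StepS
import Vale.Agent.P240.F6
import Vale.Agent.P240.F4
import Vale.Agent.P240.F1
import Vale.Agent.P240.F2
import Vale.Agent.P240.GConj
import Vale.Agent.P240.Sq
import Vale.Agent.P240.XComm
import Vale.Agent.P240.GT6
import Vale.Agent.P240.Idx4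

namespace Vale.Agent.P240

open Matrix

theorem field_sys (F E : Type) [Field F] [Fintype F] [Field E] [Finite E] [StarRing E]
    (f : F →+* E) (hf : ∀ x, star (f x) = f x) (hx : ∃ x : E, star x ≠ x) (m : ℕ) (hm : 1 ≤ m)
    (h2 : (2 : F) ≠ 0) (hq : 4 * m + 23 ≤ Fintype.card F) (K G : Type) [Group K] [Group G]
    [Fintype G] [DecidableEq G] (φ : K →* Matrix (Fin (m + 2)) (Fin (m + 2)) E) (ι : K →* G)
    (δ : G) (hB : Base E (m + 2) K G φ ι) (hδ : δ ∉ ι.range) (hδ2 : δ * δ = 1)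
    (hδ3 : ∀ l, φ l * (φ l)ᵀ = 1 → ∃ l', δ * ι l * δ⁻¹ = ι l' ∧ φ l' = (φ l).map star)
    (hs : ∀ A, IsFrame A → ∀ a ∈ A, ∃ g, φ g = (2 : E) • a - 1) :
    ∃ s X, ConcF E m K G φ ι δ s X ∧ X.Nonempty ∧ Sys1 ι.range m X ∧ Sys2 m X ∧ Sys3 m X ∧
      Sys4 m X ∧ Sys6 X := by
  classical
  let s : Matrix (Fin (m + 2)) (Fin (m + 2)) E → K := fun a =>
    if h : ∃ k, φ k = (2 : E) • a - 1 then h.choose else 1
  have hs' : ∀ a, (∃ k, φ k = (2 : E) • a - 1) → φ (s a) = (2 : E) • a - 1 := fun a h => by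
    simp only [s, dif_pos h]
    exact h.choose_spec
  obtain ⟨X, hX⟩ : ∃ X : Finset (G × Finset G), ∀ x, x ∈ X ↔ ∃ k A, φ k * (φ k)ᵀ = 1 ∧
      ι k * δ * (ι k * δ) = 1 ∧ IsFrame A ∧ Fix (φ k) A ∧
      x = (ι k * δ, A.image fun a => ι (s a)) :=
    ⟨Finset.univ.filter fun x => ∃ k A, φ k * (φ k)ᵀ = 1 ∧
      ι k * δ * (ι k * δ) = 1 ∧ IsFrame A ∧ Fix (φ k) A ∧
      x = (ι k * δ, A.image fun a => ι (s a)), fun x => by
        rw [Finset.mem_filter]; exact and_iff_right (Finset.mem_univ _)⟩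
  have hc : ConcF E m K G φ ι δ s X :=
    ⟨hB, hδ, hδ2, hδ3, fun A hA a ha => hs' a (hs A hA a ha), hX⟩
  refine ⟨s, X, hc, ?_, f1_pf oinj_pf rdet_pf E m K G φ ι δ s X hc,
    f2_pf oinj_pf rdet_pf (simp_pf (mem_pf sum_pf)) E m K G φ ι δ s X hc, ?_,
    f4_pf oinj_pf rdet_pf sq_pf fext_pf F E f m K G φ ι δ s X hc hf hx (by omega),
    f6_pf oinj_pf rdet_pf (f1_pf oinj_pf rdet_pf) E m K G φ ι δ s X hc hm⟩
  · obtain ⟨Fa, ⟨A, hA⟩, hF1, -⟩ := fam_pf (ext_pf circ_pf) (count_pf (ext_pf circ_pf)) F E f m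
      h2 hq
    refine ⟨_, (hX _).2 ⟨1, A, by simp, by simp [hδ2], (hF1 A hA).1, fun a ha => ?_, rfl⟩⟩
    obtain ⟨b, rfl⟩ := (hF1 A hA).2 a ha
    rw [map_one, transpose_one, Matrix.one_mul, Matrix.mul_one]
    ext i j
    simp [hf]
  · intro x hx y hy _ t₀ t h0 h1 h3 h4 h5
    obtain ⟨k, A, -, -, hA, -, rfl⟩ := (hX x).1 hx
    obtain ⟨k', B, -, -, hB', -, rfl⟩ := (hX y).1 hy
    obtain ⟨h6, h7⟩ := c3b_pf oinj_pf rdet_pf (sep_pf sum_pf (mem_pf sum_pf)) E m K G φ ι s 1 A B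
      hB hA hB' (hc.2.2.2.2.1 A hA) (hc.2.2.2.2.1 B hB') t₀ t h0 h1 (by simpa using h3)
      (by simpa using h4) h5
    exact ⟨by rw [h6], h7⟩

theorem refl_mem {E : Type} [Field E] {n : ℕ} (hn : Odd n)
    (K : Subgroup (SpecialLinearGroup (Fin n) E)) (hK : HasOmega K)
    (A : Finset (Matrix (Fin n) (Fin n) E)) (hA : IsFrame A) (a : Matrix (Fin n) (Fin n) E)
    (ha : a ∈ A) : ∃ g, mat K g = (2 : E) • a - 1 := by
  obtain ⟨g, hg, h⟩ := comm_pf sum_pf E n A hn hA a ha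
  exact ⟨⟨⟨g.1, (Matrix.mem_specialOrthogonalGroup_iff.1 g.2).2⟩, hK _ ⟨g, hg, rfl⟩⟩, h⟩

theorem ext1_field (F E : Type) [Field F] [Fintype F] [Field E] [Finite E] [StarRing E]
    (f : F →+* E) (hf : ∀ x, star (f x) = f x) (hx : ∃ x : E, star x ≠ x) (m : ℕ) (hm : 1 ≤ m)
    (hn : Odd (m + 2)) (h2 : (2 : F) ≠ 0) (hq : 4 * m + 23 ≤ Fintype.card F)
    (K : Subgroup (SpecialLinearGroup (Fin (m + 2)) E)) (hK : HasOmega K)
    (T : Matrix (Fin (m + 2)) (Fin (m + 2)) E → Matrix (Fin (m + 2)) (Fin (m + 2)) E → Prop)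
    (hT : ∀ k l, k * kᵀ = 1 → T k l → l = k.map star) : Ext1 K T := by
  classical
  intro H _ _ ι γ B hι hγ hγ2 hγ3 hBm hI
  haveI := Fintype.ofFinite B
  have hγB : γ ∈ B := (hBm γ).2 (Or.inr (by rw [hγ2]; exact one_mem _))
  let κ : K →* B := ι.codRestrict B fun k => (hBm _).2 (Or.inl ⟨k, rfl⟩)
  have hB := base_of hn (two_map f h2) K B κ fun k h => hι k (congrArg Subtype.val h)
  obtain ⟨s, X, -, hX, s1, s2, s3, s4, s6⟩ := field_sys F E f hf hx m hm h2 hq K B (mat K) κ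
    ⟨γ, hγB⟩ hB (fun ⟨k, hk⟩ => hγ ⟨k, congrArg Subtype.val hk⟩) (Subtype.ext hγ2)
    (fun k hk => by
      obtain ⟨l, h1, h3⟩ := hγ3 k
      exact ⟨l, Subtype.ext h1, hT _ _ hk h3⟩) (refl_mem hn K hK)
  refine wqd_of H B (m + 1) hI (ggood_of alt_pf gsimp_pf gsep_pf gcard_pf gt1_pf gt2_pf B κ.range
    m hm X hX s1 s2 s3 s4 (sys5_of X s6))
    (rank1_of E m K B (mat K) κ ⟨γ, hγB⟩ hB fun g => ?_)
  rcases (hBm g.1).1 g.2 with ⟨k, hk⟩ | ⟨k, hk⟩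
  · exact Or.inl ⟨k, Subtype.ext hk⟩
  · exact Or.inr ⟨k, Subtype.ext hk⟩

theorem ext2_of (F E : Type) [Field F] [Fintype F] [Field E] [Finite E] [StarRing E]
    (f : F →+* E) (hf : ∀ x, star (f x) = f x) (hx : ∃ x : E, star x ≠ x) (m : ℕ) (hm : 1 ≤ m)
    (hn : Odd (m + 2)) (h2 : (2 : F) ≠ 0) (hq : 4 * m + 23 ≤ Fintype.card F) :
    Ext2 E (m + 2) := by
  classical
  intro H _ _ ι γ δ B hι hγ hδ hγδ hγ2 hδ2 hcm hγ3 hδ3 hBm hI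
  haveI := Fintype.ofFinite B
  have hγB : γ ∈ B := (hBm γ).2 (Or.inr (Or.inl (by rw [hγ2]; exact one_mem _)))
  have hδB : δ ∈ B := (hBm δ).2 (Or.inr (Or.inr (Or.inl (by rw [hδ2]; exact one_mem _))))
  let κ : SpecialLinearGroup (Fin (m + 2)) E →* B :=
    ι.codRestrict B fun k => (hBm _).2 (Or.inl ⟨k, rfl⟩)
  let φ : SpecialLinearGroup (Fin (m + 2)) E →* Matrix (Fin (m + 2)) (Fin (m + 2)) E :=
    { toFun := fun g => g.1, map_one' := rfl, map_mul' := fun _ _ => rfl }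
  have hB : Base E (m + 2) _ B φ κ := by
    refine ⟨two_map f h2, hn, fun a b h => Subtype.ext h, fun k => k.2, fun k hk => ?_⟩
    obtain ⟨r, -, hr⟩ :=
      Matrix.SpecialLinearGroup.mem_center_iff.1 (hι k (congrArg Subtype.val hk))
    exact ⟨r, by rw [show φ k = k.1 from rfl, ← hr, scalar_apply, smul_one_eq_diagonal]⟩
  have g3 : ∀ k, ∃ l, (⟨γ, hγB⟩ : B) * κ k * (⟨γ, hγB⟩ : B)⁻¹ = κ l ∧ φ l * (φ k)ᵀ = 1 :=
    fun k => by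
      obtain ⟨l, h1, h3⟩ := hγ3 k
      exact ⟨l, Subtype.ext h1, h3⟩
  have d3 : ∀ k, ∃ l, (⟨δ, hδB⟩ : B) * κ k * (⟨δ, hδB⟩ : B)⁻¹ = κ l ∧ φ l = (φ k).map star :=
    fun k => by
      obtain ⟨l, h1, h3⟩ := hδ3 k
      exact ⟨l, Subtype.ext h1, h3⟩
  obtain ⟨s, X, hc, hX, s1, s2, s3, s4, s6⟩ := field_sys F E f hf hx m hm h2 hq _ B φ κ
    ⟨δ, hδB⟩ hB (fun ⟨k, hk⟩ => hδ ⟨k, congrArg Subtype.val hk⟩) (Subtype.ext hδ2)
    (fun k _ => d3 k) (fun A hA a ha => ⟨⟨_, (rdet_pf E _ a hn (hA.2.1 a ha)).1⟩, rfl⟩)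
  obtain ⟨K1, hK1⟩ := k1_pf B κ.range ⟨δ, hδB⟩ (Subtype.ext hδ2) (by
    rintro _ ⟨k, rfl⟩
    obtain ⟨l, h, -⟩ := d3 k
    exact ⟨l, h.symm⟩)
  have hC := xcomm_pf rdet_pf E m _ B φ κ _ s X ⟨γ, hγB⟩ hc (Subtype.ext hcm) g3
  refine wqd_of H B (m + 2) hI (two_of gt6_pf stepS_pf stepP_pf gconj_pf tb_pf B κ.range K1
    (fun g hg => (hK1 g).2 (Or.inl hg)) ⟨γ, hγB⟩ (fun h => ?_) (Subtype.ext hγ2) m hm X hX
    s1 s2 s3 s4 s6 (xinv_pf frconj_pf E m _ B φ κ _ s X _ hc g3)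
    (xfour_pf rdet_pf F E f m _ B φ κ _ s X _ hc hf (by omega) hm
      (fun M hM => ⟨⟨M, hM⟩, rfl⟩) d3 g3)
    fun x hx => ⟨(hC x hx).1, (hK1 _).2 (Or.inr (hC x hx).2.1), (hC x hx).2.2⟩) fun A hA => ?_
  · rcases (hK1 _).1 h with ⟨k, hk⟩ | ⟨k, hk⟩
    · exact hγ ⟨k, congrArg Subtype.val hk⟩
    · exact hγδ ⟨k, congrArg Subtype.val hk⟩
  · have := idx4_pf B κ.range ⟨γ, hγB⟩ ⟨δ, hδB⟩ _ Nat.one_le_two_pow (fun g => by
      rcases (hBm g.1).1 g.2 with ⟨k, hk⟩ | ⟨k, hk⟩ | ⟨k, hk⟩ | ⟨k, hk⟩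
      · exact Or.inl ⟨k, Subtype.ext hk⟩
      · exact Or.inr (Or.inl ⟨k, Subtype.ext hk⟩)
      · exact Or.inr (Or.inr (Or.inl ⟨k, Subtype.ext hk⟩))
      · exact Or.inr (Or.inr (Or.inr ⟨k, Subtype.ext hk⟩)))
      (lift_pf rank_pf E (m + 2) _ B φ κ hB) A hA
    rw [pow_succ, pow_succ]
    simp only [Nat.add_succ_sub_one] at this
    omega

end Vale.Agent.P240
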