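import Vale.Agent.P240.Top5

namespace Vale.Agent.P240

open Matrix

theorem orth_in (F : Type) [Field F] [Fintype F] (m : ℕ) (hn : Odd (m + 2))
    (h2 : (2 : F) ≠ 0) (hqn : 2 * m + 7 ≤ Fintype.card F)
    (H : Type) [Group H] [Finite H] (ι : Matrix.specialOrthogonalGroup (Fin (m + 2)) F →* H)
    (hι : Function.Injective ι) (hI : InvIn ι.range) :
    WQD H ((commutator (Matrix.specialOrthogonalGroup (Fin (m + 2)) F)).map ι) (m + 1) := by
  classical
  let φ₀ : Matrix.specialOrthogonalGroup (Fin (m + 2)) F →*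
      Matrix (Fin (m + 2)) (Fin (m + 2)) F := (Matrix.specialOrthogonalGroup _ F).subtype
  have hφ₀ : Function.Injective φ₀ := Subtype.val_injective
  obtain ⟨s, α, u, hα, hu, hsi, hse⟩ := good_of alt_pf sum_pf (count_pf (ext_pf circ_pf))
    (simp_pf (mem_pf sum_pf)) (sep_pf sum_pf (mem_pf sum_pf)) F m
    (commutator (Matrix.specialOrthogonalGroup (Fin (m + 2)) F))
    (φ₀.comp (Subgroup.subtype _)) h2 hqn (hφ₀.comp (Subgroup.subtype_injective _))
    (fun A hA a ha => by
      obtain ⟨g, hg, h⟩ := comm_pf sum_pf F (m + 2) A hn hA a ha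
      exact ⟨⟨g, hg⟩, h⟩)
  intro t ht G hG
  exact wreath_of cyc2_pf prodA_pf prodS_pf (prodP_pf prodS_pf) inh_pf wrank_pf _ _ H m s α u hα
    hu hsi hse (ι.comp (Subgroup.subtype _)) (hι.comp (Subgroup.subtype_injective _))
    (fun A hA => lift_pf rank_pf F (m + 2) _ H φ₀ ι
      ⟨h2, hn, hφ₀, fun g => (Matrix.mem_specialOrthogonalGroup_iff.1 g.2).2, fun k hk =>
        ⟨1, by rw [hι (hk.trans (map_one ι).symm), map_one, one_smul]⟩⟩ A hA
      (le_of_in _ hI A hA)) t ht G fun f => hG _ fun i => ⟨(f i).1, (f i).2, rfl⟩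

theorem allodd_pf (F : Type) [Field F] [Fintype F] (n : ℕ) (hn : Odd n) (h3 : 3 ≤ n)
    (hq : Odd (Fintype.card F)) (hqn : 4 * n + 15 ≤ Fintype.card F) :
    (∀ (H : Type) [Group H] [Finite H] (ι : Matrix.specialOrthogonalGroup (Fin n) F →* H),
      Function.Injective ι → InvIn ι.range →
      WQD H ((commutator (Matrix.specialOrthogonalGroup (Fin n) F)).map ι) (n - 1)) ∧
    (∀ K : Subgroup (Matrix.SpecialLinearGroup (Fin n) F), HasOmega K → Ext0 K) ∧
    Ext1 (⊤ : Subgroup (Matrix.SpecialLinearGroup (Fin n) F)) (fun k l => l * kᵀ = 1) ∧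
    ∀ (E : Type) [Field E] [Finite E] [StarRing E] [Algebra F E],
      (∀ x : F, star (algebraMap F E x) = algebraMap F E x) → (∃ x : E, star x ≠ x) →
      (∀ K : Subgroup (Matrix.SpecialLinearGroup (Fin n) E),
        (∀ g, g ∈ K ↔ g.1 ∈ Matrix.unitaryGroup (Fin n) E) →
          Ext0 K ∧ Ext1 K fun k l => l * kᵀ = 1) ∧
      (∀ K : Subgroup (Matrix.SpecialLinearGroup (Fin n) E), HasOmega K →
        Ext1 K (fun k l => l = k.map star) ∧ Ext1 K fun k l => l * star k = 1) ∧
      Ext2 E n := by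
  obtain ⟨m, rfl⟩ : ∃ m, n = m + 3 := ⟨n - 3, by omega⟩
  have h2 := two_ne F hq
  refine ⟨fun H _ _ ι => orth_in F (m + 1) hn h2 (by omega) H ι, fun K hK => ?_, ?_,
    fun E _ _ _ _ hs hx => ⟨fun K hK => ?_, fun K hK => ⟨?_, ?_⟩, ?_⟩⟩
  · exact ext0_of F F (RingHom.id F) (m + 1) hn h2 (by omega) K fun g b hb e _ =>
      hK g ⟨b, hb, e.symm⟩
  · obtain ⟨c, h0, h1⟩ := exists_c F (by omega)
    exact ext1_of F F (RingHom.id F) m hn h2 (by omega) ⊤
      (fun _ _ _ _ => trivial) c h0 h1 fun _ _ _ _ _ _ _ => trivial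
  · obtain ⟨x, hx⟩ := hx
    obtain ⟨c, h0, h1, hc⟩ := exists_c' E (two_map (algebraMap F E) h2) x hx
    have hst : ∀ b : Matrix (Fin (m + 3)) (Fin (m + 3)) F,
        star (b.map (algebraMap F E)) = (b.map (algebraMap F E))ᵀ := fun b => by
      ext i j
      simp [hs]
    have hK1 : ∀ (g : Matrix.SpecialLinearGroup (Fin (m + 3)) E)
        (b : Matrix (Fin (m + 3)) (Fin (m + 3)) F), g.1 = b.map (algebraMap F E) →
        g.1 * g.1ᵀ = 1 → g ∈ K := fun g b e h => by
      rw [hK, Matrix.mem_unitaryGroup_iff, e, hst, ← e, h]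
    refine ⟨ext0_of F E (algebraMap F E) (m + 1) hn h2 (by omega) K fun g b _ => hK1 g b.1,
      ext1_of F E (algebraMap F E) m hn h2 (by omega) K hK1 c h0 h1 fun g a b ha hb e h => ?_⟩
    rw [hK, Matrix.mem_unitaryGroup_iff', ← h]
    congr 1
    rw [e, star_add, star_add, star_one, star_smul, star_smul, hst, hst, ha, hb, star_sub, star_sub,
      star_one, star_inv₀, hc, inv_inv]
  · exact ext1_field F E (algebraMap F E) hs hx (m + 1) (by omega) hn h2 (by omega) K hK _
      fun _ _ _ h => h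
  · refine ext1_field F E (algebraMap F E) hs hx (m + 1) (by omega) hn h2 (by omega) K hK _
      fun k l hk h => ?_
    have h1 : star k * k.map star = 1 := by
      have h3 : kᵀ * k = 1 := mul_eq_one_comm.1 hk
      have h4 := congrArg (fun M => M.map (starRingEnd E)) h3
      simp only [Matrix.map_mul, Matrix.map_one _ (map_zero _) (map_one _)] at h4
      exact h4
    calc l = l * (star k * k.map star) := by rw [h1, Matrix.mul_one]
      _ = k.map star := by rw [← Matrix.mul_assoc, h, Matrix.one_mul]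
  · exact ext2_of F E (algebraMap F E) hs hx (m + 1) (by omega) hn h2 (by omega)

end Vale.Agent.P240
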