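import Vale.Agent.P240.Main5

namespace Vale.Agent.P240

open Matrix

theorem dataX_of (G : Type) [Group G] [Fintype G] (r : ℕ) (h : Data G r) : DataX G r := by
  obtain ⟨α, u, h⟩ := h
  exact ⟨G, inferInstance, id, α, u, h⟩

theorem full_graph (hJ : JAll) (F E : Type) [Field F] [Fintype F] [Field E] [Finite E]
    (f : F →+* E) (m : ℕ) (hn : Odd (m + 3)) (h2 : (2 : F) ≠ 0)
    (hq : 4 * (m + 1) + 23 ≤ Fintype.card F) (K : Subgroup (SpecialLinearGroup (Fin (m + 3)) E))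
    (hK1 : ∀ (g : SpecialLinearGroup (Fin (m + 3)) E) (b : Matrix (Fin (m + 3)) (Fin (m + 3)) F),
      g.1 = b.map f → g.1 * g.1ᵀ = 1 → g ∈ K)
    (c : E) (hc0 : c ≠ 0) (hc : c ^ 2 ≠ 1)
    (hK2 : ∀ (g : SpecialLinearGroup (Fin (m + 3)) E)
      (a b : Matrix (Fin (m + 3)) (Fin (m + 3)) F), (a.map f)ᵀ = a.map f → (b.map f)ᵀ = b.map f →
      g.1 = 1 + (c - 1) • a.map f + (c⁻¹ - 1) • b.map f →
      (1 + (c⁻¹ - 1) • a.map f + (c - 1) • b.map f) * g.1 = 1 → g ∈ K) :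
    Full1 K fun k l => l * kᵀ = 1 := by
  classical
  intro H _ _ ι γ hι hγ hγ2 hγ3 hI
  have hnorm : ∀ x ∈ ι.range, γ * x * γ⁻¹ ∈ ι.range := by
    rintro _ ⟨k, rfl⟩
    obtain ⟨l, h, -⟩ := hγ3 k
    exact ⟨l, h.symm⟩
  obtain ⟨B, hBm⟩ := k1_pf H ι.range γ hγ2 hnorm
  haveI := Fintype.ofFinite B
  have hR := rdet_pf
  obtain ⟨Fa, hF0, hF1, hF2⟩ := fam_pf (ext_pf circ_pf) (count_pf (ext_pf circ_pf)) F E f (m + 1)
    h2 hq
  have hγB : γ ∈ B := (hBm γ).2 (Or.inr (by rw [hγ2]; exact one_mem _))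
  let κ : K →* B := ι.codRestrict B fun k => (hBm _).2 (Or.inl ⟨k, rfl⟩)
  have hB := base_of hn (two_map f h2) K B κ fun k h => hι k (congrArg Subtype.val h)
  refine wfull_of hJ H ι.range B γ hγ hγ2 hnorm hBm (fun h hh => (hBm h).2 (hI h hh)) (m + 1)
    (lift_pf rank_pf E (m + 3) K H _ ι (base_of hn (two_map f h2) K H ι hι))
    (dataX_of _ _ (graph_data E (m + 1) (by omega) K B (mat K) κ ⟨γ, hγB⟩ hB
    (fun ⟨k, hk⟩ => hγ ⟨k, congrArg Subtype.val hk⟩) (Subtype.ext hγ2)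
    (fun k => by
      obtain ⟨l, h1, h3⟩ := hγ3 k
      exact ⟨l, Subtype.ext h1, h3⟩)
    Fa hF0
    (fun A hA => ⟨(hF1 A hA).1, fun a ha => by
      obtain ⟨b, rfl⟩ := (hF1 A hA).2 a ha
      obtain ⟨r1, r2, r3⟩ := hR E (m + 3) _ hn ((hF1 A hA).1.2.1 _ ha)
      refine ⟨⟨⟨_, r1⟩, hK1 _ ((2 : F) • b - 1) ?_ ?_⟩, rfl⟩
      · ext i j
        simp [Matrix.one_apply, apply_ite f, map_ofNat]
      · change _ * ((2 : E) • b.map f - 1)ᵀ = 1
        rw [transpose_sub, transpose_smul, r2, transpose_one]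
        exact r3⟩)
    hF2
    (fun A hA => by
      obtain ⟨a, ha, b, hb, D, d1, d2, d3, d4, d5⟩ := dd_pf E m A c (hF1 A hA).1 hc0 hc
      obtain ⟨a', rfl⟩ := (hF1 A hA).2 a ha
      obtain ⟨b', rfl⟩ := (hF1 A hA).2 b hb
      exact ⟨⟨⟨D, d2⟩, hK2 _ a' b' (hR E (m + 3) _ hn ((hF1 A hA).1.2.1 _ ha)).2.1
        (hR E (m + 3) _ hn ((hF1 A hA).1.2.1 _ hb)).2.1 d1 d5⟩, d3, d4⟩)))
    (dataC_of hJ F E f (m + 1) hn h2 (by omega) K (fun g b _ => hK1 g b.1) H ι γ hι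
      fun k _ _ hk => ?_)
  obtain ⟨l, h1, h3⟩ := hγ3 k
  have : l = k := by
    refine Subtype.ext (Subtype.ext ?_)
    have h4 : k.1.1ᵀ * k.1.1 = 1 := mul_eq_one_comm.1 hk
    calc l.1.1 = l.1.1 * (k.1.1ᵀ * k.1.1) := by rw [h4, Matrix.mul_one]
      _ = k.1.1 := by rw [← Matrix.mul_assoc, h3, Matrix.one_mul]
  rw [h1, this]

theorem omega_map {F E : Type} [Field F] [Field E] (f : F →+* E) {n : ℕ}
    (K : Subgroup (SpecialLinearGroup (Fin n) E)) (hK : HasOmega K)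
    (g : SpecialLinearGroup (Fin n) E) (b : Matrix.specialOrthogonalGroup (Fin n) F)
    (hb : b ∈ commutator (Matrix.specialOrthogonalGroup (Fin n) F)) (e : g.1 = b.1.map f) :
    g ∈ K := by
  have hm : ∀ g : Matrix.specialOrthogonalGroup (Fin n) F,
      g.1.map f ∈ Matrix.specialOrthogonalGroup (Fin n) E := by
    intro g
    obtain ⟨h1, h2⟩ := Matrix.mem_specialOrthogonalGroup_iff.1 g.2
    refine Matrix.mem_specialOrthogonalGroup_iff.2 ⟨(Matrix.mem_orthogonalGroup_iff _ _).2 ?_, ?_⟩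
    · rw [← Matrix.transpose_map, ← Matrix.map_mul, (Matrix.mem_orthogonalGroup_iff _ _).1 h1,
        Matrix.map_one _ (map_zero f) (map_one f)]
    · rw [← RingHom.mapMatrix_apply, ← RingHom.map_det, h2, map_one]
  let μ : Matrix.specialOrthogonalGroup (Fin n) F →* Matrix.specialOrthogonalGroup (Fin n) E :=
    MonoidHom.mk' (fun g => ⟨g.1.map f, hm g⟩) fun a b => Subtype.ext Matrix.map_mul
  refine hK g ⟨μ b, ?_, e.symm⟩
  have h1 := Subgroup.mem_map_of_mem μ hb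
  rw [commutator_def, Subgroup.map_commutator] at h1
  exact Subgroup.commutator_mono le_top le_top h1

theorem full_field (hJ : JAll) (F E : Type) [Field F] [Fintype F] [Field E] [Finite E]
    [StarRing E] (f : F →+* E) (hf : ∀ x, star (f x) = f x) (hx : ∃ x : E, star x ≠ x) (m : ℕ)
    (hm : 1 ≤ m) (hn : Odd (m + 2)) (h2 : (2 : F) ≠ 0) (hq : 4 * m + 23 ≤ Fintype.card F)
    (K : Subgroup (SpecialLinearGroup (Fin (m + 2)) E)) (hK : HasOmega K)
    (T : Matrix (Fin (m + 2)) (Fin (m + 2)) E → Matrix (Fin (m + 2)) (Fin (m + 2)) E → Prop)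
    (hT : ∀ k l, k * kᵀ = 1 → T k l → l = k.map star) : Full1 K T := by
  classical
  intro H _ _ ι γ hι hγ hγ2 hγ3 hI
  have hnorm : ∀ x ∈ ι.range, γ * x * γ⁻¹ ∈ ι.range := by
    rintro _ ⟨k, rfl⟩
    obtain ⟨l, h, -⟩ := hγ3 k
    exact ⟨l, h.symm⟩
  obtain ⟨B, hBm⟩ := k1_pf H ι.range γ hγ2 hnorm
  haveI := Fintype.ofFinite B
  have hγB : γ ∈ B := (hBm γ).2 (Or.inr (by rw [hγ2]; exact one_mem _))
  let κ : K →* B := ι.codRestrict B fun k => (hBm _).2 (Or.inl ⟨k, rfl⟩)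
  have hB := base_of hn (two_map f h2) K B κ fun k h => hι k (congrArg Subtype.val h)
  obtain ⟨s, X, -, hX, s1, s2, s3, s4, s6⟩ := field_sys F E f hf hx m hm h2 hq K B (mat K) κ
    ⟨γ, hγB⟩ hB (fun ⟨k, hk⟩ => hγ ⟨k, congrArg Subtype.val hk⟩) (Subtype.ext hγ2)
    (fun k hk => by
      obtain ⟨l, h1, h3⟩ := hγ3 k
      exact ⟨l, Subtype.ext h1, hT _ _ hk h3⟩) (refl_mem hn K hK)
  refine wfull_of hJ H ι.range B γ hγ hγ2 hnorm hBm (fun h hh => (hBm h).2 (hI h hh)) m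
    (lift_pf rank_pf E (m + 2) K H _ ι (base_of hn (two_map f h2) K H ι hι))
    (dataX_of _ _ (ggood_of alt_pf gsimp_pf gsep_pf gcard_pf gt1_pf gt2_pf B κ.range
      m hm X hX s1 s2 s3 s4 (sys5_of X s6)))
    (dataC_of hJ F E f m hn h2 (by omega) K (fun g b hb e _ => omega_map f K hK g b hb e) H ι γ hι
      fun k b e hk => ?_)
  obtain ⟨l, h1, h3⟩ := hγ3 k
  have : l = k := by
    refine Subtype.ext (Subtype.ext ((hT _ _ hk h3).trans ?_))
    rw [e]
    ext i j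
    simp [hf]
  rw [h1, this]

theorem full_pf (hJ : JAll) (F : Type) [Field F] [Fintype F] (n : ℕ) (hn : Odd n) (h3 : 3 ≤ n)
    (hq : Odd (Fintype.card F)) (hqn : 4 * n + 15 ≤ Fintype.card F) :
    Full1 (⊤ : Subgroup (Matrix.SpecialLinearGroup (Fin n) F)) (fun k l => l * kᵀ = 1) ∧
    ∀ (E : Type) [Field E] [Finite E] [StarRing E] [Algebra F E],
      (∀ x : F, star (algebraMap F E x) = algebraMap F E x) → (∃ x : E, star x ≠ x) →
      (∀ K : Subgroup (Matrix.SpecialLinearGroup (Fin n) E),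
        (∀ g, g ∈ K ↔ g.1 ∈ Matrix.unitaryGroup (Fin n) E) → Full1 K fun k l => l * kᵀ = 1) ∧
      ∀ K : Subgroup (Matrix.SpecialLinearGroup (Fin n) E), HasOmega K →
        Full1 K (fun k l => l = k.map star) ∧ Full1 K fun k l => l * star k = 1 := by
  obtain ⟨m, rfl⟩ : ∃ m, n = m + 3 := ⟨n - 3, by omega⟩
  have h2 := two_ne F hq
  refine ⟨?_, fun E _ _ _ _ hs hx => ⟨fun K hK => ?_, fun K hK => ⟨?_, ?_⟩⟩⟩
  · obtain ⟨c, h0, h1⟩ := exists_c F (by omega)
    exact full_graph hJ F F (RingHom.id F) m hn h2 (by omega) ⊤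
      (fun _ _ _ _ => trivial) c h0 h1 fun _ _ _ _ _ _ _ => trivial
  · obtain ⟨x, hx⟩ := hx
    obtain ⟨c, h0, h1, hc⟩ := exists_c' E (two_map (algebraMap F E) h2) x hx
    have hst : ∀ b : Matrix (Fin (m + 3)) (Fin (m + 3)) F,
        star (b.map (algebraMap F E)) = (b.map (algebraMap F E))ᵀ := fun b => by
      ext i j
      simp [hs]
    refine full_graph hJ F E (algebraMap F E) m hn h2 (by omega) K (fun g b e h => ?_) c h0 h1
      fun g a b ha hb e h => ?_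
    · rw [hK, Matrix.mem_unitaryGroup_iff, e, hst, ← e, h]
    · rw [hK, Matrix.mem_unitaryGroup_iff', ← h]
      congr 1
      rw [e, star_add, star_add, star_one, star_smul, star_smul, hst, hst, ha, hb, star_sub,
        star_sub, star_one, star_inv₀, hc, inv_inv]
  · exact full_field hJ F E (algebraMap F E) hs hx (m + 1) (by omega) hn h2 (by omega) K hK _
      fun _ _ _ h => h
  · refine full_field hJ F E (algebraMap F E) hs hx (m + 1) (by omega) hn h2 (by omega) K hK _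
      fun k l hk h => ?_
    have h1 : star k * k.map star = 1 := by
      have h3 : kᵀ * k = 1 := mul_eq_one_comm.1 hk
      have h4 := congrArg (fun M => M.map (starRingEnd E)) h3
      simp only [Matrix.map_mul, Matrix.map_one _ (map_zero _) (map_one _)] at h4
      exact h4
    calc l = l * (star k * k.map star) := by rw [h1, Matrix.mul_one]
      _ = k.map star := by rw [← Matrix.mul_assoc, h, Matrix.one_mul]

end Vale.Agent.P240
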