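import Vale.Agent.P240.Top7
import Vale.Agent.P240.Stm6
import Vale.Agent.P240.Defs5
import Vale.Agent.P240.JA
import Vale.Agent.P240.JS
import Vale.Agent.P240.JP
import Vale.Agent.P240.Emb
import Vale.Agent.P240.RankF
import Vale.Agent.P240.Perm
import Vale.Agent.P240.Ech
import Vale.Agent.P240.BaseW
import Vale.Agent.P240.DPi
import Vale.Agent.P240.Eps

namespace Vale.Agent.P240

open Matrix

theorem jall_pf : JAll :=
  ⟨dmap_pf, dpi_pf (join_of ja_pf js_pf (jp_pf js_pf)), ech_pf, rankF_pf perm_pf base_pf, eps_pf,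
    emb_pf⟩

theorem full2_of (h1 : WMapStmt) (h2 : SylStmt) (h3 : UpStmt) (h4 : CjBaseStmt)
    {E : Type} [Field E] {n : ℕ} (K : Subgroup (SpecialLinearGroup (Fin n) E))
    (T : Matrix (Fin n) (Fin n) E → Matrix (Fin n) (Fin n) E → Prop) (h : Full1 K T) :
    Full2 K T := by
  intro H _ _ ι γ U hι hγ hγ2 hγ3 hN hU hR hγU hI t ht G hG
  let κ : K →* U := ι.codRestrict U fun k => hR ⟨k, rfl⟩
  have h0 : FullQD U κ.range := h U κ ⟨γ, hγU⟩ (fun k hk => hι k (congrArg Subtype.val hk))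
    (fun ⟨k, hk⟩ => hγ ⟨k, congrArg Subtype.val hk⟩) (Subtype.ext hγ2)
    (fun k => by
      obtain ⟨l, a, b⟩ := hγ3 k
      exact ⟨l, Subtype.ext a, b⟩)
    (fun x hx => by
      rcases hI x.1 x.2 (congrArg Subtype.val hx) with ⟨k, hk⟩ | ⟨k, hk⟩
      · exact Or.inl ⟨k, Subtype.ext hk⟩
      · exact Or.inr ⟨k, Subtype.ext hk⟩)
  haveI : Finite ((Fin t → H) ⋊[mulAutArrow] Equiv.Perm (Fin t)) :=
    Finite.of_equiv _ SemidirectProduct.equivProd.symm
  obtain ⟨Φ, p1, p2, p3⟩ := h1 U H U.subtype t U.subtype_injective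
    (by rwa [Subgroup.range_subtype])
  obtain ⟨w, hw⟩ := h2 _ Φ.range G p2
  obtain ⟨r, r1, r2⟩ := h0 t ht (G.comap ((MulAut.conj w⁻¹).toMonoidHom.comp Φ)) fun f hf => by
    obtain ⟨f', a, b⟩ := h4 H ι.range t w (fun i => (f i).1) hN fun i => by
      obtain ⟨k, hk⟩ := hf i
      exact ⟨k, congrArg Subtype.val hk⟩
    have e : ((MulAut.conj w⁻¹).toMonoidHom.comp Φ) (SemidirectProduct.inl f) =
        SemidirectProduct.inl f' := by
      rw [← b]
      change w⁻¹ * Φ (SemidirectProduct.inl f) * w⁻¹⁻¹ = _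
      rw [p3, inv_inv]
      rfl
    rw [Subgroup.mem_comap, e]
    exact hG f' a
  exact ⟨r, h3 _ _ Φ G w r p1 hw r1 r2⟩

end Vale.Agent.P240
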