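import Vale.Agent.P240.Stm6
import Vale.Agent.P240.Main2
import Vale.Agent.P240.Inh

namespace Vale.Agent.P240

namespace UpWAux

theorem le_of {N H : Type} [Group N] [Group H] (ι : N →* H) (hι : Function.Injective ι) (M : ℕ)
    (hM : ∀ E : Subgroup N, IsElemAb 2 E → Nat.card E ≤ M) (E : Subgroup H)
    (hE : IsElemAb 2 E) (hle : E ≤ ι.range) : Nat.card E ≤ M := by
  have he : (E.comap ι).map ι = E := Subgroup.map_comap_eq_self hle
  have h1 : IsElemAb 2 (E.comap ι) := by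
    refine ⟨fun h => hE.1 (by rw [← he, h, Subgroup.map_bot]), fun x hx y hy => hι ?_,
      fun x hx => hι ?_⟩
    · rw [map_mul, map_mul, hE.2.1 _ hx _ hy]
    · rw [map_pow, hE.2.2 _ hx, map_one]
  rw [← he, Subgroup.card_map_of_injective hι]
  exact hM _ h1

end UpWAux

theorem up_pf : UpStmt := by
  intro W₀ W _ _ _ Φ G w r hΦ hS hR hH
  have hΨ : Function.Injective ((MulAut.conj w⁻¹).toMonoidHom.comp Φ) :=
    (MulAut.conj w⁻¹).injective.comp hΦ
  have hψ : Function.Injective (((MulAut.conj w⁻¹).toMonoidHom.comp Φ).subgroupComap G) :=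
    fun x y e => Subtype.ext (hΨ (congrArg Subtype.val e))
  obtain ⟨z, hz, hb, hn⟩ := hH
  have z0 : z ≠ 0 := fun e => hn ⟨0, fun c hc => absurd hc (Finset.notMem_empty c), by
    rw [e, bd, Finsupp.sum_zero_index]⟩
  obtain ⟨z', a1, a2, a3⟩ := inh_pf _ _ _ r z hψ z0 hz hb
  refine qd_fin G r z' a1 a2 a3 fun E hE => ?_
  obtain ⟨g, hg, hx⟩ := hS (E.map G.subtype) (elem_map _ G.subtype_injective E hE)
    (Subgroup.map_subtype_le E)
  have hκ : Function.Injective (MulAut.conj (⟨g, hg⟩ : G)).toMonoidHom :=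
    (MulAut.conj (⟨g, hg⟩ : G)).injective
  rw [← Subgroup.card_map_of_injective (K := E) hκ]
  refine UpWAux.le_of _ hψ _ hR.2 _ (elem_map _ hκ E hE) ?_
  rintro _ ⟨x, h1, rfl⟩
  obtain ⟨y, hy⟩ := hx x ⟨x, h1, rfl⟩
  have e : ((MulAut.conj w⁻¹).toMonoidHom.comp Φ) y = g * x * g⁻¹ := by
    show w⁻¹ * Φ y * w⁻¹⁻¹ = _
    rw [hy]
    group
  refine ⟨⟨y, ?_⟩, Subtype.ext e⟩
  show ((MulAut.conj w⁻¹).toMonoidHom.comp Φ) y ∈ G
  rw [e]
  exact G.mul_mem (G.mul_mem hg x.2) (G.inv_mem hg)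

end Vale.Agent.P240
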