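import Vale.Agent.P240.Stm6
import Vale.Agent.P240.Main2
import Vale.Agent.P240.Inh

/-! Passing from a subgroup that contains conjugates of all elementary abelian subgroups. -/

namespace Vale.Agent.P240

namespace UpWAuxb

theorem elem_comap {B G : Type} [Group B] [Group G] (ψ : B →* G) (hψ : Function.Injective ψ)
    (E : Subgroup G) (hE : IsElemAb 2 E) (hr : E ≤ ψ.range) :
    IsElemAb 2 (E.comap ψ) ∧ Nat.card (E.comap ψ) = Nat.card E := by
  have e : (E.comap ψ).map ψ = E := Subgroup.map_comap_eq_self hr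
  refine ⟨⟨fun h => hE.1 ?_, fun x hx y hy => hψ ?_, fun x hx => hψ ?_⟩, ?_⟩
  · rw [← e, h, Subgroup.map_bot]
  · rw [map_mul, map_mul]
    exact hE.2.1 _ hx _ hy
  · rw [map_pow, map_one]
    exact hE.2.2 _ hx
  · rw [← Subgroup.card_map_of_injective hψ, e]

end UpWAuxb

theorem up_pfb : UpStmt := by
  intro W₀ W _ _ _ Φ G w r hΦ hc hr hh
  have hΨ : Function.Injective ((MulAut.conj w⁻¹).toMonoidHom.comp Φ) :=
    (MulAut.conj w⁻¹).injective.comp hΦ
  have hψ : Function.Injective (((MulAut.conj w⁻¹).toMonoidHom.comp Φ).subgroupComap G) :=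
    fun a b h => Subtype.ext (hΨ (congrArg Subtype.val h))
  obtain ⟨z, z1, z2, z3⟩ := hh
  have z0 : z ≠ 0 := by
    rintro rfl
    exact z3 ⟨0, fun c h => by rw [Finsupp.support_zero] at h; exact absurd h (Finset.notMem_empty _), by unfold bd; exact Finsupp.sum_zero_index⟩
  obtain ⟨z', y0, y1, y2⟩ := inh_pf _ G _ r z hψ z0 z1 z2
  refine qd_fin G r z' y0 y1 y2 fun E hE => ?_
  obtain ⟨g, hg, hx⟩ := hc (E.map G.subtype) (elem_map _ G.subtype_injective E hE)
    (Subgroup.map_subtype_le E)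
  have hi : Function.Injective (MulAut.conj (⟨g, hg⟩ : G)).toMonoidHom :=
    (MulAut.conj (⟨g, hg⟩ : G)).injective
  have hle : E.map (MulAut.conj (⟨g, hg⟩ : G)).toMonoidHom ≤
      (((MulAut.conj w⁻¹).toMonoidHom.comp Φ).subgroupComap G).range := by
    rintro _ ⟨x, hxE, rfl⟩
    obtain ⟨y, hy⟩ := hx x.1 ⟨x, hxE, rfl⟩
    have e : ((MulAut.conj w⁻¹).toMonoidHom.comp Φ) y = g * x.1 * g⁻¹ := by
      show w⁻¹ * Φ y * w⁻¹⁻¹ = _
      rw [hy]
      group
    refine ⟨⟨y, ?_⟩, Subtype.ext e⟩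
    rw [Subgroup.mem_comap, e]
    exact G.mul_mem (G.mul_mem hg x.2) (G.inv_mem hg)
  obtain ⟨k1, k2⟩ := UpWAuxb.elem_comap _ hψ _ (elem_map _ hi E hE) hle
  rw [← Subgroup.card_map_of_injective hi, ← k2]
  exact hr.2 _ k1

end Vale.Agent.P240
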