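import Vale.Agent.P240.Stm6

namespace Vale.Agent.P240

namespace WMapAux

theorem idx {A B : Type} [Group A] [Group B] (j : A →* B) (hj : Function.Injective j) :
    Nat.card A * j.range.index = Nat.card B := by
  rw [← j.range.card_mul_index, Nat.card_congr (MonoidHom.ofInjective hj).toEquiv]

theorem cardW (H : Type) [Group H] (t : ℕ) :
    Nat.card ((Fin t → H) ⋊[mulAutArrow] Equiv.Perm (Fin t)) =
      Nat.card H ^ t * Nat.card (Equiv.Perm (Fin t)) := by
  rw [Nat.card_congr SemidirectProduct.equivProd, Nat.card_prod, Nat.card_fun, Nat.card_eq_fintype_card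
    (α := Fin t), Fintype.card_fin]

end WMapAux

theorem wmap_pf : WMapStmt := by
  intro H₀ H _ _ _ j t hj ho
  have : Finite H₀ := Finite.of_injective j hj
  let Φ : ((Fin t → H₀) ⋊[mulAutArrow] Equiv.Perm (Fin t)) →*
      ((Fin t → H) ⋊[mulAutArrow] Equiv.Perm (Fin t)) :=
    MonoidHom.mk' (fun g => ⟨fun i => j (g.left i), g.right⟩) (by
      intro a b
      refine SemidirectProduct.ext ?_ rfl
      funext i
      exact map_mul j _ _)
  have hΦ : Function.Injective Φ := by
    intro a b h
    have h1 : (fun i => j (a.left i)) = fun i => j (b.left i) := congrArg SemidirectProduct.left h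
    have h2 : (Φ a).right = (Φ b).right := congrArg SemidirectProduct.right h
    exact SemidirectProduct.ext (funext fun i => hj (congrFun h1 i)) h2
  refine ⟨Φ, hΦ, ?_, fun f => rfl⟩
  have e1 := WMapAux.idx Φ hΦ
  have e2 := WMapAux.idx j hj
  rw [WMapAux.cardW, WMapAux.cardW, ← e2, mul_pow] at e1
  have p1 : 0 < Nat.card H₀ ^ t * Nat.card (Equiv.Perm (Fin t)) :=
    Nat.mul_pos (pow_pos Nat.card_pos t) Nat.card_pos
  have e3 : Φ.range.index = j.range.index ^ t := by
    refine Nat.eq_of_mul_eq_mul_left p1 ?_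
    rw [e1]
    ring
  rw [e3]
  exact ho.pow

end Vale.Agent.P240
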