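import Vale.Agent.P240.Stm6

namespace Vale.Agent.P240

namespace WMapAuxb

theorem card_wr (H : Type) [Group H] (t : ℕ) :
    Nat.card ((Fin t → H) ⋊[mulAutArrow] Equiv.Perm (Fin t)) =
      Nat.card H ^ t * Nat.card (Equiv.Perm (Fin t)) := by
  rw [Nat.card_congr SemidirectProduct.equivProd, Nat.card_prod, Nat.card_fun,
    Nat.card_eq_fintype_card (α := Fin t), Fintype.card_fin]

theorem card_range {A B : Type} [Group A] [Group B] (f : A →* B) (hf : Function.Injective f) :
    Nat.card f.range = Nat.card A :=
  (Nat.card_congr (MonoidHom.ofInjective hf).toEquiv).symm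

end WMapAuxb

open WMapAuxb in
theorem wmap_pfb : WMapStmt := by
  intro H₀ H _ _ _ j t hj hodd
  have : Finite H₀ := Finite.of_injective j hj
  let Φ : ((Fin t → H₀) ⋊[mulAutArrow] Equiv.Perm (Fin t)) →*
      ((Fin t → H) ⋊[mulAutArrow] Equiv.Perm (Fin t)) :=
    MonoidHom.mk' (fun g => ⟨fun i => j (g.left i), g.right⟩) (by
      intro a b
      apply SemidirectProduct.ext
      · funext i
        exact map_mul j (a.left i) (b.left (a.right⁻¹ i))
      · rfl)
  have hΦ : Function.Injective Φ := by
    intro a b hab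
    apply SemidirectProduct.ext
    · funext i
      exact hj (congrFun (congrArg SemidirectProduct.left hab) i)
    · have h0 : (Φ a).right = (Φ b).right := congrArg SemidirectProduct.right hab
      exact h0
  refine ⟨Φ, hΦ, ?_, fun f => rfl⟩
  have h1 := Subgroup.card_mul_index Φ.range
  have h2 := Subgroup.card_mul_index j.range
  rw [card_range Φ hΦ, card_wr, card_wr] at h1
  rw [card_range j hj] at h2
  have h3 : 0 < Nat.card H₀ ^ t * Nat.card (Equiv.Perm (Fin t)) :=
    Nat.mul_pos (Nat.pow_pos Nat.card_pos) Nat.card_pos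
  have h4 : Φ.range.index = j.range.index ^ t := by
    apply Nat.eq_of_mul_eq_mul_left h3
    rw [h1, ← h2, mul_pow]
    ring
  rw [h4]
  exact hodd.pow

end Vale.Agent.P240
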